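import Vale.Agent.P078.X.Op0

/-!
ROUND X (non-tracial copy of the G file). CHANGES: use `tau_cen`, `norm_mul_A`; `Ph_le`, `DQ_le` have `star`; new `tendsto_vec` (`tendsto_S`, `small_of_tau`).

Partitions, pinchings and the functional `DD`.

PLAN. `dir`: product partition on `P.ι × Q.ι`. `tendsto_S`: `t P = ‖S_P y Ω‖²` is antitone (`S_Q S_P = S_Q` for `P ≤ Q`,
`‖(S_P y - S_Q y) Ω‖² = t P - t Q`); take a monotone sequence `P n` with `t (P n) → inf`, `lim_mem` gives `m ∈ M`; for a projection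
`b ∈ A` the refinements `Q n ≥ P n, two b` have the same limit, so `m` commutes with all projections of `A`, hence with `A`
(`exists_gel`: locally constant functions are dense, or Stone-Weierstrass), so `m ∈ A` (`comm_mem`) and `m = E y`
(`E (S_P y) = E y`, `norm2`). `ev_cs`: `(a, b) ↦ ev (E (a * star b)) x` is a positive sesquilinear form.
`Ph_anti`: positive elements of `A`, `‖(Σ a) Ω‖² ≥ Σ ‖a Ω‖²` (pointwise with `nsq`). `E_le_DD`: pointwise
`E (y e y*) ≥ e |E y|²` (`ev_cs` with `a = y e`, `b = e`), and `‖E y Ω‖² = tau (E y E y*) ≤ ‖(E y E y*) Ω‖`.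
-/

open Finset Filter
open scoped Classical InnerProductSpace

namespace Vale.Agent.P078.G

variable {H : Type*} [NormedAddCommGroup H] [InnerProductSpace ℂ H] [CompleteSpace H]
  {M : VonNeumannAlgebra H} {A : StarSubalgebra ℂ (H →L[ℂ] H)} {Ω : H}
  {E : (H →L[ℂ] H) → H →L[ℂ] H}

variable {y : H →L[ℂ] H} {η : ℝ}

theorem dir (hA : IsMASA M A) : IsDirectedOrder (Part A) := by
  refine ⟨fun P Q => ?_⟩
  have c : ∀ i j, P.e i * Q.e j = Q.e j * P.e i := fun i j => hA.2.1 _ (P.mem i) _ (Q.mem j)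
  refine ⟨⟨P.ι × Q.ι, fun k => P.e k.1 * Q.e k.2, fun k => mul_mem (P.mem _) (Q.mem _),
    fun k => (P.proj _).mul (Q.proj _) (c _ _), fun k l h => ?_, ?_⟩, ⟨Prod.fst, fun i => ?_⟩,
    ⟨Prod.snd, fun j => ?_⟩⟩
  · rw [mul_assoc, ← mul_assoc (Q.e _), ← c, mul_assoc, ← mul_assoc]
    by_cases h1 : k.1 = l.1
    · rw [Q.orth _ _ fun h2 => h (Prod.ext h1 h2), mul_zero]
    · rw [P.orth _ _ h1, zero_mul]
  · rw [Fintype.sum_prod_type, ← sum_mul_sum, P.sum, Q.sum, mul_one]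
  · simp [Fintype.sum_prod_type, ← mul_sum, Q.sum]
  · simp [Fintype.sum_prod_type, ← sum_mul, P.sum]

theorem neBot (hA : IsMASA M A) : (atTop : Filter (Part A)).NeBot :=
  haveI := dir hA
  atTop_neBot

theorem ev_iff (hA : IsMASA M A) {Φ : Part A → Prop} :
    (∀ᶠ P in atTop, Φ P) ↔ ∃ P₀, ∀ P, P₀ ≤ P → Φ P :=
  haveI := dir hA
  eventually_atTop

/-- The partition `b, 1 - b`. -/
theorem exists_two {b : H →L[ℂ] H} (hb : b ∈ A) (hp : IsStarProjection b) : ∃ P₀ : Part A,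
    ∀ P, P₀ ≤ P → ∃ T : Finset P.ι, b = ∑ i ∈ T, P.e i := by
  refine ⟨⟨Bool, fun t => bif t then b else 1 - b, fun t => ?_, fun t => ?_, fun t u h => ?_,
    by simp⟩, fun P hP => ?_⟩
  · cases t
    exacts [sub_mem (one_mem A) hb, hb]
  · cases t
    exacts [hp.one_sub, hp]
  · cases t <;> cases u <;> simp_all [sub_mul, mul_sub, hp.isIdempotentElem.eq]
  · obtain ⟨π, h⟩ := hP
    refine ⟨univ.filter fun j => π j = true, ?_⟩
    rw [sum_filter]
    exact (h true).trans (sum_congr rfl fun j _ => by congr)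

namespace PinAux

theorem o (P : Part A) (v : P.ι → H) : ‖∑ i, P.e i (v i)‖ ^ 2 = ∑ i, ‖P.e i (v i)‖ ^ 2 := by
  have : ⟪∑ i, P.e i (v i), ∑ i, P.e i (v i)⟫_ℂ = ∑ i, ⟪P.e i (v i), P.e i (v i)⟫_ℂ := by
    rw [sum_inner]
    refine sum_congr rfl fun i _ => ?_
    rw [inner_sum, sum_eq_single i (fun j _ hj => ?_) (by simp)]
    rw [← P070h8.inner_star_right, (P.proj i).isSelfAdjoint.star_eq,
      ← ContinuousLinearMap.mul_apply, P.orth i j hj.symm]
    simp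
  simp only [inner_self_eq_norm_sq_to_K] at this
  exact_mod_cast this

theorem o1 (P : Part A) (v : H) : ∑ i, ‖P.e i v‖ ^ 2 = ‖v‖ ^ 2 := by
  rw [← o, ← ContinuousLinearMap.sum_apply, P.sum]
  rfl

theorem a3 (P : Part A) (i : P.ι) (v : H) : ‖P.e i v‖ ≤ ‖v‖ :=
  ((P.e i).le_opNorm v).trans (mul_le_of_le_one_left (norm_nonneg _) (P.proj i).norm_le)

theorem o2 (P : Part A) (y : H →L[ℂ] H) (v : H) :
    ‖P.S y v‖ ^ 2 = ∑ i, ‖P.e i (y (P.e i v))‖ ^ 2 := by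
  rw [← o, Part.S, ContinuousLinearMap.sum_apply]
  rfl

theorem idem (P : Part A) (i : P.ι) : P.e i * P.e i = P.e i := (P.proj i).isIdempotentElem.eq

theorem e_S (P : Part A) (y : H →L[ℂ] H) (i : P.ι) : P.e i * P.S y = P.e i * y * P.e i := by
  rw [Part.S, mul_sum, sum_eq_single i (fun j _ hj => by
    rw [← mul_assoc, ← mul_assoc, P.orth i j hj.symm, zero_mul, zero_mul]) (by simp),
    ← mul_assoc, ← mul_assoc, idem]

theorem S_e (P : Part A) (y : H →L[ℂ] H) (i : P.ι) : P.S y * P.e i = P.e i * y * P.e i := by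
  rw [Part.S, sum_mul, sum_eq_single i (fun j _ hj => by
    rw [mul_assoc, P.orth j i hj, mul_zero]) (by simp), mul_assoc, idem]

theorem S_star (P : Part A) (y : H →L[ℂ] H) : star (P.S y) = P.S (star y) := by
  simp only [Part.S, star_sum, star_mul, (P.proj _).isSelfAdjoint.star_eq, mul_assoc]

theorem e_le {P Q : Part A} {π : Q.ι → P.ι} (h : ∀ i, P.e i = ∑ j, if π j = i then Q.e j else 0)
    (i : P.ι) (j : Q.ι) : Q.e j * P.e i = (if π j = i then Q.e j else 0) ∧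
      P.e i * Q.e j = if π j = i then Q.e j else 0 := by
  rw [h i, mul_sum, sum_mul, sum_eq_single j (fun l _ hl => by
    split_ifs <;> simp [Q.orth j l hl.symm]) (by simp), sum_eq_single j (fun l _ hl => by
    split_ifs <;> simp [Q.orth l j hl]) (by simp)]
  split_ifs <;> simp [idem]

theorem S_S {P Q : Part A} (h : P ≤ Q) (y : H →L[ℂ] H) : Q.S (P.S y) = Q.S y := by
  obtain ⟨π, h⟩ := h
  refine sum_congr rfl fun j _ => ?_
  have k1 : Q.e j * P.e (π j) = Q.e j := by simpa using (e_le h (π j) j).1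
  have k2 : P.e (π j) * Q.e j = Q.e j := by simpa using (e_le h (π j) j).2
  calc Q.e j * P.S y * Q.e j = Q.e j * (P.e (π j) * P.S y) * Q.e j := by
        rw [← mul_assoc (Q.e j), k1]
    _ = _ := by rw [e_S, ← mul_assoc, ← mul_assoc, k1, mul_assoc, k2]

omit [CompleteSpace H] in
theorem tau_sum {κ : Type*} (s : Finset κ) (f : κ → H →L[ℂ] H) :
    tau Ω (∑ i ∈ s, f i) = ∑ i ∈ s, tau Ω (f i) := by
  simp only [tau, ContinuousLinearMap.sum_apply, inner_sum]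

theorem sq_le {a b : H →L[ℂ] H} (ha : 0 ≤ a) (hb : 0 ≤ b) (c : a * b = b * a) :
    ‖a Ω‖ ^ 2 + ‖b Ω‖ ^ 2 ≤ ‖(a + b) Ω‖ ^ 2 := by
  have h := P070h8.re_inner_nonneg (Commute.mul_nonneg ha hb c) Ω
  rw [ContinuousLinearMap.mul_apply, ← ha.isSelfAdjoint.star_eq, P070h8.inner_star_right] at h
  rw [ContinuousLinearMap.add_apply, norm_add_sq (𝕜 := ℂ)]
  have : RCLike.re ⟪a Ω, b Ω⟫_ℂ = (⟪a Ω, b Ω⟫_ℂ).re := rfl
  linarith

theorem sum_sq_le (hA : IsMASA M A) {κ : Type*} (s : Finset κ) {f : κ → H →L[ℂ] H}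
    (h1 : ∀ i, f i ∈ A) (h2 : ∀ i, 0 ≤ f i) : ∑ i ∈ s, ‖f i Ω‖ ^ 2 ≤ ‖(∑ i ∈ s, f i) Ω‖ ^ 2 := by
  induction s using Finset.induction_on with
  | empty => simp
  | insert i s hi ih =>
    rw [sum_insert hi, sum_insert hi]
    exact le_trans (by linarith) (sq_le (h2 i) (sum_nonneg fun j _ => h2 j)
      (hA.2.1 _ (h1 i) _ (sum_mem fun j _ => h1 j)))

end PinAux

open PinAux

theorem E_sum (hE : IsE M A Ω E) {κ : Type*} (s : Finset κ) {f : κ → H →L[ℂ] H}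
    (hf : ∀ i ∈ s, f i ∈ M) : E (∑ i ∈ s, f i) = ∑ i ∈ s, E (f i) := by
  induction s using Finset.induction_on with
  | empty => simpa using hE.self 0 (zero_mem A)
  | insert i s hi ih =>
    have h := fun j hj => hf j (mem_insert_of_mem hj)
    rw [sum_insert hi, sum_insert hi, hE.add _ (hf i (mem_insert_self _ _)) _ (sum_mem h), ih h]

theorem S_mem (hA : IsMASA M A) (P : Part A) (hy : y ∈ M) : P.S y ∈ M :=
  sum_mem fun i _ => mul_mem (mul_mem (hA.1 _ (P.mem i)) hy) (hA.1 _ (P.mem i))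

theorem S_norm (P : Part A) (y : H →L[ℂ] H) : ‖P.S y‖ ≤ ‖y‖ := by
  refine ContinuousLinearMap.opNorm_le_bound _ (norm_nonneg _) fun v =>
    (pow_le_pow_iff_left₀ (norm_nonneg _) (by positivity) two_ne_zero).1 ?_
  rw [o2, mul_pow, ← o1 P v, mul_sum]
  refine sum_le_sum fun i _ => ?_
  rw [← mul_pow]
  exact pow_le_pow_left₀ (norm_nonneg _) ((a3 _ _ _).trans (y.le_opNorm _)) 2

theorem S_sq (hA : IsMASA M A) (hΩ : IsCV M A Ω) (P : Part A) (hy : y ∈ M) :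
    ‖P.S y Ω‖ ^ 2 = ∑ i, ‖(P.e i * y * P.e i) Ω‖ ^ 2 := by
  have _ := And.intro hA (And.intro hΩ hy)
  exact o2 P y Ω

theorem S_norm2 (hA : IsMASA M A) (hΩ : IsCV M A Ω) (P : Part A) (hy : y ∈ M) :
    ‖P.S y Ω‖ ≤ ‖y Ω‖ := by
  refine (pow_le_pow_iff_left₀ (norm_nonneg _) (by positivity) two_ne_zero).1 ?_
  rw [o2, ← o1 P (y Ω)]
  exact sum_le_sum fun i _ => pow_le_pow_left₀ (norm_nonneg _)
    ((norm_mul_A hΩ (mul_mem (hA.1 _ (P.mem i)) hy) (P.mem i)).trans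
      (mul_le_of_le_one_right (norm_nonneg _) (P.proj i).norm_le)) 2

theorem E_S (hA : IsMASA M A) (hE : IsE M A Ω E) (P : Part A) (hy : y ∈ M) : E (P.S y) = E y := by
  have hM := fun i => hA.1 _ (P.mem i)
  rw [Part.S, E_sum hE _ fun i _ => mul_mem (mul_mem (hM i) hy) (hM i),
    sum_congr rfl fun i _ => show E (P.e i * y * P.e i) = E y * P.e i by
      rw [hE.right _ (P.mem i) _ (mul_mem (hM i) hy), hE.left _ (P.mem i) _ hy,
        hA.2.1 _ (P.mem i) _ (hE.mem y hy), mul_assoc, idem], ← mul_sum, P.sum, mul_one]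

theorem norm_comb (P : Part A) {c : P.ι → ℂ} (hc : ∀ l, ‖c l‖ ≤ 1) : ‖∑ l, c l • P.e l‖ ≤ 1 := by
  refine ContinuousLinearMap.opNorm_le_bound _ zero_le_one fun v =>
    (pow_le_pow_iff_left₀ (norm_nonneg _) (by positivity) two_ne_zero).1 ?_
  have : (∑ l, c l • P.e l) v = ∑ l, P.e l (c l • v) := by simp
  rw [this, o, one_mul, ← o1 P v]
  refine sum_le_sum fun i _ => pow_le_pow_left₀ (norm_nonneg _) ?_ 2
  rw [map_smul, norm_smul]
  exact mul_le_of_le_one_left (norm_nonneg _) (hc i)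

open scoped CStarAlgebra in
theorem mem_of_proj (hA : IsMASA M A) (hy : y ∈ M)
    (h : ∀ b ∈ A, IsStarProjection b → y * b = b * y) : y ∈ A := by
  obtain ⟨X, _, _, _, _, _, _, ev, g⟩ := exists_gel hA
  choose L L1 L2 using g.surj
  let Λ : C(X, ℂ) →⋆ₐ[ℂ] (H →L[ℂ] H) :=
    { toFun := L
      map_one' := g.ext (L1 _) (one_mem A) fun x => by rw [L2, g.one]
      map_mul' := fun f f' => g.ext (L1 _) (mul_mem (L1 _) (L1 _)) fun x => by
        rw [g.mul _ (L1 _) _ (L1 _), L2, L2, L2]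
      map_zero' := g.ext (L1 _) (zero_mem A) fun x => by rw [L2, g.zero]
      map_add' := fun f f' => g.ext (L1 _) (add_mem (L1 _) (L1 _)) fun x => by
        rw [g.add _ (L1 _) _ (L1 _), L2, L2, L2]
      commutes' := fun c => by
        rw [Algebra.algebraMap_eq_smul_one, Algebra.algebraMap_eq_smul_one]
        exact g.ext (L1 _) (A.smul_mem (one_mem A) c) fun x => by
          rw [g.smul _ (one_mem A), L2, g.one]
      map_star' := fun f => g.ext (L1 _) (star_mem (L1 _)) fun x => by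
        rw [g.star _ (L1 _), L2, L2] }
  let S := (StarSubalgebra.centralizer ℂ {y}).comap Λ
  have mS : ∀ f, f ∈ S ↔ y * L f = L f * y ∧ star y * L f = L f * star y := fun f =>
    (StarSubalgebra.mem_centralizer_iff ℂ).trans (by simp; rfl)
  have cl : IsClosed (S : Set C(X, ℂ)) := by
    have c : Continuous L := map_continuous Λ
    rw [show (S : Set C(X, ℂ)) = {f | y * L f = L f * y} ∩ {f | star y * L f = L f * star y} from
      Set.ext mS]
    exact (isClosed_eq (by fun_prop) (by fun_prop)).inter (isClosed_eq (by fun_prop) (by fun_prop))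
  have sp : S.SeparatesPoints := fun x x' n => by
    obtain ⟨C, hC, c1, c2⟩ := exists_isClopen_of_totally_separated n
    obtain ⟨p, p1, p2, p3⟩ := g.proj hC
    have e : L (ev p) = p := g.ext (L1 _) p1 fun z => by rw [L2]
    refine ⟨ev p, ⟨ev p, (mS _).2 ?_, rfl⟩, ?_⟩
    · rw [e]
      refine ⟨h p p1 p2, ?_⟩
      simpa [p2.isSelfAdjoint.star_eq] using (congrArg star (h p p1 p2)).symm
    · rw [p3, p3, if_pos c1, if_neg c2]
      exact one_ne_zero
  have tp := ContinuousMap.starSubalgebra_topologicalClosure_eq_top_of_separatesPoints S sp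
  refine comm_mem hA hy fun a ha => ?_
  have e : L (ev a) = a := g.ext (L1 _) ha fun z => by rw [L2]
  have : ev a ∈ S := StarSubalgebra.topologicalClosure_minimal le_rfl cl (tp ▸ StarSubalgebra.mem_top)
  exact e ▸ ((mS _).1 this).1

namespace PinAux

theorem pyth (hA : IsMASA M A) (hΩ : IsCV M A Ω) (hy : y ∈ M) {P Q : Part A} (h : P ≤ Q) :
    ‖P.S y Ω - Q.S y Ω‖ ^ 2 = ‖P.S y Ω‖ ^ 2 - ‖Q.S y Ω‖ ^ 2 := by
  have hM := fun i => hA.1 _ (Q.mem i)
  have m1 := S_mem hA Q (star_mem hy)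
  have m2 := S_mem hA P hy
  have k : tau Ω (star (Q.S y) * P.S y) = tau Ω (star (Q.S y) * Q.S y) := by
    rw [S_star, ← S_S h y]
    conv_lhs => rw [← mul_one (Q.S _), ← Q.sum, mul_sum, sum_mul, tau_sum]
    conv_rhs => rw [Part.S.eq_1 Q (P.S y), mul_sum, tau_sum]
    refine sum_congr rfl fun j _ => ?_
    rw [← mul_assoc, ← tau_cen hΩ (Q.mem j) (mul_mem m1 (mul_mem (hM j) m2)), ← mul_assoc, ← mul_assoc,
      e_S, S_e, mul_assoc _ (Q.e j) (Q.e j), idem]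
  have k2 : (⟪Q.S y Ω, P.S y Ω⟫_ℂ).re = ‖Q.S y Ω‖ ^ 2 := by
    rw [← re_tau, ← k, tau_mul, star_star]
  rw [norm_sub_rev, norm_sub_sq (𝕜 := ℂ)]
  have : RCLike.re ⟪Q.S y Ω, P.S y Ω⟫_ℂ = (⟪Q.S y Ω, P.S y Ω⟫_ℂ).re := rfl
  linarith

end PinAux

theorem tendsto_S (hA : IsMASA M A) (hΩ : IsCV M A Ω) (hE : IsE M A Ω E) (hy : y ∈ M)
    (hη : 0 < η) : ∀ᶠ P : Part A in atTop, ‖(P.S y - E y) Ω‖ ≤ η := by
  have := dir hA
  let t : Part A → ℝ := fun P => ‖P.S y Ω‖ ^ 2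
  have bd : BddBelow (Set.range t) := ⟨0, by rintro _ ⟨P, rfl⟩; positivity⟩
  have anti : ∀ P Q, P ≤ Q → t Q ≤ t P := fun P Q h => by
    linarith [pyth hA hΩ hy h, sq_nonneg ‖P.S y Ω - Q.S y Ω‖]
  have ex : ∀ δ : ℝ, 0 < δ → ∃ P, t P ≤ iInf t + δ ^ 2 := fun δ hδ =>
    (exists_lt_of_ciInf_lt (lt_add_of_pos_right _ (pow_pos hδ 2))).imp fun P h => h.le
  have n1 : ∀ (δ : ℝ) P R, 0 < δ → t P ≤ iInf t + δ ^ 2 → P ≤ R → ‖P.S y Ω - R.S y Ω‖ ≤ δ :=
    fun δ P R hδ h1 h2 => le_of_sq_le_sq (by linarith [pyth hA hΩ hy h2, ciInf_le bd R]) hδ.le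
  have near : ∀ (δ ε : ℝ) P Q, 0 < δ → 0 < ε → t P ≤ iInf t + δ ^ 2 → t Q ≤ iInf t + ε ^ 2 →
      dist (P.S y Ω) (Q.S y Ω) ≤ δ + ε := fun δ ε P Q hδ hε h1 h2 => by
    obtain ⟨R, r1, r2⟩ := exists_ge_ge P Q
    refine (dist_triangle_right _ _ (R.S y Ω)).trans ?_
    rw [dist_eq_norm, dist_eq_norm]
    exact add_le_add (n1 δ P R hδ h1 r1) (n1 ε Q R hε h2 r2)
  choose P hP using fun n : ℕ => ex (1 / (n + 1)) Nat.one_div_pos_of_nat
  have z := tendsto_one_div_add_atTop_nhds_zero_nat (𝕜 := ℝ)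
  obtain ⟨m, hm, lim⟩ := lim_mem hΩ (fun n => S_mem hA (P n) hy) (fun n => S_norm (P n) y)
    (cauchySeq_of_le_tendsto_0 (fun n : ℕ => (1 : ℝ) / (n + 1) + 1 / (n + 1)) (fun n k N h1 h2 =>
      (near _ _ _ _ Nat.one_div_pos_of_nat Nat.one_div_pos_of_nat (hP n) (hP k)).trans
        (add_le_add (Nat.one_div_le_one_div h1) (Nat.one_div_le_one_div h2)))
      (by simpa using z.add z))
  have cl : ∀ (δ : ℝ) Q, 0 < δ → t Q ≤ iInf t + δ ^ 2 → ‖(Q.S y - m) Ω‖ ≤ δ := fun δ Q hδ h => by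
    have := le_of_tendsto_of_tendsto' (tendsto_const_nhds.dist (lim Ω))
      (tendsto_const_nhds.add z) fun n => near δ _ Q _ hδ Nat.one_div_pos_of_nat h (hP n)
    rwa [dist_eq_norm, add_zero] at this
  have mA : m ∈ A := mem_of_proj hA hm fun b hb hp => by
    have bM := hA.1 b hb
    refine sub_eq_zero.1 (hΩ.2.2 _ (sub_mem (mul_mem hm bM) (mul_mem bM hm)) (norm_le_zero_iff.1
      (le_of_forall_pos_le_add fun ε hε => ?_)))
    obtain ⟨P₀, h0⟩ := exists_two hb hp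
    obtain ⟨P₁, h1⟩ := ex (ε / 2) (by positivity)
    obtain ⟨Q, q0, q1⟩ := exists_ge_ge P₀ P₁
    obtain ⟨T, hT⟩ := h0 Q q0
    have c1 := cl _ Q (by positivity) ((anti _ _ q1).trans h1)
    have c2 : Q.S y * b = b * Q.S y := by
      rw [hT, mul_sum, sum_mul]
      exact sum_congr rfl fun j _ => by rw [e_S, S_e]
    have c3 : m * b - b * m = b * (Q.S y - m) - (Q.S y - m) * b := by
      rw [mul_sub, sub_mul, c2]
      abel
    have c4 := (norm_mul_A hΩ (sub_mem (S_mem hA Q hy) hm) hb).trans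
      (mul_le_of_le_one_right (norm_nonneg _) hp.norm_le)
    have c5 : ‖(b * (Q.S y - m)) Ω‖ ≤ ‖(Q.S y - m) Ω‖ :=
      (b.le_opNorm _).trans (mul_le_of_le_one_left (norm_nonneg _) hp.norm_le)
    rw [c3, ContinuousLinearMap.sub_apply]
    linarith [norm_sub_le ((b * (Q.S y - m)) Ω) (((Q.S y - m) * b) Ω)]
  have em : E y = m := by
    refine sub_eq_zero.1 (hΩ.2.2 _ (sub_mem (hA.1 _ (hE.mem y hy)) hm) (norm_le_zero_iff.1
      (le_of_forall_pos_le_add fun ε hε => ?_)))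
    obtain ⟨Q, h1⟩ := ex ε hε
    have := hE.norm2 _ (sub_mem (S_mem hA Q hy) hm)
    rw [hE.sub (S_mem hA Q hy) hm, E_S hA hE Q hy, hE.self m mA] at this
    linarith [cl _ Q hε h1]
  obtain ⟨P₀, h0⟩ := ex η hη
  exact (ev_iff hA).2 ⟨P₀, fun Q h => em ▸ cl η Q hη ((anti _ _ h).trans h0)⟩

section
variable {X : Type*} [TopologicalSpace X] [MulAction (NG M A) X] {ev : (H →L[ℂ] H) → C(X, ℂ)}
  {I : C(X, ℝ) →ₗ[ℝ] ℝ}

theorem ev_cs (hE : IsE M A Ω E) (hG : IsGel M A ev) {a b : H →L[ℂ] H} (ha : a ∈ M) (hb : b ∈ M)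
    (x : X) : ‖ev (E (a * star b)) x‖ ^ 2 ≤
      (ev (E (a * star a)) x).re * (ev (E (b * star b)) x).re := by
  have pos : ∀ m ∈ M, 0 ≤ (ev (E (m * star m)) x).re := fun m hm =>
    hG.pos _ (hE.mem _ (mul_mem hm (star_mem hm)))
      (hE.pos _ (mul_mem hm (star_mem hm)) (mul_star_self_nonneg m)) x
  have ad : ∀ m ∈ M, ∀ m' ∈ M, ev (E (m + m')) x = ev (E m) x + ev (E m') x := fun m h m' h' => by
    rw [hE.add m h m' h', hG.add _ (hE.mem m h) _ (hE.mem m' h'), ContinuousMap.add_apply]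
  have sm : ∀ m ∈ M, ∀ c : ℂ, ev (E (c • m)) x = c * ev (E m) x := fun m h c => by
    rw [hE.smul m h, hG.smul _ (hE.mem m h)]
    rfl
  have m1 := mul_mem ha (star_mem ha)
  have m2 := mul_mem ha (star_mem hb)
  have m3 := mul_mem hb (star_mem ha)
  have m4 := mul_mem hb (star_mem hb)
  have st : ev (E (b * star a)) x = star (ev (E (a * star b)) x) := by
    have := hE.star _ m2
    rw [star_mul, star_star] at this
    rw [this, hG.star _ (hE.mem _ m2)]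
    rfl
  set c := ev (E (a * star b)) x with hc
  have n : c * star c = ((‖c‖ ^ 2 : ℝ) : ℂ) := by
    rw [← Complex.normSq_eq_norm_sq]
    exact Complex.mul_conj c
  have q := discrim_le_zero (a := ‖c‖ ^ 2 * (ev (E (b * star b)) x).re) (b := 2 * ‖c‖ ^ 2)
    (c := (ev (E (a * star a)) x).re) fun t => by
      have h := pos _ (add_mem ha (smul_mem_M hb (t * c)))
      have e : (a + (t * c) • b) * star (a + (t * c) • b) = a * star a + ((t * star c) • (a * star b) +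
          ((t * c) • (b * star a) + (t * t * (c * star c)) • (b * star b))) := by
        simp only [star_add, star_smul, mul_add, add_mul, smul_mul_assoc, mul_smul_comm, star_mul',
          Complex.star_def, Complex.conj_ofReal]
        module
      rw [e, ad _ m1 _ (add_mem (smul_mem_M m2 _) (add_mem (smul_mem_M m3 _) (smul_mem_M m4 _))),
        ad _ (smul_mem_M m2 _) _ (add_mem (smul_mem_M m3 _) (smul_mem_M m4 _)),
        ad _ (smul_mem_M m3 _) _ (smul_mem_M m4 _), sm _ m2, sm _ m3, sm _ m4, st, ← hc,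
        mul_assoc _ (star c), mul_comm (star c), mul_assoc _ c, n] at h
      simp only [← Complex.ofReal_mul, Complex.add_re, Complex.ofReal_re, Complex.re_ofReal_mul] at h
      linarith
  rw [discrim] at q
  rcases (sq_nonneg ‖c‖).eq_or_lt with z | z
  · exact z ▸ mul_nonneg (pos a ha) (pos b hb)
  · nlinarith

theorem ev_real (hG : IsGel M A ev) {a : H →L[ℂ] H} (ha : a ∈ A) (h0 : 0 ≤ a) (x : X) :
    ev a x = ((ev a x).re : ℂ) ∧ 0 ≤ (ev a x).re := by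
  have h := hG.star a ha
  rw [h0.isSelfAdjoint.star_eq] at h
  exact ⟨(Complex.conj_eq_iff_re.1 (congrArg (fun f : C(X, ℂ) => f x) h).symm).symm, hG.pos a ha h0 x⟩

theorem PinAux.ev_sq (hG : IsGel M A ev) {a : H →L[ℂ] H} (ha : a ∈ A) (x : X) :
    (ev (star a * a) x).re = ‖ev a x‖ ^ 2 := by
  rw [hG.mul _ (star_mem ha) _ ha, hG.star a ha, ← Complex.normSq_eq_norm_sq]
  simp [Complex.normSq_apply]

theorem ev_norm (hG : IsGel M A ev) {a : H →L[ℂ] H} (ha : a ∈ A) (x : X) : ‖ev a x‖ ≤ ‖a‖ := by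
  have h := CStarAlgebra.star_mul_le_algebraMap_norm_sq (a := a)
  rw [Algebra.algebraMap_eq_smul_one, ← Complex.coe_smul] at h
  have m1 := A.smul_mem (one_mem A) ((‖a‖ ^ 2 : ℝ) : ℂ)
  have m2 := mul_mem (star_mem ha) ha
  have k := hG.pos _ (sub_mem m1 m2) (sub_nonneg.2 h) x
  rw [hG.sub m1 m2, hG.smul _ (one_mem A), hG.one, ContinuousMap.sub_apply, Complex.sub_re,
    PinAux.ev_sq hG ha, ContinuousMap.smul_apply, ContinuousMap.one_apply, smul_eq_mul, mul_one,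
    Complex.ofReal_re] at k
  exact le_of_sq_le_sq (by linarith) (norm_nonneg _)

theorem ev_sum (hG : IsGel M A ev) {κ : Type*} (s : Finset κ) {f : κ → H →L[ℂ] H}
    (hf : ∀ i ∈ s, f i ∈ A) (x : X) : ev (∑ i ∈ s, f i) x = ∑ i ∈ s, ev (f i) x := by
  induction s using Finset.induction_on with
  | empty => simp [hG.zero]
  | insert i s hi ih =>
    have h := fun j hj => hf j (mem_insert_of_mem hj)
    rw [sum_insert hi, sum_insert hi, hG.add _ (hf i (mem_insert_self _ _)) _ (sum_mem h),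
      ContinuousMap.add_apply, ih h]

theorem nsq (hG : IsGel M A ev)
    (hτ : ∀ a ∈ A, ∀ f : C(X, ℝ), (∀ x, f x = (ev a x).re) → I f = (tau Ω a).re)
    {a : H →L[ℂ] H} (ha : a ∈ A) (f : C(X, ℝ)) (hf : ∀ x, f x = ‖ev a x‖ ^ 2) :
    ‖a Ω‖ ^ 2 = I f := by
  rw [hτ _ (mul_mem (star_mem ha) ha) f fun x => by rw [hf, PinAux.ev_sq hG ha], re_tau]

theorem tau_le (hG : IsGel M A ev) (hI : IsP I)
    (hτ : ∀ a ∈ A, ∀ f : C(X, ℝ), (∀ x, f x = (ev a x).re) → I f = (tau Ω a).re)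
    {a : H →L[ℂ] H} (ha : a ∈ A) (f : C(X, ℝ)) (hf : ∀ x, ‖ev a x‖ ≤ f x) :
    ‖tau Ω a‖ ≤ I f := by
  obtain ⟨c, c1, c2⟩ := Complex.exists_norm_eq_mul_self (tau Ω a)
  let g : C(X, ℝ) := ⟨fun x => (ev (c • a) x).re, by fun_prop⟩
  have h1 := hτ _ (A.smul_mem ha c) g fun x => rfl
  rw [tau_smul, ← c2, Complex.ofReal_re] at h1
  have h2 := hI.pos (f - g) fun x => sub_nonneg.2 ((Complex.re_le_norm _).trans (by
    rw [hG.smul a ha, ContinuousMap.smul_apply, norm_smul, c1, one_mul]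
    exact hf x))
  rw [map_sub] at h2
  linarith

end

theorem DQ_eq (Q : Part A) (y : H →L[ℂ] H) : DQ E Ω Q y = Ph E Ω Q fun _ : Unit => y := by
  simp [DQ, Ph]

theorem Ph_anti (hA : IsMASA M A) (hΩ : IsCV M A Ω) (hE : IsE M A Ω E) {κ : Type} [Fintype κ]
    {Y : κ → H →L[ℂ] H} (hY : ∀ l, Y l ∈ M) {P Q : Part A} (h : P ≤ Q) :
    Ph E Ω Q Y ≤ Ph E Ω P Y := by
  have _ := hΩ
  obtain ⟨π, h⟩ := h
  have m : ∀ j, ∑ l, Y l * Q.e j * star (Y l) ∈ M := fun j =>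
    sum_mem fun l _ => mul_mem (mul_mem (hY l) (hA.1 _ (Q.mem j))) (star_mem (hY l))
  rw [Ph, Ph, ← sum_fiberwise (s := univ) π]
  refine sum_le_sum fun i _ => (sum_sq_le hA _ (fun j => hE.mem _ (m j)) fun j => hE.pos _ (m j)
    (sum_nonneg fun l _ => star_right_conjugate_nonneg (Q.proj j).nonneg _)).trans (le_of_eq ?_)
  rw [← E_sum hE _ fun j _ => m j, sum_comm, h i, ← sum_filter]
  simp only [mul_sum, sum_mul]

theorem Ph_le (hA : IsMASA M A) (hΩ : IsCV M A Ω) (hE : IsE M A Ω E) {κ : Type} [Fintype κ]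
    {Y : κ → H →L[ℂ] H} (hY : ∀ l, Y l ∈ M) (Q : Part A) :
    Ph E Ω Q Y ≤ ‖∑ l, Y l * star (Y l)‖ * ∑ l, ‖star (Y l) Ω‖ ^ 2 := by
  refine (Ph_anti hA hΩ hE hY (P := Part.triv A) ⟨fun _ => (), fun _ =>
    Q.sum.symm.trans (sum_congr rfl fun _ _ => (if_pos rfl).symm)⟩).trans ?_
  have m : ∑ l, Y l * star (Y l) ∈ M := sum_mem fun l _ => mul_mem (hY l) (star_mem (hY l))
  have e : Ph E Ω (Part.triv A) Y = ‖E (∑ l, Y l * star (Y l)) Ω‖ ^ 2 := by
    refine (Fintype.sum_unique (ι := Unit) fun _ => ‖E (∑ l, Y l * 1 * star (Y l)) Ω‖ ^ 2).trans ?_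
    simp only [mul_one]
  have t : (tau Ω (∑ l, Y l * star (Y l))).re = ∑ l, ‖star (Y l) Ω‖ ^ 2 := by
    rw [tau_sum, Complex.re_sum]
    exact sum_congr rfl fun l _ => by rw [← re_tau, star_star]
  obtain ⟨b, hb⟩ := P070h8.exists_sqrt (sum_nonneg fun l (_ : l ∈ univ) => mul_star_self_nonneg (Y l))
  rw [e, ← t]
  refine (pow_le_pow_left₀ (norm_nonneg _) (hE.norm2 _ m) 2).trans ?_
  rw [hb, re_tau, CStarRing.norm_star_mul_self, ← sq, ← mul_pow, ← norm_star b]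
  exact pow_le_pow_left₀ (norm_nonneg _) ((star b).le_opNorm _) 2

theorem DQ_le (hA : IsMASA M A) (hΩ : IsCV M A Ω) (hE : IsE M A Ω E) (hy : y ∈ M)
    (Q : Part A) : DQ E Ω Q y ≤ ‖y‖ ^ 2 * ‖star y Ω‖ ^ 2 := by
  have := Ph_le hA hΩ hE (Y := fun _ : Unit => y) (fun _ => hy) Q
  rw [DQ_eq]
  simpa [CStarRing.norm_self_mul_star, sq] using this

theorem DD_nonneg (y : H →L[ℂ] H) : 0 ≤ DD E Ω A y :=
  Real.iInf_nonneg fun _ => sum_nonneg fun _ _ => sq_nonneg _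

theorem DD_le (Q : Part A) (y : H →L[ℂ] H) : DD E Ω A y ≤ DQ E Ω Q y :=
  ciInf_le ⟨0, by rintro _ ⟨Q, rfl⟩; exact sum_nonneg fun _ _ => sq_nonneg _⟩ Q

theorem ev_DQ (hA : IsMASA M A) (hΩ : IsCV M A Ω) (hE : IsE M A Ω E) (hy : y ∈ M)
    (hη : 0 < η) : ∀ᶠ Q : Part A in atTop, DQ E Ω Q y ≤ DD E Ω A y + η := by
  obtain ⟨P, hP⟩ := exists_lt_of_ciInf_lt (lt_add_of_pos_right (DD E Ω A y) hη)
  refine (ev_iff hA).2 ⟨P, fun Q h => le_trans ?_ hP.le⟩
  rw [DQ_eq, DQ_eq]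
  exact Ph_anti hA hΩ hE (fun _ => hy) h

theorem E_le_DD (hA : IsMASA M A) (hΩ : IsCV M A Ω) (hE : IsE M A Ω E) (hy : y ∈ M) :
    ‖E y Ω‖ ^ 4 ≤ DD E Ω A y := by
  refine le_ciInf fun Q => ?_
  have ha := hE.mem y hy
  have aM := hA.1 _ ha
  have h1 : ‖E y Ω‖ ^ 2 ≤ ‖(E y * star (E y)) Ω‖ := by
    rw [← re_tau, hA.2.1 _ (star_mem ha) _ ha]
    exact (Complex.re_le_norm _).trans ((norm_inner_le_norm (𝕜 := ℂ) _ _).trans
      (by rw [hΩ.1, one_mul]))
  refine le_trans (by rw [show 4 = 2 * 2 from rfl, pow_mul]; gcongr) ((o1 Q _).ge.trans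
    (sum_le_sum fun j _ => ?_))
  have eM := hA.1 _ (Q.mem j)
  have m0 := mul_mem (mul_mem ha (Q.mem j)) (star_mem ha)
  have m1 := mul_mem (mul_mem (sub_mem hy aM) eM) (star_mem (sub_mem hy aM))
  have e : E (y * Q.e j * star y) = E y * Q.e j * star (E y) +
      E ((y - E y) * Q.e j * star (y - E y)) := by
    rw [star_sub, mul_sub, hE.sub (mul_mem (mul_mem (sub_mem hy aM) eM) (star_mem hy))
      (mul_mem (mul_mem (sub_mem hy aM) eM) (star_mem aM)), hE.right _ (star_mem ha) _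
      (mul_mem (sub_mem hy aM) eM), hE.right _ (Q.mem j) _ (sub_mem hy aM), hE.sub hy aM,
      hE.self _ ha, sub_mul y, sub_mul, hE.sub (mul_mem (mul_mem hy eM) (star_mem hy))
      (mul_mem (mul_mem aM eM) (star_mem hy)), hE.left _ (mul_mem ha (Q.mem j)) _ (star_mem hy),
      hE.star y hy]
    simp
  have k := sq_le (Ω := Ω) (star_right_conjugate_nonneg (Q.proj j).nonneg (E y))
    (hE.pos _ m1 (star_right_conjugate_nonneg (Q.proj j).nonneg _)) (hA.2.1 _ m0 _ (hE.mem _ m1))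
  rw [← e, ← hA.2.1 _ (Q.mem j) _ ha, mul_assoc] at k
  exact le_trans (le_add_of_nonneg_right (sq_nonneg _)) k

theorem tendsto_vec (hA : IsMASA M A) (hΩ : IsCV M A Ω) (hE : IsE M A Ω E) (hy : y ∈ M) (ζ : H) :
    Tendsto (fun P : Part A => P.S y ζ) atTop (nhds (E y ζ)) := by
  refine Metric.tendsto_nhds.2 fun ε hε => ?_
  have c : 0 < 2 * ‖y‖ + 1 := by positivity
  obtain ⟨η, η0, h⟩ := small_of_tau hΩ {ζ} (div_pos hε c)
  filter_upwards [tendsto_S hA hΩ hE hy (mul_pos c η0)] with P hP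
  have n : ∀ t, ‖(((2 * ‖y‖ + 1)⁻¹ : ℝ) : ℂ)‖ * t = t / (2 * ‖y‖ + 1) := fun t => by
    rw [Complex.norm_real, Real.norm_of_nonneg (by positivity), div_eq_inv_mul]
  have k := h _ (smul_mem_M (sub_mem (S_mem hA P hy) (hA.1 _ (hE.mem y hy)))
    (((2 * ‖y‖ + 1)⁻¹ : ℝ) : ℂ)) (by
      rw [norm_smul, n, div_le_one c]
      linarith [norm_sub_le (P.S y) (E y), S_norm P y, hE.norm y hy]) (by
      rw [ContinuousLinearMap.smul_apply, norm_smul, n, div_le_iff₀' c]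
      exact hP) ζ (mem_singleton_self _)
  rw [ContinuousLinearMap.smul_apply, norm_smul, n, div_lt_div_iff_of_pos_right c] at k
  rwa [dist_eq_norm]

end Vale.Agent.P078.G
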