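import Vale.Agent.P078.X.Op0
import Vale.Agent.P078.Swap

/-!
The subgroup of right bounded normalizers.

PLAN. `exists_st` for `F = {Ω}` (`psi {Ω} a = re tau a`); `p₀ Ω = Ω` gives `p₀ = 1`, `X₀ = univ`. `G = Bd`, `exists_w`, `A_le`, `Sw.corner_op`. `rb`: `D` for `g⁻¹`, `d ∈ A` with `ev d = D`; for `a ∈ A`,
`tau (g a g* d) = tau a` (real parts for `a` and `-I • a`, `IsGel.act`); `tau (m g) = tau (E (m g))`, `E (g m) = g E (m g) g*` (`IsE.conj`), `tau (d g m) = tau (d E (g m))`.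
-/

open Finset Filter
open scoped Classical InnerProductSpace

namespace Vale.Agent.P078.G

variable {H : Type*} [NormedAddCommGroup H] [InnerProductSpace ℂ H] [CompleteSpace H]
  {M : VonNeumannAlgebra H} {A : StarSubalgebra ℂ (H →L[ℂ] H)} {Ω : H}
  {E : (H →L[ℂ] H) → H →L[ℂ] H} {x : H →L[ℂ] H}

structure RB (M : VonNeumannAlgebra H) (A : StarSubalgebra ℂ (H →L[ℂ] H)) (Ω : H)
    (G : Subgroup (NG M A)) : Prop where
  le : ∀ a ∈ A, a ∈ spanG G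
  gen : ∀ g : NG M A, op g ∈ Set.centralizer (Set.centralizer (spanG G : Set (H →L[ℂ] H)))

theorem exists_rb (hΩ : IsCV M A Ω) {X : Type*} [TopologicalSpace X] [CompactSpace X] [T2Space X]
    [TotallyDisconnectedSpace X] [MulAction (NG M A) X] [ContinuousConstSMul (NG M A) X]
    {ev : (H →L[ℂ] H) → C(X, ℂ)} (hG : IsGel M A ev) :
    ∃ (I : C(X, ℝ) →ₗ[ℝ] ℝ) (w : X → ℝ) (G : Subgroup (NG M A)), IsDynW G I w ∧ RB M A Ω G ∧
      ∀ a ∈ A, ∀ f : C(X, ℝ), (∀ x, f x = (ev a x).re) → I f = (tau Ω a).re := by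
  have hA := hΩ.masa
  obtain ⟨I, X₀, p₀, hS⟩ := exists_st hA hG (F := {Ω}) (by simp [hΩ.1])
  obtain ⟨w, hI⟩ := exists_w (Γ := NG M A) hS.pos hS.one (hG.fix' hA) (hG.ed hA) hS.clop hS.faith
  have p1 : p₀ = 1 := (sub_eq_zero.1 (hΩ.2.2 _ (sub_mem (one_mem M) (hA.1 _ hS.mem)) (by
    simp [hS.vec Ω (mem_singleton_self _)]))).symm
  refine ⟨I, w, _, hI, ⟨fun a ha => A_le hA hG ha, fun g T hT => ?_⟩, fun a ha f e => ?_⟩
  · simpa [p1] using Sw.corner_op hA hG hS hT g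
  · rw [hS.val a ha f e, psi, sum_singleton]
    rfl

end Vale.Agent.P078.G
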