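import Vale.Agent.P078.X.Core2
import Vale.Agent.P078.X.Pin
import Vale.Agent.P078.X.Rb

/-!
Colourings that depend locally and equivariantly on the seed (weighted).

A copy of `G/Ext.lean` (it imports `G.Pin`, so it cannot be imported) with `Γ = G`, `IsDynW`, weight `w ∘ fst` on `Y`. `ed` on `Y`: `fst` is an open map (for `p`, a finite set `G₀` and `x` near `p.x`, so that `g x = g' x → g p.x = g' p.x`
on `G₀` (`coinF`), put `s g = p.s g'` if `g' x = g x` with `g' ∈ G₀`, else 0), `IsOpenMap.preimage_closure_eq_closure_preimage`. `kernel` with `gen_sub`, `ker_sub`, `ball_sub` as in `W.pave_one` (FinalW.lean);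
`‖y^m Ω‖² = re tau (y^(2m)) = re tau (E (y^(2m)))`.
-/

open Finset Filter
open scoped Classical ComplexConjugate Pointwise InnerProductSpace

namespace Vale.Agent.P078.G

namespace Xt

theorem good_block {V ι : Type*} (q : V → ι) {k : V → V → ℂ} {U : Finset V}
    (h0 : ∀ a b, q a ≠ q b → k a b = 0)
    (h' : ∀ U : Finset V, (∀ a ∈ U, ∀ b ∈ U, q a = q b) → P078.Good k U) : P078.Good k U := by
  have h : ∀ o, P078.Good k (U.filter fun a => q a = o) := fun o =>
    h' _ fun a ha b hb => (mem_filter.1 ha).2.trans (mem_filter.1 hb).2.symm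
  refine ⟨fun a ha b hb => ?_, fun a ha => (h (q a)).2.1 a (mem_filter.2 ⟨ha, rfl⟩), fun v => ?_⟩
  · by_cases e : q a = q b
    · exact (h (q b)).1 a (mem_filter.2 ⟨ha, e⟩) b (mem_filter.2 ⟨hb, rfl⟩)
    · rw [h0 a b e, h0 b a (Ne.symm e), map_zero]
  · have hm : ∀ a ∈ U, q a ∈ U.image q := fun a ha => mem_image_of_mem q ha
    rw [← sum_fiberwise_of_maps_to hm, ← sum_fiberwise_of_maps_to hm fun a => ‖v a‖ ^ 2]
    refine norm_sum_le_of_le _ fun o _ => le_trans (le_of_eq ?_) ((h o).2.2 v)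
    refine congrArg _ (sum_congr rfl fun a ha => (sum_filter_of_ne fun b _ hb => ?_).symm)
    by_contra e
    rw [h0 a b (by rw [(mem_filter.1 ha).2]; exact Ne.symm e)] at hb
    simp at hb

/-- Points with a function on their orbit. -/
def Y (Γ X : Type*) [Group Γ] [MulAction Γ X] (r : ℕ) :=
  {p : X × (Γ → Fin r) // ∀ g g' : Γ, g • p.1 = g' • p.1 → p.2 g = p.2 g'}

section
variable {Γ X : Type*} [Group Γ] [MulAction Γ X] {r : ℕ}

instance : MulAction Γ (Y Γ X r) where
  smul w p := ⟨(w • p.1.1, fun g => p.1.2 (g * w)), fun g g' h => p.2 _ _ (by rwa [mul_smul, mul_smul])⟩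
  one_smul p := Subtype.ext (Prod.ext (one_smul _ _) (funext fun g => congrArg p.1.2 (mul_one g)))
  mul_smul v w p := Subtype.ext (Prod.ext (mul_smul _ _ _)
    (funext fun g => congrArg p.1.2 (mul_assoc g v w).symm))

theorem inj (p : Y Γ X r) {g g' : Γ} (h : g • p.1.1 = g' • p.1.1) : g • p = g' • p :=
  Subtype.ext (Prod.ext h (funext fun a => p.2 (a * g) (a * g') (by rw [mul_smul, mul_smul, h])))

/-- The shift. -/
def sh [NeZero r] (p : Y Γ X r) : Y Γ X r :=
  ⟨(p.1.1, fun g => p.1.2 g + 1), fun g g' h => congrArg (· + 1) (p.2 g g' h)⟩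

theorem sh_iter [NeZero r] (j : ℕ) (p : Y Γ X r) :
    (sh^[j] p).1 = (p.1.1, fun g => p.1.2 g + j • (1 : Fin r)) := by
  induction j with
  | zero => simp
  | succ j ih =>
    rw [Function.iterate_succ_apply']
    change ((sh^[j] p).1.1, fun g => (sh^[j] p).1.2 g + 1) = _
    rw [ih]
    simp only [succ_nsmul, add_assoc]

theorem sh_pow [NeZero r] : (sh : Y Γ X r → Y Γ X r)^[r] = id := by
  funext p
  have h : r • (1 : Fin r) = 0 := by
    have := card_nsmul_eq_zero (x := (1 : Fin r))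
    rwa [Fintype.card_fin] at this
  refine Subtype.ext ?_
  rw [sh_iter, h]
  simp

theorem sh_inj [NeZero r] {p p' : Y Γ X r} (h : sh p = sh p') : p = p' := by
  have h1 := congrArg (fun q : Y Γ X r => q.1.1) h
  have h2 := fun g => congrArg (fun q : Y Γ X r => q.1.2 g) h
  exact Subtype.ext (Prod.ext h1 (funext fun g => add_right_cancel (b := 1) (h2 g)))

/-- The section given by a function on `X`. -/
def sec (Γ : Type*) [Group Γ] [MulAction Γ X] (u : X → Fin r) (x : X) : Y Γ X r :=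
  ⟨(x, fun g => u (g • x)), fun _ _ h => congrArg u h⟩

theorem sec_smul (u : X → Fin r) (w : Γ) (x : X) : sec Γ u (w • x) = w • sec Γ u x :=
  Subtype.ext (Prod.ext rfl (funext fun g => congrArg u (mul_smul g w x).symm))

/-- The lifted kernel. -/
noncomputable def kl (k : X → X → ℂ) (a b : Y Γ X r) : ℂ :=
  if ∃ w : Γ, a = w • b then k a.1.1 b.1.1 else 0

theorem kl_smul (k : X → X → ℂ) (w w' : Γ) (p : Y Γ X r) :
    kl k (w • p) (w' • p) = k (w • p.1.1) (w' • p.1.1) :=
  if_pos ⟨w * w'⁻¹, by rw [mul_smul, inv_smul_smul]⟩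

variable [TopologicalSpace X]

instance : TopologicalSpace (Y Γ X r) := instTopologicalSpaceSubtype

theorem cfst : Continuous fun p : Y Γ X r => p.1.1 := continuous_fst.comp continuous_subtype_val

theorem csnd (g : Γ) : Continuous fun p : Y Γ X r => p.1.2 g :=
  (continuous_apply g).comp (continuous_snd.comp continuous_subtype_val)

instance [T2Space X] : T2Space (Y Γ X r) := inferInstanceAs (T2Space (Subtype _))

instance [TotallyDisconnectedSpace X] : TotallyDisconnectedSpace (Y Γ X r) :=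
  inferInstanceAs (TotallyDisconnectedSpace (Subtype _))

variable [ContinuousConstSMul Γ X]

instance : ContinuousConstSMul Γ (Y Γ X r) :=
  ⟨fun w => Continuous.subtype_mk (((continuous_const_smul w).comp cfst).prodMk
    (continuous_pi fun g => csnd (g * w))) _⟩

theorem csec {u : X → Fin r} (hu : IsLocallyConstant u) : Continuous (sec Γ u) :=
  Continuous.subtype_mk (continuous_id.prodMk
    (continuous_pi fun g => hu.continuous.comp (continuous_const_smul g))) _

variable [CompactSpace X] [T2Space X] [TotallyDisconnectedSpace X] {I : C(X, ℝ) →ₗ[ℝ] ℝ}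
  {w : X → ℝ}

theorem cpt (hI : IsDynW Γ I w) : CompactSpace (Y Γ X r) := by
  have h : IsClosed {p : X × (Γ → Fin r) | ∀ g g' : Γ, g • p.1 = g' • p.1 → p.2 g = p.2 g'} := by
    simp only [Set.ofPred_forall (p := fun (g : Γ) (p : X × (Γ → Fin r)) =>
      ∀ g' : Γ, g • p.1 = g' • p.1 → p.2 g = p.2 g')]
    refine isClosed_iInter fun g => ?_
    simp only [Set.ofPred_forall (p := fun (g' : Γ) (p : X × (Γ → Fin r)) =>
      g • p.1 = g' • p.1 → p.2 g = p.2 g')]
    refine isClosed_iInter fun g' => isClosed_imp ((W.coinF hI.fix g g').isOpen.preimage continuous_fst) ?_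
    exact isClosed_eq ((continuous_apply g).comp continuous_snd) ((continuous_apply g').comp continuous_snd)
  exact isCompact_iff_compactSpace.1 h.isCompact

/-- The mean pulled along a section. -/
noncomputable def pull (I : C(X, ℝ) →ₗ[ℝ] ℝ) {u : X → Fin r} (hu : IsLocallyConstant u) :
    C(Y Γ X r, ℝ) →ₗ[ℝ] ℝ where
  toFun f := I (f.comp ⟨sec Γ u, csec hu⟩)
  map_add' f g := by rw [ContinuousMap.add_comp, map_add]
  map_smul' c f := by rw [ContinuousMap.smul_comp, map_smul]; rfl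

theorem fst_open [NeZero r] (hX : W.Fx Γ X) : IsOpenMap fun p : Y Γ X r => p.1.1 := by
  refine IsOpenMap.of_nhds_le fun p U hU => ?_
  have h1 : {q : Y Γ X r | q.1.1 ∈ U} ∈ nhds p := hU
  obtain ⟨T, hT, h2⟩ := (mem_nhds_subtype _ p _).1 h1
  obtain ⟨V, hV, T', hT', h3⟩ := mem_nhds_prod_iff.1 (show T ∈ nhds (p.1.1, p.1.2) from hT)
  rw [nhds_pi] at hT'
  obtain ⟨G₀, t, h4, h5⟩ := Filter.mem_pi'.1 hT'
  have h6 : ∀ᶠ x in nhds p.1.1, ∀ g ∈ G₀, ∀ g' ∈ G₀, (g • x = g' • x ↔ g • p.1.1 = g' • p.1.1) :=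
    (Filter.eventually_all_finset G₀).2 fun g _ => (Filter.eventually_all_finset G₀).2 fun g' _ =>
      clopen_ev (W.coinF hX g g') p.1.1
  filter_upwards [h6, hV] with x hx hxV
  let s : X → Fin r := fun y => if h : ∃ g' ∈ G₀, g' • x = y then p.1.2 h.choose else 0
  have h7 : ∀ g ∈ G₀, s (g • x) = p.1.2 g := fun g hg => by
    have h : ∃ g' ∈ G₀, g' • x = g • x := ⟨g, hg, rfl⟩
    simp only [s, dif_pos h]
    exact p.2 _ _ ((hx _ h.choose_spec.1 g hg).1 h.choose_spec.2)
  have h8 : (sec Γ s x).1 ∈ T := h3 ⟨hxV, h5 fun g hg => by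
    change s (g • x) ∈ t g
    rw [h7 g hg]
    exact mem_of_mem_nhds (h4 g)⟩
  exact h2 (a := sec Γ s x) h8

theorem dyn [NeZero r] (hI : IsDynW Γ I w) {u : X → Fin r} (hu : IsLocallyConstant u) :
    IsDynW Γ (pull (Γ := Γ) I hu) fun p => w p.1.1 := by
  refine ⟨fun f hf => hI.pos _ fun x => hf _, hI.one, fun g => ?_, fun p => hI.wpos _,
    fun g => (hI.wcont g).comp cfst, fun g f f' e => hI.inv g _ _ fun x => ?_, fun g => ?_⟩
  · have e : {p : Y Γ X r | g • p = p} = (fun p : Y Γ X r => p.1.1) ⁻¹' {x | g • x = x} := by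
      ext p
      refine ⟨fun h => congrArg (fun p : Y Γ X r => p.1.1) h, fun h => ?_⟩
      have := inj p (g := g) (g' := 1) (by rw [one_smul]; exact h)
      rwa [one_smul] at this
    rw [e]
    exact (hI.fix g).preimage cfst
  · change f' (sec Γ u x) = f (sec Γ u (g • x)) * _
    rw [e, sec_smul]
    rfl
  · have e := (fst_open (r := r) hI.fix).preimage_closure_eq_closure_preimage cfst
      {x | w (g • x) / w x < 1}
    have h := (hI.ed g).preimage (cfst (Γ := Γ) (r := r))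
    rw [e] at h
    exact h

theorem ker {S : Finset Γ} {k : X → X → ℂ} (hk : IsKer S k) :
    IsKer S (kl k : Y Γ X r → Y Γ X r → ℂ) := by
  refine ⟨fun U => good_block (Quotient.mk (MulAction.orbitRel Γ (Y Γ X r))) (fun a b h => ?_)
    fun U hU => ?_, fun a b h => ?_, ?_⟩
  · refine if_neg fun ⟨w, hw⟩ => h (Quotient.sound ?_)
    exact MulAction.orbitRel_apply.2 ⟨w, hw.symm⟩
  · have e : ∀ a ∈ U, ∀ b ∈ U, ∃ w : Γ, a = w • b := fun a ha b hb => by
      obtain ⟨w, hw⟩ := MulAction.orbitRel_apply.1 (Quotient.exact (hU a ha b hb))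
      exact ⟨w, hw.symm⟩
    refine good_gauge (e := fun p : Y Γ X r => p.1.1) (θ := fun _ => 1) (k' := k)
      (fun a ha b hb h => ?_) (fun _ => norm_one) (fun a ha b hb => ?_) (hk.good _)
    · obtain ⟨w, rfl⟩ := e a ha b hb
      have := inj b (g := w) (g' := 1) (by rw [one_smul]; exact h)
      rwa [one_smul] at this
    · rw [kl, if_pos (e a ha b hb), map_one, one_mul, one_mul]
  · unfold kl at h
    split_ifs at h with h1
    · obtain ⟨w, rfl⟩ := h1
      obtain ⟨w', hw', e⟩ := hk.range _ _ h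
      exact ⟨w', hw', inj b e⟩
    · exact absurd rfl h
  · obtain ⟨κ, hκ⟩ := hk.gauge
    refine ⟨fun w w' => (κ w w').comp ⟨_, cfst⟩, fun p => ?_⟩
    obtain ⟨θ, h1, h2⟩ := hκ p.1.1
    exact ⟨θ, h1, fun w w' => (kl_smul k w w' p).trans (h2 w w')⟩

theorem kp_img {V V' : Type*} {y : V → V → ℂ} {y' : V' → V' → ℂ} {e : V → V'} {U : Finset V} {v : V}
    (he : Function.Injective e) (hk : ∀ a ∈ insert v U, ∀ b ∈ insert v U, y' (e a) (e b) = y a b) (n : ℕ) :
    ∀ a ∈ insert v U, ∀ b, kp y' (U.image e) n (e a) (e b) = kp y U n a b := by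
  induction n with
  | zero =>
    intro a _ b
    by_cases l : a = b
    · simp [kp, l]
    · have : e a ≠ e b := fun l' => l (he l')
      simp [kp, l, this]
  | succ n ih =>
    intro a ha b
    simp only [kp]
    rw [sum_image he.injOn]
    refine sum_congr rfl fun w hw => ?_
    rw [hk a ha w (mem_insert_of_mem hw), ih w (mem_insert_of_mem hw) b]

theorem core3 (hI : IsDynW Γ I w) {S : Finset Γ} (hS : Gen S) {k : X → X → ℂ} (hk : IsKer S k)
    [NeZero r] (hr : 2 ≤ r) (m : ℕ) :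
    ∃ c : Y Γ X r → Fin r, IsLocallyConstant c ∧ (∀ p, c (sh p) = c p + 1) ∧
      ∀ u : X → Fin r, IsLocallyConstant u →
        Continuous (fun x => (kp (yc k fun x => c (sec Γ u x)) (ball S (2 * m) x) (2 * m) x x).re) ∧
        ii I (fun x => (kp (yc k fun x => c (sec Γ u x)) (ball S (2 * m) x) (2 * m) x x).re) ≤
          5 * (240 / √(r : ℝ)) ^ (2 * m) := by
  have : CompactSpace (Y Γ X r) := cpt hI
  obtain ⟨c, d1, d2, d3, d4⟩ := core2W (dyn hI (IsLocallyConstant.const (0 : Fin r))) hS (ker hk) hr m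
    (τ := sh) (Continuous.subtype_mk (cfst.prodMk (continuous_pi fun g =>
      (continuous_of_discreteTopology (f := fun a : Fin r => a + 1)).comp (csnd g))) _)
    sh_pow (fun w x => rfl) (fun a b => if_congr (exists_congr fun w =>
      ⟨fun e => sh_inj (p' := w • b) e, fun e => congrArg sh e⟩) rfl rfl) (fun _ => rfl)
    (s := fun p => p.1.2 1) ((IsLocallyConstant.iff_continuous _).2 (csnd 1)) (fun _ => rfl)
    fun B => by
      obtain ⟨n, cl, c1, c2⟩ := W.classesF hI.fix B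
      refine ⟨n, fun p => cl p.1.1, c1.comp_continuous cfst, fun g hg p e => ?_, fun _ => rfl⟩
      have := inj p (g := g) (g' := 1) (by rw [one_smul]; exact c2 g hg _ e)
      rwa [one_smul] at this
  refine ⟨c, d1, d2, fun u hu => ?_⟩
  have e : ∀ x, (kp (yc (kl k) c) (ball S (2 * m) (sec Γ u x)) (2 * m) (sec Γ u x) (sec Γ u x)).re =
      (kp (yc k fun x => c (sec Γ u x)) (ball S (2 * m) x) (2 * m) x x).re := fun x => by
    have e1 : ball S (2 * m) (sec Γ u x) = (ball S (2 * m) x).image (sec Γ u) := by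
      simp only [ball, orb, image_image, Function.comp_def, sec_smul]
    have e2 : ∀ a ∈ insert x (ball S (2 * m) x), ∃ w : Γ, a = w • x := fun a ha => by
      rcases mem_insert.1 ha with rfl | ha
      · exact ⟨1, (one_smul _ _).symm⟩
      · obtain ⟨w, -, hw⟩ := mem_orb.1 ha
        exact ⟨w, hw.symm⟩
    rw [e1]
    refine congrArg Complex.re (kp_img (v := x) (fun a b e => congrArg (fun p : Y Γ X r => p.1.1) e)
      (fun a ha b hb => ?_) _ x (mem_insert_self _ _) x)
    obtain ⟨w, rfl⟩ := e2 a ha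
    obtain ⟨w', rfl⟩ := e2 b hb
    unfold yc
    rw [show kl k (sec Γ u (w • x)) (sec Γ u (w' • x)) = k (w • x) (w' • x) by
      rw [sec_smul, sec_smul, kl_smul]; rfl]
  have hc : Continuous fun x =>
      (kp (yc k fun x => c (sec Γ u x)) (ball S (2 * m) x) (2 * m) x x).re :=
    (d3.comp (csec hu)).congr e
  refine ⟨hc, le_trans (le_of_eq ?_) (d4 _ (dyn hI hu))⟩
  rw [ii, ii, dif_pos hc, dif_pos d3]
  exact congrArg I (ContinuousMap.ext fun x => (e x).symm)

end

/-- The standard character on `Fin r`. -/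
noncomputable def ch {r : ℕ} [NeZero r] (a : Fin r) : ℂ := ZMod.stdAddChar (ZMod.finEquiv r a)

theorem ch_inj {r : ℕ} [NeZero r] : Function.Injective (ch : Fin r → ℂ) :=
  ZMod.injective_stdAddChar.comp (ZMod.finEquiv r).injective

theorem ch_succ {r : ℕ} [NeZero r] (a : Fin r) :
    ch (a + 1) = ZMod.stdAddChar (1 : ZMod r) * ch a := by
  have e : ZMod.finEquiv r (a + 1) = 1 + ZMod.finEquiv r a := by
    rw [map_add, map_one, add_comm]
  rw [ch, e, AddChar.map_add_eq_mul, ch]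

theorem ch_surj {r : ℕ} [NeZero r] {z : ℂ} (hz : z ^ r = 1) : ∃ a : Fin r, ch a = z := by
  obtain ⟨i, -, hi⟩ := (Complex.isPrimitiveRoot_exp r (NeZero.ne r)).eq_pow_of_pow_eq_one hz
  refine ⟨(ZMod.finEquiv r).symm ((i : ℤ) : ZMod r), ?_⟩
  rw [ch, RingEquiv.apply_symm_apply, ZMod.stdAddChar_coe, ← hi, ← Complex.exp_nat_mul]
  congr 1
  push_cast
  ring

end Xt

open Xt

variable {H : Type*} [NormedAddCommGroup H] [InnerProductSpace ℂ H] [CompleteSpace H]
  {M : VonNeumannAlgebra H} {A : StarSubalgebra ℂ (H →L[ℂ] H)} {Ω : H}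
  {E : (H →L[ℂ] H) → H →L[ℂ] H} {x : H →L[ℂ] H}

namespace Xt

section
variable {X : Type*} [TopologicalSpace X] [MulAction (NG M A) X] {ev : (H →L[ℂ] H) → C(X, ℂ)}

theorem norm_le (hG : IsGel M A ev) {a : H →L[ℂ] H} (ha : a ∈ A) {δ : ℝ} (hδ : 0 ≤ δ)
    (h : ∀ x, ‖ev a x‖ ≤ δ) : ‖a‖ ≤ δ := by
  obtain ⟨d, hd, e⟩ := hG.surj ⟨fun x => (√(δ ^ 2 - ‖ev a x‖ ^ 2) : ℝ), by fun_prop⟩
  have e' : ∀ x, ev d x = (√(δ ^ 2 - ‖ev a x‖ ^ 2) : ℝ) := fun x => by rw [e]; rfl
  have h1 := mul_mem (star_mem ha) ha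
  have h2 := mul_mem (star_mem hd) hd
  have e1 : star a * a + star d * d = ((δ ^ 2 : ℝ) : ℂ) • 1 :=
    hG.ext (add_mem h1 h2) (A.smul_mem (one_mem A) _) fun x => by
      have h3 : 0 ≤ δ ^ 2 - ‖ev a x‖ ^ 2 := sub_nonneg.2 (pow_le_pow_left₀ (norm_nonneg _) (h x) 2)
      rw [hG.add _ h1 _ h2, hG.mul _ (star_mem ha) _ ha, hG.mul _ (star_mem hd) _ hd, hG.star _ ha,
        hG.star _ hd, hG.smul _ (one_mem A), hG.one]
      simp only [ContinuousMap.add_apply, ContinuousMap.mul_apply, ContinuousMap.star_apply, e',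
        ContinuousMap.smul_apply, ContinuousMap.one_apply, smul_eq_mul, mul_one, Complex.star_def,
        Complex.conj_mul', Complex.norm_real, Real.norm_eq_abs]
      rw [← Complex.ofReal_pow, ← Complex.ofReal_pow, sq_abs, Real.sq_sqrt h3, ← Complex.ofReal_add]
      congr 1
      ring
  refine ContinuousLinearMap.opNorm_le_bound _ hδ fun ξ => ?_
  have h4 := congrArg (fun b => (tau ξ b).re) e1
  have h5 := re_tau (Ω := ξ) (1 : H →L[ℂ] H)
  simp only [tau_add, Complex.add_re, re_tau, tau_smul, Complex.re_ofReal_mul] at h4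
  rw [star_one, mul_one, one_apply_eq_self] at h5
  rw [h5, ← mul_pow] at h4
  exact (abs_le_of_sq_le_sq' (by nlinarith [sq_nonneg ‖d ξ‖]) (by positivity)).2

theorem exists_u (hG : IsGel M A ev) {r : ℕ} [NeZero r] (W : Seed A r) :
    ∃ u : X → Fin r, IsLocallyConstant u ∧ ∀ x, ch (u x) = ev (W.W 1) x := by
  have h1 : ∀ (n : ℕ) (x : X), ev (W.W n) x = ev (W.W 1) x ^ n := fun n x => by
    induction n with
    | zero => rw [Nat.cast_zero, W.zero, hG.one, pow_zero, ContinuousMap.one_apply]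
    | succ n ih =>
      rw [Nat.cast_succ, W.add, hG.mul _ (W.mem _) _ (W.mem _), ContinuousMap.mul_apply, ih, pow_succ]
  have h2 : ∀ x, ev (W.W 1) x ^ r = 1 := fun x => by
    rw [← h1, ZMod.natCast_self, W.zero, hG.one, ContinuousMap.one_apply]
  choose u hu using fun x => ch_surj (h2 x)
  refine ⟨u, (IsLocallyConstant.iff_continuous _).2 ?_, hu⟩
  refine ((continuous_of_discreteTopology.isClosedEmbedding ch_inj).isInducing.continuous_iff).2 ?_
  exact (ev (W.W 1)).continuous.congr fun x => (hu x).symm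

end

theorem Balg_star {r : ℕ} [NeZero r] {b : Seed A r → H →L[ℂ] H} (hb : b ∈ Balg M A r) :
    star b ∈ Balg M A r := by
  induction hb using Algebra.adjoin_induction with
  | mem b hb =>
    refine Algebra.subset_adjoin ?_
    rcases hb with ⟨a, ha, rfl⟩ | ⟨g, k, rfl⟩
    · exact Or.inl ⟨star a, star_mem ha, rfl⟩
    · refine Or.inr ⟨g, -k, funext fun W => ?_⟩
      rw [Pi.star_apply, star_mul, star_mul, star_star, W.star, mul_assoc]
  | algebraMap c =>
    rw [← algebraMap_star_comm]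
    exact algebraMap_mem _ _
  | add x y _ _ hx hy =>
    rw [star_add]
    exact add_mem hx hy
  | mul x y _ _ hx hy =>
    rw [star_mul]
    exact mul_mem hy hx

end Xt

theorem Xt.exists_p' (hA : IsMASA M A) (hE : IsE M A Ω E) {X : Type*} [TopologicalSpace X]
    [CompactSpace X] [T2Space X] [TotallyDisconnectedSpace X] [MulAction (NG M A) X]
    [ContinuousConstSMul (NG M A) X] {ev : (H →L[ℂ] H) → C(X, ℂ)} (hG : IsGel M A ev)
    {I : C(X, ℝ) →ₗ[ℝ] ℝ} {w : X → ℝ} {G : Type*} [Group G] [MulAction G X] [ContinuousConstSMul G X]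
    (φ : G → NG M A) (hφ : ∀ (g : G) (y : X), g • y = φ g • y) (hI : IsDynW G I w)
    (hτ : ∀ a ∈ A, ∀ f : C(X, ℝ), (∀ x, f x = (ev a x).re) → I f = (tau Ω a).re)
    {S : Finset G} (hS : Gen S) (x1 : x ∈ M) (hsa : IsSelfAdjoint x) {k : X → X → ℂ} (hk : IsKer S k)
    {r : ℕ} [NeZero r] (hr : 2 ≤ r) (m : ℕ)
    (hkp : ∀ (c : X → Fin r) (p : Fin r → H →L[ℂ] H),
      (∀ i, p i ∈ A ∧ ∀ x, ev (p i) x = if c x = i then 1 else 0) → ∀ y,
        ev (E ((∑ i, p i * x * p i) ^ (2 * m))) y = kp (yc k c) (ball S (2 * m) y) (2 * m) y y) :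
    ∃ p : Seed A r → Fin r → H →L[ℂ] H, (∀ W, IsPart A (p W)) ∧
      (∀ i, ∀ δ : ℝ, 0 < δ → ∃ b ∈ Balg M A r, ∀ W, ‖p W i - b W‖ ≤ δ) ∧
      (∀ W i, p W.sh (i + 1) = p W i) ∧
      ∀ W, ‖((∑ i, p W i * x * p W i) ^ m) Ω‖ ^ 2 ≤ 5 * (240 / √(r : ℝ)) ^ (2 * m) := by
  obtain ⟨c, c1, c2, c3⟩ := core3 hI hS hk hr m
  choose u u1 u2 using fun W : Seed A r => exists_u hG W
  have hc : ∀ W, IsLocallyConstant fun x => c (sec G (u W) x) := fun W =>
    c1.comp_continuous (csec (u1 W))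
  have hp : ∀ W (i : Fin r), ∃ p ∈ A, IsStarProjection p ∧
      ∀ y, ev p y = if c (sec G (u W) y) = i then 1 else 0 := fun W i => by
    obtain ⟨p, p1, p2, p3⟩ := hG.proj (C := {y | c (sec G (u W) y) = i})
      ((hc W).isClopen_fiber i)
    exact ⟨p, p1, p2, fun y => by rw [p3]; simp⟩
  choose p p1 p2 p3 using hp
  refine ⟨p, fun W => ⟨fun i => ⟨p1 W i, p2 W i⟩, fun i j hij => ?_, ?_⟩, fun i δ hδ => ?_,
    fun W i => hG.ext (p1 _ _) (p1 _ _) fun x => ?_, fun W => ?_⟩
  · refine hG.inj _ (mul_mem (p1 W i) (p1 W j)) ?_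
    rw [hG.mul _ (p1 W i) _ (p1 W j)]
    ext y
    simp only [ContinuousMap.mul_apply, p3, ContinuousMap.zero_apply]
    split_ifs with h1 h2
    · exact absurd (h1.symm.trans h2) hij
    all_goals simp
  · refine hG.ext (sum_mem fun i _ => p1 W i) (one_mem A) fun y => ?_
    rw [ev_sum hG _ fun i _ => p1 W i, hG.one]
    simp [p3]
  · have : CompactSpace (Y G X r) := cpt hI
    let B : StarSubalgebra ℂ C(Y G X r, ℂ) :=
      { carrier := {f | ∃ b ∈ Balg M A r, (∀ W, b W ∈ A) ∧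
          ∀ W x, ev (b W) x = f (sec G (u W) x)}
        mul_mem' := by
          rintro f g ⟨a, a1, a2, a3⟩ ⟨b, b1, b2, b3⟩
          refine ⟨a * b, mul_mem a1 b1, fun W => mul_mem (a2 W) (b2 W), fun W x => ?_⟩
          rw [Pi.mul_apply, hG.mul _ (a2 W) _ (b2 W), ContinuousMap.mul_apply, a3, b3,
            ContinuousMap.mul_apply]
        add_mem' := by
          rintro f g ⟨a, a1, a2, a3⟩ ⟨b, b1, b2, b3⟩
          refine ⟨a + b, add_mem a1 b1, fun W => add_mem (a2 W) (b2 W), fun W x => ?_⟩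
          rw [Pi.add_apply, hG.add _ (a2 W) _ (b2 W), ContinuousMap.add_apply, a3, b3,
            ContinuousMap.add_apply]
        algebraMap_mem' := fun t => by
          refine ⟨fun _ => t • 1, Algebra.subset_adjoin (Or.inl ⟨_, A.smul_mem (one_mem A) t, rfl⟩),
            fun _ => A.smul_mem (one_mem A) t, fun W x => ?_⟩
          rw [hG.smul _ (one_mem A), hG.one]
          simp [Algebra.algebraMap_eq_smul_one]
        star_mem' := by
          rintro f ⟨a, a1, a2, a3⟩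
          refine ⟨star a, Balg_star a1, fun W => star_mem (a2 W), fun W x => ?_⟩
          rw [Pi.star_apply, hG.star _ (a2 W), ContinuousMap.star_apply, a3,
            ContinuousMap.star_apply] }
    have sep : B.SeparatesPoints := by
      intro q q' hq
      by_cases e : q.1.1 = q'.1.1
      · obtain ⟨g, hg⟩ : ∃ g, q.1.2 g ≠ q'.1.2 g := by
          by_contra h1
          exact hq (Subtype.ext (Prod.ext e (funext fun g => not_not.1 fun h2 => h1 ⟨g, h2⟩)))
        refine ⟨_, ⟨⟨fun q => ch (q.1.2 g), (continuous_of_discreteTopology (f := ch)).comp (csnd g)⟩,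
          ⟨fun W => star (op (φ g)) * W.W 1 * op (φ g), Algebra.subset_adjoin (Or.inr ⟨φ g, 1, rfl⟩),
            fun W => (mem_norm.1 (op_norm (φ g))).2.2.2 _ (W.mem 1), fun W x => ?_⟩, rfl⟩,
          fun h1 => hg (ch_inj h1)⟩
        rw [hG.act' (φ g) (W.mem 1), ← u2, ← hφ]
        rfl
      · obtain ⟨D, hD, h1, h2⟩ := compact_exists_isClopen_in_isOpen (x := q.1.1) (U := {q'.1.1}ᶜ)
          isOpen_compl_singleton e
        obtain ⟨a, a1, -, a3⟩ := hG.proj hD
        refine ⟨_, ⟨(ev a).comp ⟨_, cfst⟩, ⟨fun _ => a, Algebra.subset_adjoin (Or.inl ⟨a, a1, rfl⟩),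
          fun _ => a1, fun W x => rfl⟩, rfl⟩, ?_⟩
        change ev a q.1.1 ≠ ev a q'.1.1
        rw [a3, a3, if_pos h1, if_neg fun h3 => h2 h3 rfl]
        exact one_ne_zero
    let F : C(Y G X r, ℂ) := ⟨fun q => if c q = i then 1 else 0,
      (c1.comp fun j => if j = i then (1 : ℂ) else 0).continuous⟩
    have hF : F ∈ closure (B : Set C(Y G X r, ℂ)) := by
      have h1 := ContinuousMap.starSubalgebra_topologicalClosure_eq_top_of_separatesPoints B sep
      have h2 : F ∈ B.topologicalClosure := h1 ▸ StarSubalgebra.mem_top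
      exact h2
    obtain ⟨f, ⟨b, b1, b2, b3⟩, hf⟩ := Metric.mem_closure_iff.1 hF δ hδ
    refine ⟨b, b1, fun W => norm_le hG (sub_mem (p1 W i) (b2 W)) hδ.le fun x => ?_⟩
    rw [hG.sub (p1 W i) (b2 W), ContinuousMap.sub_apply, p3, b3, ← dist_eq_norm]
    exact (ContinuousMap.dist_apply_le_dist (f := F) (g := f) _).trans hf.le
  · have e : ∀ y, u W.sh y = u W y + 1 := fun y => ch_inj (by
      rw [ch_succ, u2, u2]
      change ev (_ • W.W 1) y = _
      rw [hG.smul _ (W.mem 1)]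
      rfl)
    have e2 : sec G (u W.sh) x = sh (sec G (u W) x) :=
      Subtype.ext (Prod.ext rfl (funext fun g => e _))
    rw [p3, p3, e2, c2]
    simp only [add_left_inj]
  · obtain ⟨d1, d2⟩ := c3 (u W) (u1 W)
    set y' := ∑ i, p W i * x * p W i with hy'
    have yM : ∀ n, y' ^ n ∈ M := fun n => pow_mem (sum_mem fun i _ =>
      mul_mem (mul_mem (hA.1 _ (p1 W i)) x1) (hA.1 _ (p1 W i))) n
    have ys : IsSelfAdjoint y' := by
      rw [IsSelfAdjoint, hy', star_sum]
      refine sum_congr rfl fun i _ => ?_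
      rw [star_mul, star_mul, (p2 W i).isSelfAdjoint.star_eq, hsa.star_eq, mul_assoc]
    have k1 := hτ _ (hE.mem _ (yM (2 * m))) ⟨_, d1⟩ fun y => by
      rw [hkp _ (p W) (fun i => ⟨p1 W i, p3 W i⟩) y]
      rfl
    rw [ii, dif_pos d1, k1, hE.tr _ (yM _)] at d2
    rw [← re_tau, (ys.pow m).star_eq, ← pow_add, ← two_mul]
    exact d2

theorem exists_p (hA : IsMASA M A) (hE : IsE M A Ω E) {X : Type*} [TopologicalSpace X]
    [CompactSpace X] [T2Space X] [TotallyDisconnectedSpace X] [MulAction (NG M A) X]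
    [ContinuousConstSMul (NG M A) X] {ev : (H →L[ℂ] H) → C(X, ℂ)} (hG : IsGel M A ev)
    {I : C(X, ℝ) →ₗ[ℝ] ℝ} {w : X → ℝ} {G : Subgroup (NG M A)} (hI : IsDynW G I w)
    (hτ : ∀ a ∈ A, ∀ f : C(X, ℝ), (∀ x, f x = (ev a x).re) → I f = (tau Ω a).re)
    {S : Finset G} (hS : Gen S) {l : NG M A → ℂ}
    (hx : x = ∑ u ∈ S.image (fun g : G => (g : NG M A)), l u • op u)
    (hsa : IsSelfAdjoint x) (hn : ‖x‖ ≤ 1) (h0 : E x = 0) {r : ℕ} [NeZero r] (hr : 2 ≤ r) (m : ℕ) :
    ∃ p : Seed A r → Fin r → H →L[ℂ] H, (∀ W, IsPart A (p W)) ∧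
      (∀ i, ∀ δ : ℝ, 0 < δ → ∃ b ∈ Balg M A r, ∀ W, ‖p W i - b W‖ ≤ δ) ∧
      (∀ W i, p W.sh (i + 1) = p W i) ∧
      ∀ W, ‖((∑ i, p W i * x * p W i) ^ m) Ω‖ ^ 2 ≤ 5 * (240 / √(r : ℝ)) ^ (2 * m) := by
  haveI : ContinuousConstSMul G X := ⟨fun g => continuous_const_smul (g : NG M A)⟩
  obtain ⟨k, hk, hkp⟩ := kernel hA hE hG (hG.fix' hA) (gen_sub hS) (l := l)
    (hx.trans (sum_congr (by ext u; simp only [mem_image]) fun _ _ => rfl)) hsa hn h0
  have x1 : x ∈ M := hx ▸ sum_mem fun u _ => smul_mem_M (op_mem u) _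
  refine exists_p' hA hE hG (fun g : G => (g : NG M A)) (fun _ _ => rfl) hI hτ hS x1 hsa (ker_sub hk) hr m
    fun c p hp y => ?_
  rw [hkp r c p hp (2 * m) (2 * m) y le_rfl, ball_sub]

end Vale.Agent.P078.G
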