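import Vale.Agent.P078.X.Mean
import Vale.Agent.P078.X.Free
import Vale.Agent.P078.X.Ext

/-!
Assembly for central vectors.
-/

open Finset Filter
open scoped Classical InnerProductSpace

namespace Vale.Agent.P078.G

variable {H : Type*} [NormedAddCommGroup H] [InnerProductSpace ℂ H] [CompleteSpace H]
  {M : VonNeumannAlgebra H} {A : StarSubalgebra ℂ (H →L[ℂ] H)} {Ω : H}
  {E : (H →L[ℂ] H) → H →L[ℂ] H} {x y : H →L[ℂ] H}

theorem kap3 (hA : IsMASA M A) (hE : IsE M A Ω E) {G : Subgroup (NG M A)} (hG : RB M A Ω G) (hx : x ∈ M)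
    (y1 : y ∈ spanG G)
    (y2 : IsSelfAdjoint y) (y3 : ‖y‖ ≤ 1) {η : ℝ} (y4 : ‖(x - y) Ω‖ ≤ η) :
    ∃ (S : Finset G) (l : NG M A → ℂ) (x' : H →L[ℂ] H), Gen S ∧
      x' = ∑ u ∈ S.image (fun g : G => (g : NG M A)), l u • op u ∧
      x' ∈ M ∧ IsSelfAdjoint x' ∧ ‖x'‖ ≤ 1 ∧ E x' = 0 ∧
        ‖((1 / 2 : ℂ) • (x - E x) - x') Ω‖ ≤ η := by
  have yM := spanG_le y1
  have EA := hE.mem y yM
  have h1 : (1 / 2 : ℂ) • (y - E y) ∈ spanG G :=
    SMulMemClass.smul_mem _ (sub_mem y1 (hG.le _ EA))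
  obtain ⟨l, hl⟩ := Finsupp.mem_span_range_iff_exists_finsupp.1 (mem_spanG.1 h1)
  refine ⟨insert 1 (l.support ∪ l.support.image (·⁻¹)), fun w => if hw : w ∈ G then l ⟨w, hw⟩ else 0, _,
    ⟨mem_insert_self _ _, fun w hw => ?_⟩,
    ?_, spanG_le h1, ?_, ?_, ?_, ?_⟩
  · simp only [mem_insert, mem_union, mem_image] at hw ⊢
    rcases hw with rfl | hw | ⟨v, hv, rfl⟩
    exacts [.inl inv_one, .inr (.inr ⟨w, hw, rfl⟩), .inr (.inl (by rwa [inv_inv]))]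
  · rw [← hl, sum_image fun _ _ _ _ e => Subtype.ext e]
    refine (Finsupp.sum_of_support_subset l (subset_union_left.trans (subset_insert _ _))
      (fun g c => c • op (g : NG M A)) fun _ _ => zero_smul _ _).trans (sum_congr rfl fun g _ => ?_)
    simp only [dif_pos g.2]
  · have := hE.star y yM
    rw [y2.star_eq] at this
    simp [IsSelfAdjoint, y2.star_eq, ← this]
  · have := norm_sub_le y (E y)
    have := hE.norm y yM
    rw [norm_smul]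
    norm_num
    linarith
  · rw [hE.smul _ (sub_mem yM (hA.1 _ EA)), hE.sub yM (hA.1 _ EA), hE.self _ EA, sub_self, smul_zero]
  · have e : (1 / 2 : ℂ) • (x - E x) - (1 / 2 : ℂ) • (y - E y) =
        (1 / 2 : ℂ) • ((x - y) - E (x - y)) := by
      rw [hE.sub hx yM]
      module
    have := norm_sub_le ((x - y) Ω) (E (x - y) Ω)
    have := hE.norm2 _ (sub_mem hx yM)
    rw [e, ContinuousLinearMap.smul_apply, norm_smul, ContinuousLinearMap.sub_apply _ (E _)]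
    rw [show ‖(1 / 2 : ℂ)‖ = 1 / 2 by simp]
    linarith

theorem cmp_le {q : H →L[ℂ] H} (hq : IsStarProjection q) (y : H →L[ℂ] H) :
    ‖q * y * q‖ ≤ ‖y * q‖ ∧ ‖q * y * q‖ ≤ ‖y‖ := by
  have k : ‖q * y * q‖ ≤ ‖y * q‖ := by
    rw [mul_assoc]
    exact (norm_mul_le _ _).trans (mul_le_of_le_one_left (norm_nonneg _) hq.norm_le)
  exact ⟨k, k.trans ((norm_mul_le _ _).trans (mul_le_of_le_one_right (norm_nonneg _) hq.norm_le))⟩

theorem pave_one (hA : IsMASA M A) (hΩ : IsCV M A Ω) (hx : x ∈ M)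
    (hs : IsSelfAdjoint x) (hn : ‖x‖ ≤ 1) (hE : IsE M A Ω E) {r : ℕ}
    (hr : 2 ≤ r) (F : Finset H) {δ : ℝ} (hδ : 0 < δ) : ∃ p : Fin r → (H →L[ℂ] H), IsPart A p ∧
        ∃ q ∈ M, IsStarProjection q ∧ (∀ ξ ∈ F, ‖(1 - q) ξ‖ < δ) ∧
          ‖q * (∑ i, p i * x * p i - E x) * q‖ ≤ 1000 / √(r : ℝ) := by
  haveI : NeZero r := ⟨by omega⟩
  obtain ⟨η₀, η₀0, hη₀⟩ := small_of_tau hΩ F hδ
  have r0 : (0 : ℝ) < r := by exact_mod_cast (by omega : 0 < r)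
  have sr : 0 < √(r : ℝ) := by positivity
  obtain ⟨κ, hκ⟩ : ∃ κ, κ = η₀ / (3 * √(r : ℝ)) := ⟨_, rfl⟩
  have κ0 : 0 < κ := by rw [hκ]; positivity
  obtain ⟨n, hn'⟩ := exists_pow_lt_of_lt_one (show 0 < κ ^ 2 / 5 by positivity)
    (show (1 / 4 : ℝ) < 1 by norm_num)
  obtain ⟨X, _, _, _, _, _, _, ev, hG⟩ := exists_gel hA
  obtain ⟨I, w, G, hI, hR, hτ⟩ := exists_rb hΩ hG
  obtain ⟨d, dM, ds, dn, dz, da⟩ := dec_sa hΩ hR hx hs hn
  obtain ⟨y, y1, y2, y3, y4⟩ := da _ κ0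
  obtain ⟨S, l, x', hS, e1, x1, x2, x3, x4, x5⟩ := kap3 hA hE hR dM y1 y2 y3 y4
  obtain ⟨p, p1, p2, p3, p4⟩ := exists_p hA hE hG hI hτ hS e1 x2 x3 x4 hr n
  obtain ⟨Λ, hΛ, hw⟩ := exists_mean (r := r) hA hΩ hE
  set s := (1 / 2 : ℂ) • (x - d) with hsd
  have sZ : s ∈ Zs M A Ω := Zs_smul dz _
  have half : ∀ a b : H →L[ℂ] H, ‖a‖ ≤ 1 → ‖b‖ ≤ 1 → ‖(1 / 2 : ℂ) • (a - b)‖ ≤ 1 := fun a b h1 h2 => by
    rw [norm_smul]
    have := norm_sub_le a b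
    simp only [one_div, norm_inv, Complex.norm_ofNat]
    linarith
  have hsa : ∀ a b : H →L[ℂ] H, IsSelfAdjoint a → IsSelfAdjoint b →
      IsSelfAdjoint ((1 / 2 : ℂ) • (a - b)) := fun a b h1 h2 => by
    rw [IsSelfAdjoint, star_smul, star_sub, h1.star_eq, h2.star_eq]
    simp
  have sn := half x d hn dn
  obtain ⟨W, hW⟩ := free hA hΩ hE hΛ hw sZ sn p1 p2 p3 n (η := (4 / r) ^ n) (by positivity)
  have t1 := p4 W
  obtain ⟨q0, q1, q2⟩ := p1 W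
  generalize p W = p at hW t1 q0 q1 q2
  have pM : ∀ i, p i ∈ M := fun i => hA.1 _ (q0 i).1
  have EM : E d ∈ M := hA.1 _ (hE.mem d dM)
  have Es : IsSelfAdjoint (E d) := by rw [IsSelfAdjoint, ← hE.star d dM, ds.star_eq]
  set x₀ := (1 / 2 : ℂ) • (d - E d) with hx₀
  have x₀M : x₀ ∈ M := smul_mem_M (sub_mem dM EM) _
  have x₀n : ‖x₀‖ ≤ 1 := half _ _ dn ((hE.norm d dM).trans dn)
  have pm : ∀ y ∈ M, ∑ i, p i * y * p i ∈ M := fun y hy =>
    sum_mem fun i _ => mul_mem (mul_mem (pM i) hy) (pM i)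
  let P : Part A := ⟨Fin r, p, fun i => (q0 i).1, fun i => (q0 i).2, q1, q2⟩
  have pn : ∀ y ∈ M, ‖∑ i, p i * y * p i‖ ≤ ‖y‖ ∧ ‖(∑ i, p i * y * p i) Ω‖ ≤ ‖y Ω‖ := fun y hy =>
    ⟨S_norm P y, S_norm2 hA hΩ P hy⟩
  have ps : ∀ y, IsSelfAdjoint y → IsSelfAdjoint (∑ i, p i * y * p i) := fun y hy => by
    rw [IsSelfAdjoint, star_sum]
    refine sum_congr rfl fun i _ => ?_
    rw [star_mul, star_mul, (q0 i).2.isSelfAdjoint.star_eq, hy.star_eq, mul_assoc]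
  have e : ∑ i, p i * x * p i - E x = (2 : ℂ) • (∑ i, p i * x' * p i + ∑ i, p i * s * p i +
      ∑ i, p i * (x₀ - x') * p i) := by
    have e0 : E x = E d := by
      have := hE.sub hx dM
      rw [Zs_E hA hΩ hE dz] at this
      exact sub_eq_zero.1 this.symm
    have e1 : ∑ i, p i * E d * p i = E d := by
      have : ∀ i, p i * E d * p i = p i * E d := fun i => by
        rw [mul_assoc, hA.2.1 _ (hE.mem d dM) _ (q0 i).1, ← mul_assoc, (q0 i).2.isIdempotentElem.eq]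
      simp only [this]
      rw [← sum_mul, q2, one_mul]
    rw [← sum_add_distrib, ← sum_add_distrib, smul_sum, e0]
    conv_lhs => rw [← e1, ← sum_sub_distrib]
    refine sum_congr rfl fun i _ => ?_
    rw [hx₀, hsd]
    simp only [mul_smul_comm, smul_mul_assoc, mul_sub, sub_mul]
    module
  have a1 := pm x' x1
  have a2 := ps x' x2
  have a3 := (pn x' x1).1.trans x3
  have b1 := pm s sZ.1
  have b2 := ps s (hsa _ _ hs ds)
  have b3 := (pn s sZ.1).1.trans sn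
  have c1 := pm _ (sub_mem x₀M x1)
  have c2 := ps _ ((hsa _ _ ds Es).sub x2)
  have c3 := (pn _ (sub_mem x₀M x1)).2.trans x5
  rw [← hx₀] at c2
  generalize ∑ i, p i * x' * p i = Y at t1 e a1 a2 a3
  generalize ∑ i, p i * s * p i = Y' at hW e b1 b2 b3
  generalize ∑ i, p i * (x₀ - x') * p i = D at e c1 c2 c3
  obtain ⟨u, uM, up, u2, u3, u4⟩ := spl a1 a2 (c := 480 / √(r : ℝ)) (by positivity)
  obtain ⟨v, vM, vp, v2, v3, v4⟩ := spl b1 b2 (c := 4 / √(r : ℝ)) (by positivity)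
  have u5 : ‖(1 - u) Ω‖ ≤ κ := by
    have k1 := (pow_le_pow_left₀ (by positivity) (u4 n Ω) 2).trans t1
    have k2 : ((480 / √(r : ℝ)) ^ n) ^ 2 * (1 / 4) ^ n = (240 / √(r : ℝ)) ^ (2 * n) := by
      rw [← pow_mul, mul_comm n, pow_mul, pow_mul, ← mul_pow]
      congr 1
      ring
    rw [mul_pow, ← k2] at k1
    have k3 : ‖(1 - u) Ω‖ ^ 2 ≤ 5 * (1 / 4) ^ n :=
      le_of_mul_le_mul_left (a := ((480 / √(r : ℝ)) ^ n) ^ 2) (by linarith) (by positivity)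
    exact le_of_pow_le_pow_left₀ two_ne_zero κ0.le (by linarith)
  have v5 : ‖(1 - v) Ω‖ ≤ κ := by
    have k1 := (pow_le_pow_left₀ (by positivity) (v4 n Ω) 2).trans hW
    have k2 : ((4 / √(r : ℝ)) ^ n) ^ 2 * (1 / 4) ^ n = (4 / r) ^ n := by
      rw [← pow_mul, mul_comm n, pow_mul, ← mul_pow, div_pow, Real.sq_sqrt r0.le]
      congr 1
      ring
    rw [mul_pow, ← k2] at k1
    have k3 : ‖(1 - v) Ω‖ ^ 2 ≤ 2 * (1 / 4) ^ n :=
      le_of_mul_le_mul_left (a := ((4 / √(r : ℝ)) ^ n) ^ 2) (by linarith) (by positivity)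
    have k4 : (0 : ℝ) ≤ (1 / 4) ^ n := by positivity
    exact le_of_pow_le_pow_left₀ two_ne_zero κ0.le (by linarith)
  set R := Y * (1 - u) + Y' * (1 - v) + D with hR'
  have RM : R ∈ M := add_mem (add_mem (mul_mem a1 (sub_mem (one_mem M) uM))
    (mul_mem b1 (sub_mem (one_mem M) vM))) c1
  have Rs : IsSelfAdjoint R := by
    have k1 := (u2 Y rfl).eq
    have k2 := (v2 Y' rfl).eq
    simp only [hR', IsSelfAdjoint, star_add, star_mul, star_sub, star_one, a2.star_eq, b2.star_eq,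
      c2.star_eq, up.isSelfAdjoint.star_eq, vp.isSelfAdjoint.star_eq, mul_sub, sub_mul, mul_one, one_mul,
      k1, k2]
  have Rn : ‖R Ω‖ ≤ 3 * κ := by
    have k0 := norm_add₃_le (a := (Y * (1 - u)) Ω) (b := (Y' * (1 - v)) Ω) (c := D Ω)
    have k1 : ‖(Y * (1 - u)) Ω‖ ≤ ‖(1 - u) Ω‖ :=
      (Y.le_opNorm _).trans (mul_le_of_le_one_left (norm_nonneg _) a3)
    have k2 : ‖(Y' * (1 - v)) Ω‖ ≤ ‖(1 - v) Ω‖ :=
      (Y'.le_opNorm _).trans (mul_le_of_le_one_left (norm_nonneg _) b3)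
    rw [hR', ContinuousLinearMap.add_apply, ContinuousLinearMap.add_apply]
    linarith
  obtain ⟨q, qM, qp, -, q3, q4⟩ := spl RM Rs (c := 1 / √(r : ℝ)) (by positivity)
  refine ⟨p, ⟨q0, q1, q2⟩, q, qM, qp, hη₀ _ (sub_mem (one_mem M) qM) qp.one_sub.norm_le ?_, ?_⟩
  · have k1 := q4 1 Ω
    rw [pow_one, pow_one] at k1
    have k2 : 3 * κ = 1 / √(r : ℝ) * η₀ := by rw [hκ]; field_simp
    exact le_of_mul_le_mul_left (k1.trans (Rn.trans k2.le)) (by positivity)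
  · have e2 : q * (Y + Y' + D) * q = q * (Y * u) * q + q * (Y' * v) * q + q * R * q := by
      rw [hR']; noncomm_ring
    have k1 := norm_add₃_le (a := q * (Y * u) * q) (b := q * (Y' * v) * q) (c := q * R * q)
    have k2 := (cmp_le qp (Y * u)).2
    have k3 := (cmp_le qp (Y' * v)).2
    have k4 := (cmp_le qp R).1
    have k6 : (1000 : ℝ) / √r = 2 * (480 / √r + 4 / √r + 1 / √r) + 30 * (1 / √r) := by ring
    have k7 : (0 : ℝ) ≤ 1 / √r := by positivity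
    rw [e, mul_smul_comm, smul_mul_assoc, norm_smul, e2, k6]
    simp only [Complex.norm_ofNat]
    linarith

theorem pave_cv (hΩ : IsCV M A Ω) {ε : ℝ} (hε : 0 < ε) {r : ℕ} (hr : 2 ≤ r) (h : 1000 ^ 2 / ε ^ 2 ≤ r)
    (hx : x ∈ M) (hs : IsSelfAdjoint x) : SoPavable M A x ε r := by
  intro F δ hδ
  have hA := hΩ.masa
  obtain ⟨E, hE⟩ := exists_E hA hΩ
  have Es : IsSelfAdjoint (E x) := by
    rw [IsSelfAdjoint, ← hE.star x hx, hs.star_eq]
  have k : 1000 / √(r : ℝ) ≤ ε := by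
    have r0 : (0 : ℝ) < r := by exact_mod_cast (by omega : 0 < r)
    rw [div_le_iff₀ (by positivity)] at h ⊢
    refine le_of_pow_le_pow_left₀ two_ne_zero (by positivity) ?_
    rw [mul_pow, Real.sq_sqrt r0.le]
    linarith
  obtain ⟨t, t0, x₁, x1, x2, x3, e, tn⟩ : ∃ t : ℝ, 0 ≤ t ∧ ∃ x₁ ∈ M, IsSelfAdjoint x₁ ∧ ‖x₁‖ ≤ 1 ∧
      x = (t : ℂ) • x₁ ∧ t = ‖x‖ := by
    by_cases h0 : x = 0
    · exact ⟨0, le_rfl, 0, zero_mem M, IsSelfAdjoint.zero _, by simp, by simp [h0], by simp [h0]⟩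
    · have n0 : ‖x‖ ≠ 0 := norm_ne_zero_iff.2 h0
      refine ⟨‖x‖, norm_nonneg _, ((‖x‖⁻¹ : ℝ) : ℂ) • x, smul_mem_M hx _, ?_, ?_, ?_, rfl⟩
      · rw [IsSelfAdjoint, star_smul, hs.star_eq]; simp
      · rw [norm_smul]; simp [n0]
      · rw [smul_smul, ← Complex.ofReal_mul, mul_inv_cancel₀ n0]; simp
  obtain ⟨p, ⟨p1, p2, p3⟩, q, q1, q2, q3, q4⟩ := pave_one hA hΩ x1 x2 x3 hE hr F hδ
  refine ⟨p, p1, p2, p3, E x, hE.mem x hx, Es, hE.norm x hx, q, q1, q2, q3, ?_⟩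
  have e2 : q * (∑ i, p i * x * p i - E x) * q = (t : ℂ) • (q * (∑ i, p i * x₁ * p i - E x₁) * q) := by
    conv_lhs => rw [e, hE.smul _ x1]
    simp only [mul_smul_comm, smul_mul_assoc, ← smul_sum, ← smul_sub]
  rw [e2, norm_smul, ← tn, Complex.norm_real, Real.norm_of_nonneg t0, mul_comm]
  exact mul_le_mul_of_nonneg_right (q4.trans k) t0

end Vale.Agent.P078.G
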