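import Vale.Agent.P078.X.Pin

/-!
The totally non-normal part of a MASA.
-/

open Finset Filter Topology Vale.Agent.P070h8 Vale.Agent.P078.G Vale.Agent.P078.G.PinAux
open scoped Classical InnerProductSpace

namespace Vale.Agent.P078.X

variable {H : Type*} [NormedAddCommGroup H] [InnerProductSpace ℂ H] [CompleteSpace H]
  {M : VonNeumannAlgebra H} {A : StarSubalgebra ℂ (H →L[ℂ] H)}

namespace NN

theorem wlim {J : Type*} (U : Ultrafilter J) (y : J → H →L[ℂ] H) {C : ℝ} (C0 : 0 ≤ C)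
    (hC : ∀ j, ‖y j‖ ≤ C) : ∃ a : H →L[ℂ] H, ‖a‖ ≤ C ∧
      ∀ ξ η, Tendsto (fun j => ⟪η, y j ξ⟫_ℂ) U (𝓝 ⟪η, a ξ⟫_ℂ) := by
  have bd : ∀ ξ η j, ‖⟪y j ξ, η⟫_ℂ‖ ≤ C * ‖ξ‖ * ‖η‖ := fun ξ η j =>
    (norm_inner_le_norm _ _).trans (mul_le_mul_of_nonneg_right (((y j).le_opNorm ξ).trans
      (mul_le_mul_of_nonneg_right (hC j) (norm_nonneg _))) (norm_nonneg _))
  have ex : ∀ ξ η, ∃ c, Tendsto (fun j => ⟪y j ξ, η⟫_ℂ) U (𝓝 c) := fun ξ η => by
    obtain ⟨c, -, hc⟩ := (isCompact_closedBall (0 : ℂ) (C * ‖ξ‖ * ‖η‖)).ultrafilter_le_nhds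
      (U.map fun j => ⟪y j ξ, η⟫_ℂ) (by
        rw [Ultrafilter.coe_map, le_principal_iff, Filter.mem_map]
        exact univ_mem' fun j => mem_closedBall_zero_iff.2 (bd ξ η j))
    exact ⟨c, hc⟩
  choose B hB using ex
  have bB : ∀ ξ η, ‖B ξ η‖ ≤ C * ‖ξ‖ * ‖η‖ := fun ξ η => le_of_tendsto' (hB ξ η).norm (bd ξ η)
  let f : H → H →L[ℂ] ℂ := fun ξ => LinearMap.mkContinuous
    { toFun := B ξ
      map_add' := fun η η' => tendsto_nhds_unique (hB ξ _)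
        (((hB ξ η).add (hB ξ η')).congr fun j => (inner_add_right _ _ _).symm)
      map_smul' := fun c η => tendsto_nhds_unique (hB ξ _)
        (((hB ξ η).const_mul c).congr fun j => (inner_smul_right _ _ _).symm) } (C * ‖ξ‖) (bB ξ)
  let v : H → H := fun ξ => (InnerProductSpace.toDual ℂ H).symm (f ξ)
  have hv : ∀ ξ η, Tendsto (fun j => ⟪η, y j ξ⟫_ℂ) U (𝓝 ⟪η, v ξ⟫_ℂ) := fun ξ η => by
    have h1 : ⟪v ξ, η⟫_ℂ = B ξ η := InnerProductSpace.toDual_symm_apply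
    have h2 := (Complex.continuous_conj.tendsto _).comp (hB ξ η)
    rw [← h1, inner_conj_symm] at h2
    exact h2.congr fun j => inner_conj_symm _ _
  have vb : ∀ ξ, ‖v ξ‖ ≤ C * ‖ξ‖ := fun ξ => by
    rw [LinearIsometryEquiv.norm_map]
    exact LinearMap.mkContinuous_norm_le _ (by positivity) _
  refine ⟨LinearMap.mkContinuous
    { toFun := v
      map_add' := fun ξ ξ' => ext_inner_left ℂ fun η => tendsto_nhds_unique (hv _ η) (by
        rw [inner_add_right]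
        exact ((hv ξ η).add (hv ξ' η)).congr fun j => by rw [map_add, inner_add_right])
      map_smul' := fun c ξ => ext_inner_left ℂ fun η => tendsto_nhds_unique (hv _ η) (by
        rw [RingHom.id_apply, inner_smul_right]
        exact ((hv ξ η).const_mul c).congr fun j => by rw [map_smul, inner_smul_right]) } C vb,
    LinearMap.mkContinuous_norm_le _ C0 _, hv⟩

theorem wcomm {J : Type*} {U : Filter J} [U.NeBot] {y : J → H →L[ℂ] H} {a T : H →L[ℂ] H}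
    (h : ∀ ξ η, Tendsto (fun j => ⟪η, y j ξ⟫_ℂ) U (𝓝 ⟪η, a ξ⟫_ℂ))
    (hT : ∀ᶠ j in U, T * y j = y j * T) : T * a = a * T := by
  ext ξ
  refine ext_inner_left ℂ fun η => ?_
  rw [ContinuousLinearMap.mul_apply, ContinuousLinearMap.mul_apply, ← inner_star_left]
  refine tendsto_nhds_unique (h ξ _) ((h (T ξ) η).congr' ?_)
  filter_upwards [hT] with j hj
  rw [inner_star_left, ← ContinuousLinearMap.mul_apply, ← hj]
  rfl

theorem greedy {ι J κ : Type*} {U : Filter J} [U.NeBot] (F : Finset κ) (v : ι → κ → J → H)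
    (hv : ∀ j ξ η, Tendsto (fun Q => ⟪η, v j ξ Q⟫_ℂ) U (𝓝 0)) {ε : ℝ} (hε : 0 < ε) (s : Finset ι) :
    ∃ Q : ι → J, ∑ ξ ∈ F, ‖∑ j ∈ s, v j ξ (Q j)‖ ^ 2 ≤
      ∑ ξ ∈ F, ∑ j ∈ s, ‖v j ξ (Q j)‖ ^ 2 + s.card * ε := by
  induction s using Finset.induction_on with
  | empty => exact ⟨fun _ => (U.nonempty_of_neBot).some, by simp⟩
  | insert a s ha ih =>
    obtain ⟨Q, hQ⟩ := ih
    have h1 : Tendsto (fun q => ∑ ξ ∈ F, 2 * (⟪∑ j ∈ s, v j ξ (Q j), v a ξ q⟫_ℂ).re) U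
        (𝓝 (∑ ξ ∈ F, 2 * (0 : ℂ).re)) := tendsto_finsetSum _ fun ξ _ =>
      ((Complex.continuous_re.tendsto _).comp (hv a ξ _)).const_mul 2
    obtain ⟨q, hq⟩ := (h1.eventually (gt_mem_nhds (a := ε) (by simpa using hε))).exists
    refine ⟨Function.update Q a q, ?_⟩
    have e : ∀ j ∈ s, Function.update Q a q j = Q j := fun j hj =>
      Function.update_of_ne (by rintro rfl; exact ha hj) _ _
    have e1 : ∀ ξ, ∑ j ∈ s, v j ξ (Function.update Q a q j) = ∑ j ∈ s, v j ξ (Q j) := fun ξ =>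
      sum_congr rfl fun j hj => by rw [e j hj]
    have e2 : ∀ ξ, ∑ j ∈ s, ‖v j ξ (Function.update Q a q j)‖ ^ 2 = ∑ j ∈ s, ‖v j ξ (Q j)‖ ^ 2 :=
      fun ξ => sum_congr rfl fun j hj => by rw [e j hj]
    have e3 : ∀ a b : H, ‖a + b‖ ^ 2 = ‖a‖ ^ 2 + ‖b‖ ^ 2 + 2 * (⟪b, a⟫_ℂ).re := fun a b => by
      rw [add_comm a, norm_add_sq (𝕜 := ℂ)]
      change _ + 2 * (⟪b, a⟫_ℂ).re + _ = _
      ring
    simp only [sum_insert ha, Function.update_self, e1, e2, e3, sum_add_distrib,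
      card_insert_of_notMem ha]
    push_cast
    linarith

/-- Centered coincidence of two colours. -/
noncomputable def Xc {ι : Type} {r : ℕ} (ω : ι → Fin r) (p : ι × ι) : ℝ :=
  if p.1 = p.2 then 0 else (if ω p.1 = ω p.2 then 1 else 0) - 1 / r

theorem avg {ι : Type} [Fintype ι] {r : ℕ} (hr : 0 < r) {a b : ι} (hab : a ≠ b)
    {Y : (ι → Fin r) → ℝ} (hY : ∀ ω t, Y (Function.update ω a t) = Y ω) :
    ∑ ω : ι → Fin r, ((if ω a = ω b then 1 else 0) - 1 / r) * Y ω = 0 := by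
  have r0 : (r : ℝ) ≠ 0 := by positivity
  set f : (ι → Fin r) → ℝ := fun ω => ((if ω a = ω b then 1 else 0) - 1 / r) * Y ω with hf
  have inv : Function.Involutive fun q : (ι → Fin r) × Fin r =>
      (Function.update q.1 a q.2, q.1 a) := fun q => by simp
  have h1 := Equiv.sum_comp inv.toPerm fun q => f q.1
  rw [Fintype.sum_prod_type, Fintype.sum_prod_type] at h1
  have h2 : ∀ ω, ∑ t, f (Function.update ω a t) = 0 := fun ω => by
    simp only [hf, hY, Function.update_self, Function.update_of_ne hab.symm, ← sum_mul,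
      sum_sub_distrib, sum_ite_eq', mem_univ, if_true, sum_const, card_univ, Fintype.card_fin,
      nsmul_eq_mul]
    rw [mul_one_div_cancel r0, sub_self, zero_mul]
  simp only [Function.Involutive.coe_toPerm, h2, sum_const, card_univ, Fintype.card_fin,
    nsmul_eq_mul, mul_zero, ← mul_sum] at h1
  exact (mul_eq_zero.1 h1.symm).resolve_left r0

theorem Xc_le {ι : Type} {r : ℕ} (hr : 0 < r) (ω : ι → Fin r) (p : ι × ι) : |Xc ω p| ≤ 1 := by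
  have h1 : (1 : ℝ) / r ≤ 1 := by
    rw [div_le_one (by positivity)]
    exact_mod_cast hr
  have h2 : (0 : ℝ) ≤ 1 / r := by positivity
  unfold Xc
  rw [abs_le]
  split_ifs <;> constructor <;> linarith

theorem Xc_orth {ι : Type} [Fintype ι] {r : ℕ} (hr : 0 < r) {p q : ι × ι} (h1 : q ≠ p)
    (h2 : q ≠ p.swap) : ∑ ω : ι → Fin r, Xc ω p * Xc ω q = 0 := by
  obtain ⟨j, k⟩ := p
  obtain ⟨j', k'⟩ := q
  by_cases e : j = k
  · simp [Xc, e]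
  by_cases e' : j' = k'
  · simp [Xc, e']
  have key : ∀ a : ι, a ≠ j' → a ≠ k' → ∀ (ω : ι → Fin r) t,
      Xc (Function.update ω a t) (j', k') = Xc ω (j', k') := fun a b1 b2 ω t => by
    simp only [Xc, Function.update_of_ne b1.symm, Function.update_of_ne b2.symm]
  by_cases c : j ≠ j' ∧ j ≠ k'
  · simpa only [Xc, e, if_false] using avg hr e (key j c.1 c.2)
  · have c' : k ≠ j' ∧ k ≠ k' := by
      simp only [Prod.swap, ne_eq, Prod.mk.injEq] at h1 h2 c ⊢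
      constructor <;> rintro rfl <;> tauto
    simpa only [Xc, e, if_false, eq_comm] using avg hr (Ne.symm e) (key k c'.1 c'.2)

omit [CompleteSpace H] in
theorem qform {ι : Type} [Fintype ι] {r : ℕ} (hr : 0 < r) (v : ι × ι → H) :
    ∑ ω : ι → Fin r, ‖∑ p, (Xc ω p : ℂ) • v p‖ ^ 2 ≤ ∑ _ω : ι → Fin r, 2 * ∑ p, ‖v p‖ ^ 2 := by
  have e : ∀ ω : ι → Fin r, ‖∑ p, (Xc ω p : ℂ) • v p‖ ^ 2 =
      ∑ p, ∑ q, Xc ω p * Xc ω q * (⟪v p, v q⟫_ℂ).re := fun ω => by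
    rw [← inner_self_eq_norm_sq (𝕜 := ℂ), sum_inner, map_sum]
    refine sum_congr rfl fun p _ => ?_
    rw [inner_sum, map_sum]
    refine sum_congr rfl fun q _ => ?_
    rw [inner_smul_left, inner_smul_right, Complex.conj_ofReal, ← mul_assoc, ← Complex.ofReal_mul]
    exact Complex.re_ofReal_mul _ _
  have b : ∀ (ω : ι → Fin r) p q, Xc ω p * Xc ω q * (⟪v p, v q⟫_ℂ).re ≤
      (‖v p‖ ^ 2 + ‖v q‖ ^ 2) / 2 := fun ω p q => by
    have h1 : |Xc ω p * Xc ω q * (⟪v p, v q⟫_ℂ).re| ≤ 1 * 1 * (‖v p‖ * ‖v q‖) := by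
      rw [abs_mul, abs_mul]
      exact mul_le_mul (mul_le_mul (Xc_le hr ω p) (Xc_le hr ω q) (abs_nonneg _) zero_le_one)
        ((Complex.abs_re_le_norm _).trans (norm_inner_le_norm _ _)) (abs_nonneg _) (by norm_num)
    nlinarith [le_abs_self (Xc ω p * Xc ω q * (⟪v p, v q⟫_ℂ).re), sq_nonneg (‖v p‖ - ‖v q‖)]
  have h : ∀ p, ∑ q, ∑ ω : ι → Fin r, Xc ω p * Xc ω q * (⟪v p, v q⟫_ℂ).re ≤
      ∑ _ω : ι → Fin r, (‖v p‖ ^ 2 + (‖v p‖ ^ 2 + ‖v p.swap‖ ^ 2) / 2) := fun p => by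
    rw [← sum_subset (subset_univ {p, p.swap}) fun q _ hq => by
      rw [mem_insert, mem_singleton, not_or] at hq
      rw [← sum_mul, Xc_orth hr hq.1 hq.2, zero_mul], sum_comm]
    refine sum_le_sum fun ω _ => ?_
    have b1 := b ω p p
    have b2 := b ω p p.swap
    by_cases hp : p = p.swap
    · rw [← hp, pair_eq_singleton, sum_singleton]
      nlinarith [sq_nonneg ‖v p‖]
    · rw [sum_pair hp]
      linarith
  simp only [e]
  rw [sum_comm]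
  refine (sum_le_sum fun p _ => (sum_comm.le.trans (h p))).trans ?_
  rw [sum_comm]
  refine sum_le_sum fun ω _ => le_of_eq ?_
  have sw : ∑ p : ι × ι, ‖v p.swap‖ ^ 2 = ∑ p, ‖v p‖ ^ 2 :=
    Equiv.sum_comp (Equiv.prodComm ι ι) fun p => ‖v p‖ ^ 2
  rw [sum_add_distrib, ← sum_div, sum_add_distrib, sw]
  ring

theorem thr {κ : Type*} [Fintype κ] {y : κ → H →L[ℂ] H} (hy : ∀ j, y j ∈ M) {θ : ℝ} (hθ : 0 ≤ θ) :
    ∃ g ∈ M, IsStarProjection g ∧ (∀ η, ∑ j, ‖y j (g η)‖ ^ 2 ≤ θ * ‖η‖ ^ 2) ∧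
      (∀ ξ, θ * ‖(1 - g) ξ‖ ^ 2 ≤ ∑ j, ‖y j ξ‖ ^ 2) ∧
      ∀ T, IsSelfAdjoint T → Commute T (∑ j, star (y j) * y j) → Commute T g := by
  set s := ∑ j, star (y j) * y j with hs
  have sM : s ∈ M := sum_mem fun j _ => mul_mem (star_mem (hy j)) (hy j)
  have ss : IsSelfAdjoint s := by simp [hs, IsSelfAdjoint, star_sum]
  have sb : IsSelfAdjoint (s - (θ : ℂ) • (1 : H →L[ℂ] H)) := by simp [IsSelfAdjoint, ss.star_eq]
  obtain ⟨g, g1, g2, g3, g4⟩ := cut sb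
  have cm : ∀ T, Commute T s → Commute T (s - (θ : ℂ) • (1 : H →L[ℂ] H)) :=
    fun T h => h.sub_right ((Commute.one_right T).smul_right _)
  have gM : g ∈ M := mem_of_comm fun T hT => g2 T
    (cm T (VonNeumannAlgebra.mem_commutant_iff.1 hT s sM).symm)
    (cm _ (VonNeumannAlgebra.mem_commutant_iff.1 (star_mem hT) s sM).symm)
  have sg : Commute s g := g2 s (cm s rfl) (by rw [ss.star_eq]; exact cm s rfl)
  have q : ∀ ξ, (⟪ξ, s ξ⟫_ℂ).re = ∑ j, ‖y j ξ‖ ^ 2 := fun ξ => by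
    rw [hs, ContinuousLinearMap.sum_apply, inner_sum, Complex.re_sum]
    exact sum_congr rfl fun j _ => re_inner_star_mul _ _
  have key : ∀ p : H →L[ℂ] H, IsStarProjection p → ∀ ξ,
      (⟪ξ, (p * (s - (θ : ℂ) • (1 : H →L[ℂ] H)) * p) ξ⟫_ℂ).re =
        ∑ j, ‖y j (p ξ)‖ ^ 2 - θ * ‖p ξ‖ ^ 2 := fun p hp ξ => by
    have e1 : ⟪ξ, (p * (s - (θ : ℂ) • (1 : H →L[ℂ] H)) * p) ξ⟫_ℂ =
        ⟪p ξ, (s - (θ : ℂ) • (1 : H →L[ℂ] H)) (p ξ)⟫_ℂ := by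
      rw [← inner_star_right, hp.isSelfAdjoint.star_eq]
      rfl
    rw [e1, ContinuousLinearMap.sub_apply, inner_sub_right, Complex.sub_re, q,
      ContinuousLinearMap.smul_apply, ContinuousLinearMap.one_apply, inner_smul_right,
      Complex.re_ofReal_mul, inner_self_eq_norm_sq_to_K]
    norm_cast
  refine ⟨g, gM, g1, fun η => ?_, fun ξ => ?_, fun T hT h => g2 T (cm T h) (by
    rw [hT.star_eq]; exact cm T h)⟩
  · have k1 := re_inner_nonneg (neg_nonneg.2 g3) η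
    rw [ContinuousLinearMap.neg_apply, inner_neg_right, Complex.neg_re, key g g1] at k1
    have k2 : ‖g η‖ ^ 2 ≤ ‖η‖ ^ 2 := pow_le_pow_left₀ (norm_nonneg _)
      ((g.le_opNorm η).trans (mul_le_of_le_one_left (norm_nonneg _) g1.norm_le)) 2
    nlinarith
  · have k1 := re_inner_nonneg g4 ξ
    rw [key _ g1.one_sub] at k1
    have e : s = star g * s * g + star (1 - g) * s * (1 - g) := by
      rw [g1.one_sub.isSelfAdjoint.star_eq, g1.isSelfAdjoint.star_eq, ← sg.eq,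
        ← ((Commute.one_right s).sub_right sg).eq, mul_assoc, mul_assoc, g1.isIdempotentElem.eq,
        g1.one_sub.isIdempotentElem.eq]
      noncomm_ring
    have k2 : ∑ j, ‖y j ξ‖ ^ 2 = ∑ j, ‖y j (g ξ)‖ ^ 2 + ∑ j, ‖y j ((1 - g) ξ)‖ ^ 2 := by
      rw [← q, ← q, ← q, ← inner_star_right, ← inner_star_right, ← Complex.add_re, ← inner_add_right]
      conv_lhs => rw [e]
      rfl
    have k3 : 0 ≤ ∑ j, ‖y j (g ξ)‖ ^ 2 := sum_nonneg fun _ _ => sq_nonneg _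
    linarith

/-- Different partitions on the cells of `R`. -/
noncomputable def glue (hA : IsMASA M A) (R : G.Part A) (Q : R.ι → G.Part A) : G.Part A where
  ι := Σ j, (Q j).ι
  e := fun k => R.e k.1 * (Q k.1).e k.2
  mem := fun k => mul_mem (R.mem _) ((Q _).mem _)
  proj := fun k => (R.proj _).mul ((Q _).proj _) (hA.2.1 _ (R.mem _) _ ((Q _).mem _))
  orth := by
    rintro ⟨j, k⟩ ⟨j', k'⟩ h
    rw [mul_assoc, ← mul_assoc ((Q j).e k), ← hA.2.1 _ (R.mem j') _ ((Q j).mem k), mul_assoc,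
      ← mul_assoc]
    by_cases h1 : j = j'
    · subst h1
      rw [(Q j).orth k k' fun h2 => h (by rw [h2]), mul_zero]
    · rw [R.orth _ _ h1, zero_mul]
  sum := by simp only [Fintype.sum_sigma, ← mul_sum, G.Part.sum, mul_one]

theorem glue_S (hA : IsMASA M A) (R : G.Part A) (Q : R.ι → G.Part A) (x : H →L[ℂ] H) :
    (glue hA R Q).S x = ∑ j, R.e j * (Q j).S x * R.e j := by
  refine (Fintype.sum_sigma _).trans (sum_congr rfl fun j _ => ?_)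
  rw [G.Part.S, mul_sum, sum_mul]
  refine sum_congr rfl fun k _ => ?_
  change R.e j * (Q j).e k * x * (R.e j * (Q j).e k) = _
  rw [hA.2.1 _ (R.mem j) _ ((Q j).mem k)]
  nth_rewrite 1 [← hA.2.1 _ (R.mem j) _ ((Q j).mem k)]
  simp only [mul_assoc]

theorem colour (Q : G.Part A) {r : ℕ} (ω : Q.ι → Fin r) (x : H →L[ℂ] H) :
    ∃ p : Fin r → H →L[ℂ] H, IsPart A p ∧ ∑ i, p i * x * p i =
      ∑ q : Q.ι × Q.ι, (Xc ω q : ℂ) • (Q.e q.1 * x * Q.e q.2) + Q.S x + (1 / r : ℂ) • (x - Q.S x) := by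
  have m : ∀ i i', (∑ k, if ω k = i then Q.e k else 0) * (∑ k, if ω k = i' then Q.e k else 0) =
      if i = i' then ∑ k, if ω k = i then Q.e k else 0 else 0 := fun i i' => by
    rw [sum_mul_sum]
    have : ∀ k, (∑ l, (if ω k = i then Q.e k else 0) * if ω l = i' then Q.e l else 0) =
        if i = i' then if ω k = i then Q.e k else 0 else 0 := fun k => by
      rw [sum_eq_single k (fun l _ hl => by split_ifs <;> simp [Q.orth k l hl.symm]) (by simp)]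
      split_ifs <;> simp_all [idem]
    simp only [this]
    split_ifs <;> simp
  refine ⟨fun i => ∑ k, if ω k = i then Q.e k else 0, ⟨fun i => ⟨sum_mem fun k _ => ?_, ?_, ?_⟩,
    fun i j hij => by rw [m, if_neg hij], ?_⟩, ?_⟩
  · split_ifs
    exacts [Q.mem k, zero_mem A]
  · rw [IsIdempotentElem, m, if_pos rfl]
  · rw [IsSelfAdjoint, star_sum]
    refine sum_congr rfl fun k _ => ?_
    split_ifs
    exacts [(Q.proj k).isSelfAdjoint.star_eq, star_zero _]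
  · rw [sum_comm, ← Q.sum]
    simp
  · have e1 : x = ∑ j, ∑ k, Q.e j * x * Q.e k := by
      simp only [← mul_sum, ← sum_mul, Q.sum, mul_one, one_mul]
    have e2 : Q.S x = ∑ j, ∑ k, if j = k then Q.e j * x * Q.e k else 0 := by
      simp [G.Part.S]
    have e3 : ∑ i, (∑ k, if ω k = i then Q.e k else 0) * x * (∑ k, if ω k = i then Q.e k else 0) =
        ∑ j, ∑ k, if ω j = ω k then Q.e j * x * Q.e k else 0 := by
      simp only [sum_mul, mul_sum]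
      rw [sum_comm]
      refine (sum_congr rfl fun k _ => sum_comm).trans (sum_comm.trans ?_)
      refine sum_congr rfl fun j _ => sum_congr rfl fun k _ => ?_
      rw [sum_eq_single (ω j) (fun i _ hi => by simp [hi.symm]) (by simp)]
      simp [eq_comm]
    rw [e3, e2, Fintype.sum_prod_type]
    nth_rewrite 4 [e1]
    simp only [← sum_sub_distrib, smul_sum, ← sum_add_distrib]
    refine sum_congr rfl fun j _ => sum_congr rfl fun k _ => ?_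
    unfold Xc
    by_cases h1 : j = k
    · simp [h1]
    · by_cases h2 : ω j = ω k <;> simp [h1, h2, sub_smul]

end NN

open NN

theorem exists_Phi (hA : IsMASA M A) : ∃ (U : Ultrafilter (G.Part A)) (Φ : (H →L[ℂ] H) → H →L[ℂ] H),
    (U : Filter (G.Part A)) ≤ atTop ∧ (∀ m, ‖Φ m‖ ≤ ‖m‖) ∧ (∀ m ∈ M, Φ m ∈ A) ∧
      ∀ m ξ η, Tendsto (fun P : G.Part A => ⟪η, P.S m ξ⟫_ℂ) U (𝓝 ⟪η, Φ m ξ⟫_ℂ) := by
  have := neBot hA
  let U := Ultrafilter.of (atTop : Filter (G.Part A))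
  have hU : (U : Filter (G.Part A)) ≤ atTop := Ultrafilter.of_le _
  choose Φ h1 h2 using fun m : H →L[ℂ] H =>
    wlim U (fun P : G.Part A => P.S m) (norm_nonneg m) fun P => S_norm P m
  refine ⟨U, Φ, hU, h1, fun m hm => mem_of_proj hA (mem_of_comm fun T hT => wcomm (h2 m)
    (Eventually.of_forall fun P =>
      (VonNeumannAlgebra.mem_commutant_iff.1 hT _ (S_mem hA P hm)).symm)) fun b hb hp =>
        (wcomm (h2 m) (hU ?_)).symm, h2⟩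
  obtain ⟨P₀, hP⟩ := exists_two hb hp
  refine (ev_iff hA).2 ⟨P₀, fun P h => ?_⟩
  obtain ⟨T, rfl⟩ := hP P h
  rw [sum_mul, mul_sum]
  exact sum_congr rfl fun i _ => by rw [e_S, S_e]

theorem NN.sq2 (u v : H) : ‖u + v‖ ^ 2 ≤ 2 * ‖u‖ ^ 2 + 2 * ‖v‖ ^ 2 := by
  nlinarith [pow_le_pow_left₀ (norm_nonneg _) (norm_add_le u v) 2, sq_nonneg (‖u‖ - ‖v‖)]

theorem NN.mid1 (hA : IsMASA M A) {w x a c : H →L[ℂ] H} (F : Finset H) {U : Filter (G.Part A)} [U.NeBot]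
    (Φ3 : ∀ ξ η, Tendsto (fun P : G.Part A => ⟪η, P.S x ξ⟫_ℂ) U (𝓝 ⟪η, a ξ⟫_ℂ)) (aA : a ∈ A)
    (an : ‖a‖ ≤ 1) (hn : ‖x‖ ≤ 1) {θ τ : ℝ} (θ0 : 0 < θ) (τ0 : 0 < τ) (R : G.Part A)
    (cR : ∀ j η, ‖c (R.e j η)‖ ^ 2 ≤ θ * ‖R.e j η‖ ^ 2) : ∃ P : G.Part A,
      ∑ ξ ∈ F, ‖c ((P.S x - a) (w ξ))‖ ^ 2 ≤ 4 * (θ * ∑ ξ ∈ F, ‖w ξ‖ ^ 2) + τ / 8 ∧
        ∀ η, ∑ k, ‖c (P.e k η)‖ ^ 2 ≤ θ * ‖η‖ ^ 2 := by
  set B := ∑ ξ ∈ F, ‖w ξ‖ ^ 2 with hB
  obtain ⟨Q, hQ⟩ := greedy (U := U) F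
    (fun j ξ (P : G.Part A) => c (R.e j ((P.S x - a) (R.e j (w ξ))))) (fun j ξ η => by
      have := (Φ3 (R.e j (w ξ)) (star (c * R.e j) η)).sub_const ⟪star (c * R.e j) η, a (R.e j (w ξ))⟫_ℂ
      rw [sub_self] at this
      refine this.congr fun P => ?_
      rw [← inner_sub_right, inner_star_left]
      rfl) (ε := τ / (8 * (Fintype.card R.ι + 1))) (by positivity) univ
  set P := glue hA R Q with hP
  have k1 : ∑ ξ ∈ F, ‖c ((P.S x - a) (w ξ))‖ ^ 2 ≤ 4 * (θ * B) + τ / 8 := by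
    have e : P.S x - a = ∑ j, R.e j * ((Q j).S x - a) * R.e j := by
      have e1 : ∑ j, R.e j * a * R.e j = a := by
        rw [sum_congr rfl fun j _ => show R.e j * a * R.e j = a * R.e j by
          rw [hA.2.1 _ (R.mem j) _ aA, mul_assoc, idem], ← mul_sum, R.sum, mul_one]
      simp only [mul_sub, sub_mul, sum_sub_distrib, e1, hP, glue_S]
    have e2 : ∀ ξ, c ((P.S x - a) (w ξ)) = ∑ j, c (R.e j (((Q j).S x - a) (R.e j (w ξ)))) := fun ξ => by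
      rw [e, ContinuousLinearMap.sum_apply, map_sum]
      rfl
    simp only [e2]
    refine hQ.trans (add_le_add ?_ ?_)
    · rw [hB, mul_sum, mul_sum]
      refine sum_le_sum fun ξ _ => ?_
      rw [← o1 R (w ξ), mul_sum, mul_sum]
      refine sum_le_sum fun j _ => (cR j _).trans ?_
      have b1 : ‖(Q j).S x - a‖ ≤ 2 := (norm_sub_le _ _).trans (by linarith [S_norm (Q j) x])
      have b2 := (a3 R j _).trans ((((Q j).S x - a).le_opNorm (R.e j (w ξ))).trans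
        (mul_le_mul_of_nonneg_right b1 (norm_nonneg _)))
      have b3 := mul_le_mul_of_nonneg_left (pow_le_pow_left₀ (norm_nonneg _) b2 2) θ0.le
      linarith
    · rw [card_univ, mul_div_assoc', div_le_div_iff₀ (by positivity) (by positivity)]
      nlinarith
  have cP : ∀ η, ∑ k, ‖c (P.e k η)‖ ^ 2 ≤ θ * ‖η‖ ^ 2 := fun η => by
    rw [← o1 P η, mul_sum]
    exact sum_le_sum fun k _ => cR k.1 ((Q k.1).e k.2 η)
  exact ⟨P, k1, cP⟩

theorem NN.mid2 {x c : H →L[ℂ] H} (F : Finset H) (z : H → H) (hn : ‖x‖ ≤ 1) {r : ℕ} (hr : 0 < r) {θ : ℝ}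
    (θ0 : 0 < θ) (P : G.Part A) (cP : ∀ η, ∑ k, ‖c (P.e k η)‖ ^ 2 ≤ θ * ‖η‖ ^ 2) : ∃ ω : P.ι → Fin r,
      ∑ ξ ∈ F, ‖∑ q : P.ι × P.ι, (Xc ω q : ℂ) • c (P.e q.1 (x (P.e q.2 (z ξ))))‖ ^ 2 ≤
        2 * (θ * ∑ ξ ∈ F, ‖z ξ‖ ^ 2) := by
  have h1 : ∀ ξ, ∑ q : P.ι × P.ι, ‖c (P.e q.1 (x (P.e q.2 (z ξ))))‖ ^ 2 ≤ θ * ‖z ξ‖ ^ 2 := fun ξ => by
    rw [Fintype.sum_prod_type_right, ← o1 P (z ξ), mul_sum]
    refine sum_le_sum fun k _ => ?_
    have b1 := cP (x (P.e k (z ξ)))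
    have b2 : ‖x (P.e k (z ξ))‖ ≤ ‖P.e k (z ξ)‖ :=
      (x.le_opNorm _).trans (mul_le_of_le_one_left (norm_nonneg _) hn)
    exact b1.trans (mul_le_mul_of_nonneg_left (pow_le_pow_left₀ (norm_nonneg _) b2 2) θ0.le)
  have h2 := fun ξ => (qform hr fun q : P.ι × P.ι => c (P.e q.1 (x (P.e q.2 (z ξ))))).trans
    (sum_le_sum fun ω _ => mul_le_mul_of_nonneg_left (h1 ξ) two_pos.le)
  have h3 := sum_le_sum (s := F) fun ξ _ => h2 ξ
  rw [sum_comm, sum_comm (s := F)] at h3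
  obtain ⟨ω, -, h4⟩ := exists_le_of_sum_le ⟨fun _ => ⟨0, hr⟩, mem_univ _⟩ h3
  exact ⟨ω, by rwa [mul_sum, mul_sum]⟩

theorem NN.mid (hA : IsMASA M A) {w x a c : H →L[ℂ] H} (F : Finset H) {U : Filter (G.Part A)} [U.NeBot]
    (Φ3 : ∀ ξ η, Tendsto (fun P : G.Part A => ⟪η, P.S x ξ⟫_ℂ) U (𝓝 ⟪η, a ξ⟫_ℂ)) (aA : a ∈ A)
    (an : ‖a‖ ≤ 1) (hn : ‖x‖ ≤ 1) {r : ℕ} (hr : 0 < r) {θ τ : ℝ} (θ0 : 0 < θ) (τ0 : 0 < τ)
    (θ1 : 48 * (θ * ∑ ξ ∈ F, ‖w ξ‖ ^ 2) ≤ τ) (R : G.Part A)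
    (cR : ∀ j η, ‖c (R.e j η)‖ ^ 2 ≤ θ * ‖R.e j η‖ ^ 2) :
    ∃ p : Fin r → H →L[ℂ] H, IsPart A p ∧ ∃ P : G.Part A,
      ∑ ξ ∈ F, ‖(c * (∑ i, p i * x * p i - a - (1 / r : ℂ) • (x - P.S x))) (w ξ)‖ ^ 2 ≤ τ / 2 := by
  set B := ∑ ξ ∈ F, ‖w ξ‖ ^ 2 with hB
  obtain ⟨P, k1, cP⟩ := mid1 hA (w := w) F Φ3 aA an hn θ0 τ0 R cR
  obtain ⟨ω, k2⟩ := mid2 F w hn hr θ0 P cP
  obtain ⟨p, pp, pe⟩ := colour P ω x
  refine ⟨p, pp, P, ?_⟩
  have e : ∀ ξ, (c * (∑ i, p i * x * p i - a - (1 / r : ℂ) • (x - P.S x))) (w ξ) =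
      c ((P.S x - a) (w ξ)) +
        ∑ q : P.ι × P.ι, (Xc ω q : ℂ) • c (P.e q.1 (x (P.e q.2 (w ξ)))) := fun ξ => by
    have : ∑ i, p i * x * p i - a - (1 / r : ℂ) • (x - P.S x) =
        P.S x - a + ∑ q : P.ι × P.ι, (Xc ω q : ℂ) • (P.e q.1 * x * P.e q.2) := by
      rw [pe]
      abel
    rw [this, mul_add, ContinuousLinearMap.add_apply, mul_sum, ContinuousLinearMap.sum_apply]
    simp only [mul_smul_comm]
    rfl
  simp only [e]
  refine (sum_le_sum fun ξ _ => sq2 _ _).trans ?_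
  rw [sum_add_distrib, ← mul_sum, ← mul_sum]
  linarith

theorem NN.fin {w c D Y : H →L[ℂ] H} (wM : w ∈ M) (wp : IsStarProjection w) (F : Finset H) (cM : c ∈ M)
    (cn : ‖c‖ ≤ 1) (DM : D ∈ M) (Dn : ‖D‖ ≤ 2) (YM : Y ∈ M) (Yn : ‖Y‖ ≤ 2) {r : ℕ} (hr : 0 < r)
    {t δ τ : ℝ} (ht : t = 1 / (3 * r)) (hδ : 0 < δ) (hτ : τ = t ^ 2 * δ ^ 2)
    (k3 : ∑ ξ ∈ F, ‖(c * (D - (1 / r : ℂ) • Y)) (w ξ)‖ ^ 2 ≤ τ / 2)
    (k4 : ∑ ξ ∈ F, ‖(1 - star c) (w ξ)‖ ^ 2 ≤ τ / 4) :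
    ∃ q ∈ M, IsStarProjection q ∧ w * q = q ∧ (∀ ξ ∈ F, ‖(w - q) ξ‖ < δ) ∧ ‖q * D * q‖ ≤ 3 / r := by
  have ww : w * w = w := wp.isIdempotentElem.eq
  have r0 : (0 : ℝ) < r := by positivity
  have t0 : 0 < t := by rw [ht]; positivity
  have τ0 : 0 < τ := by rw [hτ]; positivity
  set T := c * (D - (1 / r : ℂ) • Y) with hT
  have TM : T ∈ M := mul_mem cM (sub_mem DM (smul_mem_M YM _))
  obtain ⟨u, uM, up, u1, u2, u3⟩ := thr (y := ![T * w, (1 - star c) * w])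
    (Fin.forall_fin_two.2 ⟨mul_mem TM wM, mul_mem (sub_mem (one_mem M) (star_mem cM)) wM⟩) (sq_nonneg t)
  have wu : w * u = u * w := u3 w wp.isSelfAdjoint (by
    simp only [Fin.sum_univ_two, Matrix.cons_val_zero, Matrix.cons_val_one, star_mul,
      wp.isSelfAdjoint.star_eq, Commute, SemiconjBy, mul_add, add_mul, ← mul_assoc, ww]
    simp only [mul_assoc, ww])
  simp only [Fin.sum_univ_two, Matrix.cons_val_zero, Matrix.cons_val_one] at u1 u2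
  have qp : IsStarProjection (w * u) := wp.mul up wu
  have nb : ∀ y : H →L[ℂ] H, (∀ η, ‖(y * w) (u η)‖ ^ 2 ≤ t ^ 2 * ‖η‖ ^ 2) → ‖y * (w * u)‖ ≤ t :=
    fun y hy => ContinuousLinearMap.opNorm_le_bound _ t0.le fun η =>
      (abs_le_of_sq_le_sq' (by rw [mul_pow]; exact hy η) (by positivity)).2
  have n1 := nb T fun η => le_trans (le_add_of_nonneg_right (sq_nonneg _)) (u1 η)
  have n2 := nb (1 - star c) fun η => le_trans (le_add_of_nonneg_left (sq_nonneg _)) (u1 η)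
  refine ⟨w * u, mul_mem wM uM, qp, by rw [← mul_assoc, ww], fun ξ hξ => ?_, ?_⟩
  · have b1 := u2 (w ξ)
    have e : ∀ y : H →L[ℂ] H, (y * w) (w ξ) = y (w ξ) := fun y => by
      change (y * w * w) ξ = (y * w) ξ
      rw [mul_assoc, ww]
    have e' : (1 - u) (w ξ) = (w - w * u) ξ := by
      change ((1 - u) * w) ξ = _
      rw [wu, sub_mul, one_mul]
    rw [e, e, e'] at b1
    have b2 := single_le_sum (f := fun ξ => ‖T (w ξ)‖ ^ 2) (fun _ _ => sq_nonneg _) hξ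
    have b3 := single_le_sum (f := fun ξ => ‖(1 - star c) (w ξ)‖ ^ 2) (fun _ _ => sq_nonneg _) hξ
    have b4 : t ^ 2 * ‖(w - w * u) ξ‖ ^ 2 < t ^ 2 * δ ^ 2 := by linarith
    exact lt_of_pow_lt_pow_left₀ 2 hδ.le (lt_of_mul_lt_mul_left b4 (sq_nonneg t))
  · set q := w * u with hq
    have e : q * D * q = q * (T * q) + (1 / r : ℂ) • (q * c * Y * q) +
        star ((1 - star c) * q) * D * q := by
      rw [star_mul, star_sub, star_star, star_one, qp.isSelfAdjoint.star_eq, hT]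
      simp only [mul_sub, sub_mul, mul_smul_comm, smul_mul_assoc, mul_assoc, mul_one]
      abel
    have qn := qp.norm_le
    have b1 : ‖q * (T * q)‖ ≤ t := (norm_mul_le _ _).trans
      ((mul_le_of_le_one_left (norm_nonneg _) qn).trans n1)
    have b2 : ‖q * c * Y * q‖ ≤ 1 * 1 * 2 * 1 :=
      (norm_mul_le _ _).trans (mul_le_mul ((norm_mul_le _ _).trans (mul_le_mul ((norm_mul_le _ _).trans
        (mul_le_mul qn cn (norm_nonneg _) zero_le_one)) Yn (norm_nonneg _) (by norm_num))) qn (norm_nonneg _) (by norm_num))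
    have b3 : ‖star ((1 - star c) * q) * D * q‖ ≤ t * 2 * 1 :=
      (norm_mul_le _ _).trans (mul_le_mul ((norm_mul_le _ _).trans (mul_le_mul
        ((norm_star _).trans_le n2) Dn (norm_nonneg _) t0.le)) qn (norm_nonneg _) (by positivity))
    have b4 : ‖(1 / r : ℂ) • (q * c * Y * q)‖ ≤ 1 / r * 2 := by
      rw [norm_smul, norm_div, norm_one, Complex.norm_natCast]
      exact mul_le_mul_of_nonneg_left (by linarith) (by positivity)
    have b5 : (3 : ℝ) / r = 3 * t + 1 / r * 2 := by rw [ht]; field_simp; ring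
    rw [e, b5]
    linarith [norm_add₃_le (a := q * (T * q)) (b := (1 / r : ℂ) • (q * c * Y * q))
      (c := star ((1 - star c) * q) * D * q)]

theorem nn_pave (hA : IsMASA M A) {w x : H →L[ℂ] H} (wA : w ∈ A) (wp : IsStarProjection w)
    (F : Finset H) (hw : ∀ κ : ℝ, 0 < κ → ∃ h ∈ M, IsSelfAdjoint h ∧ ‖h‖ ≤ 1 ∧ h * w = h ∧
      ∑ ξ ∈ F, ‖(w - h) ξ‖ ^ 2 ≤ κ ∧ ∃ R : G.Part A, ∑ ξ ∈ F, ∑ j, ‖h (R.e j ξ)‖ ^ 2 ≤ κ)
    (hx : x ∈ M) (hs : IsSelfAdjoint x) (hn : ‖x‖ ≤ 1) {r : ℕ} (hr : 0 < r) {δ : ℝ} (hδ : 0 < δ) :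
    ∃ p : Fin r → H →L[ℂ] H, IsPart A p ∧ ∃ a ∈ A, IsSelfAdjoint a ∧ ‖a‖ ≤ 1 ∧ ∃ q ∈ M,
      IsStarProjection q ∧ w * q = q ∧ (∀ ξ ∈ F, ‖(w - q) ξ‖ < δ) ∧
        ‖q * (∑ i, p i * x * p i - a) * q‖ ≤ 3 / r := by
  obtain ⟨U, Φ, -, Φ1, Φ2, Φ3⟩ := exists_Phi hA
  have wM := hA.1 w wA
  have ww : w * w = w := wp.isIdempotentElem.eq
  have r0 : (0 : ℝ) < r := by positivity
  set a := Φ x with ha
  have aA : a ∈ A := Φ2 x hx
  have an : ‖a‖ ≤ 1 := (Φ1 x).trans hn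
  have as : IsSelfAdjoint a := by
    refine ContinuousLinearMap.ext fun ξ => ext_inner_left ℂ fun η => ?_
    rw [inner_star_right, ← inner_conj_symm]
    refine tendsto_nhds_unique ((Complex.continuous_conj.tendsto _).comp (Φ3 x η ξ))
      ((Φ3 x ξ η).congr fun P => ?_)
    change _ = starRingEnd ℂ _
    rw [inner_conj_symm, ← inner_star_right, S_star, hs.star_eq]
  obtain ⟨t, ht⟩ : ∃ t : ℝ, t = 1 / (3 * r) := ⟨_, rfl⟩
  have t0 : 0 < t := by rw [ht]; positivity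
  obtain ⟨τ, hτ⟩ : ∃ τ : ℝ, τ = t ^ 2 * δ ^ 2 := ⟨_, rfl⟩
  have τ0 : 0 < τ := by rw [hτ]; positivity
  set B := ∑ ξ ∈ F, ‖w ξ‖ ^ 2 with hB
  have B0 : 0 ≤ B := sum_nonneg fun _ _ => sq_nonneg _
  obtain ⟨θ, hθ⟩ : ∃ θ : ℝ, θ = τ / (48 * (B + 1)) := ⟨_, rfl⟩
  have θ0 : 0 < θ := by rw [hθ]; positivity
  have θ1 : 48 * (θ * B) ≤ τ := by
    have : θ * (48 * (B + 1)) = τ := by rw [hθ]; field_simp
    nlinarith
  obtain ⟨κ, hκ⟩ : ∃ κ : ℝ, κ = τ * θ / (8 * (1 + θ)) := ⟨_, rfl⟩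
  have κ0 : 0 < κ := by rw [hκ]; positivity
  have κ1 : 2 * (κ / θ) + 2 * κ = τ / 4 := by rw [hκ]; field_simp; ring
  obtain ⟨h, hM, hsa, hn', hw', h1, R, h2⟩ := hw κ κ0
  have RM : ∀ j, R.e j ∈ M := fun j => hA.1 _ (R.mem j)
  obtain ⟨g, gM, gp, g1, g2, g3⟩ := thr (y := fun j => h * R.e j) (fun j => mul_mem hM (RM j)) θ0.le
  have gR : ∀ j, R.e j * g = g * R.e j := fun j => g3 _ (R.proj j).isSelfAdjoint (by
    have e : ∑ j, star (h * R.e j) * (h * R.e j) = R.S (h * h) := sum_congr rfl fun j _ => by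
      rw [star_mul, hsa.star_eq, (R.proj j).isSelfAdjoint.star_eq]
      simp only [mul_assoc]
    rw [e, Commute, SemiconjBy, e_S, S_e])
  set c := h * g with hc
  have cM : c ∈ M := mul_mem hM gM
  have cn : ‖c‖ ≤ 1 := (norm_mul_le _ _).trans (mul_le_one₀ hn' (norm_nonneg _) gp.norm_le)
  have cR : ∀ j η, ‖c (R.e j η)‖ ^ 2 ≤ θ * ‖R.e j η‖ ^ 2 := fun j η => by
    refine le_trans (le_of_eq ?_) ((single_le_sum (f := fun k => ‖(h * R.e k) (g (R.e j η))‖ ^ 2)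
      (fun _ _ => sq_nonneg _) (mem_univ j)).trans (g1 _))
    change ‖(c * R.e j) η‖ ^ 2 = ‖(h * R.e j * g * R.e j) η‖ ^ 2
    rw [mul_assoc h (R.e j), gR, mul_assoc h (g * _), mul_assoc g, idem, hc, mul_assoc]
  obtain ⟨p, pp, P, k3⟩ := mid hA F (Φ3 x) aA an hn hr θ0 τ0 θ1 R cR
  have k4 : ∑ ξ ∈ F, ‖(1 - star c) (w ξ)‖ ^ 2 ≤ τ / 4 := by
    have e : ∀ ξ, (1 - star c) (w ξ) = (1 - g) (w ξ) + g ((w - h) ξ) := fun ξ => by
      have : (1 - star c) * w = (1 - g) * w + g * (w - h) := by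
        rw [hc, star_mul, hsa.star_eq, gp.isSelfAdjoint.star_eq, sub_mul, mul_assoc, hw']
        noncomm_ring
      exact congrArg (fun y : H →L[ℂ] H => y ξ) this
    have b1 : ∑ ξ ∈ F, ‖(1 - g) (w ξ)‖ ^ 2 ≤ κ / θ := by
      rw [le_div_iff₀' θ0, mul_sum]
      refine le_trans (sum_le_sum fun ξ _ => (g2 _).trans (le_of_eq (sum_congr rfl fun j _ => ?_))) h2
      change ‖(h * R.e j * w) ξ‖ ^ 2 = ‖(h * R.e j) ξ‖ ^ 2
      rw [mul_assoc, hA.2.1 _ (R.mem j) _ wA, ← mul_assoc, hw']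
    have b2 : ∑ ξ ∈ F, ‖g ((w - h) ξ)‖ ^ 2 ≤ κ := le_trans (sum_le_sum fun ξ _ =>
      pow_le_pow_left₀ (norm_nonneg _) ((g.le_opNorm _).trans
        (mul_le_of_le_one_left (norm_nonneg _) gp.norm_le)) 2) h1
    simp only [e]
    refine (sum_le_sum fun ξ _ => sq2 _ _).trans ?_
    rw [sum_add_distrib, ← mul_sum, ← mul_sum]
    linarith
  have pM : ∑ i, p i * x * p i ∈ M := sum_mem fun i _ =>
    mul_mem (mul_mem (hA.1 _ (pp.1 i).1) hx) (hA.1 _ (pp.1 i).1)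
  have Dn : ‖∑ i, p i * x * p i - a‖ ≤ 2 := by
    have := S_norm (A := A) ⟨Fin r, p, fun i => (pp.1 i).1, fun i => (pp.1 i).2, pp.2.1, pp.2.2⟩ x
    exact (norm_sub_le _ _).trans (by change ‖∑ i, p i * x * p i‖ ≤ _ at this; linarith)
  exact ⟨p, pp, a, aA, as, an, NN.fin wM wp F cM cn (sub_mem pM (hA.1 _ aA)) Dn
    (sub_mem hx (S_mem hA P hx)) ((norm_sub_le _ _).trans (by linarith [S_norm P x])) hr ht hδ hτ k3 k4⟩

end Vale.Agent.P078.X
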