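import Vale.Agent.P078.X.Two
import Vale.Agent.P078.Phi
import Vale.Agent.P078.X.NN

/-!
Splitting a MASA into a normal and a thin part.

PLAN. `ρ b = Σ_{ξ ∈ F} ⟪ξ, E₀ b ξ⟫` is a positive linear map on `H →L[ℂ] H` (limits; `S_P b ≥ 0`), `π = ρ.gnsStarAlgHom`, `ξ₀` = class of `1`, `⟪ξ₀, π b ξ₀⟫ = ρ b`, `ρ (a m) = ρ (m a)` for `a ∈ A`, `m ∈ M`
(`S_P (a m) = a S_P m`, `E₀ m ∈ A`). `Z` from `two`, `Ω = Z ξ₀`. `cen`: with `π c ζ ≈ Z ζ` for `ζ = ξ₀, π a ξ₀`: `⟪Ω, π (a m) Ω⟫ ≈ ρ (a m c) = ρ (m c a) ≈ ⟪Ω, π (m a) Ω⟫`. `p` = projection onto the closed span of the `T Ω`, `T ∈ Itw`;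
`p ∈ M` (`comm_proj`); `π (1 - p) Ω` is in the range of `Z` and orthogonal to all `T† η`, so it is 0; `π m Ω = 0 → m p = 0`; `‖π ((1-p) a) Ω‖² = φ (a a* (1-p)) = 0`, so `(1-p) a p = 0`, `p ∈ A` (`comm_mem`).
`ac`: `‖m T Ω‖ ≤ ‖T‖ ‖π m Ω‖`. `nrm`: `π m T† η = T† m η`. Thin part: `two` for `π f ξ₀` and the `f ξ`, `f = 1 - p`: `ρ (f c c f) = ‖π c π f ξ₀‖² ≈ ‖π f Ω‖² = 0`, then take `P` from the ultrafilter.
-/

open Finset Filter
open scoped Classical InnerProductSpace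

namespace Vale.Agent.P078.G

variable {H : Type*} [NormedAddCommGroup H] [InnerProductSpace ℂ H] [CompleteSpace H]
  {K : Type*} [NormedAddCommGroup K] [InnerProductSpace ℂ K] [CompleteSpace K]
  {M : VonNeumannAlgebra H} {A : StarSubalgebra ℂ (H →L[ℂ] H)} {x p f q : H →L[ℂ] H}
  {π : (H →L[ℂ] H) →⋆ₐ[ℂ] (K →L[ℂ] K)} {Ω : K}

structure IsSplit (M : VonNeumannAlgebra H) (A : StarSubalgebra ℂ (H →L[ℂ] H))
    (π : (H →L[ℂ] H) →⋆ₐ[ℂ] (K →L[ℂ] K)) (Ω : K) (p : H →L[ℂ] H) : Prop where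
  mem : p ∈ A
  proj : IsStarProjection p
  fix : π p Ω = Ω
  cen : ∀ a ∈ A, ∀ m ∈ M, ⟪Ω, π (a * m) Ω⟫_ℂ = ⟪Ω, π (m * a) Ω⟫_ℂ
  ac : ∀ (ξ : H) (θ : ℝ), 0 < θ → ∃ C : ℝ, 0 ≤ C ∧ ∀ m ∈ M, ‖m (p ξ)‖ ≤ C * ‖π m Ω‖ + θ * ‖m‖
  nrm : ∀ θ : ℝ, 0 < θ → ∃ (G : Finset H) (C : ℝ), 0 ≤ C ∧
    ∀ m ∈ M, ‖π m Ω‖ ≤ C * ∑ η ∈ G, ‖m η‖ + θ * ‖m‖

/-- The corner of `f` is thin with respect to `F`. -/
def Thin (M : VonNeumannAlgebra H) (A : StarSubalgebra ℂ (H →L[ℂ] H)) (F : Finset H)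
    (f : H →L[ℂ] H) : Prop :=
  ∀ δ : ℝ, 0 < δ → ∃ c ∈ M, IsSelfAdjoint c ∧ ‖c‖ ≤ 1 ∧ (∀ ξ ∈ F, ‖c (f ξ) - f ξ‖ < δ) ∧
    ∃ P : Part A, psi F (P.S (f * c * c * f)) < δ

open scoped ComplexOrder in
theorem Nor.gns.{u} {H : Type u} [NormedAddCommGroup H] [InnerProductSpace ℂ H] [CompleteSpace H]
    {M : VonNeumannAlgebra H} {A : StarSubalgebra ℂ (H →L[ℂ] H)} (hA : IsMASA M A) (F : Finset H) :
    ∃ (K : Type u) (_ : NormedAddCommGroup K) (_ : InnerProductSpace ℂ K) (_ : CompleteSpace K)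
      (π : (H →L[ℂ] H) →⋆ₐ[ℂ] (K →L[ℂ] K)) (ξ₀ : K),
      (∀ b (δ : ℝ), (⟪ξ₀, π b ξ₀⟫_ℂ).re < δ → ∃ P : Part A, psi F (P.S b) < δ) ∧
      ∀ a ∈ A, ∀ m ∈ M, ⟪ξ₀, π (a * m) ξ₀⟫_ℂ = ⟪ξ₀, π (m * a) ξ₀⟫_ℂ := by
  obtain ⟨U, Φ, -, -, hΦ, hl⟩ := X.exists_Phi hA
  have lim : ∀ b, Tendsto (fun P : Part A => ∑ ξ ∈ F, ⟪ξ, P.S b ξ⟫_ℂ) U (nhds (∑ ξ ∈ F, ⟪ξ, Φ b ξ⟫_ℂ)) :=
    fun b => tendsto_finset_sum _ fun ξ _ => hl b ξ ξ
  let ρ0 : (H →L[ℂ] H) →ₗ[ℂ] ℂ :=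
    { toFun := fun b => ∑ ξ ∈ F, ⟪ξ, Φ b ξ⟫_ℂ
      map_add' := fun b b' => tendsto_nhds_unique (lim _) (((lim b).add (lim b')).congr fun P => by
        simp [Part.S, mul_add, add_mul, sum_add_distrib, inner_add_right])
      map_smul' := fun c b => tendsto_nhds_unique (lim _) (((lim b).const_smul c).congr fun P => by
        simp [Part.S, ← smul_sum, inner_smul_right, mul_sum]) }
  let ρ : (H →L[ℂ] H) →ₚ[ℂ] ℂ := .mk₀ ρ0 fun b hb => ge_of_tendsto' (lim b) fun P => sum_nonneg fun ξ _ => by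
    have h0 : 0 ≤ P.S b := sum_nonneg fun i _ => by
      simpa [(P.proj i).isSelfAdjoint.star_eq] using star_left_conjugate_nonneg hb (P.e i)
    exact ((ContinuousLinearMap.nonneg_iff_isPositive _).1 h0).inner_nonneg_right ξ
  have key : ∀ b, ⟪((ρ.toPreGNS 1 : ρ.PreGNS) : ρ.GNS), ρ.gnsStarAlgHom b (ρ.toPreGNS 1 : ρ.PreGNS)⟫_ℂ =
      ∑ ξ ∈ F, ⟪ξ, Φ b ξ⟫_ℂ := fun b => by
    have : ρ.gnsStarAlgHom b (ρ.toPreGNS 1 : ρ.PreGNS) = (ρ.leftMulMapPreGNS b (ρ.toPreGNS 1) : ρ.PreGNS) :=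
      ρ.gnsNonUnitalStarAlgHom_apply_coe
    rw [this, UniformSpace.Completion.inner_coe, PositiveLinearMap.preGNS_inner_def]
    simp
    rfl
  refine ⟨ρ.GNS, inferInstance, inferInstance, inferInstance, ρ.gnsStarAlgHom, (ρ.toPreGNS 1 : ρ.PreGNS),
    fun b δ h => ?_, fun a ha m hm => ?_⟩
  · rw [key] at h
    obtain ⟨P, hP⟩ := (((Complex.continuous_re.tendsto _).comp (lim b)).eventually (gt_mem_nhds h)).exists
    exact ⟨P, by simpa [psi] using hP⟩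
  · rw [key, key]
    refine sum_congr rfl fun ξ _ => ?_
    have e1 : ⟪ξ, Φ (a * m) ξ⟫_ℂ = ⟪star a ξ, Φ m ξ⟫_ℂ := tendsto_nhds_unique (hl _ _ _)
      ((hl m ξ (star a ξ)).congr fun P => by
        rw [P070h8.inner_star_left, ← ContinuousLinearMap.mul_apply, Part.S, Part.S, mul_sum]
        congr 2
        exact sum_congr rfl fun i _ => by
          rw [← mul_assoc, ← mul_assoc, ← mul_assoc, hA.2.1 _ ha _ (P.mem i)])
    have e2 : ⟪ξ, Φ (m * a) ξ⟫_ℂ = ⟪ξ, Φ m (a ξ)⟫_ℂ := tendsto_nhds_unique (hl _ _ _)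
      ((hl m (a ξ) ξ).congr fun P => by
        rw [← ContinuousLinearMap.mul_apply, Part.S, Part.S, sum_mul]
        congr 2
        exact sum_congr rfl fun i _ => by
          rw [mul_assoc, ← hA.2.1 _ ha _ (P.mem i), mul_assoc, mul_assoc, mul_assoc])
    rw [e1, e2, P070h8.inner_star_left, ← ContinuousLinearMap.mul_apply, hA.2.1 _ ha _ (hΦ m hm)]
    rfl

theorem Nor.le0 {x C : ℝ} (hC : 0 ≤ C) (h : ∀ δ, 0 < δ → x ≤ C * δ) : x ≤ 0 :=
  le_of_forall_pos_le_add fun ε hε => (h (ε / (C + 1)) (by positivity)).trans (by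
    rw [zero_add, mul_div_assoc', div_le_iff₀ (by positivity)]; nlinarith)

theorem Nor.adj {T : K →L[ℂ] H} (hT : T ∈ Itw M π) {m : H →L[ℂ] H} (hm : m ∈ M) (η : H) :
    π m (ContinuousLinearMap.adjoint T η) = ContinuousLinearMap.adjoint T (m η) :=
  ext_inner_right ℂ fun ζ => by
    rw [← P070h8.inner_star_right, ← map_star, ContinuousLinearMap.adjoint_inner_left,
      ContinuousLinearMap.adjoint_inner_left, hT _ (star_mem hm), P070h8.inner_star_right]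

theorem split.{u} {H : Type u} [NormedAddCommGroup H] [InnerProductSpace ℂ H] [CompleteSpace H]
    {M : VonNeumannAlgebra H} {A : StarSubalgebra ℂ (H →L[ℂ] H)} (hA : IsMASA M A) (F : Finset H) :
    ∃ (K : Type u) (_ : NormedAddCommGroup K) (_ : InnerProductSpace ℂ K) (_ : CompleteSpace K)
      (π : (H →L[ℂ] H) →⋆ₐ[ℂ] (K →L[ℂ] K)) (Ω : K) (p : H →L[ℂ] H),
      IsSplit M A π Ω p ∧ Thin M A F (1 - p) := by
  obtain ⟨K, _, _, _, π, ξ₀, h1, h2⟩ := Nor.gns hA F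
  obtain ⟨Z, hZ, cZ, rZ, ap⟩ := two M π
  have cz : ∀ m ∈ M, ∀ ζ, Z (π m ζ) = π m (Z ζ) := fun m hm ζ => congrArg (fun L => L ζ) (cZ m hm).eq
  have zz : ∀ m ∈ M, ⟪Z ξ₀, π m (Z ξ₀)⟫_ℂ = ⟪ξ₀, π m (Z ξ₀)⟫_ℂ := fun m hm => by
    rw [← P070h8.inner_star_right, hZ.isSelfAdjoint.star_eq, cz m hm, ← ContinuousLinearMap.mul_apply Z,
      hZ.isIdempotentElem.eq]
  have pm : ∀ a b ζ, π (a * b) ζ = π a (π b ζ) := fun a b ζ => by rw [map_mul]; rfl
  have cen : ∀ a ∈ A, ∀ m ∈ M, ⟪Z ξ₀, π (a * m) (Z ξ₀)⟫_ℂ = ⟪Z ξ₀, π (m * a) (Z ξ₀)⟫_ℂ := fun a ha m hm => by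
    have aM := hA.1 a ha
    rw [zz _ (mul_mem aM hm), zz _ (mul_mem hm aM), ← sub_eq_zero, ← norm_le_zero_iff]
    refine Nor.le0 (C := ‖ξ₀‖ * (‖π (a * m)‖ + ‖π m‖)) (by positivity) fun δ hδ => ?_
    obtain ⟨c, hc, -, -, h3, -⟩ := ap {ξ₀, π a ξ₀} ∅ δ hδ
    have e := h2 a ha _ (mul_mem hm hc)
    rw [← mul_assoc, pm _ c, mul_assoc, pm m, pm c] at e
    have e' : ⟪ξ₀, π (a * m) (Z ξ₀)⟫_ℂ - ⟪ξ₀, π (m * a) (Z ξ₀)⟫_ℂ =
        ⟪ξ₀, π m (π c (π a ξ₀) - Z (π a ξ₀))⟫_ℂ - ⟪ξ₀, π (a * m) (π c ξ₀ - Z ξ₀)⟫_ℂ := by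
      rw [map_sub, map_sub, inner_sub_right, inner_sub_right, e, cz a aM, pm m a]
      ring
    have b1 := (norm_inner_le_norm (𝕜 := ℂ) ξ₀ _).trans (mul_le_mul_of_nonneg_left
      (((π m).le_opNorm _).trans (mul_le_mul_of_nonneg_left (h3 (π a ξ₀) (by simp)).le (norm_nonneg _)))
      (norm_nonneg _))
    have b2 := (norm_inner_le_norm (𝕜 := ℂ) ξ₀ _).trans (mul_le_mul_of_nonneg_left
      (((π (a * m)).le_opNorm _).trans (mul_le_mul_of_nonneg_left (h3 ξ₀ (by simp)).le (norm_nonneg _)))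
      (norm_nonneg _))
    rw [e']
    refine (norm_sub_le _ _).trans ?_
    linarith
  let W0 := Submodule.span ℂ {v | ∃ T ∈ Itw M π, T (Z ξ₀) = v}
  let W := W0.topologicalClosure
  have : CompleteSpace W := W0.isClosed_topologicalClosure.completeSpace_coe
  have gen : ∀ T ∈ Itw M π, T (Z ξ₀) ∈ W := fun T hT => W0.le_topologicalClosure (Submodule.subset_span ⟨T, hT, rfl⟩)
  have inv : ∀ S ∈ M.commutant, ∀ v ∈ W, S v ∈ W := fun S hS v hv => by
    have h3 : W0 ≤ W.comap (S : H →ₗ[ℂ] H) := Submodule.span_le.2 (by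
      rintro _ ⟨T, hT, rfl⟩
      exact gen (S ∘L T) fun m hm ζ => (congrArg S (hT m hm ζ)).trans (comm_apply hS hm _).symm)
    exact Submodule.topologicalClosure_minimal W0 h3 (W0.isClosed_topologicalClosure.preimage S.continuous) hv
  have hp : IsStarProjection W.starProjection := isStarProjection_starProjection
  have pM : W.starProjection ∈ M := mem_of_comm fun S hS => ContinuousLinearMap.ext fun v =>
    (P070h8.comm_proj W S (inv S hS) (inv _ (star_mem hS)) v).symm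
  have fM : 1 - W.starProjection ∈ M := sub_mem (one_mem M) pM
  have fix : π (1 - W.starProjection) (Z ξ₀) = 0 := by
    have h3 : ∀ v ∈ closure (Submodule.span ℂ
        {v | ∃ T ∈ Itw M π, ∃ η, ContinuousLinearMap.adjoint T η = v} : Set K),
        ⟪v, π (1 - W.starProjection) (Z ξ₀)⟫_ℂ = 0 := fun v hv => by
      refine closure_minimal (fun v hv => ?_) (isClosed_eq (f := fun v => ⟪v, π (1 - W.starProjection) (Z ξ₀)⟫_ℂ)
        (by fun_prop) continuous_const) hv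
      induction hv using Submodule.span_induction with
      | mem _ h =>
        obtain ⟨T, hT, η, rfl⟩ := h
        simp [ContinuousLinearMap.adjoint_inner_left, hT _ fM, Submodule.starProjection_eq_self_iff.2 (gen T hT),
          -map_sub]
      | zero => simp
      | add u v _ _ hu hv => simp only [Set.mem_setOf_eq] at *; rw [inner_add_left, hu, hv, add_zero]
      | smul c u _ hu => simp only [Set.mem_setOf_eq] at *; rw [inner_smul_left, hu, mul_zero]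
    have h4 := h3 _ (rZ (π (1 - W.starProjection) ξ₀))
    rwa [cz _ fM, inner_self_eq_zero] at h4
  have ac : ∀ (ξ : H) (θ : ℝ), 0 < θ → ∃ C : ℝ, 0 ≤ C ∧
      ∀ m ∈ M, ‖m (W.starProjection ξ)‖ ≤ C * ‖π m (Z ξ₀)‖ + θ * ‖m‖ := fun ξ θ hθ => by
    obtain ⟨v, hv, hd⟩ := Metric.mem_closure_iff.1 (W.starProjection_apply_mem ξ) θ hθ
    have h3 : ∃ C : ℝ, 0 ≤ C ∧ ∀ m ∈ M, ‖m v‖ ≤ C * ‖π m (Z ξ₀)‖ := by
      clear hd
      induction hv using Submodule.span_induction with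
      | mem _ h =>
        obtain ⟨T, hT, rfl⟩ := h
        exact ⟨‖T‖, norm_nonneg _, fun m hm => by rw [← hT m hm]; exact T.le_opNorm _⟩
      | zero => exact ⟨0, le_rfl, by simp⟩
      | add u v _ _ hu hv =>
        obtain ⟨C, c0, hu⟩ := hu
        obtain ⟨D, d0, hv⟩ := hv
        exact ⟨C + D, by positivity, fun m hm => by
          rw [map_add, add_mul]; exact (norm_add_le _ _).trans (add_le_add (hu m hm) (hv m hm))⟩
      | smul c u _ hu =>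
        obtain ⟨C, c0, hu⟩ := hu
        exact ⟨‖c‖ * C, by positivity, fun m hm => by
          rw [map_smul, norm_smul, mul_assoc]; exact mul_le_mul_of_nonneg_left (hu m hm) (norm_nonneg _)⟩
    obtain ⟨C, c0, h3⟩ := h3
    refine ⟨C, c0, fun m hm => ?_⟩
    have h4 := (m.le_opNorm (W.starProjection ξ - v)).trans
      (mul_le_mul_of_nonneg_left ((dist_eq_norm _ _).symm.le.trans hd.le) (norm_nonneg _))
    have h5 := norm_le_norm_add_norm_sub' (m (W.starProjection ξ)) (m v)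
    rw [map_sub] at h4
    linarith [h3 m hm]
  have h6 : ∀ a ∈ A, (1 - W.starProjection) * a * W.starProjection = 0 := fun a ha => by
    have mM := mul_mem fM (hA.1 a ha)
    have h3 : π ((1 - W.starProjection) * a) (Z ξ₀) = 0 := by
      rw [← inner_self_eq_zero (𝕜 := ℂ), ← P070h8.inner_star_right, ← map_star, ← pm, star_mul,
        hp.one_sub.isSelfAdjoint.star_eq, mul_assoc, ← mul_assoc _ _ a, hp.one_sub.isIdempotentElem.eq,
        cen _ (star_mem ha) _ mM, mul_assoc, pm, ← P070h8.inner_star_left, ← map_star,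
        hp.one_sub.isSelfAdjoint.star_eq, fix, inner_zero_left]
    refine ContinuousLinearMap.ext fun ξ => norm_le_zero_iff.1 (Nor.le0 (norm_nonneg ((1 - W.starProjection) * a))
      fun δ hδ => ?_)
    obtain ⟨C, -, h4⟩ := ac ξ δ hδ
    have h5 := h4 _ mM
    rwa [h3, norm_zero, mul_zero, zero_add, mul_comm] at h5
  refine ⟨K, inferInstance, inferInstance, inferInstance, π, Z ξ₀, W.starProjection,
    ⟨comm_mem hA pM fun a ha => ?_, hp, ?_, cen, ac, fun θ hθ => ?_⟩, fun δ hδ => ?_⟩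
  · have h3 := h6 a ha
    have h4 := congrArg star (h6 _ (star_mem ha))
    rw [star_mul, star_mul, star_star, hp.one_sub.isSelfAdjoint.star_eq, hp.isSelfAdjoint.star_eq, star_zero,
      mul_sub, mul_sub, mul_one, sub_eq_zero, ← mul_assoc] at h4
    rw [sub_mul, sub_mul, one_mul, sub_eq_zero] at h3
    rw [h4, ← h3]
  · rw [map_sub, map_one, ContinuousLinearMap.sub_apply, sub_eq_zero] at fix
    exact fix.symm
  · obtain ⟨v, hv, hd⟩ := Metric.mem_closure_iff.1 (rZ ξ₀) θ hθ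
    have h3 : ∃ (G : Finset H) (C : ℝ), 0 ≤ C ∧ ∀ m ∈ M, ‖π m v‖ ≤ C * ∑ η ∈ G, ‖m η‖ := by
      clear hd
      induction hv using Submodule.span_induction with
      | mem _ h =>
        obtain ⟨T, hT, η, rfl⟩ := h
        exact ⟨{η}, ‖ContinuousLinearMap.adjoint T‖, norm_nonneg _, fun m hm => by
          rw [Nor.adj hT hm, sum_singleton]; exact ContinuousLinearMap.le_opNorm _ _⟩
      | zero => exact ⟨∅, 0, le_rfl, by simp⟩
      | add u v _ _ hu hv =>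
        obtain ⟨G, C, c0, hu⟩ := hu
        obtain ⟨G', D, d0, hv⟩ := hv
        exact ⟨G ∪ G', C + D, by positivity, fun m hm => by
          rw [map_add, add_mul]
          exact (norm_add_le _ _).trans (add_le_add ((hu m hm).trans (mul_le_mul_of_nonneg_left
            (sum_le_sum_of_subset_of_nonneg subset_union_left fun _ _ _ => norm_nonneg _) c0))
            ((hv m hm).trans (mul_le_mul_of_nonneg_left
              (sum_le_sum_of_subset_of_nonneg subset_union_right fun _ _ _ => norm_nonneg _) d0)))⟩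
      | smul c u _ hu =>
        obtain ⟨G, C, c0, hu⟩ := hu
        exact ⟨G, ‖c‖ * C, by positivity, fun m hm => by
          rw [map_smul, norm_smul, mul_assoc]; exact mul_le_mul_of_nonneg_left (hu m hm) (norm_nonneg _)⟩
    obtain ⟨G, C, c0, h3⟩ := h3
    refine ⟨G, C, c0, fun m hm => ?_⟩
    have h4 := ((π m).le_opNorm (Z ξ₀ - v)).trans (mul_le_mul (NonUnitalStarAlgHom.norm_apply_le π m)
      ((dist_eq_norm _ _).symm.le.trans hd.le) (norm_nonneg _) (norm_nonneg _))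
    have h5 := norm_le_norm_add_norm_sub' (π m (Z ξ₀)) (π m v)
    rw [map_sub] at h4
    linarith [h3 m hm]
  · obtain ⟨c, hc, hs, hn, h3, h4⟩ := ap {π (1 - W.starProjection) ξ₀} (F.image fun ξ => (1 - W.starProjection) ξ)
      (min δ 1) (lt_min hδ one_pos)
    refine ⟨c, hc, hs, hn, fun ξ hξ => (h4 _ (mem_image_of_mem (fun ξ => (1 - W.starProjection) ξ) hξ)).trans_le (min_le_left _ _), h1 _ _ ?_⟩
    have h5 := h3 _ (mem_singleton_self _)
    rw [cz _ fM, fix, sub_zero, ← pm] at h5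
    have h7 := P070h8.re_inner_star_mul (π (c * (1 - W.starProjection))) ξ₀
    rw [← map_star, ← map_mul, star_mul, hs.star_eq, hp.one_sub.isSelfAdjoint.star_eq, ← mul_assoc] at h7
    rw [h7]
    nlinarith [min_le_left δ 1, min_le_right δ 1, norm_nonneg (π (c * (1 - W.starProjection)) ξ₀)]

end Vale.Agent.P078.G
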