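import Vale.Agent.P078.X.NN
import Vale.Agent.P078.X.Nor

/-!
Paving of a thin corner.
-/

open Finset Filter
open scoped Classical InnerProductSpace

namespace Vale.Agent.P078.G

variable {H : Type*} [NormedAddCommGroup H] [InnerProductSpace ℂ H] [CompleteSpace H]
  {M : VonNeumannAlgebra H} {A : StarSubalgebra ℂ (H →L[ℂ] H)} {x f : H →L[ℂ] H}

theorem thin_pave (hA : IsMASA M A) {F : Finset H} (hf : f ∈ A) (hp : IsStarProjection f)
    (h : Thin M A F f) (hx : x ∈ M) (hs : IsSelfAdjoint x) (hn : ‖x‖ ≤ 1) {r : ℕ} (hr : 0 < r)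
    {δ : ℝ} (hδ : 0 < δ) : ∃ p : Fin r → H →L[ℂ] H, IsPart A p ∧ ∃ a ∈ A, IsSelfAdjoint a ∧ ‖a‖ ≤ 1 ∧
      ∃ q ∈ M, IsStarProjection q ∧ f * q = q ∧ (∀ ξ ∈ F, ‖(f - q) ξ‖ < δ) ∧
        ‖q * (∑ i, p i * x * p i - a) * q‖ ≤ 3 / r := by
  refine X.nn_pave hA hf hp F (fun κ hκ => ?_) hx hs hn hr hδ
  have ff : f * f = f := hp.isIdempotentElem.eq
  have fs := hp.isSelfAdjoint.star_eq
  have fn : ∀ v, ‖f v‖ ≤ ‖v‖ := fun v =>
    (f.le_opNorm v).trans (mul_le_of_le_one_left (norm_nonneg _) hp.norm_le)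
  obtain ⟨c, cM, cs, cn, c1, P, c2⟩ := h (min 1 (κ / (F.card + 1))) (by positivity)
  have k1 : (F.card + 1) * min 1 (κ / (F.card + 1)) ≤ κ := by
    rw [← le_div_iff₀' (by positivity)]
    exact min_le_right _ _
  have k2 := min_le_left 1 (κ / (F.card + 1))
  have k0 : 0 < min 1 (κ / (F.card + 1)) := by positivity
  generalize min 1 (κ / (F.card + 1)) = t at *
  refine ⟨f * c * f, mul_mem (mul_mem (hA.1 f hf) cM) (hA.1 f hf), ?_, (norm_mul_le _ _).trans
    (mul_le_one₀ ((norm_mul_le _ _).trans (mul_le_one₀ hp.norm_le (norm_nonneg _) cn))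
      (norm_nonneg _) hp.norm_le), by rw [mul_assoc, ff], ?_, P, ?_⟩
  · rw [IsSelfAdjoint, star_mul, star_mul, fs, cs.star_eq, mul_assoc]
  · refine (sum_le_card_nsmul F _ t fun ξ hξ => ?_).trans (by rw [nsmul_eq_mul]; nlinarith)
    have e : (f - f * c * f) ξ = f (f ξ - c (f ξ)) := by
      rw [map_sub]
      exact congrArg (fun y : H →L[ℂ] H => y ξ - f (c (f ξ))) ff.symm
    have b1 := fn (f ξ - c (f ξ))
    have b2 := c1 ξ hξ
    rw [norm_sub_rev] at b2
    rw [e]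
    nlinarith [norm_nonneg (f (f ξ - c (f ξ)))]
  · refine le_trans (sum_le_sum fun ξ _ => ?_) (c2.le.trans (by nlinarith [F.card.cast_nonneg (α := ℝ)]))
    rw [Part.S, ContinuousLinearMap.sum_apply, inner_sum, Complex.re_sum]
    refine sum_le_sum fun j _ => ?_
    have e : P.e j * (f * c * c * f) * P.e j = star (c * f * P.e j) * (c * f * P.e j) := by
      simp only [star_mul, fs, cs.star_eq, (P.proj j).isSelfAdjoint.star_eq, mul_assoc]
    rw [e, P070h8.re_inner_star_mul]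
    exact pow_le_pow_left₀ (norm_nonneg _) (fn _) 2

end Vale.Agent.P078.G
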