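import Vale.Agent.P078.X.Red1
import Vale.Agent.P078.X.Fin
import Vale.Agent.P078.X.NN2

/-!
Assembly for arbitrary MASAs.
-/

open Finset Filter
open scoped Classical InnerProductSpace

namespace Vale.Agent.P078.G

variable {H : Type*} [NormedAddCommGroup H] [InnerProductSpace ℂ H] [CompleteSpace H]
  {K : Type*} [NormedAddCommGroup K] [InnerProductSpace ℂ K] [CompleteSpace K]
  {M : VonNeumannAlgebra H} {A : StarSubalgebra ℂ (H →L[ℂ] H)} {x p f q : H →L[ℂ] H}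
  {π : (H →L[ℂ] H) →⋆ₐ[ℂ] (K →L[ℂ] K)} {Ω : K}

/-- Paving of the corner of `p`. -/
def CPav (M : VonNeumannAlgebra H) (A : StarSubalgebra ℂ (H →L[ℂ] H)) (p x : H →L[ℂ] H) (ε : ℝ) (r : ℕ)
    (F : Finset H) (δ : ℝ) : Prop :=
  ∃ e : Fin r → H →L[ℂ] H, (∀ i, e i ∈ A ∧ IsStarProjection (e i)) ∧ (∀ i j, i ≠ j → e i * e j = 0) ∧
    ∑ i, e i = p ∧ ∃ a ∈ A, IsSelfAdjoint a ∧ ‖a‖ ≤ 1 ∧ ∃ q ∈ M, IsStarProjection q ∧ p * q = q ∧
      (∀ ξ ∈ F, ‖(p - q) ξ‖ < δ) ∧ ‖q * (∑ i, e i * x * e i - a) * q‖ ≤ ε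

theorem red_pave {M' : VonNeumannAlgebra K} {A' : StarSubalgebra ℂ (K →L[ℂ] K)}
    {Φ : (H →L[ℂ] H) →ₗ[ℂ] (K →L[ℂ] K)} (hA : IsMASA M A) (pA : p ∈ A) (pp : IsStarProjection p)
    (h : IsRed M A p M' A' Ω Φ) {ε : ℝ} (hε : 0 < ε) {r : ℕ} (hr : 2 ≤ r) (h1 : 1000 ^ 2 / ε ^ 2 ≤ r)
    (hx : x ∈ M) (hs : IsSelfAdjoint x) (hn : ‖x‖ ≤ 1) (F : Finset H) {δ : ℝ} (hδ : 0 < δ) :
    CPav M A p x ε r F δ := by
  have pM := hA.1 p pA
  have p2 : p * p = p := pp.isIdempotentElem.eq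
  have ps := pp.isSelfAdjoint.star_eq
  have mul : ∀ m ∈ M, ∀ m' ∈ M, m * p = m → Φ (m * m') = Φ m * Φ m' := fun m hm m' hm' e => by
    rw [← h.mul m hm m' hm', e]
  have inj : ∀ m ∈ M, ∀ m' ∈ M, p * m = m → m * p = m → p * m' = m' → m' * p = m' → Φ m = Φ m' → m = m' :=
    fun m hm m' hm' e1 e2 e3 e4 e => sub_eq_zero.1 (norm_eq_zero.1 (by
      rw [← h.iso _ (sub_mem hm hm') (by rw [mul_sub, e1, e3]) (by rw [sub_mul, e2, e4]), map_sub, e,
        sub_self, norm_zero]))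
  have sa : ∀ m ∈ M, p * m = m → m * p = m → IsSelfAdjoint (Φ m) → IsSelfAdjoint m := fun m hm e1 e2 k =>
    inj _ (star_mem hm) _ hm (by rw [← ps, ← star_mul, e2]) (by rw [← ps, ← star_mul, e1]) e1 e2
      (by rw [h.star m hm, k.star_eq])
  have pr : ∀ m ∈ M, p * m = m → m * p = m → IsStarProjection (Φ m) → IsStarProjection m :=
    fun m hm e1 e2 k => ⟨inj _ (mul_mem hm hm) _ hm (by rw [← mul_assoc, e1]) (by rw [mul_assoc, e2]) e1 e2
      (by rw [mul m hm m hm e2, k.isIdempotentElem.eq]), sa m hm e1 e2 k.isSelfAdjoint⟩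
  have yM : p * x * p ∈ M := mul_mem (mul_mem pM hx) pM
  have y1 : p * (p * x * p) = p * x * p := by rw [← mul_assoc, ← mul_assoc, p2]
  have y2 : p * x * p * p = p * x * p := by rw [mul_assoc, p2]
  have yn : ‖Φ (p * x * p)‖ ≤ 1 := by
    rw [h.iso _ yM y1 y2]
    exact (norm_mul_le _ _).trans (mul_le_one₀ ((norm_mul_le _ _).trans
      (mul_le_one₀ pp.norm_le (norm_nonneg _) hn)) (norm_nonneg _) pp.norm_le)
  choose C C0 hC using fun ξ => h.ac ξ (δ / 4) (by positivity)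
  have S0 : 0 ≤ ∑ ξ ∈ F, C ξ := sum_nonneg fun ξ _ => C0 ξ
  obtain ⟨e', e1, e2, e3, a', a1, a2, a3, q', q1, q2, q3, q4⟩ := pave_cv h.cv hε hr h1
    ((h.memM _).2 ⟨_, yM, y1, y2, rfl⟩) (by
      rw [IsSelfAdjoint, ← h.star _ yM, star_mul, star_mul, ps, hs.star_eq, mul_assoc])
    {Ω} (δ / (4 * (∑ ξ ∈ F, C ξ + 1))) (by positivity)
  choose e f1 f2 f3 using fun i => (h.memA _).1 (e1 i).1
  obtain ⟨a, b1, b2, rfl⟩ := (h.memA _).1 a1
  obtain ⟨q, qM, c1, c2, rfl⟩ := (h.memM _).1 q1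
  have eM : ∀ i, e i ∈ M := fun i => hA.1 _ (f1 i)
  have f4 : ∀ i, e i * p = e i := fun i => by rw [hA.2.1 _ (f1 i) _ pA, f2]
  have b3 : a * p = a := by rw [hA.2.1 _ b1 _ pA, b2]
  have aM := hA.1 a b1
  have qp := pr q qM c1 c2 q2
  refine ⟨e, fun i => ⟨f1 i, pr _ (eM i) (f2 i) (f4 i) (f3 i ▸ (e1 i).2)⟩, fun i j hij => ?_, ?_, a, b1,
    sa a aM b2 b3 a2, ?_, q, qM, qp, c1, fun ξ hξ => ?_, ?_⟩
  · refine inj _ (mul_mem (eM i) (eM j)) _ (zero_mem _) (by rw [← mul_assoc, f2]) (by rw [mul_assoc, f4])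
      (mul_zero _) (zero_mul _) ?_
    rw [mul _ (eM i) _ (eM j) (f4 i), f3, f3, e2 i j hij, map_zero]
  · refine inj _ (sum_mem fun i _ => eM i) _ pM (by simp only [mul_sum, f2]) (by simp only [sum_mul, f4])
      p2 p2 ?_
    simp only [map_sum, f3, e3, h.one]
  · rw [← h.iso a aM b2 b3]
    exact a3.trans yn
  · have k1 := hC ξ _ (sub_mem pM qM) (by rw [mul_sub, p2, c1])
    rw [← ContinuousLinearMap.mul_apply, sub_mul, p2, c2, map_sub, h.one] at k1
    have k2 := (q3 Ω (mem_singleton_self _)).le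
    have k3 : C ξ ≤ ∑ ξ ∈ F, C ξ + 1 := (single_le_sum (fun ξ _ => C0 ξ) hξ).trans (by linarith)
    have k4 := mul_le_mul k3 k2 (norm_nonneg _) (by positivity)
    rw [show (∑ ξ ∈ F, C ξ + 1) * (δ / (4 * (∑ ξ ∈ F, C ξ + 1))) = δ / 4 by field_simp] at k4
    have k5 := norm_sub_le p q
    nlinarith [pp.norm_le, qp.norm_le]
  · have TM : ∀ i, e i * x * e i ∈ M := fun i => mul_mem (mul_mem (eM i) hx) (eM i)
    have DM := sub_mem (sum_mem fun i (_ : i ∈ univ) => TM i) aM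
    have t : ∀ i, Φ (e i * x * e i) = e' i * Φ (p * x * p) * e' i := fun i => by
      rw [← f3, ← mul _ (eM i) _ yM (f4 i), ← mul _ (mul_mem (eM i) yM) _ (eM i) (by rw [mul_assoc, y2])]
      congr 1
      rw [← mul_assoc, ← mul_assoc, f4, mul_assoc _ p, f2]
    rw [← h.iso _ (mul_mem (mul_mem qM DM) qM) (by rw [← mul_assoc, ← mul_assoc, c1]) (by rw [mul_assoc, c2]),
      mul _ (mul_mem qM DM) _ qM (by simp only [mul_assoc, sub_mul, sum_mul, f4, b3]), mul _ qM _ DM c2,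
      map_sub, map_sum]
    simp only [t]
    exact q4.trans (mul_le_of_le_one_right hε.le yn)

theorem zero_pave {ε : ℝ} (hε : 0 < ε) {r : ℕ} (F : Finset H) {δ : ℝ} (hδ : 0 < δ) :
    CPav M A 0 x ε r F δ :=
  ⟨fun _ => 0, fun _ => ⟨zero_mem _, .zero _⟩, fun _ _ _ => mul_zero _, by simp, 0, zero_mem _, .zero _,
    by simp, 0, zero_mem _, .zero _, mul_zero _, fun _ _ => by simpa using hδ, by simpa using hε.le⟩

theorem thin_cpav (hA : IsMASA M A) {F : Finset H} (hf : f ∈ A) (hp : IsStarProjection f)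
    (h : Thin M A F f) (hx : x ∈ M) (hs : IsSelfAdjoint x) (hn : ‖x‖ ≤ 1) {r : ℕ} (hr : 0 < r)
    {δ : ℝ} (hδ : 0 < δ) : CPav M A f x (3 / r) r F δ := by
  obtain ⟨e, ⟨e1, e2, e3⟩, a, a1, a2, a3, q, q1, q2, q3, q4, q5⟩ := thin_pave hA hf hp h hx hs hn hr hδ
  have c : ∀ i, e i * f = f * e i := fun i => hA.2.1 _ (e1 i).1 _ hf
  have q6 : q * f = q := by
    simpa [q2.isSelfAdjoint.star_eq, hp.isSelfAdjoint.star_eq] using congrArg star q3
  refine ⟨fun i => e i * f, fun i => ⟨mul_mem (e1 i).1 hf, (e1 i).2.mul hp (c i)⟩, fun i j hij => ?_,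
    by rw [← sum_mul, e3, one_mul], a, a1, a2, a3, q, q1, q2, q3, q4, le_of_eq_of_le (congrArg _ ?_) q5⟩
  · rw [mul_assoc, ← mul_assoc f, ← c, ← mul_assoc, ← mul_assoc, e2 i j hij, zero_mul, zero_mul]
  · simp only [mul_sub, sub_mul, mul_sum, sum_mul]
    congr 1
    refine sum_congr rfl fun i _ => ?_
    rw [mul_assoc, mul_assoc, mul_assoc (e i) f q, q3, c, ← mul_assoc, ← mul_assoc, ← mul_assoc, ← mul_assoc, q6]
    simp only [mul_assoc]

theorem pyth2 (pp : IsStarProjection p) (u w : H) :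
    ‖p u + (1 - p) w‖ ^ 2 = ‖p u‖ ^ 2 + ‖(1 - p) w‖ ^ 2 := by
  have : ⟪p u, (1 - p) w⟫_ℂ = 0 := by
    rw [← Vale.Agent.P070h8.inner_star_right, pp.isSelfAdjoint.star_eq, ← ContinuousLinearMap.mul_apply,
      pp.mul_one_sub_self]
    simp
  simpa only [sq] using norm_add_sq_eq_norm_sq_add_norm_sq_of_inner_eq_zero _ _ this

theorem join (hA : IsMASA M A) (pA : p ∈ A) (pp : IsStarProjection p) {ε ε' : ℝ} {r : ℕ} {F : Finset H}
    {δ : ℝ} (h : CPav M A p x ε r F (δ / 2)) (h' : CPav M A (1 - p) x ε' r F (δ / 2)) :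
    CPav M A 1 x (ε + ε') (r + r) F δ := by
  obtain ⟨e, e1, e2, e3, a, a1, a2, a3, q, q1, q2, q3, q4, q5⟩ := h
  obtain ⟨e', f1, f2, f3, b, b1, b2, b3, s, s1, s2, s3, s4, s5⟩ := h'
  have fA : 1 - p ∈ A := sub_mem (one_mem A) pA
  have ab : ∀ {g : H →L[ℂ] H} {e : Fin r → H →L[ℂ] H}, (∀ i, e i ∈ A ∧ IsStarProjection (e i)) →
      (∀ i j, i ≠ j → e i * e j = 0) → ∑ i, e i = g → ∀ i, g * e i = e i ∧ e i * g = e i :=
    fun {g e} h1 h2 h3 i => by
      rw [← h3, sum_mul, mul_sum, sum_eq_single i (fun j _ hj => h2 j i hj) (by simp),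
        sum_eq_single i (fun j _ hj => h2 i j hj.symm) (by simp)]
      exact ⟨(h1 i).2.isIdempotentElem.eq, (h1 i).2.isIdempotentElem.eq⟩
  have g1 := ab e1 e2 e3
  have g2 := ab f1 f2 f3
  have o1 := pp.mul_one_sub_self
  have o2 := pp.one_sub_mul_self
  have q6 : q * p = q := by
    simpa [q2.isSelfAdjoint.star_eq, pp.isSelfAdjoint.star_eq] using congrArg star q3
  have s6 : s * (1 - p) = s := by
    simpa [s2.isSelfAdjoint.star_eq, pp.isSelfAdjoint.star_eq] using congrArg star s3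
  have qs : q * s = 0 := by rw [← q6, ← s3, mul_assoc, ← mul_assoc p, o1, zero_mul, mul_zero]
  have r1 : (q + s) * p = q := by rw [add_mul, q6, ← s6, mul_assoc, o2, mul_zero, add_zero]
  have r2 : p * (q + s) = q := by rw [mul_add, q3, ← s3, ← mul_assoc, o1, zero_mul, add_zero]
  have r3 : (q + s) * (1 - p) = s := by rw [mul_sub, r1, mul_one, add_sub_cancel_left]
  have r4 : (1 - p) * (q + s) = s := by rw [sub_mul, r2, one_mul, add_sub_cancel_left]
  have c1 : p * a = a * p := hA.2.1 _ pA _ a1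
  have c2 : (1 - p) * b = b * (1 - p) := hA.2.1 _ fA _ b1
  refine ⟨Fin.append e e', fun i => ?_, fun i j hij => ?_, ?_, p * a + (1 - p) * b,
    add_mem (mul_mem pA a1) (mul_mem fA b1), ?_, ?_, q + s, add_mem q1 s1, q2.add s2 qs, one_mul _,
    fun ξ hξ => ?_, ?_⟩
  · induction i using Fin.addCases with
    | left i => simpa using e1 i
    | right i => simpa only [Fin.append_right] using f1 i
  · induction i using Fin.addCases with
    | left i =>
      induction j using Fin.addCases with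
      | left j => simpa using e2 i j fun k => hij (k ▸ rfl)
      | right j =>
        rw [Fin.append_left, Fin.append_right, ← (g1 i).2, ← (g2 j).1, mul_assoc, ← mul_assoc p, o1,
          zero_mul, mul_zero]
    | right i =>
      induction j using Fin.addCases with
      | left j =>
        rw [Fin.append_left, Fin.append_right, ← (g2 i).2, ← (g1 j).1, mul_assoc, ← mul_assoc (1 - p), o2,
          zero_mul, mul_zero]
      | right j => simpa only [Fin.append_right] using f2 i j fun k => hij (k ▸ rfl)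
  · simp only [Fin.sum_univ_add, Fin.append_left, Fin.append_right, e3, f3, add_sub_cancel]
  · rw [IsSelfAdjoint, star_add, star_mul, star_mul, a2.star_eq, b2.star_eq, pp.isSelfAdjoint.star_eq,
      pp.one_sub.isSelfAdjoint.star_eq, c1, c2]
  · refine ContinuousLinearMap.opNorm_le_bound _ zero_le_one fun v =>
      le_of_pow_le_pow_left₀ two_ne_zero (by positivity) ?_
    have k1 := pyth2 pp (a v) (b v)
    have k2 := pyth2 pp v v
    have k3 := (a.le_opNorm (p v)).trans (mul_le_of_le_one_left (norm_nonneg _) a3)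
    have k4 := (b.le_opNorm ((1 - p) v)).trans (mul_le_of_le_one_left (norm_nonneg _) b3)
    rw [← ContinuousLinearMap.mul_apply, ← c1] at k3
    rw [← ContinuousLinearMap.mul_apply, ← c2] at k4
    rw [← ContinuousLinearMap.add_apply, add_sub_cancel] at k2
    rw [one_mul]
    exact k1.trans_le ((add_le_add (pow_le_pow_left₀ (norm_nonneg _) k3 2)
      (pow_le_pow_left₀ (norm_nonneg _) k4 2)).trans k2.symm.le)
  · have := norm_add_le ((p - q) ξ) ((1 - p - s) ξ)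
    rw [← ContinuousLinearMap.add_apply, show p - q + (1 - p - s) = 1 - (q + s) by abel] at this
    linarith [q4 ξ hξ, s4 ξ hξ]
  · have t1 : ∑ i, e i * x * e i - p * a = p * (∑ i, e i * x * e i - a) * p := by
      rw [mul_sub, sub_mul, mul_assoc p a, ← c1, ← mul_assoc p p, pp.isIdempotentElem.eq, mul_sum, sum_mul]
      congr 1
      exact sum_congr rfl fun i _ => by rw [← mul_assoc, ← mul_assoc, (g1 i).1, mul_assoc _ _ p, (g1 i).2]
    have t2 : ∑ i, e' i * x * e' i - (1 - p) * b = (1 - p) * (∑ i, e' i * x * e' i - b) * (1 - p) := by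
      generalize 1 - p = g at *
      have gg : g * g = g := by
        conv_lhs => rw [← f3, sum_mul]
        rw [f3, sum_congr rfl fun i _ => (g2 i).2, f3]
      rw [mul_sub, sub_mul, mul_assoc g b, ← c2, ← mul_assoc g g, gg, mul_sum, sum_mul]
      congr 1
      exact sum_congr rfl fun i _ => by rw [← mul_assoc, ← mul_assoc, (g2 i).1, mul_assoc _ _ g, (g2 i).2]
    rw [Fin.sum_univ_add]
    simp only [Fin.append_left, Fin.append_right]
    have t3 : ∀ D D' u g : H →L[ℂ] H, u * (p * D * p + g * D' * g) * u =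
        u * p * D * (p * u) + u * g * D' * (g * u) := fun _ _ _ _ => by noncomm_ring
    rw [add_sub_add_comm, t1, t2, t3, r1, r2, r3, r4]
    exact (norm_add_le _ _).trans (add_le_add q5 s5)

theorem pave_all (hA : IsMASA M A) {ε : ℝ} (hε : 0 < ε) {r : ℕ} (hr : 2 ≤ r) (h : 2000 ^ 2 / ε ^ 2 ≤ r)
    (h1 : ε < 1) (hx : x ∈ M) (hs : IsSelfAdjoint x) : SoPavable M A x ε (r + r) := by
  intro F δ hδ
  obtain ⟨t, t0, x₁, x1, x2, x3, e, tn⟩ : ∃ t : ℝ, 0 ≤ t ∧ ∃ x₁ ∈ M, IsSelfAdjoint x₁ ∧ ‖x₁‖ ≤ 1 ∧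
      x = (t : ℂ) • x₁ ∧ t = ‖x‖ := by
    by_cases h0 : x = 0
    · exact ⟨0, le_rfl, 0, zero_mem M, IsSelfAdjoint.zero _, by simp, by simp [h0], by simp [h0]⟩
    · have n0 : ‖x‖ ≠ 0 := norm_ne_zero_iff.2 h0
      refine ⟨‖x‖, norm_nonneg _, ((‖x‖⁻¹ : ℝ) : ℂ) • x, smul_mem_M hx _, ?_, ?_, ?_, rfl⟩
      · rw [IsSelfAdjoint, star_smul, hs.star_eq]; simp
      · rw [norm_smul]; simp [n0]
      · rw [smul_smul, ← Complex.ofReal_mul, mul_inv_cancel₀ n0]; simp
  obtain ⟨K, _, _, _, π, Ω, p, hS, hT⟩ := split hA F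
  have k1 : CPav M A p x₁ (ε / 2) r F (δ / 2) := by
    by_cases h0 : Ω = 0
    · have : p = 0 := ContinuousLinearMap.ext fun ξ => norm_le_zero_iff.1 (le_of_forall_pos_le_add fun θ hθ => by
        obtain ⟨C, -, k⟩ := hS.ac ξ θ hθ
        have := k 1 (one_mem M)
        have n := mul_le_mul_of_nonneg_left (ContinuousLinearMap.norm_id_le (𝕜 := ℂ) (E := H)) hθ.le
        rw [h0, map_zero, norm_zero, mul_zero] at this
        exact this.trans (add_le_add le_rfl (n.trans_eq (mul_one θ))))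
      exact this ▸ zero_pave (half_pos hε) F (half_pos hδ)
    · obtain ⟨K', _, _, _, M', A', Ω', Φ, hR⟩ := exists_red hA hS h0
      exact red_pave hA hS.mem hS.proj hR (half_pos hε) hr (le_of_eq_of_le (by field_simp; norm_num) h)
        x1 x2 x3 F (half_pos hδ)
  obtain ⟨e', e1, e2, e3, a, a1, a2, a3, q, q1, q2, -, q4, q5⟩ := join hA hS.mem hS.proj k1
    (thin_cpav hA (sub_mem (one_mem A) hS.mem) hS.proj.one_sub hT x1 x2 x3 (by omega) (half_pos hδ))
  have k2 : 3 / (r : ℝ) ≤ ε / 2 := by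
    have r0 : (0 : ℝ) < r := by exact_mod_cast (by omega : 0 < r)
    rw [div_le_iff₀ (by positivity)] at h ⊢
    nlinarith [mul_pos r0 hε]
  refine ⟨e', e1, e2, e3, (t : ℂ) • a, A.smul_mem a1 _, ?_, ?_, q, q1, q2, q4, ?_⟩
  · rw [IsSelfAdjoint, star_smul, a2.star_eq]; simp
  · rw [norm_smul, Complex.norm_real, Real.norm_of_nonneg t0, ← tn]
    exact mul_le_of_le_one_right t0 a3
  · have e2 : q * (∑ i, e' i * x * e' i - (t : ℂ) • a) * q =
        (t : ℂ) • (q * (∑ i, e' i * x₁ * e' i - a) * q) := by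
      conv_lhs => rw [e]
      simp only [mul_smul_comm, smul_mul_assoc, ← smul_sum, ← smul_sub]
    rw [e2, norm_smul, ← tn, Complex.norm_real, Real.norm_of_nonneg t0, mul_comm]
    exact mul_le_mul_of_nonneg_right (q5.trans (by linarith)) t0

end Vale.Agent.P078.G
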