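import Vale.Agent.P078.G.Core2
import Vale.Agent.P078.CoreW

/-!
Equivariant form of `W.core`, uniform in the functional.
-/

open Finset Polynomial
open scoped Classical ComplexConjugate Pointwise

namespace Vale.Agent.P078.W

open G

variable {Γ X : Type*} [Group Γ] [MulAction Γ X] [TopologicalSpace X] [CompactSpace X] [T2Space X]
  [TotallyDisconnectedSpace X] [ContinuousConstSMul Γ X] {I₀ : C(X, ℝ) →ₗ[ℝ] ℝ} {w : X → ℝ}
  {S : Finset Γ} {k : X → X → ℂ} {r q : ℕ} {ρ : X → ℝ}

theorem colour2 [NeZero r] (hI₀ : IsDynW Γ I₀ w) (hS : Gen S) (hk : IsKer S k) (hr : 2 ≤ r) (hq : 10 ≤ q)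
    (h0 : ∀ x, 0 < ρ x) (h1 : ∀ x, ρ x ^ (4 * q) = w x)
    (h2 : ∀ g : Γ, Continuous fun x => ρ (g • x) / ρ x) {τ : X → X} (t1 : Continuous τ) (t2 : τ^[r] = id)
    (t3 : ∀ (g : Γ) x, τ (g • x) = g • τ x) (t4 : ∀ a b, k (τ a) (τ b) = k a b) (t5 : ∀ x, w (τ x) = w x)
    (t6 : ∀ x, ρ (τ x) = ρ x)
    {s : X → Fin r} (s1 : IsLocallyConstant s) (s2 : ∀ x, s (τ x) = s x + 1)
    (hcl' : ∀ B : Finset Γ, ∃ (n : ℕ) (cl : X → Fin n), IsLocallyConstant cl ∧
      (∀ g ∈ B, ∀ x, cl (g • x) = cl x → g • x = x) ∧ ∀ x, cl (τ x) = cl x) :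
    ∃ c : X → Fin r, IsLocallyConstant c ∧ (∀ x, c (τ x) = c x + 1) ∧ ∀ I, IsDynW Γ I w →
      ii I (fun x => dg (Polynomial.X ^ (2 * q)) (yc (kw (fun v => ρ v / ρ x) k) c)
        (ball S (2 * q + 1) x) x) ≤ 3 * (5 / √(r : ℝ)) ^ (2 * q) := by
  have r0 : 0 < r := by omega
  have sys := sys_LW hI₀ hS hk r0 h0 h1 h2
  have hη : 0 < (5 / √(r : ℝ)) ^ (2 * q) := by positivity
  have p1 : ∀ I, IsDynW Γ I w → ii I (fun x => dens S (2 * q + 1) (LW q ρ k fun _ => (none : Option (Fin r))) x / w x) ≤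
      2 * (5 / √(r : ℝ)) ^ (2 * q) := by
    intro I hI
    refine init hI hS (sys.clus _) (sys.cont _ (IsLocallyConstant.const _)) fun y U hy _ hw => ?_
    rw [← h1 y]
    refine LW_add hr (by omega) (hk.good U) h0 hy fun v hv => ?_
    refine le_of_pow_le_pow_left₀ (n := 4 * q) (by omega) (h0 y).le ?_
    rw [h1, h1]
    exact hw v hv
  generalize (5 / √(r : ℝ)) ^ (2 * q) = η at *
  set n := 2 * q + 1 with hn
  obtain ⟨m, cl, hcl, hsp, c5⟩ := hcl' (S ^ n)
  have inj : Function.Injective τ := Function.LeftInverse.injective (g := τ^[r - 1]) fun x => by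
    rw [← Function.iterate_succ_apply, show (r - 1).succ = r by omega, t2, id]
  have bl : ∀ x, ball S n (τ x) = (ball S n x).image τ := fun x => by
    simp only [ball, orb, image_image]
    exact image_congr fun w _ => (t3 w x).symm
  have lw : ∀ {σ σ' : X → Option (Fin r)}, (∀ v, σ' (τ v) = (σ v).map (· + 1)) → ∀ U : Finset X,
      LW q ρ k σ' (U.image τ) = LW q ρ k σ U := fun hσ U => by
    unfold LW
    exact Lam_equiv _ inj (fun a b => by simp only [kw, t4, t6]) hσ U
  have sp : ∀ y y', y' ∈ ball S n y → (cl y' : ℕ) = cl y → y' = y := by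
    intro y y' h1 h2
    obtain ⟨w, hw, rfl⟩ := mem_orb.1 h1
    exact hsp w hw y (Fin.ext h2)
  have lc : ∀ {St : Type} (f : Fin m → St), IsLocallyConstant fun x => f (cl x) :=
    fun f => hcl.comp f
  have clop : ∀ j : ℕ, IsClopen {x | (cl x : ℕ) = j} := fun j =>
    (lc fun i => (i : ℕ)).isClopen_fiber j
  have cind : ∀ (j : ℕ) (a : ℝ), Continuous fun x => if x ∈ {x | (cl x : ℕ) = j} then a else 0 :=
    fun j a => (lc fun i => if (i : ℕ) = j then a else 0).continuous
  have tot : ∀ I, IsDynW Γ I w → ∀ a : ℝ, ∑ j ∈ range m, ii I (fun x => if x ∈ {x | (cl x : ℕ) = j} then a else 0) = a := by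
    intro I hI a
    rw [← ii_sum _ fun j _ => cind j a]
    conv_rhs => rw [← ii_const hI a]
    congr 1
    funext x
    simp only [Set.mem_setOf_eq, sum_ite_eq, mem_range, (cl x).2, if_true]
  have p2 : ∀ j : ℕ, ∃ col : X → Option (Fin r), IsLocallyConstant col ∧
      (∀ x, col x = none ↔ j ≤ (cl x : ℕ)) ∧ (∀ x, col (τ x) = (col x).map (· + 1)) ∧
      ∀ I, IsDynW Γ I w → ii I (fun x => dens S n (LW q ρ k col) x / w x) ≤
        2 * η + ∑ i ∈ range j, ii I fun x => if x ∈ {x | (cl x : ℕ) = i} then η else 0 := by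
    intro j
    induction j with
    | zero =>
      refine ⟨fun _ => none, IsLocallyConstant.const _, fun x => by simp, fun _ => rfl, fun I hI => ?_⟩
      simpa using p1 I hI
    | succ j ih =>
      obtain ⟨col, c1, c2, c4, c3⟩ := ih
      have lcs : ∀ c : X → Fin r, IsLocallyConstant c → IsLocallyConstant
          fun x => if (cl x : ℕ) = j then some (c x) else col x := fun c hc =>
        ((hcl.prodMk (hc.prodMk c1)).comp fun q : Fin m × Fin r × Option (Fin r) =>
          if (q.1 : ℕ) = j then some q.2.1 else q.2.2)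
      obtain ⟨c, d1, d3, d2⟩ := select2 t1 t2 s1 s2 (a := η) (Δ := fun c x => (if (cl x : ℕ) = j then 1 else 0) *
        (LW q ρ k (fun v => if (cl v : ℕ) = j then some c else col v) (ball S n x) / w x -
          LW q ρ k col (ball S n x) / w x))
        (fun c => (lc fun i => if (i : ℕ) = j then (1 : ℝ) else 0).continuous.mul
          ((sys.cont _ (lcs _ (IsLocallyConstant.const c)) (S ^ n)).sub (sys.cont _ c1 (S ^ n))))
        (fun x => by
          by_cases hx : (cl x : ℕ) = j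
          · obtain ⟨c, hc⟩ := LW_col r0 hq (hk.good (ball S n x)) h0 (self_mem_ball hS n x)
              ((c2 x).2 hx.ge) (mul_pos hη (hI₀.wpos x))
            refine ⟨c, ?_⟩
            rw [if_pos hx, one_mul, ← sub_div, div_lt_iff₀ (hI₀.wpos x),
              sys.loc _ (Function.update col x (some c)) _ fun v hv => ?_]
            · exact hc
            · by_cases h1 : v = x
              · subst h1; simp [hx]
              · rw [Function.update_of_ne h1, if_neg fun h2 => h1 (sp x v hv (h2.trans hx.symm))]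
          · exact ⟨⟨0, r0⟩, by rw [if_neg hx, zero_mul]; exact hη⟩)
        (fun c x => by
          rw [c5, bl, t5, lw c4, lw (σ := fun v => if (cl v : ℕ) = j then some c else col v) fun v => by
            rw [c5]
            split_ifs
            exacts [rfl, c4 v]])
      refine ⟨fun x => if (cl x : ℕ) = j then some (c x) else col x, lcs c d1, fun x => ?_, fun x => ?_,
        fun I hI => ?_⟩
      · by_cases hx : (cl x : ℕ) = j
        · simp only [hx, if_true]
          simp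
        · simp only [hx, if_false, c2]
          omega
      · simp only [c5]
        split_ifs
        exacts [by rw [d3]; rfl, c4 x]
      · rw [sum_range_succ, ← add_assoc]
        refine (step hI hS sys c1 (lcs c d1) (clop j) (η := η)
          (fun x hx => ?_) (fun y hy y' hy' h1 => sp y y' h1 (hy'.trans hy.symm))
          fun y hy => ?_).trans (add_le_add (c3 I hI) (le_of_eq (by congr 1; funext x; congr)))
        · have : ¬(cl x : ℕ) = j := hx
          simp only [this, if_false]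
        · have hy' : (cl y : ℕ) = j := hy
          have := d2 y
          rw [if_pos hy', one_mul, ← sub_div, div_lt_iff₀ (hI.wpos y)] at this
          rw [sys.loc _ (fun v => if (cl v : ℕ) = j then some (c y) else col v) _ fun v hv => ?_]
          · exact this.le
          · by_cases h1 : (cl v : ℕ) = j
            · rw [sp y v hv (h1.trans hy'.symm)]
            · simp only [h1, if_false]
  obtain ⟨col, c1, c2, c4, c3'⟩ := p2 m
  have hc : IsLocallyConstant fun x => (col x).getD ⟨0, r0⟩ := c1.comp fun o => o.getD ⟨0, r0⟩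
  have e : ∀ x, col x = some ((col x).getD ⟨0, r0⟩) := by
    intro x
    cases hx : col x with
    | none => exact absurd ((c2 x).1 hx) (not_le.2 (cl x).2)
    | some a => rfl
  refine ⟨_, hc, fun x => by rw [c4, e x]; rfl, fun I hI => ?_⟩
  have c3 := c3' I hI
  rw [tot I hI] at c3
  simp only [← dg_div h0 h1]
  rw [← final_id hI hS sys c1 (D := fun v U => dg (Polynomial.X ^ (2 * q))
    (yc (kw ρ k) fun x => (col x).getD ⟨0, r0⟩) U v) (fun U => ?_) (fun v U => ?_) fun g => ?_]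
  · linarith
  · rw [← LW_final r0 (hk.good U) h0]
    exact sys.loc _ _ _ fun v _ => e v
  · refine dg_local (R := fun j => ball S j v) (self_mem_ball hS 0 v) (ball_mono hS v)
      (fun j a ha b hb => ?_) (by rw [natDegree_X_pow]; omega)
    have : k a b ≠ 0 := fun h0 => hb (by simp [yc, kw, h0])
    obtain ⟨g, hg, rfl⟩ := hk.range _ _ this
    have := smul_mem_ball (hS.inv g hg) ha
    rwa [inv_smul_smul] at this
  · simp only [dg_div h0 h1]
    exact ct_dg hI hk hc h2 _ g

theorem core2W' [NeZero r] (hI₀ : IsDynW Γ I₀ w) (hS : Gen S) (hk : IsKer S k)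
    (hr : 2 ≤ r) (m : ℕ) {τ : X → X} (t1 : Continuous τ) (t2 : τ^[r] = id)
    (t3 : ∀ (g : Γ) x, τ (g • x) = g • τ x) (t4 : ∀ a b, k (τ a) (τ b) = k a b) (t5 : ∀ x, w (τ x) = w x)
    {s : X → Fin r} (s1 : IsLocallyConstant s) (s2 : ∀ x, s (τ x) = s x + 1)
    (hcl : ∀ B : Finset Γ, ∃ (n : ℕ) (cl : X → Fin n), IsLocallyConstant cl ∧
      (∀ g ∈ B, ∀ x, cl (g • x) = cl x → g • x = x) ∧ ∀ x, cl (τ x) = cl x) :
    ∃ c : X → Fin r, IsLocallyConstant c ∧ (∀ x, c (τ x) = c x + 1) ∧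
      Continuous (fun x => (kp (yc k c) (ball S (2 * m) x) (2 * m) x x).re) ∧
      ∀ I : C(X, ℝ) →ₗ[ℝ] ℝ, IsDynW Γ I w →
        ii I (fun x => (kp (yc k c) (ball S (2 * m) x) (2 * m) x x).re) ≤
          5 * (240 / √(r : ℝ)) ^ (2 * m) := by
  have r0 : 0 < r := by omega
  have ht : 0 < 240 / √(r : ℝ) := by positivity
  have et : (240 / √(r : ℝ)) = 48 * (5 / √(r : ℝ)) := by ring
  set t := 240 / √(r : ℝ) with htd
  obtain ⟨L, hL⟩ := exists_L hI₀ (S ^ (2 * m))
  set K : ℝ := ((2 * m : ℕ) + 1) * (3 * ((S ^ (2 * m)).card + 1)) ^ (2 * m) with hK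
  have K0 : 0 < K := by positivity
  obtain ⟨θ, θ0, θ1, θ2⟩ : ∃ θ : ℝ, 0 < θ ∧ 6 * θ ≤ 1 ∧ 6 * θ * K ≤ t ^ (2 * m) := by
    have m1 := min_le_left (1 / 6 : ℝ) (t ^ (2 * m) / (6 * K))
    refine ⟨min (1 / 6) (t ^ (2 * m) / (6 * K)), by positivity, by linarith, ?_⟩
    have := (le_div_iff₀ (by positivity)).1 (min_le_right (1 / 6 : ℝ) (t ^ (2 * m) / (6 * K)))
    linarith
  obtain ⟨q, q1, q2, q3⟩ : ∃ q : ℕ, 10 ≤ q ∧ m ≤ q ∧ L ≤ (4 * q : ℕ) * θ := by
    obtain ⟨q, hq⟩ := exists_nat_ge (L / θ)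
    refine ⟨q + m + 10, by omega, by omega, ?_⟩
    rw [div_le_iff₀ θ0] at hq
    refine hq.trans (mul_le_mul_of_nonneg_right ?_ θ0.le)
    exact_mod_cast (by omega : q ≤ 4 * (q + m + 10))
  set ρ : X → ℝ := fun x => w x ^ (((4 * q : ℕ) : ℝ)⁻¹) with hρ
  have h0 : ∀ x, 0 < ρ x := fun x => Real.rpow_pos_of_pos (hI₀.wpos x) _
  have h1 : ∀ x, ρ x ^ (4 * q) = w x := fun x =>
    Real.rpow_inv_natCast_pow (hI₀.wpos x).le (by omega)
  have h2 : ∀ g : Γ, Continuous fun x => ρ (g • x) / ρ x := fun g => by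
    refine ((hI₀.wcont g).rpow_const (p := ((4 * q : ℕ) : ℝ)⁻¹) fun x => Or.inr (by positivity)).congr
      fun x => ?_
    exact Real.div_rpow (hI₀.wpos _).le (hI₀.wpos _).le _
  obtain ⟨c, hc, hc', d⟩ := colour2 hI₀ hS hk hr q1 h0 h1 h2 t1 t2 t3 t4 t5 (fun x => by simp only [hρ, t5])
    s1 s2 hcl
  have c1 : Continuous fun x => (kp (yc k c) (ball S (2 * m) x) (2 * m) x x).re := by
    have := W.ct_dg (ρ := fun _ => 1) hI₀ hk hc (fun _ => continuous_const) (Polynomial.X ^ (2 * m)) 1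
      (S ^ (2 * m))
    have e : kw (fun _ : X => (1 : ℝ) / 1) k = k := by
      funext a b
      simp [kw]
    simp only [one_smul, dg_pow, e] at this
    refine (this.mul (continuous_const (y := (48 : ℝ) ^ (2 * m)))).congr fun x => ?_
    simp only [ball, Pi.mul_apply]
    field_simp
  have c2 : Continuous fun x => dg (Polynomial.X ^ (2 * q)) (yc (kw (fun v => ρ v / ρ x) k) c)
      (ball S (2 * q + 1) x) x := by
    simpa only [one_smul, ball] using W.ct_dg hI₀ hk hc h2 (Polynomial.X ^ (2 * q)) 1 (S ^ (2 * q + 1))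
  refine ⟨c, hc, hc', c1, fun I hI => ?_⟩
  have key : ∀ x, (kp (yc k c) (ball S (2 * m) x) (2 * m) x x).re ≤ 2 * t ^ (2 * m) +
      t ^ (2 * m) / t ^ (2 * q) * 48 ^ (2 * q) * dg (Polynomial.X ^ (2 * q))
        (yc (kw (fun v => ρ v / ρ x) k) c) (ball S (2 * q + 1) x) x := by
    intro x
    have k1 := mom (y := yc (kw (fun v => ρ v / ρ x) k) c) (U := ball S (2 * q + 1) x) (fun a ha b hb => by
      unfold yc kw
      rw [(hk.good _).1 a ha b hb]
      by_cases h : c a = c b
      · simp [h, mul_comm]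
      · simp [h, Ne.symm h]) (self_mem_ball hS _ x) ht q2
    have k2 := dg_local (h := Polynomial.X ^ (2 * m)) (y := yc (kw (fun v => ρ v / ρ x) k) c)
      (U := ball S (2 * q + 1) x) (R := fun j => ball S j x) (self_mem_ball hS 0 x) (ball_mono hS x)
      (fun j a ha b hb => by
        have : k a b ≠ 0 := fun h0 => hb (by simp [yc, kw, h0])
        obtain ⟨g, hg, rfl⟩ := hk.range _ _ this
        have := smul_mem_ball (hS.inv g hg) ha
        rwa [inv_smul_smul] at this) (natDegree_X_pow (2 * m)).le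
    rw [inter_eq_right.2 (ball_mono hS x (by omega)), dg_pow, dg_pow,
      div_left_inj' (by positivity)] at k2
    have n1 : ∀ a ∈ ball S (2 * m) x, |ρ a / ρ x - 1| ≤ θ := fun a ha =>
      near_one (n := 4 * q) (div_pos (h0 _) (h0 _)) θ0 (by rw [div_pow, h1, h1]; exact (hL x a ha).1)
        (by rw [inv_pow, div_pow, h1, h1]; exact (hL x a ha).2) q3
    have en : ∀ a ∈ ball S (2 * m) x, ∀ b ∈ ball S (2 * m) x, ‖yc k c a b‖ ≤ 2 := fun a ha b hb => by
      unfold yc
      split_ifs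
      · exact (hk.good _).entry ha hb
      · simp
    have k3 := kp_close (y := yc k c) (y' := yc (kw (fun v => ρ v / ρ x) k) c) (U := ball S (2 * m) x)
      (θ := 6 * θ) (by positivity) θ1 en (fun a ha b hb => by
        have e : yc (kw (fun v => ρ v / ρ x) k) c a b - yc k c a b =
            ((ρ a / ρ x * (ρ b / ρ x) - 1 : ℝ) : ℂ) * yc k c a b := by
          unfold yc kw
          split_ifs
          · push_cast; ring
          · simp
        rw [e, norm_mul, Complex.norm_real, Real.norm_eq_abs]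
        have a1 := abs_le.1 (n1 a ha)
        have a2 := abs_le.1 (n1 b hb)
        have a3 : |ρ a / ρ x * (ρ b / ρ x) - 1| ≤ 3 * θ := by
          generalize ρ a / ρ x = u at *
          generalize ρ b / ρ x = v at *
          rw [abs_le]
          constructor <;> nlinarith
        have := mul_le_mul a3 (en a ha b hb) (norm_nonneg _) (by positivity)
        linarith) (2 * m) (self_mem_ball hS _ x) x
    have k4 : ((2 * m : ℕ) : ℝ) * (6 * θ) * (3 * ((ball S (2 * m) x).card + 1)) ^ (2 * m) ≤ 6 * θ * K := by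
      have b1 : ((ball S (2 * m) x).card : ℝ) ≤ (S ^ (2 * m)).card := by exact_mod_cast card_image_le
      have b2 := pow_le_pow_left₀ (by positivity) (show (3 : ℝ) * ((ball S (2 * m) x).card + 1) ≤
        3 * ((S ^ (2 * m)).card + 1) by linarith) (2 * m)
      rw [hK, mul_comm _ (6 * θ), mul_assoc (6 * θ)]
      refine mul_le_mul_of_nonneg_left (mul_le_mul (by linarith) b2 (by positivity) (by positivity))
        (by positivity)
    have k5 := (abs_le.1 ((Complex.abs_re_le_norm _).trans k3)).1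
    rw [Complex.sub_re] at k5
    rw [dg_pow, mul_assoc, mul_div_cancel₀ _ (by positivity)]
    linarith
  have c3 : Continuous fun x => t ^ (2 * m) / t ^ (2 * q) * 48 ^ (2 * q) * dg (Polynomial.X ^ (2 * q))
      (yc (kw (fun v => ρ v / ρ x) k) c) (ball S (2 * q + 1) x) x := continuous_const.mul c2
  have c4 : Continuous fun x => 2 * t ^ (2 * m) + t ^ (2 * m) / t ^ (2 * q) * 48 ^ (2 * q) *
      dg (Polynomial.X ^ (2 * q)) (yc (kw (fun v => ρ v / ρ x) k) c) (ball S (2 * q + 1) x) x :=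
    continuous_const.add c3
  refine (ii_mono hI c1 c4 key).trans ?_
  rw [ii_add continuous_const c3, ii_const hI, ii_smul c2]
  have k6 := mul_le_mul_of_nonneg_left (d I hI) (show 0 ≤ t ^ (2 * m) / t ^ (2 * q) * 48 ^ (2 * q) by positivity)
  have e : t ^ (2 * m) / t ^ (2 * q) * 48 ^ (2 * q) * (3 * (5 / √(r : ℝ)) ^ (2 * q)) = 3 * t ^ (2 * m) := by
    have : t ^ (2 * q) = 48 ^ (2 * q) * (5 / √(r : ℝ)) ^ (2 * q) := by rw [et, mul_pow]
    rw [this]
    field_simp
  rw [e] at k6
  exact le_of_le_of_eq (add_le_add le_rfl k6) (by ring)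

end Vale.Agent.P078.W

namespace Vale.Agent.P078.G

theorem core2W {Γ X : Type*} [Group Γ] [MulAction Γ X] [TopologicalSpace X] [CompactSpace X] [T2Space X]
    [TotallyDisconnectedSpace X] [ContinuousConstSMul Γ X] {I₀ : C(X, ℝ) →ₗ[ℝ] ℝ} {w : X → ℝ}
    {S : Finset Γ} {k : X → X → ℂ} {r : ℕ} [NeZero r] (hI₀ : IsDynW Γ I₀ w) (hS : Gen S) (hk : IsKer S k)
    (hr : 2 ≤ r) (m : ℕ) {τ : X → X} (t1 : Continuous τ) (t2 : τ^[r] = id)
    (t3 : ∀ (g : Γ) x, τ (g • x) = g • τ x) (t4 : ∀ a b, k (τ a) (τ b) = k a b) (t5 : ∀ x, w (τ x) = w x)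
    {s : X → Fin r} (s1 : IsLocallyConstant s) (s2 : ∀ x, s (τ x) = s x + 1)
    (hcl : ∀ B : Finset Γ, ∃ (n : ℕ) (cl : X → Fin n), IsLocallyConstant cl ∧
      (∀ g ∈ B, ∀ x, cl (g • x) = cl x → g • x = x) ∧ ∀ x, cl (τ x) = cl x) :
    ∃ c : X → Fin r, IsLocallyConstant c ∧ (∀ x, c (τ x) = c x + 1) ∧
      Continuous (fun x => (kp (yc k c) (ball S (2 * m) x) (2 * m) x x).re) ∧
      ∀ I : C(X, ℝ) →ₗ[ℝ] ℝ, IsDynW Γ I w →
        ii I (fun x => (kp (yc k c) (ball S (2 * m) x) (2 * m) x x).re) ≤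
          5 * (240 / √(r : ℝ)) ^ (2 * m) :=
  W.core2W' hI₀ hS hk hr m t1 t2 t3 t4 t5 s1 s2 hcl

end Vale.Agent.P078.G
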