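import Vale.Agent.P078.X.Spl
import Vale.Agent.P078.CE

/-!
Approximation from the normalizer algebra without a trace.
-/

open Finset Filter Vale.Agent.P070h8
open scoped Classical InnerProductSpace

namespace Vale.Agent.P078.X

open G

variable {H : Type*} [NormedAddCommGroup H] [InnerProductSpace ℂ H] [CompleteSpace H]
  {M : VonNeumannAlgebra H} {A : StarSubalgebra ℂ (H →L[ℂ] H)} {Ω : H}
  {E : (H →L[ℂ] H) → H →L[ℂ] H} {x : H →L[ℂ] H}

namespace Nr

/-- The right `A`-module generated by `S`. -/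
def LS (A : StarSubalgebra ℂ (H →L[ℂ] H)) (S : Finset (NG M A)) : Submodule ℂ (H →L[ℂ] H) :=
  Submodule.span ℂ {y | ∃ g ∈ S, ∃ a ∈ A, y = op g * a}

theorem LS_mul {S : Finset (NG M A)} {y a : H →L[ℂ] H} (hy : y ∈ LS A S) (ha : a ∈ A) :
    y * a ∈ LS A S := by
  induction hy using Submodule.span_induction with
  | mem _ h =>
    obtain ⟨g, hg, b, hb, rfl⟩ := h
    exact Submodule.subset_span ⟨g, hg, b * a, mul_mem hb ha, mul_assoc _ _ _⟩
  | zero => simp
  | add _ _ _ _ h1 h2 => rw [add_mul]; exact add_mem h1 h2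
  | smul c _ _ h => rw [smul_mul_assoc]; exact Submodule.smul_mem _ _ h

theorem LS_mono {S T : Finset (NG M A)} (h : S ⊆ T) : LS A S ≤ LS A T :=
  Submodule.span_mono fun _ ⟨g, hg, k⟩ => ⟨g, h hg, k⟩

theorem LS_N (hA : IsMASA M A) {S : Finset (NG M A)} : LS A S ≤ N0 M A :=
  Submodule.span_le.2 (by
    rintro _ ⟨g, -, a, ha, rfl⟩
    exact N_mul (Submodule.subset_span ⟨g, rfl⟩) (A_le_N hA ha))

theorem LS_star {S : Finset (NG M A)} (hS : ∀ g ∈ S, g⁻¹ ∈ S) {y : H →L[ℂ] H} (hy : y ∈ LS A S) :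
    star y ∈ LS A S := by
  induction hy using Submodule.span_induction with
  | mem _ h =>
    obtain ⟨g, hg, b, hb, rfl⟩ := h
    refine Submodule.subset_span ⟨g⁻¹, hS g hg, op g * star b * star (op g),
      (mem_norm.1 (op_norm g)).2.2.1 _ (star_mem hb), ?_⟩
    rw [star_mul, op_inv, ← mul_assoc, ← mul_assoc, Unitary.star_mul_self_of_mem (op_norm g).2.1,
      one_mul]
  | zero => simp
  | add _ _ _ _ h1 h2 => rw [star_add]; exact add_mem h1 h2
  | smul c _ _ h => rw [star_smul]; exact Submodule.smul_mem _ _ h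

theorem N_LS {y : H →L[ℂ] H} (hy : y ∈ N0 M A) : ∃ S : Finset (NG M A), y ∈ LS A S := by
  induction hy using Submodule.span_induction with
  | mem _ h =>
    obtain ⟨g, rfl⟩ := h
    exact ⟨{g}, Submodule.subset_span ⟨g, mem_singleton_self _, 1, one_mem A, (mul_one _).symm⟩⟩
  | zero => exact ⟨∅, zero_mem _⟩
  | add _ _ _ _ h1 h2 =>
    obtain ⟨S, h1⟩ := h1
    obtain ⟨T, h2⟩ := h2
    exact ⟨S ∪ T, add_mem (LS_mono subset_union_left h1) (LS_mono subset_union_right h2)⟩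
  | smul c _ _ h => exact h.imp fun S h => Submodule.smul_mem _ _ h

theorem E0 (hE : IsE M A Ω E) : E 0 = 0 := hE.self 0 (zero_mem A)

theorem perp (hA : IsMASA M A) (hE : IsE M A Ω E) {S : Finset (NG M A)} {m y : H →L[ℂ] H} (hm : m ∈ M)
    (h : ∀ g ∈ S, E (star (op g) * m) = 0) (hy : y ∈ LS A S) : E (star y * m) = 0 := by
  have M' : ∀ y ∈ LS A S, star y * m ∈ M := fun y hy => mul_mem (star_mem (N_mem (LS_N hA hy))) hm
  induction hy using Submodule.span_induction with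
  | mem _ k =>
    obtain ⟨g, hg, b, hb, rfl⟩ := k
    rw [star_mul, mul_assoc, hE.left _ (star_mem hb) _ (mul_mem (star_mem (op_mem g)) hm), h g hg,
      mul_zero]
  | zero => simpa using E0 hE
  | add _ _ a b h1 h2 => rw [star_add, add_mul, hE.add _ (M' _ a) _ (M' _ b), h1, h2, add_zero]
  | smul c _ a h1 => rw [star_smul, smul_mul_assoc, hE.smul _ (M' _ a), h1, smul_zero]

theorem graph (hA : IsMASA M A) (hE : IsE M A Ω E) (S : Finset (NG M A)) (h : NG M A) :
    ∃ p ∈ A, star p = p ∧ op h * (1 - p) ∈ LS A S ∧ ∀ g ∈ S, E (star (op g) * op h) * p = 0 := by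
  induction S using Finset.induction_on with
  | empty => exact ⟨1, one_mem A, star_one _, by simp, by simp⟩
  | insert g S _ ih =>
    obtain ⟨p, p1, p2, p3, p4⟩ := ih
    set c := E (op (g⁻¹ * h)) with hc
    have c1 : c ∈ A := hE.mem _ (op_mem _)
    have c2 := CEx.fixu hA (g⁻¹ * h) c1 (D := E) rfl (fun a ha => hE.left a ha _ (op_mem _))
      (fun a ha => hE.right a ha _ (op_mem _)) hE.self
    have f1 : star c * c ∈ A := mul_mem (star_mem c1) c1
    have u2 : star (op (g⁻¹ * h)) * op (g⁻¹ * h) = 1 := Unitary.star_mul_self_of_mem (op_norm _).2.1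
    have c3 : c * (star c * c) = c := by
      have e : star c * c = star c * c * (star c * c) := by
        conv_lhs => rw [← c2]
        rw [star_mul, star_mul, star_star, mul_assoc, ← mul_assoc (star (op _)), u2, one_mul]
      calc c * (star c * c) = op (g⁻¹ * h) * (star c * c) * (star c * c) := by rw [c2]
        _ = c := by rw [mul_assoc, ← e, c2]
    have c4 : op h * (star c * c) = op g * c := by
      conv_rhs => rw [← c2]
      rw [op_mul, op_inv, ← mul_assoc (op g), ← mul_assoc (op g),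
        Unitary.mul_star_self_of_mem (op_norm g).2.1, one_mul]
    refine ⟨(1 - star c * c) * p, mul_mem (sub_mem (one_mem A) f1) p1, ?_, ?_, fun g' hg' => ?_⟩
    · rw [star_mul, p2, hA.2.1 _ (sub_mem (one_mem A) f1) _ p1]
      simp
    · have e : op h * (1 - (1 - star c * c) * p) = op h * (1 - p) + op g * (c * p) := by
        rw [← mul_assoc (op g), ← c4]
        noncomm_ring
      rw [e]
      exact add_mem (LS_mono (subset_insert _ _) p3)
        (Submodule.subset_span ⟨g, mem_insert_self _ _, _, mul_mem c1 p1, rfl⟩)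
    · rcases mem_insert.1 hg' with rfl | hg'
      · rw [← op_inv, ← op_mul, ← hc, ← mul_assoc, mul_sub, mul_one, c3, sub_self, zero_mul]
      · rw [hA.2.1 _ (sub_mem (one_mem A) f1) _ p1, ← mul_assoc, p4 g' hg', zero_mul]

theorem proj (hA : IsMASA M A) (hE : IsE M A Ω E) (S : Finset (NG M A)) {m : H →L[ℂ] H} (hm : m ∈ M) :
    ∃ y ∈ LS A S, ∀ g ∈ S, E (star (op g) * (m - y)) = 0 := by
  induction S using Finset.induction_on with
  | empty => exact ⟨0, zero_mem _, by simp⟩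
  | insert h S _ ih =>
    obtain ⟨y, y1, y2⟩ := ih
    obtain ⟨p, p1, p2, p3, p4⟩ := graph hA hE S h
    have dM : m - y ∈ M := sub_mem hm (N_mem (LS_N hA y1))
    have hM : ∀ g : NG M A, star (op g) * (m - y) ∈ M := fun g => mul_mem (star_mem (op_mem g)) dM
    have c1 := hE.mem _ (hM h)
    set c := E (star (op h) * (m - y)) with hc
    have key : ∀ g : NG M A, E (star (op g) * (m - (y + op h * (p * c)))) =
        E (star (op g) * (m - y)) - E (star (op g) * op h) * p * c := fun g => by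
      have gM := mul_mem (star_mem (op_mem g)) (op_mem h)
      rw [mul_assoc, ← hE.right _ (mul_mem p1 c1) _ gM,
        ← hE.sub (hM g) (mul_mem gM (hA.1 _ (mul_mem p1 c1)))]
      congr 1
      noncomm_ring
    refine ⟨y + op h * (p * c), add_mem (LS_mono (subset_insert _ _) y1)
      (Submodule.subset_span ⟨h, mem_insert_self _ _, _, mul_mem p1 c1, rfl⟩), fun g hg => ?_⟩
    rw [key]
    rcases mem_insert.1 hg with rfl | hg
    · have k := perp hA hE dM y2 p3
      rw [star_mul, star_sub, star_one, p2, mul_assoc, hE.left _ (sub_mem (one_mem A) p1) _ (hM g)] at k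
      rw [Unitary.star_mul_self_of_mem (op_norm g).2.1, hE.self 1 (one_mem A), one_mul, ← k, sub_mul,
        one_mul]
    · rw [y2 g hg, p4 g hg, zero_mul, sub_zero]

/-- The closure of `N0 Ω`. -/
noncomputable def KK (M : VonNeumannAlgebra H) (A : StarSubalgebra ℂ (H →L[ℂ] H)) (Ω : H) :
    Submodule ℂ H := ((N0 M A).map (ContinuousLinearMap.apply ℂ H Ω).toLinearMap).topologicalClosure

instance : CompleteSpace (KK M A Ω) := (Submodule.isClosed_topologicalClosure _).completeSpace_coe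

theorem mem_KK {y : H →L[ℂ] H} (hy : y ∈ N0 M A) : y Ω ∈ KK M A Ω :=
  Submodule.le_topologicalClosure _ ⟨y, hy, rfl⟩

theorem app_KK {v : H} (hv : v ∈ KK M A Ω) {η : ℝ} (hη : 0 < η) : ∃ y ∈ N0 M A, ‖v - y Ω‖ ≤ η := by
  obtain ⟨_, ⟨y0, h0, rfl⟩, d⟩ := Metric.mem_closure_iff.1 hv η hη
  exact ⟨y0, h0, by simpa [dist_eq_norm] using d.le⟩

theorem best (hA : IsMASA M A) (hE : IsE M A Ω E) {S : Finset (NG M A)} {m y y' : H →L[ℂ] H} (hm : m ∈ M)
    (h : ∀ g ∈ S, E (star (op g) * (m - y)) = 0) (hy : y ∈ LS A S) (hy' : y' ∈ LS A S) :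
    ‖(KK M A Ω).starProjection (m Ω) - y Ω‖ ≤ ‖(KK M A Ω).starProjection (m Ω) - y' Ω‖ := by
  have dM : m - y ∈ M := sub_mem hm (N_mem (LS_N hA hy))
  have u1 := sub_mem hy hy'
  have k1 := perp hA hE dM h u1
  have k2 : ⟪(y - y') Ω, (m - y) Ω⟫_ℂ = 0 := by
    have := hE.tr _ (mul_mem (star_mem (N_mem (LS_N hA u1))) dM)
    rw [k1, tau_mul, star_star] at this
    simpa [tau] using this.symm
  have k3 := (KK M A Ω).starProjection_inner_eq_zero (m Ω) _ (mem_KK (Ω := Ω) (LS_N hA u1))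
  have k4 : ⟪(KK M A Ω).starProjection (m Ω) - y Ω, (y - y') Ω⟫_ℂ = 0 := by
    have e : (KK M A Ω).starProjection (m Ω) - y Ω =
        (m - y) Ω - (m Ω - (KK M A Ω).starProjection (m Ω)) := by simp
    rw [e, inner_sub_left, k3, inner_eq_zero_symm.1 k2, sub_zero]
  have k5 := norm_add_sq_eq_norm_sq_add_norm_sq_of_inner_eq_zero (𝕜 := ℂ) _ _ k4
  rw [ContinuousLinearMap.sub_apply, sub_add_sub_cancel] at k5
  exact le_of_pow_le_pow_left₀ two_ne_zero (norm_nonneg _) (by nlinarith [mul_self_nonneg ‖y Ω - y' Ω‖])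

theorem joint (hA : IsMASA M A) (hE : IsE M A Ω E) {m : H →L[ℂ] H} (hm : m ∈ M) {η : ℝ} (hη : 0 < η) :
    ∃ y ∈ N0 M A, ‖(KK M A Ω).starProjection (m Ω) - y Ω‖ ≤ η ∧
      ‖(KK M A Ω).starProjection (star m Ω) - star y Ω‖ ≤ η := by
  obtain ⟨y1, a1, b1⟩ := app_KK ((KK M A Ω).starProjection_apply_mem (m Ω)) hη
  obtain ⟨y2, a2, b2⟩ := app_KK ((KK M A Ω).starProjection_apply_mem (star m Ω)) hη
  obtain ⟨S1, c1⟩ := N_LS a1
  obtain ⟨S2, c2⟩ := N_LS a2
  set S := (S1 ∪ S2) ∪ (S1 ∪ S2).image (·⁻¹) with hS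
  have sy : ∀ g ∈ S, g⁻¹ ∈ S := fun g hg => by
    rcases mem_union.1 hg with hg | hg
    · exact mem_union_right _ (mem_image_of_mem _ hg)
    · obtain ⟨v, hv, rfl⟩ := mem_image.1 hg
      exact mem_union_left _ (by rwa [inv_inv])
  obtain ⟨y, d1, d2⟩ := proj hA hE S hm
  have dM : m - y ∈ M := sub_mem hm (N_mem (LS_N hA d1))
  refine ⟨y, LS_N hA d1, (best hA hE hm d2 d1 (LS_mono (subset_union_left.trans subset_union_left) c1)).trans b1,
    (best hA hE (star_mem hm) (fun g hg => ?_) (LS_star sy d1)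
      (LS_mono (subset_union_right.trans subset_union_left) c2)).trans b2⟩
  have k1 := hE.conj g⁻¹ _ (mul_mem (star_mem (op_mem g⁻¹)) dM)
  rw [d2 _ (sy g hg), ← mul_assoc, Unitary.mul_star_self_of_mem (op_norm g⁻¹).2.1, one_mul, op_inv,
    star_star] at k1
  rw [← star_sub, ← star_mul, hE.star _ (mul_mem dM (op_mem g)), k1]
  simp

theorem comm_e {y : H →L[ℂ] H} (hy : y ∈ N0 M A) :
    y * (KK M A Ω).starProjection = (KK M A Ω).starProjection * y := by
  have inv : ∀ T ∈ N0 M A, ∀ x ∈ KK M A Ω, T x ∈ KK M A Ω := fun T hT x hx => by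
    refine map_mem_closure T.continuous hx ?_
    rintro _ ⟨S, hS, rfl⟩
    exact ⟨T * S, N_mul hT hS, rfl⟩
  ext v
  exact (comm_proj (KK M A Ω) y (inv y hy) (inv _ (N_star hy)) v).symm

theorem one_N : (1 : H →L[ℂ] H) ∈ N0 M A := Submodule.subset_span ⟨1, rfl⟩

theorem e_Om : (KK M A Ω).starProjection Ω = Ω :=
  Submodule.starProjection_eq_self_iff.2 (mem_KK one_N)

theorem e_proj : IsStarProjection (KK M A Ω).starProjection := isStarProjection_starProjection

/-- The algebra `N0 e + ℂ (1 - e)`. -/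
def BB (M : VonNeumannAlgebra H) (A : StarSubalgebra ℂ (H →L[ℂ] H)) (Ω : H) :
    StarSubalgebra ℂ (H →L[ℂ] H) where
  carrier := {b | ∃ y ∈ N0 M A, ∃ c : ℂ,
    b = y * (KK M A Ω).starProjection + c • (1 - (KK M A Ω).starProjection)}
  mul_mem' := by
    rintro _ _ ⟨y, hy, c, rfl⟩ ⟨y', hy', c', rfl⟩
    refine ⟨y * y', N_mul hy hy', c * c', ?_⟩
    have e1 := (e_proj (M := M) (A := A) (Ω := Ω)).isIdempotentElem.eq
    have e2 := comm_e (Ω := Ω) hy'
    generalize (KK M A Ω).starProjection = e at e1 e2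
    have e3 : e * (y' * e) = y' * e := by rw [← mul_assoc, ← e2, mul_assoc, e1]
    simp only [add_mul, mul_add, mul_smul_comm, smul_mul_assoc, mul_sub, sub_mul, mul_one, one_mul,
      mul_assoc, e1, e3, sub_self, smul_zero, add_zero, sub_zero]
    module
  add_mem' := by
    rintro _ _ ⟨y, hy, c, rfl⟩ ⟨y', hy', c', rfl⟩
    exact ⟨y + y', add_mem hy hy', c + c', by rw [add_mul, add_smul]; abel⟩
  algebraMap_mem' := fun c => ⟨c • 1, Submodule.smul_mem _ _ one_N, c, by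
    rw [Algebra.algebraMap_eq_smul_one, smul_mul_assoc, one_mul, ← smul_add, add_sub_cancel]⟩
  star_mem' := by
    rintro _ ⟨y, hy, c, rfl⟩
    refine ⟨star y, N_star hy, star c, ?_⟩
    rw [star_add, star_mul, star_smul, star_sub, star_one, e_proj.isSelfAdjoint.star_eq,
      comm_e (N_star hy)]

theorem bicomm (hA : IsMASA M A) (hE : IsE M A Ω E) (hx : x ∈ M) :
    (KK M A Ω).starProjection * x * (KK M A Ω).starProjection ∈
      Set.centralizer (Set.centralizer (BB M A Ω : Set (H →L[ℂ] H))) := by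
  intro T hT
  have ep := e_proj (M := M) (A := A) (Ω := Ω)
  have t1 : ∀ y ∈ N0 M A, y * (KK M A Ω).starProjection * T = T * (y * (KK M A Ω).starProjection) :=
    fun y hy => hT _ ⟨y, hy, 0, by simp⟩
  have t0 := t1 1 one_N
  simp only [one_mul] at t0
  have eO := e_Om (M := M) (A := A) (Ω := Ω)
  have tO : (KK M A Ω).starProjection (T Ω) = T Ω := by
    rw [← ContinuousLinearMap.mul_apply, t0, ContinuousLinearMap.mul_apply, eO]
  have t2 : ∀ y ∈ N0 M A, T (y Ω) = y (T Ω) := fun y hy => by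
    have := congrArg (fun S : H →L[ℂ] H => S Ω) (t1 y hy)
    simp only [ContinuousLinearMap.mul_apply, eO, tO] at this
    exact this.symm
  have t3 : ∀ m ∈ M, ⟪star T Ω, (KK M A Ω).starProjection (m Ω)⟫_ℂ =
      ⟪(KK M A Ω).starProjection (star m Ω), T Ω⟫_ℂ := fun m hm => by
    refine sub_eq_zero.1 (norm_le_zero_iff.1 (le_of_forall_pos_le_add fun η hη => ?_))
    have C0 : 0 < ‖star T Ω‖ + ‖T Ω‖ + 1 := by positivity
    obtain ⟨y, y1, y2, y3⟩ := joint hA hE hm (div_pos hη C0)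
    have k : ⟪star T Ω, y Ω⟫_ℂ = ⟪star y Ω, T Ω⟫_ℂ := by
      rw [inner_star_left, inner_star_left, t2 y y1]
    have e : ⟪star T Ω, (KK M A Ω).starProjection (m Ω)⟫_ℂ -
        ⟪(KK M A Ω).starProjection (star m Ω), T Ω⟫_ℂ =
        ⟪star T Ω, (KK M A Ω).starProjection (m Ω) - y Ω⟫_ℂ -
        ⟪(KK M A Ω).starProjection (star m Ω) - star y Ω, T Ω⟫_ℂ := by
      rw [inner_sub_right, inner_sub_left, k]
      ring
    rw [e, zero_add]
    have k1 := (norm_inner_le_norm (𝕜 := ℂ) (star T Ω) _).trans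
      (mul_le_mul_of_nonneg_left y2 (norm_nonneg _))
    have k2 := (norm_inner_le_norm (𝕜 := ℂ) _ (T Ω)).trans
      (mul_le_mul_of_nonneg_right y3 (norm_nonneg _))
    have k3 := mul_div_cancel₀ η C0.ne'
    have k4 := div_pos hη C0
    refine (norm_sub_le _ _).trans ?_
    nlinarith
  have ce := fun y (hy : y ∈ N0 M A) v =>
    congrArg (fun S : H →L[ℂ] H => S v) (comm_e (Ω := Ω) hy)
  simp only [ContinuousLinearMap.mul_apply] at ce
  have t4 : ∀ y ∈ N0 M A, ∀ y' ∈ N0 M A, ⟪y Ω, (T * ((KK M A Ω).starProjection * x) - x * T) (y' Ω)⟫_ℂ = 0 :=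
    fun y hy y' hy' => by
      have k := t3 _ (mul_mem (mul_mem (star_mem (N_mem hy)) hx) (N_mem hy'))
      have k1 := congrArg (fun S : H →L[ℂ] H => S (x (y' Ω))) (t1 _ (N_star hy))
      have k0 := fun v => congrArg (fun S : H →L[ℂ] H => S v) t0
      simp only [ContinuousLinearMap.mul_apply] at k1 k k0
      have sy : ∀ u v, ⟪(KK M A Ω).starProjection u, v⟫_ℂ = ⟪u, (KK M A Ω).starProjection v⟫_ℂ :=
        fun u v => ContinuousLinearMap.isSelfAdjoint_iff_isSymmetric.1 ep.isSelfAdjoint u v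
      rw [sy (star (star y * x * y') Ω), tO, inner_star_left, inner_star_left, ← ce _ (N_star hy), ← k1] at k
      simp only [ContinuousLinearMap.mul_apply] at k
      rw [inner_star_right, inner_star_right, k0, ← t2 y' hy'] at k
      simp only [ContinuousLinearMap.mul_apply, ContinuousLinearMap.sub_apply, inner_sub_right, k, sub_self]
  have t5 : ∀ u ∈ KK M A Ω, ∀ v ∈ KK M A Ω,
      ⟪u, (T * ((KK M A Ω).starProjection * x) - x * T) v⟫_ℂ = 0 := fun u hu v hv => by
    have a1 : ∀ y ∈ N0 M A, ⟪y Ω, (T * ((KK M A Ω).starProjection * x) - x * T) v⟫_ℂ = 0 := fun y hy => by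
      refine closure_minimal (t := {v | ⟪y Ω, (T * ((KK M A Ω).starProjection * x) - x * T) v⟫_ℂ = 0}) ?_
        (isClosed_eq (by fun_prop) continuous_const) hv
      rintro _ ⟨y', hy', rfl⟩
      exact t4 y hy y' hy'
    refine closure_minimal (t := {u | ⟪u, (T * ((KK M A Ω).starProjection * x) - x * T) v⟫_ℂ = 0}) ?_
      (isClosed_eq (by fun_prop) continuous_const) hu
    rintro _ ⟨y', hy', rfl⟩
    exact a1 y' hy'
  have t6 : (KK M A Ω).starProjection * (T * ((KK M A Ω).starProjection * x) - x * T) *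
      (KK M A Ω).starProjection = 0 := by
    ext v
    refine ext_inner_left ℂ fun u => ?_
    have := t5 _ ((KK M A Ω).starProjection_apply_mem u) _ ((KK M A Ω).starProjection_apply_mem v)
    rw [(ContinuousLinearMap.isSelfAdjoint_iff_isSymmetric.1 ep.isSelfAdjoint).apply_clm] at this
    simpa using this
  have e1 := ep.isIdempotentElem.eq
  generalize (KK M A Ω).starProjection = e at t6 t0 e1
  have : e * (T * (e * x) - x * T) * e = T * (e * x * e) - e * x * e * T := by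
    rw [mul_sub, sub_mul, ← mul_assoc e T, t0, mul_assoc T e, ← mul_assoc e e, e1, mul_assoc (e * x) e T, t0]
    simp only [mul_assoc]
  rw [this] at t6
  exact sub_eq_zero.1 t6

theorem norm_le_e (hsep : ∀ a ∈ M, a Ω = 0 → a = 0) {y : H →L[ℂ] H} (hy : y ∈ M) (hs : IsSelfAdjoint y)
    (h : ∀ n : ℕ, ‖(y ^ n) Ω‖ ≤ ‖Ω‖) : ‖y‖ ≤ 1 := by
  refine le_of_forall_gt_imp_ge_of_dense fun c hc => ?_
  obtain ⟨q, q1, -, -, q3, q4⟩ := spl hy hs (c := c) (by linarith)
  have k : ‖(1 - q) Ω‖ ≤ 0 := by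
    by_contra k
    push_neg at k
    obtain ⟨n, hn⟩ := pow_unbounded_of_one_lt (‖Ω‖ / ‖(1 - q) Ω‖) hc
    rw [div_lt_iff₀ k] at hn
    linarith [q4 n Ω, h n]
  have := sub_eq_zero.1 (hsep _ (sub_mem (one_mem M) q1) (norm_le_zero_iff.1 k))
  rwa [← this, mul_one] at q3

omit [CompleteSpace H] in
theorem cmp0 {q y : H →L[ℂ] H} (hq : ‖q‖ ≤ 1) : ‖q * y * q‖ ≤ ‖y‖ :=
  (norm_mul_le _ _).trans ((mul_le_of_le_one_right (norm_nonneg _) hq).trans
    ((norm_mul_le _ _).trans (mul_le_of_le_one_left (norm_nonneg _) hq)))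

theorem near (hA : IsMASA M A) (hsep : ∀ a ∈ M, a Ω = 0 → a = 0) (hE : IsE M A Ω E) (hx : x ∈ M)
    (hs : IsSelfAdjoint x) (hn : ‖x‖ ≤ 1) {η : ℝ} (hη : 0 < η) : ∃ y ∈ N0 M A, IsSelfAdjoint y ∧
      ‖y‖ ≤ 1 ∧ ‖(KK M A Ω).starProjection (x Ω) - y Ω‖ ≤ η := by
  have ep := e_proj (M := M) (A := A) (Ω := Ω)
  have eO := e_Om (M := M) (A := A) (Ω := Ω)
  obtain ⟨b, ⟨y, hy, c, rfl⟩, b1, b2, b3⟩ := kaplansky (bicomm hA hE hx)
    (by simp [IsSelfAdjoint, ep.isSelfAdjoint.star_eq, hs.star_eq, mul_assoc])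
    ((cmp0 ep.norm_le).trans hn) {Ω} hη
  have b4 := (b3 Ω (mem_singleton_self _)).le
  have ce := comm_e (Ω := Ω) hy
  have ce' := comm_e (Ω := Ω) (N_star hy)
  have e1 := ep.isIdempotentElem.eq
  have e2 := ep.isSelfAdjoint.star_eq
  have e3 := ep.norm_le
  generalize (KK M A Ω).starProjection = e at *
  have k0 : ∀ v, e v = v → (y * e + c • (1 - e)) v = y v := fun v hv => by simp [hv]
  have k1 : y = star y := by
    refine sub_eq_zero.1 (hsep _ (sub_mem (N_mem hy) (star_mem (N_mem hy))) ?_)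
    have := congrArg (fun S : H →L[ℂ] H => S Ω) b1.star_eq
    rw [star_add, star_mul, star_smul, star_sub, star_one, e2, ← ce'] at this
    simpa [eO, sub_eq_zero] using this.symm
  refine ⟨y, hy, k1.symm, norm_le_e hsep (N_mem hy) k1.symm fun n => ?_, by simpa [eO] using b4⟩
  suffices h : e ((y ^ n) Ω) = (y ^ n) Ω ∧ ‖(y ^ n) Ω‖ ≤ ‖Ω‖ from h.2
  induction n with
  | zero => simp [eO]
  | succ n ih =>
    rw [pow_succ', ContinuousLinearMap.mul_apply]
    refine ⟨by rw [← ContinuousLinearMap.mul_apply, ← ce, ContinuousLinearMap.mul_apply, ih.1], ?_⟩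
    rw [← k0 _ ih.1]
    exact (ContinuousLinearMap.le_opNorm _ _).trans ((mul_le_of_le_one_left (norm_nonneg _) b2).trans ih.2)

theorem dense_sep (hΩ : ∀ a ∈ M, a Ω = 0 → a = 0) : Dense {ξ | ∃ T ∈ M.commutant, T Ω = ξ} := by
  let K0 : Submodule ℂ H := M.commutant.toStarSubalgebra.toSubalgebra.toSubmodule.map
    (ContinuousLinearMap.apply ℂ H Ω).toLinearMap
  let K := K0.topologicalClosure
  haveI : CompleteSpace K := K0.isClosed_topologicalClosure.completeSpace_coe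
  have inv : ∀ T ∈ M.commutant, ∀ x ∈ K, T x ∈ K := fun T hT x hx => by
    refine map_mem_closure T.continuous hx ?_
    rintro _ ⟨S, hS, rfl⟩
    exact ⟨T * S, (mul_mem hT (show S ∈ M.commutant from hS) : T * S ∈ M.commutant), rfl⟩
  have hP : K.starProjection ∈ M := mem_of_comm fun T hT => by
    ext x
    exact (comm_proj K T (inv T hT) (inv _ (star_mem hT)) x).symm
  have h1 : Ω ∈ K := K0.le_topologicalClosure ⟨1, (one_mem _ : 1 ∈ M.commutant), rfl⟩
  have h2 := hΩ _ (sub_mem (one_mem M) hP) (by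
    simp [Submodule.starProjection_eq_self_iff.2 h1])
  intro x
  have h3 : x = K.starProjection x := by
    simpa [sub_eq_zero] using congrArg (fun S : H →L[ℂ] H => S x) h2
  exact h3 ▸ K.starProjection_apply_mem x

theorem lim_sep (hΩ : ∀ a ∈ M, a Ω = 0 → a = 0) {y : ℕ → H →L[ℂ] H} (hy : ∀ n, y n ∈ M) {C : ℝ}
    (hC : ∀ n, ‖y n‖ ≤ C) (hc : CauchySeq fun n => y n Ω) :
    ∃ m ∈ M, ∀ ξ, Filter.Tendsto (fun n => y n ξ) Filter.atTop (nhds (m ξ)) := by
  have C0 : 0 ≤ C := (norm_nonneg _).trans (hC 0)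
  have h1 : ∀ ξ, CauchySeq fun n => y n ξ := fun ξ => by
    refine Metric.cauchySeq_iff'.2 fun ε hε => ?_
    obtain ⟨_, ⟨T, hT, rfl⟩, d⟩ := Metric.mem_closure_iff.1 (dense_sep hΩ ξ) (ε / (4 * (C + 1)))
      (by positivity)
    obtain ⟨N, hN⟩ := Metric.cauchySeq_iff'.1 (T.uniformContinuous.comp_cauchySeq hc) (ε / 2)
      (by positivity)
    refine ⟨N, fun n hn => ?_⟩
    have e1 := hN n hn
    simp only [Function.comp, ← comm_apply hT (hy _)] at e1
    have e2 : ∀ k, dist (y k ξ) (y k (T Ω)) ≤ ε / 4 := fun k => by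
      refine ((y k).dist_le_opNorm _ _).trans ?_
      refine (mul_le_mul ((hC k).trans (le_add_of_nonneg_right zero_le_one)) d.le dist_nonneg
        (by positivity)).trans (le_of_eq ?_)
      field_simp
    linarith [dist_triangle4 (y n ξ) (y n (T Ω)) (y N (T Ω)) (y N ξ), e2 n, e2 N,
      dist_comm (y N (T Ω)) (y N ξ)]
  choose f hf using fun ξ => cauchySeq_tendsto_of_complete (h1 ξ)
  refine ⟨continuousLinearMapOfTendsto y (tendsto_pi_nhds.2 hf), mem_of_comm fun T hT => ?_, hf⟩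
  ext ξ
  exact tendsto_nhds_unique ((T.continuous.tendsto _).comp (hf ξ))
    ((hf (T ξ)).congr fun n => comm_apply hT (hy n) ξ)

theorem small_sep (hΩ : ∀ a ∈ M, a Ω = 0 → a = 0) (F : Finset H) {δ : ℝ} (hδ : 0 < δ) :
    ∃ η : ℝ, 0 < η ∧ ∀ q ∈ M, ‖q‖ ≤ 1 → ‖q Ω‖ ≤ η → ∀ ξ ∈ F, ‖q ξ‖ < δ := by
  classical
  induction F using Finset.induction_on with
  | empty => exact ⟨1, one_pos, by simp⟩
  | insert ξ F _ ih =>
    obtain ⟨η, h0, h1⟩ := ih
    obtain ⟨_, ⟨T, hT, rfl⟩, d⟩ := Metric.mem_closure_iff.1 (dense_sep hΩ ξ) (δ / 2)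
      (by positivity)
    refine ⟨min η (δ / (2 * (‖T‖ + 1))), by positivity, fun q hq q1 q2 ζ hζ => ?_⟩
    rcases Finset.mem_insert.1 hζ with rfl | hζ
    · have e1 : ‖q (ζ - T Ω)‖ < δ / 2 := by
        rw [dist_eq_norm] at d
        exact (q.le_opNorm _).trans_lt ((mul_le_of_le_one_left (norm_nonneg _) q1).trans_lt d)
      have e2 : ‖q (T Ω)‖ ≤ δ / 2 := by
        rw [comm_apply hT hq]
        refine (T.le_opNorm _).trans ((mul_le_mul (le_add_of_nonneg_right zero_le_one)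
          (q2.trans (min_le_right _ _)) (norm_nonneg _) (by positivity)).trans (le_of_eq ?_))
        field_simp
      have e3 : q ζ = q (ζ - T Ω) + q (T Ω) := by simp
      linarith [e3 ▸ norm_add_le (q (ζ - T Ω)) (q (T Ω))]
    · exact h1 q hq q1 (q2.trans (min_le_left _ _)) ζ hζ

theorem dec_sa (hA : IsMASA M A) (hsep : ∀ a ∈ M, a Ω = 0 → a = 0) (hE : IsE M A Ω E) (hx : x ∈ M)
    (hs : IsSelfAdjoint x) (hn : ‖x‖ ≤ 1) :
    ∃ d ∈ M, IsSelfAdjoint d ∧ ‖d‖ ≤ 1 ∧ x - d ∈ Zs M A Ω ∧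
      ∀ η : ℝ, 0 < η → ∃ y ∈ N0 M A, IsSelfAdjoint y ∧ ‖y‖ ≤ 1 ∧ ‖(d - y) Ω‖ ≤ η := by
  set v := (KK M A Ω).starProjection (x Ω) with hv
  have perp : ∀ u ∈ KK M A Ω, ⟪x Ω - v, u⟫_ℂ = 0 := fun u hu =>
    (KK M A Ω).starProjection_inner_eq_zero _ u hu
  have near := fun (η : ℝ) (hη : 0 < η) => near hA hsep hE hx hs hn hη
  rw [← hv] at near
  choose y y1 y2 y3 y4 using fun n : ℕ => near (1 / ((n : ℝ) + 1)) (by positivity)
  have lim : Tendsto (fun n => y n Ω) atTop (nhds v) := by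
    refine tendsto_iff_norm_sub_tendsto_zero.2 (squeeze_zero (fun _ => norm_nonneg _)
      (fun n => ?_) tendsto_one_div_add_atTop_nhds_zero_nat)
    rw [norm_sub_rev]
    exact y4 n
  obtain ⟨d, dM, hd⟩ := lim_sep hsep (fun n => N_mem (y1 n)) y3 lim.cauchySeq
  have dv : d Ω = v := tendsto_nhds_unique (hd Ω) lim
  refine ⟨d, dM, ContinuousLinearMap.isSelfAdjoint_iff_isSymmetric.2 fun a b => ?_,
    ContinuousLinearMap.opNorm_le_bound _ zero_le_one fun ξ => ?_, ⟨sub_mem hx dM, fun g => ?_⟩,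
    fun η hη => ?_⟩
  · exact tendsto_nhds_unique ((hd a).inner tendsto_const_nhds)
      ((tendsto_const_nhds.inner (hd b)).congr fun n =>
        ((ContinuousLinearMap.isSelfAdjoint_iff_isSymmetric.1 (y2 n)) a b).symm)
  · exact le_of_tendsto' (hd ξ).norm fun n => ((y n).le_opNorm ξ).trans
      (mul_le_mul_of_nonneg_right (y3 n) (norm_nonneg _))
  · rw [tau_mul, ContinuousLinearMap.sub_apply, dv, ← inner_conj_symm,
      perp (star (op g) Ω) (mem_KK (N_star (Submodule.subset_span ⟨g, rfl⟩))), map_zero]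
  · obtain ⟨y, a, b, c, e⟩ := near η hη
    exact ⟨y, a, b, c, by rwa [ContinuousLinearMap.sub_apply, dv]⟩

end Nr

end Vale.Agent.P078.X
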