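import Vale.Agent.P078.X.Diff2
import Vale.Agent.P078.G.Sg

/-!
ROUND X (non-tracial copy of the G file). CHANGES: `Kg_head` also gives `Mod` (`mod_sg`, `mod_one`).

Algebra of good words.

PLAN. `rev`: letters `star (U (n - t))`, exponents `- k (n - 1 - t)` (`sg_star`, `Zs_star`, `star (g a) = g⁻¹ (g a* g*)`, `IsE.star`). `cat`: concatenate with merged letter
`U n * U' 0`, flagged z iff one of the two is; good if not both are z and (one is z, or `n = 0`, or `n' = 0`). `fixp`: `c = E g`, `c (a - g a g*) = 0`, `f = c* c = c* g` is a projection of `A`,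
`f g = c ∈ A`, `E ((1 - f) g a) = 0`. `mulW`: for `k ≠ 0` and a good word `w`: let `t` run over the slots preceded only by n-letters, `g t` the group part of `U 0 ⋯ U t`,
`f t = fixp (g t)`, `f' t = f t Π_{u < t} (1 - f u)`, `f∞ = Π (1 - f t)`. `W k * (f∞ w)` is the good word with letters `1, f∞ U 0, U 1, ...`; `W k * f' t * w` is `f' t w` with exponent `k t + k` at slot `t`
(`f t g t` commutes with `A`), and if this exponent is 0 the slot disappears (merge `U t * U (t+1)`). All of these have a z-letter iff `w` has. Use `Cg` = words without z-letter and `0 < n`,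
`Ng` = words without z-letter and `n = 0`: the span of `Cg ∪ Ng` contains 1 and is stable under left multiplication by `A`, `op g`, `W k`, so contains `Balg`; on a word of `Cg` the shift acts by a scalar,
on `Ng` trivially; `Cg * Kg ⊆ Lg` (`cat`).
-/

open Finset Filter
open scoped Classical

namespace Vale.Agent.P078.G

variable {H : Type*} [NormedAddCommGroup H] [InnerProductSpace ℂ H] [CompleteSpace H]
  {M : VonNeumannAlgebra H} {A : StarSubalgebra ℂ (H →L[ℂ] H)} {Ω : H}
  {E : (H →L[ℂ] H) → H →L[ℂ] H}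

variable {r : ℕ} [NeZero r] {ξ ζ b : Seed A r → H →L[ℂ] H}

theorem fixp (hA : IsMASA M A) (hE : IsE M A Ω E) (g : NG M A) : ∃ f ∈ A, IsStarProjection f ∧
    f * op g ∈ A ∧ ∀ a ∈ A, E ((1 - f) * op g * a) = 0 := by
  have gM := op_mem g
  have u1 : star (op g) * op g = 1 := (op_norm g).2.1.1
  have u2 : op g * star (op g) = 1 := (op_norm g).2.1.2
  have cA := hE.mem _ gM
  have cj : ∀ a ∈ A, op g * a * star (op g) ∈ A := (mem_norm.1 (op_norm g)).2.2.1
  have e0 : ∀ a : H →L[ℂ] H, op g * a * star (op g) * op g = op g * a := fun a => by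
    rw [mul_assoc, u1, mul_one]
  have k1 : ∀ a ∈ A, op g * a * star (op g) * E (op g) = E (op g) * a := fun a ha => by
    rw [← hE.left _ (cj a ha) _ gM, e0, hE.right _ ha _ gM]
  have k2 : ∀ c ∈ A, (∀ a ∈ A, c * (op g * a * star (op g)) = c * a) → c * op g ∈ A :=
    fun c hc h => comm_mem hA (mul_mem (hA.1 _ hc) gM) fun a ha => by
      rw [mul_assoc, ← e0, ← mul_assoc, h a ha, hA.2.1 c hc a ha, mul_assoc]
  have k3 : E (op g) * op g ∈ A := k2 _ cA fun a ha => by rw [hA.2.1 _ cA _ (cj a ha), k1 a ha]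
  have k4 : star (E (op g)) * op g ∈ A := k2 _ (star_mem cA) fun a ha => by
    have := congrArg star (k1 _ (star_mem ha))
    simp only [star_mul, star_star] at this
    rw [mul_assoc, this, hA.2.1 a ha _ (star_mem cA)]
  have k5 : star (E (op g)) * E (op g) = star (E (op g)) * op g := by
    rw [← hE.left _ (star_mem cA) _ gM, hE.self _ k4]
  have k6 : star (E (op g)) * E (op g) = star (op g) * E (op g) := by
    have := congrArg star k5
    simpa only [star_mul, star_star] using this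
  have k7 : op g * (star (E (op g)) * E (op g)) = E (op g) := by
    rw [k6, ← mul_assoc, u2, one_mul]
  have k8 : star (E (op g)) * E (op g) * (star (E (op g)) * E (op g)) = star (E (op g)) * E (op g) := by
    nth_rewrite 1 [k5]
    rw [mul_assoc, k7]
  have fA := mul_mem (star_mem cA) cA
  refine ⟨_, fA, ⟨k8, IsSelfAdjoint.star_mul_self _⟩, ?_, fun a ha => ?_⟩
  · rw [mul_assoc]
    exact mul_mem (star_mem cA) k3
  · have k9 : star (E (op g)) * E (op g) * E (op g) = E (op g) := by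
      rw [hA.2.1 _ fA _ cA]
      nth_rewrite 1 [← k7]
      rw [mul_assoc, k8, k7]
    rw [hE.right _ ha _ (mul_mem (hA.1 _ (sub_mem (one_mem A) fA)) gM),
      hE.left _ (sub_mem (one_mem A) fA) _ gM, sub_mul, one_mul, k9, sub_self, zero_mul]

namespace WordsA

variable {y y' : H →L[ℂ] H} {p p' : Prop} {w w' : Wd H r}

theorem nmul (g g' : NG M A) {a a' : H →L[ℂ] H} (ha : a ∈ A) (ha' : a' ∈ A) :
    ∃ c ∈ A, op g * a * (op g' * a') = op (g * g') * c := by
  refine ⟨star (op g') * a * op g' * a', mul_mem ((mem_norm.1 (op_norm g')).2.2.2 a ha) ha', ?_⟩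
  have u2 : op g' * star (op g') = 1 := (op_norm g').2.1.2
  rw [op_mul]
  simp only [mul_assoc]
  rw [← mul_assoc (op g') (star (op g')), u2, one_mul]

variable (M A Ω) in
/-- Admissible letters. -/
def Ok (y : H →L[ℂ] H) (p : Prop) : Prop :=
  ‖y‖ ≤ 1 ∧ (p → y ∈ Zs M A Ω) ∧ (¬p → ∃ g : NG M A, ∃ a ∈ A, y = op g * a)

theorem Ok.mem (hA : IsMASA M A) (h : Ok M A Ω y p) : y ∈ M := by
  by_cases hp : p
  · exact (h.2.1 hp).1
  · obtain ⟨g, a, ha, rfl⟩ := h.2.2 hp
    exact mul_mem (op_mem g) (hA.1 a ha)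

theorem n_mem (hA : IsMASA M A) (g : NG M A) {a : H →L[ℂ] H} (ha : a ∈ A) : op g * a ∈ N0 M A :=
  N_mul (Submodule.subset_span ⟨g, rfl⟩) (A_le_N hA ha)

theorem Ok.mul (hA : IsMASA M A) (hΩ : IsCV M A Ω) (h : Ok M A Ω y p) (h' : Ok M A Ω y' p')
    (hp : ¬(p ∧ p')) : Ok M A Ω (y * y') (p ∨ p') := by
  refine ⟨(norm_mul_le _ _).trans (mul_le_one₀ h.1 (norm_nonneg _) h'.1), fun q => ?_, fun q => ?_⟩
  · by_cases q1 : p
    · obtain ⟨g, a, ha, rfl⟩ := h'.2.2 fun q2 => hp ⟨q1, q2⟩
      exact Zs_right hΩ (h.2.1 q1) (n_mem hA g ha)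
    · obtain ⟨g, a, ha, rfl⟩ := h.2.2 q1
      exact Zs_left (h'.2.1 (q.resolve_left q1)) (n_mem hA g ha)
  · obtain ⟨g, a, ha, rfl⟩ := h.2.2 fun q1 => q (.inl q1)
    obtain ⟨g', a', ha', rfl⟩ := h'.2.2 fun q1 => q (.inr q1)
    exact ⟨g * g', nmul g g' ha ha'⟩

theorem Ok.star (hΩ : IsCV M A Ω) (h : Ok M A Ω y p) : Ok M A Ω (star y) p := by
  refine ⟨by rw [norm_star]; exact h.1, fun q => Zs_star hΩ (h.2.1 q), fun q => ?_⟩
  obtain ⟨g, a, ha, rfl⟩ := h.2.2 q
  obtain ⟨c, hc, e⟩ := nmul (1 : NG M A) g⁻¹ (star_mem ha) (one_mem A)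
  refine ⟨1 * g⁻¹, c, hc, ?_⟩
  rw [← e, op_one, one_mul, mul_one, star_mul, op_inv]

theorem Ok.iff (h : Ok M A Ω y p) (e : p ↔ p') : Ok M A Ω y p' := propext e ▸ h

theorem ok_A {a : H →L[ℂ] H} (ha : a ∈ A) (hn : ‖a‖ ≤ 1) : Ok M A Ω a False :=
  ⟨hn, False.elim, fun _ => ⟨1, a, ha, by rw [op_one, one_mul]⟩⟩

theorem ok_one : Ok M A Ω 1 False := ok_A (one_mem A) ContinuousLinearMap.norm_id_le

theorem ok_op (g : NG M A) : Ok M A Ω (op g) False := by
  refine ⟨?_, False.elim, fun _ => ⟨g, 1, one_mem A, (mul_one _).symm⟩⟩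
  have h : ‖op g‖ * ‖op g‖ ≤ 1 := by
    rw [← CStarRing.norm_star_mul_self, (op_norm g).2.1.1]
    exact ContinuousLinearMap.norm_id_le
  nlinarith [norm_nonneg (op g)]

omit [NeZero r] in
theorem ok_of (h : Good M A Ω E w) {t : ℕ} (ht : t ≤ w.n) : Ok M A Ω (w.U t) (w.z t) :=
  ⟨h.norm t ht, h.z t ht, h.nz t ht⟩

omit [NeZero r] in
theorem good_of (h1 : ∀ t ≤ w.n, Ok M A Ω (w.U t) (w.z t)) (h2 : ∀ t < w.n, w.k t ≠ 0)
    (h3 : ∀ i m, 1 ≤ i → i + m < w.n → (∀ t, i ≤ t → t ≤ i + m → ¬w.z t) →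
      ∀ s : ℕ → H →L[ℂ] H, (∀ t, s t ∈ A) → E (sg w.U s i m) = 0) : Good M A Ω E w :=
  ⟨fun t ht => (h1 t ht).1, h2, fun t ht => (h1 t ht).2.1, fun t ht => (h1 t ht).2.2, h3⟩

theorem nseg {U : ℕ → H →L[ℂ] H} {i m : ℕ}
    (h : ∀ t, i ≤ t → t ≤ i + m → ∃ g : NG M A, ∃ a ∈ A, U t = op g * a) :
    ∃ g : NG M A, ∀ s : ℕ → H →L[ℂ] H, (∀ t, s t ∈ A) → ∃ a ∈ A, sg U s i m = op g * a := by
  induction m with
  | zero =>
    obtain ⟨g, a, ha, e⟩ := h i le_rfl le_rfl
    exact ⟨g, fun s _ => ⟨a, ha, e⟩⟩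
  | succ m ih =>
    obtain ⟨g, hg⟩ := ih fun t a b => h t a (by omega)
    obtain ⟨g', a', ha', e⟩ := h (i + m + 1) (by omega) (by omega)
    refine ⟨g * g', fun s hs => ?_⟩
    obtain ⟨a, ha, e'⟩ := hg s hs
    rw [sg, e, e', mul_assoc (op g)]
    exact nmul g g' (mul_mem ha (hs _)) ha'

omit [CompleteSpace H] in
theorem sg_glue {U' s' U s V σ : ℕ → H →L[ℂ] H} {i a c b : ℕ}
    (h1 : ∀ t, i ≤ t → t < i + a → U' t = U t ∧ s' t = s t) (h2 : U' (i + a) = U (i + a) * V c)
    (h3 : ∀ t < b, U' (i + a + t + 1) = V (c + t + 1) ∧ s' (i + a + t) = σ (c + t)) :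
    sg U' s' i (a + b) = sg U s i a * sg V σ c b := by
  induction b with
  | zero =>
    cases a with
    | zero => exact h2
    | succ a =>
      change sg U' s' i a * s' (i + a) * U' (i + (a + 1)) =
        sg U s i a * s (i + a) * U (i + (a + 1)) * V c
      rw [sg_congr (fun t x y => (h1 t x (by omega)).1) (fun t x y => (h1 t x (by omega)).2),
        (h1 _ (by omega) (by omega)).2, h2, mul_assoc _ _ (V c)]
  | succ b ih =>
    change sg U' s' i (a + b) * s' (i + (a + b)) * U' (i + (a + b) + 1) =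
      sg U s i a * (sg V σ c b * σ (c + b) * V (c + b + 1))
    rw [ih fun t ht => h3 t (by omega), ← add_assoc, (h3 b (by omega)).1, (h3 b (by omega)).2]
    simp only [mul_assoc]

omit [CompleteSpace H] in
theorem sg_head (U s : ℕ → H →L[ℂ] H) (y y' : H →L[ℂ] H) (m : ℕ) :
    sg (Function.update U 0 (y * y')) s 0 m = y * sg (Function.update U 0 y') s 0 m := by
  induction m with
  | zero => simp [sg]
  | succ m ih =>
    rw [sg, sg, ih, Function.update_of_ne (by omega), Function.update_of_ne (by omega)]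
    simp only [mul_assoc]

omit [CompleteSpace H] in
theorem sg_lm (U s : ℕ → H →L[ℂ] H) (y : H →L[ℂ] H) (m : ℕ) :
    sg (Function.update U 0 (y * U 0)) s 0 m = y * sg U s 0 m := by
  rw [sg_head, Function.update_eq_self]

omit [CompleteSpace H] in
theorem sg_smul (U s : ℕ → H →L[ℂ] H) (c : ℕ → ℂ) (i m : ℕ) :
    sg U (fun t => c t • s t) i m = (∏ t ∈ range m, c (i + t)) • sg U s i m := by
  induction m with
  | zero => simp [sg]
  | succ m ih => rw [sg, sg, ih, prod_range_succ, smul_mul_smul_comm, smul_mul_assoc]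

/-- Replace the first letter. -/
noncomputable def hd (y : H →L[ℂ] H) (p : Prop) (w : Wd H r) : Wd H r :=
  ⟨w.n, Function.update w.U 0 y, w.k, Function.update w.z 0 p⟩

omit [NeZero r] in
theorem good_hd (h : Good M A Ω E w) (hy : Ok M A Ω y p) : Good M A Ω E (hd y p w) := by
  refine good_of (fun t ht => ?_) h.k fun i m h1 h2 h3 s hs => ?_
  · rcases eq_or_ne t 0 with rfl | h0
    · simpa [hd] using hy
    · simpa [hd, h0] using ok_of h ht
  · rw [← h.sep i m h1 h2 (fun t a b => by simpa [hd, show t ≠ 0 by omega] using h3 t a b) s hs]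
    exact congrArg E (sg_congr (fun t a _ => Function.update_of_ne (by omega) _ _) fun _ _ _ => rfl)

/-- Multiply the first letter. -/
noncomputable def lm (y : H →L[ℂ] H) (w : Wd H r) : Wd H r :=
  ⟨w.n, Function.update w.U 0 (y * w.U 0), w.k, w.z⟩

omit [NeZero r] in
theorem good_lm (hA : IsMASA M A) (hΩ : IsCV M A Ω) (h : Good M A Ω E w)
    (hy : Ok M A Ω y False) : Good M A Ω E (lm y w) := by
  have := good_hd h ((hy.mul hA hΩ (ok_of h (Nat.zero_le _)) fun q => q.1).iff (false_or _).to_iff)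
  rwa [hd, Function.update_eq_self] at this

omit [NeZero r] in
theorem ev_lm (y : H →L[ℂ] H) (w : Wd H r) (W : Seed A r) : (lm y w).ev W = y * w.ev W :=
  sg_lm _ _ _ _

/-- Reversal. -/
noncomputable def rev (w : Wd H r) : Wd H r :=
  ⟨w.n, fun t => star (w.U (w.n - t)), fun t => -w.k (w.n - 1 - t), fun t => w.z (w.n - t)⟩

omit [NeZero r] in
theorem ev_rev (w : Wd H r) (W : Seed A r) : (rev w).ev W = star (w.ev W) := by
  rw [Wd.ev, Wd.ev, sg_star _ _ 0 0 w.n w.n (by omega)]
  exact sg_congr (fun _ _ _ => rfl) fun _ _ _ => (W.star _).symm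

omit [NeZero r] in
theorem good_rev (hA : IsMASA M A) (hΩ : IsCV M A Ω) (hE : IsE M A Ω E) (h : Good M A Ω E w) :
    Good M A Ω E (rev w) := by
  refine good_of (fun t _ => (ok_of h (Nat.sub_le _ t)).star hΩ)
    (fun t ht => neg_ne_zero.2 (h.k _ (by change t < w.n at ht; omega))) fun i m h1 h2 h3 s hs => ?_
  change i + m < w.n at h2
  have e := sg_star w.U (fun u => star (s (w.n - 1 - u))) (w.n - i - m) i m w.n (by omega)
  have e' : sg (rev w).U s i m = star (sg w.U (fun u => star (s (w.n - 1 - u))) (w.n - i - m) m) := by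
    rw [e]
    refine sg_congr (fun _ _ _ => rfl) fun t a b => ?_
    rw [star_star, show w.n - 1 - (w.n - 1 - t) = t by omega]
  rw [e', hE.star _ (sg_mem (fun t a b => (ok_of h (by omega)).mem hA)
    fun t _ _ => hA.1 _ (star_mem (hs _))), h.sep _ m (by omega) (by omega) (fun t a b => ?_) _
    fun t => star_mem (hs _), star_zero]
  have := h3 (w.n - t) (by omega) (by omega)
  change ¬w.z (w.n - (w.n - t)) at this
  rwa [show w.n - (w.n - t) = t by omega] at this

/-- Concatenation. -/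
noncomputable def cat (w w' : Wd H r) : Wd H r :=
  ⟨w.n + w'.n, fun t => if t < w.n then w.U t else if t = w.n then w.U t * w'.U 0 else w'.U (t - w.n),
    fun t => if t < w.n then w.k t else w'.k (t - w.n),
    fun t => if t < w.n then w.z t else if t = w.n then w.z t ∨ w'.z 0 else w'.z (t - w.n)⟩

omit [NeZero r] in
theorem ev_cat (w w' : Wd H r) (W : Seed A r) : (cat w w').ev W = w.ev W * w'.ev W := by
  refine sg_glue (fun t _ h => ?_) (by simp [cat]) fun t _ => ?_
  · rw [zero_add] at h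
    simp [cat, h]
  · simp only [cat, zero_add]
    rw [if_neg (by omega), if_neg (by omega), if_neg (by omega),
      show w.n + t + 1 - w.n = t + 1 by omega, show w.n + t - w.n = t by omega]
    exact ⟨rfl, rfl⟩

omit [NeZero r] in
theorem good_cat (hA : IsMASA M A) (hΩ : IsCV M A Ω) (h : Good M A Ω E w)
    (h' : Good M A Ω E w') (c1 : ¬(w.z w.n ∧ w'.z 0))
    (c2 : (w.z w.n ∨ w'.z 0) ∨ w.n = 0 ∨ w'.n = 0) : Good M A Ω E (cat w w') := by
  refine good_of (fun t ht => ?_) (fun t ht => ?_) fun i m h1 h2 h3 s hs => ?_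
  · change t ≤ w.n + w'.n at ht
    simp only [cat]
    split_ifs with q1 q2
    · exact ok_of h q1.le
    · subst q2
      exact (ok_of h le_rfl).mul hA hΩ (ok_of h' (Nat.zero_le _)) c1
    · exact ok_of h' (by omega)
  · change t < w.n + w'.n at ht
    simp only [cat]
    split_ifs with q1
    · exact h.k t q1
    · exact h'.k _ (by omega)
  · change i + m < w.n + w'.n at h2
    by_cases q1 : i + m < w.n
    · rw [← h.sep i m h1 q1 (fun t a b => by
        simpa [cat, show t < w.n by omega] using h3 t a b) s hs]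
      exact congrArg E (sg_congr (fun t _ b => if_pos (by omega)) fun _ _ _ => rfl)
    · by_cases q2 : w.n < i
      · obtain ⟨i', rfl⟩ : ∃ i', i = i' + w.n := ⟨i - w.n, by omega⟩
        rw [sg_shift, ← h'.sep i' m (by omega) (by omega) (fun t a b => ?_) (fun t => s (t + w.n))
          fun t => hs _]
        · refine congrArg E (sg_congr (fun t a b => ?_) fun _ _ _ => rfl)
          simp only [cat]
          rw [if_neg (by omega), if_neg (by omega), Nat.add_sub_cancel]
        · have := h3 (t + w.n) (by omega) (by omega)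
          simp only [cat] at this
          rwa [if_neg (by omega), if_neg (by omega), Nat.add_sub_cancel] at this
      · have := h3 w.n (by omega) (by omega)
        simp only [cat, lt_irrefl, if_false, if_true] at this
        have := c2.resolve_left this
        omega

/-- Removal of the slot `j`. -/
noncomputable def del (j : ℕ) (w : Wd H r) : Wd H r :=
  ⟨w.n - 1, fun t => if t < j then w.U t else if t = j then w.U t * w.U (j + 1) else w.U (t + 1),
    fun t => if t < j then w.k t else w.k (t + 1),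
    fun t => if t < j then w.z t else if t = j then w.z t ∨ w.z (j + 1) else w.z (t + 1)⟩

omit [NeZero r] [CompleteSpace H] in
theorem sg_del (w : Wd H r) {s s' : ℕ → H →L[ℂ] H} {i a : ℕ} (b : ℕ) (h1 : ∀ t < i + a, s t = s' t)
    (h2 : ∀ t, i + a ≤ t → s t = s' (t + 1)) :
    sg (del (i + a) w).U s i (a + b) = sg w.U s' i a * sg w.U s' (i + a + 1) b := by
  refine sg_glue (fun t _ h => ⟨if_pos h, h1 t h⟩) (by simp [del]) fun t _ => ⟨?_, ?_⟩
  · simp only [del]
    rw [if_neg (by omega), if_neg (by omega), show i + a + t + 1 + 1 = i + a + 1 + t + 1 by omega]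
  · rw [h2 _ (by omega), show i + a + t + 1 = i + a + 1 + t by omega]

omit [NeZero r] in
theorem good_del (hA : IsMASA M A) (hΩ : IsCV M A Ω) (h : Good M A Ω E w) {j : ℕ}
    (hj : j < w.n) (c1 : ¬w.z j) : Good M A Ω E (del j w) := by
  refine good_of (fun t ht => ?_) (fun t ht => ?_) fun i m h1 h2 h3 s hs => ?_
  · change t ≤ w.n - 1 at ht
    simp only [del]
    split_ifs with q1 q2
    · exact ok_of h (by omega)
    · subst q2
      exact (ok_of h hj.le).mul hA hΩ (ok_of h hj) fun q => c1 q.1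
    · exact ok_of h (by omega)
  · change t < w.n - 1 at ht
    simp only [del]
    split_ifs with q1
    · exact h.k t (by omega)
    · exact h.k _ (by omega)
  · change i + m < w.n - 1 at h2
    by_cases q1 : i + m < j
    · rw [← h.sep i m h1 (by omega) (fun t a b => by
        simpa [del, show t < j by omega] using h3 t a b) s hs]
      exact congrArg E (sg_congr (fun t _ b => if_pos (by omega)) fun _ _ _ => rfl)
    · by_cases q2 : j < i
      · rw [← h.sep (i + 1) m (by omega) (by omega) (fun t a b => ?_) (fun t => s (t - 1))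
          fun t => hs _, sg_shift]
        · refine congrArg E (sg_congr (fun t a b => ?_) fun _ _ _ => rfl)
          simp only [del]
          rw [if_neg (by omega), if_neg (by omega)]
        · have := h3 (t - 1) (by omega) (by omega)
          simp only [del] at this
          rwa [if_neg (by omega), if_neg (by omega), show t - 1 + 1 = t by omega] at this
      · obtain ⟨a, rfl⟩ : ∃ a, j = i + a := ⟨j - i, by omega⟩
        obtain ⟨b, rfl⟩ : ∃ b, m = a + b := ⟨m - a, by omega⟩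
        have e := h.sep i (a + 1 + b) h1 (by omega) (fun t x y => ?_)
          (fun t => if t < i + a then s t else if t = i + a then 1 else s (t - 1))
          fun t => by split_ifs; exacts [hs _, one_mem A, hs _]
        · rw [sg_split] at e
          simp only [lt_irrefl, if_false, if_true, mul_one] at e
          rw [sg_del w b (fun t ht => (if_pos ht).symm) fun t ht => ?_]
          · exact e
          · rw [if_neg (by omega), if_neg (by omega), Nat.add_sub_cancel]
        · have k := h3 (i + a) (by omega) (by omega)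
          simp only [del, lt_irrefl, if_false, if_true, not_or] at k
          rcases lt_trichotomy t (i + a) with q | rfl | q
          · simpa [del, q] using h3 t x (by omega)
          · exact c1
          · rcases eq_or_ne t (i + a + 1) with rfl | q'
            · exact k.2
            · have := h3 (t - 1) (by omega) (by omega)
              simp only [del] at this
              rwa [if_neg (by omega), if_neg (by omega), show t - 1 + 1 = t by omega] at this

/-- A new first slot. -/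
noncomputable def cons (k : ZMod r) (w : Wd H r) : Wd H r :=
  ⟨0 + 1 + w.n, fun t => if t = 0 then 1 else w.U (t - 1), fun t => if t = 0 then k else w.k (t - 1),
    fun t => t ≠ 0 ∧ w.z (t - 1)⟩

omit [NeZero r] in
theorem ev_cons (k : ZMod r) (w : Wd H r) (W : Seed A r) : (cons k w).ev W = W.W k * w.ev W := by
  change sg _ _ 0 (0 + 1 + w.n) = _
  rw [sg_split, add_zero, sg_shift]
  simp [cons, sg, Wd.ev]

omit [NeZero r] in
theorem good_cons {k : ZMod r} (hk : k ≠ 0) (h : Good M A Ω E w)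
    (c : ∀ m < w.n, (∀ t ≤ m, ¬w.z t) → ∀ s : ℕ → H →L[ℂ] H, (∀ t, s t ∈ A) → E (sg w.U s 0 m) = 0) :
    Good M A Ω E (cons k w) := by
  refine good_of (fun t ht => ?_) (fun t ht => ?_) fun i m h1 h2 h3 s hs => ?_
  · change t ≤ 0 + 1 + w.n at ht
    rcases eq_or_ne t 0 with rfl | h0
    · simpa [cons] using ok_one
    · simpa [cons, h0] using ok_of h (show t - 1 ≤ w.n by omega)
  · change t < 0 + 1 + w.n at ht
    simp only [cons]
    split_ifs with q1
    · exact hk
    · exact h.k _ (by omega)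
  · change i + m < 0 + 1 + w.n at h2
    obtain ⟨i', rfl⟩ : ∃ i', i = i' + 1 := ⟨i - 1, by omega⟩
    have kk : ∀ t, i' ≤ t → t ≤ i' + m → ¬w.z t := fun t a b => by
      simpa [cons] using h3 (t + 1) (by omega) (by omega)
    have e : sg (cons k w).U s (i' + 1) m = sg w.U (fun t => s (t + 1)) i' m := by
      rw [sg_shift]
      simp [cons]
    rw [e]
    rcases Nat.eq_zero_or_pos i' with rfl | q
    · exact c m (by omega) (fun t ht => kk t (by omega) (by omega)) _ fun t => hs _
    · exact h.sep i' m q (by omega) kk _ fun t => hs _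

variable (M A E Ω r) in
/-- Good words, without centered letters if `p` holds. -/
def Gs (p : Prop) : Set (Seed A r → H →L[ℂ] H) :=
  {ξ | ∃ w : Wd H r, Good M A Ω E w ∧ (p → ∀ t ≤ w.n, ¬w.z t) ∧ ξ = w.ev}

omit [NeZero r] in
theorem Gs_false : Gs M A Ω E r False = Kg M A E Ω r ∪ Lg M A E Ω r := by
  ext ξ
  constructor
  · rintro ⟨w, h, -, e⟩
    by_cases q : w.n = 0 ∨ w.z 0
    · exact .inl ⟨w, h, q, e⟩
    · exact .inr ⟨w, h, ⟨Nat.pos_of_ne_zero fun a => q (.inl a), fun a => q (.inr a)⟩, e⟩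
  · rintro (⟨w, h, -, e⟩ | ⟨w, h, -, e⟩)
    exacts [⟨w, h, False.elim, e⟩, ⟨w, h, False.elim, e⟩]

omit [NeZero r] in
theorem mulW (hA : IsMASA M A) (hΩ : IsCV M A Ω) (hE : IsE M A Ω E) {k : ZMod r} (hk : k ≠ 0)
    (d : ℕ) : ∀ (j : ℕ) (w : Wd H r), j + d = w.n → Good M A Ω E w → (p → ∀ t ≤ w.n, ¬w.z t) →
      (∀ m < j, (∀ t ≤ m, ¬w.z t) → ∀ s : ℕ → H →L[ℂ] H, (∀ t, s t ∈ A) → E (sg w.U s 0 m) = 0) →
      (fun W : Seed A r => W.W k * w.ev W) ∈ Submodule.span ℂ (Gs M A Ω E r p) := by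
  induction d with
  | zero =>
    intro j w e h hp c
    refine Submodule.subset_span ⟨cons k w, good_cons hk h fun m hm => c m (by omega),
      fun q t ht z => hp q (t - 1) ?_ z.2, funext fun W => (ev_cons k w W).symm⟩
    change t ≤ 0 + 1 + w.n at ht
    omega
  | succ d ih =>
    intro j w e h hp c
    by_cases hz : ∀ t ≤ j, ¬w.z t
    swap
    · refine ih (j + 1) w (by omega) h hp fun m hm z => ?_
      rcases Nat.lt_succ_iff_lt_or_eq.1 hm with q | rfl
      · exact c m q z
      · exact absurd z hz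
    obtain ⟨g, hg⟩ := nseg (U := w.U) (i := 0) (m := j) fun t _ b =>
      h.nz t (by omega) (hz t (by omega))
    obtain ⟨f, f1, f2, f3, f4⟩ := fixp hA hE g
    have f5 := sub_mem (one_mem A) f1
    have e1 : (fun W : Seed A r => W.W k * w.ev W) = (fun W : Seed A r => W.W k * (lm (1 - f) w).ev W) +
        fun W : Seed A r => W.W k * (lm f w).ev W := by
      funext W
      rw [Pi.add_apply, ev_lm, ev_lm, ← mul_add, ← add_mul, sub_add_cancel, one_mul]
    rw [e1]
    refine add_mem (ih (j + 1) (lm (1 - f) w) (by change _ = w.n; omega)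
      (good_lm hA hΩ h (ok_A f5 f2.one_sub.norm_le)) hp fun m hm z s hs => ?_) ?_
    · change E (sg (Function.update w.U 0 ((1 - f) * w.U 0)) s 0 m) = 0
      rw [sg_lm]
      rcases Nat.lt_succ_iff_lt_or_eq.1 hm with q | rfl
      · rw [hE.left _ f5 _ (sg_mem (fun t a b => (ok_of h (by omega)).mem hA)
          fun t _ _ => hA.1 _ (hs t)), c m q z s hs, mul_zero]
      · obtain ⟨a, ha, e2⟩ := hg s hs
        rw [e2, ← mul_assoc, f4 a ha]
    have h1 := good_lm hA hΩ h (ok_A f1 f2.norm_le)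
    have e2 : ∀ W : Seed A r, W.W k * (lm f w).ev W =
        sg (lm f w).U (fun t => W.W (w.k t)) 0 j * W.W (k + w.k j) *
          sg (lm f w).U (fun t => W.W (w.k t)) (0 + j + 1) d := fun W => by
      have e3 : sg (lm f w).U (fun t => W.W (w.k t)) 0 j ∈ A := by
        change sg (Function.update w.U 0 (f * w.U 0)) _ 0 j ∈ A
        obtain ⟨a, ha, e2⟩ := hg (fun t => W.W (w.k t)) fun t => W.mem _
        rw [sg_lm, e2, ← mul_assoc]
        exact mul_mem f3 ha
      change W.W k * sg (lm f w).U (fun t => W.W (w.k t)) 0 w.n = _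
      rw [show w.n = j + 1 + d by omega, sg_split, ← mul_assoc, ← mul_assoc,
        hA.2.1 _ (W.mem k) _ e3, W.add, zero_add]
      simp only [mul_assoc]
    by_cases hk' : k + w.k j = 0
    · refine Submodule.subset_span ⟨del (0 + j) (lm f w), good_del hA hΩ h1
        (by change _ < w.n; omega) (hz _ (by omega)), fun q t ht => ?_, funext fun W => ?_⟩
      · change t ≤ w.n - 1 at ht
        simp only [del]
        split_ifs
        · exact hp q _ (by omega)
        · exact not_or.2 ⟨hp q _ (by omega), hp q _ (by omega)⟩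
        · exact hp q _ (by omega)
      · rw [e2, hk', W.zero, mul_one]
        change _ = sg (del (0 + j) (lm f w)).U _ 0 (w.n - 1)
        rw [show w.n - 1 = j + d by omega]
        exact (sg_del (lm f w) (s := fun t => W.W ((del (0 + j) (lm f w)).k t))
          (s' := fun t => W.W (w.k t)) d (fun t ht => congrArg W.W (if_pos ht))
          fun t ht => congrArg W.W (if_neg (by omega))).symm
    · refine Submodule.subset_span ⟨⟨w.n, (lm f w).U, Function.update w.k j (k + w.k j), w.z⟩,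
        ⟨h1.norm, fun t ht => ?_, h1.z, h1.nz, h1.sep⟩, hp, funext fun W => ?_⟩
      · rcases eq_or_ne t j with rfl | q
        · simpa using hk'
        · simpa [q] using h.k t ht
      · rw [e2]
        change _ = sg (lm f w).U (fun t => W.W (Function.update w.k j (k + w.k j) t)) 0 w.n
        rw [show w.n = j + 1 + d by omega, sg_split, zero_add, Function.update_self]
        refine congrArg₂ (· * ·) (congrArg₂ (· * ·) ?_ rfl) ?_
        · exact sg_congr (fun _ _ _ => rfl) fun t _ b => by rw [Function.update_of_ne (by omega)]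
        · exact sg_congr (fun _ _ _ => rfl) fun t a _ => by rw [Function.update_of_ne (by omega)]

omit [NeZero r] in
theorem mul_span {S T : Set (Seed A r → H →L[ℂ] H)} (h : ∀ ξ ∈ S, b * ξ ∈ Submodule.span ℂ T)
    (hξ : ξ ∈ Submodule.span ℂ S) : b * ξ ∈ Submodule.span ℂ T := by
  induction hξ using Submodule.span_induction with
  | mem x hx => exact h x hx
  | zero => simp
  | add x y _ _ h1 h2 => rw [mul_add]; exact add_mem h1 h2
  | smul c x _ h1 => rw [mul_smul_comm]; exact Submodule.smul_mem _ c h1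

omit [NeZero r] in
theorem mul_ok (hA : IsMASA M A) (hΩ : IsCV M A Ω) (hy : Ok M A Ω y False)
    (hξ : ξ ∈ Submodule.span ℂ (Gs M A Ω E r p)) :
    (fun _ => y) * ξ ∈ Submodule.span ℂ (Gs M A Ω E r p) := by
  refine mul_span ?_ hξ
  rintro _ ⟨w, h, hp, rfl⟩
  exact Submodule.subset_span ⟨lm y w, good_lm hA hΩ h hy, hp, funext fun W => (ev_lm y w W).symm⟩

omit [NeZero r] in
theorem mul_B (hA : IsMASA M A) (hΩ : IsCV M A Ω) (hE : IsE M A Ω E) (hb : b ∈ Balg M A r) :
    ∀ ξ ∈ Submodule.span ℂ (Gs M A Ω E r p), b * ξ ∈ Submodule.span ℂ (Gs M A Ω E r p) := by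
  induction hb using Algebra.adjoin_induction with
  | mem x hx =>
    intro ξ hξ
    rcases hx with ⟨a, ha, rfl⟩ | ⟨g, k, rfl⟩
    · have c0 : ((‖a‖ + 1 : ℝ) : ℂ) ≠ 0 := Complex.ofReal_ne_zero.2 (by positivity)
      have h1 := mul_ok hA hΩ (ok_A (A.smul_mem ha ((‖a‖ + 1 : ℝ) : ℂ)⁻¹) (by
        rw [norm_smul, norm_inv, Complex.norm_real, Real.norm_of_nonneg (by positivity)]
        exact inv_mul_le_one_of_le₀ (by linarith) (by positivity))) hξ
      have h2 := Submodule.smul_mem _ ((‖a‖ + 1 : ℝ) : ℂ) h1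
      have e : ((‖a‖ + 1 : ℝ) : ℂ) • ((fun _ : Seed A r => ((‖a‖ + 1 : ℝ) : ℂ)⁻¹ • a) * ξ) =
          (fun _ => a) * ξ := by
        funext W
        rw [Pi.smul_apply, Pi.mul_apply, Pi.mul_apply, smul_mul_assoc, smul_smul, mul_inv_cancel₀ c0,
          one_smul]
      exact e ▸ h2
    · have h1 := mul_ok hA hΩ (ok_op g) hξ
      have h2 : (fun W : Seed A r => W.W k) * ((fun _ => op g) * ξ) ∈
          Submodule.span ℂ (Gs M A Ω E r p) := by
        refine mul_span ?_ h1
        rintro _ ⟨w, h, hp, rfl⟩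
        rcases eq_or_ne k 0 with rfl | hk
        · exact Submodule.subset_span ⟨w, h, hp, funext fun W => by
            rw [Pi.mul_apply, W.zero, one_mul]⟩
        · exact mulW hA hΩ hE hk w.n 0 w (zero_add _) h hp fun m hm => absurd hm (Nat.not_lt_zero m)
      have h3 := mul_ok hA hΩ (ok_op g⁻¹) h2
      have e : (fun _ => op g⁻¹) * ((fun W : Seed A r => W.W k) * ((fun _ => op g) * ξ)) =
          (fun W => star (op g) * W.W k * op g) * ξ := by
        funext W
        simp only [Pi.mul_apply, op_inv, mul_assoc]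
      exact e ▸ h3
  | algebraMap c =>
    intro ξ hξ
    rw [← Algebra.smul_def]
    exact Submodule.smul_mem _ c hξ
  | add x y _ _ h1 h2 =>
    intro ξ hξ
    rw [add_mul]
    exact add_mem (h1 ξ hξ) (h2 ξ hξ)
  | mul x y _ _ h1 h2 =>
    intro ξ hξ
    rw [mul_assoc]
    exact h1 _ (h2 ξ hξ)

omit [NeZero r] in
theorem good_one : Good M A Ω E (⟨0, fun _ => 1, fun _ => 0, fun _ => False⟩ : Wd H r) :=
  good_of (fun _ _ => ok_one) (fun t ht => absurd ht (Nat.not_lt_zero t))
    fun _ _ _ h => absurd h (Nat.not_lt_zero _)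

end WordsA

open WordsA

theorem gen_bd (hA : IsMASA M A) (h : ξ ∈ Kg M A E Ω r ∪ Lg M A E Ω r) (W : Seed A r) :
    ξ W ∈ M ∧ ‖ξ W‖ ≤ 1 := by
  rw [← Gs_false] at h
  obtain ⟨w, h, -, rfl⟩ := h
  exact ⟨sg_mem (fun t _ b => (ok_of h (by omega)).mem hA) fun t _ _ => hA.1 _ (W.mem _),
    sg_norm (fun t _ b => h.norm t (by omega)) fun t _ _ => W.norm_le _⟩

theorem one_Kg : (1 : Seed A r → H →L[ℂ] H) ∈ Kg M A E Ω r := ⟨_, good_one, .inl rfl, rfl⟩

theorem KL_word (hA : IsMASA M A) (hΩ : IsCV M A Ω) (hE : IsE M A Ω E)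
    (h1 : ξ ∈ Kg M A E Ω r) (h2 : ζ ∈ Lg M A E Ω r) :
    ∃ w : Wd H r, Good M A Ω E w ∧ 0 < w.n ∧ ∀ W, w.ev W = star (ξ W) * ζ W := by
  obtain ⟨w, a1, a2, rfl⟩ := h1
  obtain ⟨w', b1, b2, rfl⟩ := h2
  refine ⟨cat (rev w) w', good_cat hA hΩ (good_rev hA hΩ hE a1) b1 (fun q => b2.2 q.2) ?_,
    Nat.add_pos_right _ b2.1, fun W => by rw [ev_cat, ev_rev]⟩
  rcases a2 with q | q
  · exact .inr (.inl q)
  · refine .inl (.inl ?_)
    change w.z (w.n - w.n)
    rwa [Nat.sub_self]

theorem z_Lg (hA : IsMASA M A) (hΩ : IsCV M A Ω) {z : H →L[ℂ] H} (hz : z ∈ Zs M A Ω)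
    (hn : ‖z‖ ≤ 1) (h : ζ ∈ Lg M A E Ω r) : (fun W => z * ζ W) ∈ Kg M A E Ω r := by
  obtain ⟨w, a1, a2, rfl⟩ := h
  have o : Ok M A Ω z True := ⟨hn, fun _ => hz, fun q => absurd trivial q⟩
  exact ⟨hd (z * w.U 0) (True ∨ w.z 0) w,
    good_hd a1 (o.mul hA hΩ (ok_of a1 (Nat.zero_le _)) fun q => a2.2 q.2), .inr (by simp [hd]),
    funext fun W => (sg_lm _ _ _ _).symm⟩

theorem Kg_head (hA : IsMASA M A) (hΩ : IsCV M A Ω) (h : ξ ∈ Kg M A E Ω r) : ∃ U ∈ M, ∃ ρ : Seed A r → H →L[ℂ] H,
    (∀ W, ξ W = U * ρ W ∧ ρ W ∈ M ∧ ‖ρ W‖ ≤ 1) ∧ Mod M Ω (Set.range fun W => star (ρ W)) ∧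
    (∀ z ∈ Zs M A Ω, ‖z‖ ≤ 1 → (fun W => z * ρ W) ∈ Kg M A E Ω r) ∧
    ∀ g : NG M A, (fun W => op g * ρ W) ∈ Kg M A E Ω r ∪ Lg M A E Ω r := by
  obtain ⟨w, a1, -, rfl⟩ := h
  have e : ∀ (y : H →L[ℂ] H) (p : Prop) (W : Seed A r), y * (hd 1 False w).ev W = (hd y p w).ev W :=
    fun y p W => by
      have := sg_head w.U (fun t => W.W (w.k t)) y 1 w.n
      rw [mul_one] at this
      exact this.symm
  have m1 : (hd 1 False w).ev ∈ Kg M A E Ω r ∪ Lg M A E Ω r := by
    rw [← Gs_false]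
    exact ⟨_, good_hd a1 ok_one, False.elim, rfl⟩
  refine ⟨w.U 0, (ok_of a1 (Nat.zero_le _)).mem hA, (hd 1 False w).ev,
    fun W => ⟨?_, gen_bd hA m1 W⟩, ?_, fun z hz hn => ?_, fun g => ?_⟩
  · rw [e _ False, hd, Function.update_eq_self]
    rfl
  · have g1 : Good M A Ω E (hd 1 False w) := good_hd a1 ok_one
    refine (mod_sg hΩ (U := (hd 1 False w).U) (i := 0) (n := w.n) fun t _ b =>
      ⟨(ok_of g1 (by change t ≤ w.n; omega)).mem hA, g1.norm t (by change t ≤ w.n; omega)⟩).mono ?_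
    rintro _ ⟨W, rfl⟩
    exact ⟨fun t => W.W (w.k t), fun t => ⟨W.mem _, W.norm_le _⟩, 0, w.n, le_rfl, le_rfl,
      1, one_mem A, 1, one_mem A, ContinuousLinearMap.norm_id_le, ContinuousLinearMap.norm_id_le,
      .inr (by rw [one_mul, mul_one]; rfl)⟩
  · exact ⟨hd z True w, good_hd a1 ⟨hn, fun _ => hz, fun q => absurd trivial q⟩, .inr (by simp [hd]),
      funext (e z True)⟩
  · rw [← Gs_false]
    exact ⟨hd (op g) False w, good_hd a1 (ok_op g), False.elim, funext (e _ False)⟩

theorem Balg_bd (hA : IsMASA M A) (hb : b ∈ Balg M A r) : ∃ C : ℝ, ∀ W, b W ∈ M ∧ ‖b W‖ ≤ C := by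
  induction hb using Algebra.adjoin_induction with
  | mem x hx =>
    rcases hx with ⟨a, ha, rfl⟩ | ⟨g, k, rfl⟩
    · exact ⟨‖a‖, fun _ => ⟨hA.1 a ha, le_rfl⟩⟩
    · refine ⟨‖star (op g)‖ * 1 * ‖op g‖, fun W => ⟨mul_mem (mul_mem (star_mem (op_mem g))
        (hA.1 _ (W.mem k))) (op_mem g), (norm_mul_le _ _).trans ?_⟩⟩
      exact mul_le_mul_of_nonneg_right ((norm_mul_le _ _).trans
        (mul_le_mul_of_nonneg_left (W.norm_le k) (norm_nonneg _))) (norm_nonneg _)
  | algebraMap c =>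
    refine ⟨‖algebraMap ℂ (H →L[ℂ] H) c‖, fun W => ⟨?_, le_rfl⟩⟩
    exact hA.1 _ (A.algebraMap_mem c)
  | add x y _ _ h1 h2 =>
    obtain ⟨C, h1⟩ := h1
    obtain ⟨D, h2⟩ := h2
    exact ⟨C + D, fun W => ⟨add_mem (h1 W).1 (h2 W).1,
      (norm_add_le _ _).trans (add_le_add (h1 W).2 (h2 W).2)⟩⟩
  | mul x y _ _ h1 h2 =>
    obtain ⟨C, h1⟩ := h1
    obtain ⟨D, h2⟩ := h2
    exact ⟨C * D, fun W => ⟨mul_mem (h1 W).1 (h2 W).1, (norm_mul_le _ _).trans
      (mul_le_mul (h1 W).2 (h2 W).2 (norm_nonneg _) ((norm_nonneg _).trans (h1 W).2))⟩⟩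

theorem Balg_mul (hA : IsMASA M A) (hΩ : IsCV M A Ω) (hE : IsE M A Ω E) (hb : b ∈ Balg M A r)
    (h : ξ ∈ Submodule.span ℂ (Kg M A E Ω r ∪ Lg M A E Ω r)) :
    b * ξ ∈ Submodule.span ℂ (Kg M A E Ω r ∪ Lg M A E Ω r) := by
  rw [← Gs_false] at h ⊢
  exact mul_B hA hΩ hE hb ξ h

theorem Balg_sh (hA : IsMASA M A) (hΩ : IsCV M A Ω) (hE : IsE M A Ω E) (hb : b ∈ Balg M A r)
    (h : ξ ∈ Submodule.span ℂ (Kg M A E Ω r)) :
    ((fun W => b W.sh) - b) * ξ ∈ Submodule.span ℂ (Lg M A E Ω r) := by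
  have h1 := mul_B (p := True) hA hΩ hE hb 1
    (Submodule.subset_span ⟨_, good_one, fun _ _ _ => id, rfl⟩)
  rw [mul_one] at h1
  clear hb
  induction h1 using Submodule.span_induction with
  | mem x hx =>
    obtain ⟨w, a1, a2, rfl⟩ := hx
    have e : (fun W : Seed A r => w.ev W.sh) =
        (∏ t ∈ range w.n, (ZMod.stdAddChar (w.k (0 + t)) : ℂ)) • w.ev :=
      funext fun W => sg_smul w.U (fun t => W.W (w.k t)) (fun t => ZMod.stdAddChar (w.k t)) 0 w.n
    rw [e]
    rcases Nat.eq_zero_or_pos w.n with q | q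
    · rw [q, prod_range_zero, one_smul, sub_self, zero_mul]
      exact zero_mem _
    · have k : w.ev * ξ ∈ Submodule.span ℂ (Lg M A E Ω r) := by
        refine mul_span ?_ h
        rintro _ ⟨w', b1, b2, rfl⟩
        refine Submodule.subset_span ⟨cat w w', good_cat hA hΩ a1 b1
          (fun z => a2 trivial _ le_rfl z.1) (b2.elim (fun z => .inr (.inr z)) fun z => .inl (.inr z)),
          ⟨Nat.add_pos_left q _, ?_⟩, funext fun W => (ev_cat w w' W).symm⟩
        simpa [cat, q] using a2 trivial 0 (Nat.zero_le _)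
      rw [sub_mul, smul_mul_assoc]
      exact sub_mem (Submodule.smul_mem _ _ k) k
  | zero =>
    have e : ((fun W : Seed A r => (0 : Seed A r → H →L[ℂ] H) W.sh) - 0) * ξ = 0 :=
      funext fun W => by simp
    rw [e]
    exact zero_mem _
  | add x y _ _ h1 h2 =>
    have e : ((fun W : Seed A r => (x + y) W.sh) - (x + y)) * ξ =
        ((fun W => x W.sh) - x) * ξ + ((fun W => y W.sh) - y) * ξ := funext fun W => by
      simp only [Pi.add_apply, Pi.mul_apply, Pi.sub_apply]
      noncomm_ring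
    rw [e]
    exact add_mem h1 h2
  | smul c x _ h1 =>
    have e : ((fun W : Seed A r => (c • x) W.sh) - c • x) * ξ = c • (((fun W => x W.sh) - x) * ξ) :=
      funext fun W => by
        simp only [Pi.smul_apply, Pi.mul_apply, Pi.sub_apply, ← smul_sub, smul_mul_assoc]
    rw [e]
    exact Submodule.smul_mem _ c h1

end Vale.Agent.P078.G
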