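import Vale.Agent.P078.X.Rb
import Vale.Agent.P078.X.Words
import Vale.Agent.P078.X.Near

/-!
Decomposition along the normalizer algebra.
-/

open Finset Filter
open scoped Classical InnerProductSpace

namespace Vale.Agent.P078.G

variable {H : Type*} [NormedAddCommGroup H] [InnerProductSpace ℂ H] [CompleteSpace H]
  {M : VonNeumannAlgebra H} {A : StarSubalgebra ℂ (H →L[ℂ] H)} {Ω : H}
  {E : (H →L[ℂ] H) → H →L[ℂ] H} {x : H →L[ℂ] H}

theorem dec_sa (hΩ : IsCV M A Ω) {G : Subgroup (NG M A)} (hG : RB M A Ω G) (hx : x ∈ M)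
    (hs : IsSelfAdjoint x) (hn : ‖x‖ ≤ 1) :
    ∃ d ∈ M, IsSelfAdjoint d ∧ ‖d‖ ≤ 1 ∧ x - d ∈ Zs M A Ω ∧
      ∀ η : ℝ, 0 < η → ∃ y ∈ spanG G, IsSelfAdjoint y ∧ ‖y‖ ≤ 1 ∧ ‖(d - y) Ω‖ ≤ η := by
  obtain ⟨E, hE⟩ := exists_E hΩ.masa hΩ
  obtain ⟨d, d1, d2, d3, d4, d5⟩ := X.Nr.dec_sa hΩ.masa hΩ.2.2 hE hx hs hn
  refine ⟨d, d1, d2, d3, d4, fun η hη => ?_⟩
  obtain ⟨y, y1, y2, y3, y4⟩ := d5 _ (half_pos hη)
  have y5 : y ∈ Set.centralizer (Set.centralizer (spanG G : Set (H →L[ℂ] H))) := by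
    clear y2 y3 y4
    induction y1 using Submodule.span_induction with
    | mem _ h => obtain ⟨g, rfl⟩ := h; exact hG.gen g
    | zero => exact Set.zero_mem_centralizer
    | add _ _ _ _ h1 h2 => exact Set.add_mem_centralizer h1 h2
    | smul c _ _ h => exact fun T hT => by rw [mul_smul_comm, smul_mul_assoc, h T hT]
  obtain ⟨y', a1, a2, a3, a4⟩ := kaplansky y5 y2 y3 {Ω} (half_pos hη)
  refine ⟨y', a1, a2, a3, ?_⟩
  have k1 := a4 Ω (mem_singleton_self _)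
  have k2 := norm_add_le ((d - y) Ω) ((y - y') Ω)
  rw [← ContinuousLinearMap.add_apply, sub_add_sub_cancel] at k2
  linarith

theorem Zs_add' {z z' : H →L[ℂ] H} (h : z ∈ Zs M A Ω) (h' : z' ∈ Zs M A Ω) : z + z' ∈ Zs M A Ω :=
  ⟨add_mem h.1 h'.1, fun g => by rw [mul_add, tau_add, h.2, h'.2, add_zero]⟩

theorem dec1 (hΩ : IsCV M A Ω) (hx : x ∈ M) (hs : IsSelfAdjoint x) {t : ℝ} (t0 : 0 < t) (ht : ‖x‖ ≤ t)
    {η : ℝ} (hη : 0 < η) :
    ∃ z ∈ Zs M A Ω, ∃ y ∈ N0 M A, ‖(x - z - y) Ω‖ ≤ η ∧ ‖x - z - y‖ ≤ 2 * t := by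
  obtain ⟨E, hE⟩ := exists_E hΩ.masa hΩ
  obtain ⟨d, -, -, d0, d1, d2⟩ := X.Nr.dec_sa hΩ.masa hΩ.2.2 hE (smul_mem_M hx ((t⁻¹ : ℝ) : ℂ))
    (by rw [IsSelfAdjoint, star_smul, hs.star_eq]; simp) (by
      rw [norm_smul, Complex.norm_real, Real.norm_of_nonneg (by positivity), inv_mul_le_iff₀ t0]
      linarith)
  obtain ⟨y, y1, -, y3, y2⟩ := d2 (η / t) (by positivity)
  refine ⟨_, Zs_smul d1 (t : ℂ), _, Submodule.smul_mem _ (t : ℂ) y1, ?_⟩
  have e : x - (t : ℂ) • (((t⁻¹ : ℝ) : ℂ) • x - d) - (t : ℂ) • y = (t : ℂ) • (d - y) := by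
    rw [smul_sub, smul_smul, ← Complex.ofReal_mul, mul_inv_cancel₀ t0.ne']
    simp [smul_sub]
  rw [e, ContinuousLinearMap.smul_apply, norm_smul, norm_smul, Complex.norm_real, Real.norm_of_nonneg t0.le]
  refine ⟨by rwa [le_div_iff₀' t0] at y2, ?_⟩
  have := norm_sub_le d y
  nlinarith

theorem dec (hΩ : IsCV M A Ω) (hx : x ∈ M) {η : ℝ} (hη : 0 < η) :
    ∃ z ∈ Zs M A Ω, ∃ y ∈ N0 M A, ‖(x - z - y) Ω‖ ≤ η ∧ ‖x - z - y‖ ≤ 4 * ‖x‖ := by
  rcases eq_or_ne x 0 with rfl | h0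
  · exact ⟨0, ⟨zero_mem _, fun g => by simp [tau]⟩, 0, zero_mem _, by simpa using hη.le, by simp⟩
  have t0 : 0 < 2 * ‖x‖ := by positivity
  obtain ⟨z, z1, y, y1, h, k⟩ := dec1 hΩ (add_mem hx (star_mem hx)) (by
    simp [IsSelfAdjoint, add_comm]) t0 ((norm_add_le _ _).trans (by rw [norm_star]; linarith)) hη
  obtain ⟨z', z2, y', y2, h', k'⟩ := dec1 hΩ
    (smul_mem_M (sub_mem hx (star_mem hx)) Complex.I) (by simp [IsSelfAdjoint, ← smul_neg]) t0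
    (by
      rw [norm_smul, Complex.norm_I, one_mul]
      exact (norm_sub_le _ _).trans (by rw [norm_star]; linarith)) hη
  refine ⟨_, Zs_smul (Zs_add' z1 (Zs_smul z2 (-Complex.I))) (1 / 2), (1 / 2 : ℂ) • (y + -Complex.I • y'),
    Submodule.smul_mem _ _ (add_mem y1 (Submodule.smul_mem _ _ y2)), ?_⟩
  have e : x - (1 / 2 : ℂ) • (z + -Complex.I • z') - (1 / 2 : ℂ) • (y + -Complex.I • y') =
      (1 / 2 : ℂ) • ((x + star x - z - y) + -Complex.I • (Complex.I • (x - star x) - z' - y')) := by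
    simp only [smul_sub, smul_smul, neg_mul, Complex.I_mul_I, neg_neg, one_smul]
    module
  have a1 := norm_add_le ((x + star x - z - y) Ω) ((-Complex.I • (Complex.I • (x - star x) - z' - y')) Ω)
  have a2 := norm_add_le (x + star x - z - y) (-Complex.I • (Complex.I • (x - star x) - z' - y'))
  rw [ContinuousLinearMap.smul_apply, norm_smul, norm_neg, Complex.norm_I, one_mul] at a1
  rw [norm_smul, norm_neg, Complex.norm_I, one_mul] at a2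
  rw [e, ContinuousLinearMap.smul_apply, norm_smul, norm_smul, ContinuousLinearMap.add_apply,
    ContinuousLinearMap.smul_apply, show ‖(1 / 2 : ℂ)‖ = 1 / 2 by simp]
  constructor <;> linarith

end Vale.Agent.P078.G
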