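import Vale.Agent.P078.X.Pin
import Vale.Agent.P078.Ext

/-!
ROUND X (non-tracial copy of the G file). CHANGES: every `‖Y Ω‖` becomes `‖star Y Ω‖` (`nsq2`, `nsqY`, `θ ‖z* Ω‖² < DD z`); apply `seq_lim` to `star (y P)`; `Clo.lim` is now about adjoints. Only `orth_of_E`, `stage`, `Clo` are used later; aux statements may change.

An element with an atomic part generates a one-sided normalizing element.

PLAN. `α b = E (z b z*)`, `φ t = max (t - θ) 0` with `θ > 0`, `θ ‖z Ω‖² < DD z`; `ψ b ∈ A` with `ev (ψ b) = φ ∘ re ev (α b)` (`surj`).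
`y_P = Σ_m ψ (e_m) z e_m` lies in every closed set containing `z`, `‖y_P‖ ≤ ‖z‖³` (apply to a vector: `|⟨ξ, Σ ψ_m z e_m η⟩| ≤ ‖z‖ Σ ‖ψ_m ξ‖ ‖e_m η‖`,
`Σ ψ_m² ≤ ‖z‖⁴`). `t P = Σ_m tau (ψ_m α_m) = ⟨y_P Ω, z Ω⟩` is `≥ DQ P z - θ ‖z Ω‖²`; for `P ≤ Q`,
`‖(y_P - y_Q) Ω‖² = Σ_j tau ((ψ (P.e (π j)) - ψ (Q.e j))² α (Q.e j)) ≤ ‖z‖² (t P - t Q)`. Take a monotone sequence with `t → inf`, limit `y`
(`lim_mem`), `y ≠ 0`; refinements have the same limit, so with `exists_two`: `a * ψ b = 0 → a * y * b = 0` for `a ∈ A`, `b` a projection of `A`.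
`β b = E (y b y*)`. For orthogonal projections `b_1..b_n` with `n θ > ‖z‖²`, `Π ψ b_i = 0` pointwise, hence `Π β b_i = 0` (replace one factor at a time).
`β 1 ≠ 0`, so there is `n` with a family of size `n+1` with `Π β b_i ≠ 0` and none of size `n+2`. `y₁ = a y b_0`, `a = Π_{i ≥ 1} β b_i`.
For a projection `b`: `Y' = y₁ b`, `Y'' = y₁ (1 - b)` have `E (Y' Y'*) E (Y'' Y''*) = 0`, so `Y''* m Y' = 0` for `m ∈ A` (`orth_of_E`:
`β' Y'' = 0`, `a_n = (β' + 1/n)⁻¹ ∈ A`, `‖(1 - β' a_n) Y' Ω‖² = tau ((1 - β' a_n)² β') ≤ 1/n`). Finish with `mem_of_proj`.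
-/

open Finset Filter
open scoped Classical

namespace Vale.Agent.P078.G

variable {H : Type*} [NormedAddCommGroup H] [InnerProductSpace ℂ H] [CompleteSpace H]
  {M : VonNeumannAlgebra H} {A : StarSubalgebra ℂ (H →L[ℂ] H)} {Ω : H}
  {E : (H →L[ℂ] H) → H →L[ℂ] H}

/-- Sets closed under the bimodule operations and bounded limits in the 2-norm. -/
structure Clo (M : VonNeumannAlgebra H) (A : StarSubalgebra ℂ (H →L[ℂ] H)) (Ω : H)
    (T : Set (H →L[ℂ] H)) : Prop where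
  zero : 0 ∈ T
  add : ∀ y ∈ T, ∀ y' ∈ T, y + y' ∈ T
  mul : ∀ y ∈ T, ∀ a ∈ A, ∀ b ∈ A, a * y * b ∈ T
  lim : ∀ (y : ℕ → H →L[ℂ] H) (C : ℝ), ∀ m ∈ M, (∀ n, y n ∈ T ∧ y n ∈ M ∧ ‖y n‖ ≤ C) →
    Tendsto (fun n => star (y n) Ω) atTop (nhds (star m Ω)) → m ∈ T

namespace D1

theorem nsqE (hA : IsMASA M A) (hE : IsE M A Ω E) {Y a : H →L[ℂ] H}
    (hY : Y ∈ M) (ha : a ∈ A) : E (a * Y * star (a * Y)) = a * E (Y * star Y) * star a := by
  have h1 := mul_mem hY (star_mem hY)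
  rw [star_mul, ← mul_assoc, mul_assoc a, hE.right _ (star_mem ha) _ (mul_mem (hA.1 a ha) h1),
    hE.left _ ha _ h1]

theorem nsq2 (hE : IsE M A Ω E) {Y : H →L[ℂ] H} (hY : Y ∈ M) :
    ‖star Y Ω‖ ^ 2 = (tau Ω (E (Y * star Y))).re := by
  rw [hE.tr _ (mul_mem hY (star_mem hY)), ← re_tau, star_star]

theorem kill (hA : IsMASA M A) (hΩ : IsCV M A Ω) (hE : IsE M A Ω E) {Y a : H →L[ℂ] H}
    (hY : Y ∈ M) (ha : a ∈ A) (h : a * E (Y * star Y) = 0) : a * Y = 0 := by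
  have h0 := mul_mem (hA.1 a ha) hY
  have h1 := nsq2 hE h0
  rw [nsqE hA hE hY ha, h, zero_mul] at h1
  refine star_eq_zero.1 (hΩ.2.2 _ (star_mem h0) (norm_eq_zero.1 (pow_eq_zero_iff two_ne_zero |>.1 ?_)))
  simpa [tau] using h1

section
variable {X : Type*} [TopologicalSpace X] [MulAction (NG M A) X] {ev : (H →L[ℂ] H) → C(X, ℂ)}
  {I : C(X, ℝ) →ₗ[ℝ] ℝ}

theorem lift (hG : IsGel M A ev) (f : C(X, ℝ)) : ∃ a ∈ A, star a = a ∧ ∀ x, ev a x = f x := by
  obtain ⟨a, ha, e⟩ := hG.surj ⟨fun x => (f x : ℂ), by fun_prop⟩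
  have e' : ∀ x, ev a x = f x := fun x => by rw [e]; rfl
  exact ⟨a, ha, hG.ext (star_mem ha) ha fun x => by rw [hG.star a ha]; simp [e'], e'⟩

theorem Imono (hI : IsP I) {f g : C(X, ℝ)} (h : ∀ x, f x ≤ g x) : I f ≤ I g := by
  have h1 := hI.pos (g - f) fun x => sub_nonneg.2 (h x)
  rw [map_sub] at h1
  linarith

/-- The real part of the Gelfand transform. -/
noncomputable def Rv (ev : (H →L[ℂ] H) → C(X, ℂ)) (a : H →L[ℂ] H) : C(X, ℝ) :=
  ⟨fun x => (ev a x).re, by fun_prop⟩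

theorem Rv_apply (a : H →L[ℂ] H) (x : X) : Rv ev a x = (ev a x).re := rfl

theorem nn (hG : IsGel M A ev) {a : H →L[ℂ] H} (ha : a ∈ A) (f : C(X, ℝ)) (h0 : ∀ x, 0 ≤ f x)
    (h : ∀ x, ev a x = f x) : 0 ≤ a := by
  obtain ⟨s, hs, e1, e2⟩ := lift hG ⟨fun x => √(f x), by fun_prop⟩
  have : a = star s * s := hG.ext ha (mul_mem (star_mem hs) hs) fun x => by
    rw [e1, hG.mul s hs s hs, ContinuousMap.mul_apply, e2, h, ← Complex.ofReal_mul]
    exact congrArg _ (Real.mul_self_sqrt (h0 x)).symm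
  rw [this]
  exact star_mul_self_nonneg s

end

end D1

open D1

theorem orth_of_E (hA : IsMASA M A) (hΩ : IsCV M A Ω) (hE : IsE M A Ω E) {Y Y' : H →L[ℂ] H}
    (hY : Y ∈ M) (hY' : Y' ∈ M) (h : E (Y * star Y) * E (Y' * star Y') = 0) :
    ∀ m ∈ A, star Y' * m * Y = 0 := by
  intro m hm
  obtain ⟨X, _, _, _, _, _, _, ev, hG⟩ := exists_gel hA
  have b1 := hE.mem _ (mul_mem hY (star_mem hY))
  have b2 := hE.mem _ (mul_mem hY' (star_mem hY'))
  have hV : IsOpen {x | ev (E (Y * star Y)) x ≠ 0} :=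
    isOpen_ne_fun (ev _).continuous continuous_const
  obtain ⟨g, hg, gp, ge⟩ := hG.proj (C := closure {x | ev (E (Y * star Y)) x ≠ 0})
    ⟨isClosed_closure, hG.ed hA _ hV⟩
  have hg' := sub_mem (one_mem A) hg
  have k1 : (1 - g) * Y = 0 := kill hA hΩ hE hY hg' (hG.inj _ (mul_mem hg' b1) (by
    ext x
    rw [hG.mul _ hg' _ b1, hG.sub (one_mem A) hg, hG.one]
    by_cases hx : ev (E (Y * star Y)) x = 0
    · simp [hx]
    · simp [ge, subset_closure (s := {x | ev (E (Y * star Y)) x ≠ 0}) hx]))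
  have k2 : g * Y' = 0 := kill hA hΩ hE hY' hg (hG.inj _ (mul_mem hg b2) (by
    ext x
    rw [hG.mul _ hg _ b2]
    by_cases hx : x ∈ closure {x | ev (E (Y * star Y)) x ≠ 0}
    · have : ev (E (Y' * star Y')) x = 0 := by
        refine closure_minimal (t := {x | ev (E (Y' * star Y')) x = 0}) (fun w hw => ?_)
          (isClosed_eq (ev _).continuous continuous_const) hx
        have := congrArg (fun a => ev a w) h
        simp only [hG.mul _ b1 _ b2, hG.zero, ContinuousMap.mul_apply, ContinuousMap.zero_apply,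
          mul_eq_zero] at this
        exact this.resolve_left hw
      simp [this]
    · simp [ge, hx]))
  have k3 : star Y' * g = 0 := by
    simpa [gp.isSelfAdjoint.star_eq] using congrArg star k2
  rw [sub_mul, one_mul, sub_eq_zero] at k1
  rw [k1, ← mul_assoc, mul_assoc _ m g, hA.2.1 m hm g hg, ← mul_assoc, k3, zero_mul, zero_mul]

namespace D1

theorem comb_mul (Q : Part A) (c : Q.ι → H →L[ℂ] H) (z : H →L[ℂ] H) :
    (∑ j, c j * z * Q.e j) * star (∑ j, c j * z * Q.e j) =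
      ∑ j, c j * (z * Q.e j * star z) * star (c j) := by
  rw [star_sum, sum_mul_sum]
  refine sum_congr rfl fun j _ => ?_
  rw [sum_eq_single j (fun k _ hk => ?_) (by simp)]
  · simp only [star_mul, (Q.proj j).isSelfAdjoint.star_eq, mul_assoc]
    rw [← mul_assoc (Q.e j), (Q.proj j).isIdempotentElem.eq]
  · simp only [star_mul, (Q.proj k).isSelfAdjoint.star_eq, mul_assoc]
    rw [← mul_assoc (Q.e j), Q.orth j k hk.symm]
    simp

theorem conj_nn {b : H →L[ℂ] H} (hb : IsStarProjection b) (z : H →L[ℂ] H) : 0 ≤ z * b * star z :=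
  star_right_conjugate_nonneg hb.nonneg z

theorem conj_norm {b : H →L[ℂ] H} (hb : IsStarProjection b) (z : H →L[ℂ] H) :
    ‖z * b * star z‖ ≤ ‖z‖ ^ 2 := by
  refine (norm_mul_le _ _).trans ?_
  rw [norm_star, sq]
  gcongr
  exact (norm_mul_le _ _).trans (mul_le_of_le_one_right (norm_nonneg _) hb.norm_le)

theorem list_proj (l : List (H →L[ℂ] H)) (h1 : ∀ b ∈ l, b ∈ A ∧ IsStarProjection b)
    (h2 : l.Pairwise fun b b' => b * b' = 0) : l.sum ∈ A ∧ IsStarProjection l.sum := by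
  induction l with
  | nil => exact ⟨zero_mem _, IsStarProjection.zero _⟩
  | cons b l ih =>
    rw [List.pairwise_cons] at h2
    obtain ⟨i1, i2⟩ := ih (fun c hc => h1 c (List.mem_cons_of_mem _ hc)) h2.2
    have h3 := h1 b List.mem_cons_self
    rw [List.sum_cons]
    refine ⟨add_mem h3.1 i1, h3.2.add i2 ?_⟩
    rw [← List.map_id l, ← List.sum_map_mul_left, List.sum_eq_zero]
    intro w hw
    obtain ⟨c, hc, rfl⟩ := List.mem_map.1 hw
    exact h2.1 c hc

section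
variable {X : Type*} [TopologicalSpace X] [MulAction (NG M A) X] {ev : (H →L[ℂ] H) → C(X, ℂ)}
  {I : C(X, ℝ) →ₗ[ℝ] ℝ} {z : H →L[ℂ] H}

/-- The function `E (z b z*)`. -/
noncomputable def Rz (ev : (H →L[ℂ] H) → C(X, ℂ)) (E : (H →L[ℂ] H) → H →L[ℂ] H) (z b : H →L[ℂ] H) :
    C(X, ℝ) := Rv ev (E (z * b * star z))

theorem Rz_spec (hA : IsMASA M A) (hE : IsE M A Ω E) (hG : IsGel M A ev) (hz : z ∈ M)
    {b : H →L[ℂ] H} (hb : b ∈ A) (hp : IsStarProjection b) (x : X) :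
    ev (E (z * b * star z)) x = Rz ev E z b x ∧ 0 ≤ Rz ev E z b x ∧ Rz ev E z b x ≤ ‖z‖ ^ 2 := by
  have h1 := mul_mem (mul_mem hz (hA.1 b hb)) (star_mem hz)
  have h2 := ev_real hG (hE.mem _ h1) (hE.pos _ h1 (conj_nn hp z)) x
  exact ⟨h2.1, h2.2, (Complex.re_le_norm _).trans ((ev_norm hG (hE.mem _ h1) x).trans
    ((hE.norm _ h1).trans (conj_norm hp z)))⟩

theorem Rz_sum (hA : IsMASA M A) (hE : IsE M A Ω E) (hG : IsGel M A ev) (hz : z ∈ M) {κ : Type*}
    (s : Finset κ) {b : κ → H →L[ℂ] H} (hb : ∀ i, b i ∈ A) (x : X) :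
    Rz ev E z (∑ i ∈ s, b i) x = ∑ i ∈ s, Rz ev E z (b i) x := by
  have h1 := fun i => mul_mem (mul_mem hz (hA.1 _ (hb i))) (star_mem hz)
  simp only [Rz, Rv_apply, mul_sum, sum_mul]
  rw [E_sum hE s fun i _ => h1 i, ev_sum hG s fun i _ => hE.mem _ (h1 i), Complex.re_sum]

theorem Rz_list (hA : IsMASA M A) (hE : IsE M A Ω E) (hG : IsGel M A ev) (hz : z ∈ M)
    (l : List (H →L[ℂ] H)) (hb : ∀ b ∈ l, b ∈ A) (x : X) {θ : ℝ} (h : ∀ b ∈ l, θ ≤ Rz ev E z b x) :
    l.length * θ ≤ Rz ev E z l.sum x := by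
  have h1 := Rz_sum hA hE hG hz univ (b := l.get) (fun i => hb _ (List.get_mem l i)) x
  rw [← List.sum_ofFn, List.ofFn_get] at h1
  rw [h1]
  simpa using card_nsmul_le_sum univ (fun i => Rz ev E z (l.get i) x) θ
    fun i _ => h _ (List.get_mem l i)

theorem nsqY (hA : IsMASA M A) (hE : IsE M A Ω E) (hG : IsGel M A ev)
    (hτ : ∀ a ∈ A, ∀ f : C(X, ℝ), (∀ x, f x = (ev a x).re) → I f = (tau Ω a).re) (hz : z ∈ M)
    (Q : Part A) {c : Q.ι → H →L[ℂ] H} (hc : ∀ j, c j ∈ A) {f : Q.ι → C(X, ℝ)}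
    (hf : ∀ j x, ev (c j) x = f j x) :
    ‖star (∑ j, c j * z * Q.e j) Ω‖ ^ 2 = I (∑ j, f j * f j * Rz ev E z (Q.e j)) := by
  have h0 : ∀ j, z * Q.e j * star z ∈ M := fun j =>
    mul_mem (mul_mem hz (hA.1 _ (Q.mem j))) (star_mem hz)
  have h1 : ∀ j, c j * E (z * Q.e j * star z) * star (c j) ∈ A := fun j =>
    mul_mem (mul_mem (hc j) (hE.mem _ (h0 j))) (star_mem (hc j))
  rw [nsq2 hE (sum_mem fun j _ => mul_mem (mul_mem (hA.1 _ (hc j)) hz) (hA.1 _ (Q.mem j))),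
    comb_mul, E_sum hE _ fun j _ =>
      mul_mem (mul_mem (hA.1 _ (hc j)) (h0 j)) (star_mem (hA.1 _ (hc j)))]
  simp only [fun j => hE.right _ (star_mem (hc j)) _ (mul_mem (hA.1 _ (hc j)) (h0 j)),
    fun j => hE.left _ (hc j) _ (h0 j)]
  refine (hτ _ (sum_mem fun j _ => h1 j) _ fun x => ?_).symm
  rw [ev_sum hG _ fun j _ => h1 j, Complex.re_sum, ContinuousMap.sum_apply]
  refine sum_congr rfl fun j _ => ?_
  rw [hG.mul _ (mul_mem (hc j) (hE.mem _ (h0 j))) _ (star_mem (hc j)), hG.mul _ (hc j) _ (hE.mem _ (h0 j)),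
    hG.star _ (hc j)]
  simp only [ContinuousMap.mul_apply, ContinuousMap.star_apply, hf,
    (Rz_spec hA hE hG hz (Q.mem j) (Q.proj j) x).1]
  simp
  ring

theorem normY (hA : IsMASA M A) (hG : IsGel M A ev) (z : H →L[ℂ] H)
    (Q : Part A) {c : Q.ι → H →L[ℂ] H} (hc : ∀ j, c j ∈ A) {f : Q.ι → C(X, ℝ)}
    (hf : ∀ j x, ev (c j) x = f j x) {C : ℝ} (hC : ∀ x, ∑ j, f j x * f j x ≤ C) (C0 : 0 ≤ C) :
    ‖∑ j, c j * z * Q.e j‖ ^ 2 ≤ ‖z‖ ^ 2 * C := by
  have h1 : ∀ j, c j * star (c j) ∈ A := fun j => mul_mem (hc j) (star_mem (hc j))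
  have h2 : ∑ j, c j * star (c j) ≤ C • (1 : H →L[ℂ] H) := by
    have h3 : (C : ℂ) • (1 : H →L[ℂ] H) ∈ A := A.smul_mem (one_mem A) _
    rw [← sub_nonneg, ← Complex.coe_smul]
    refine nn hG (sub_mem h3 (sum_mem fun j _ => h1 j)) (C • 1 - ∑ j, f j * f j)
      (fun x => by simpa [ContinuousMap.sum_apply] using hC x) fun x => ?_
    rw [hG.sub h3 (sum_mem fun j _ => h1 j), ContinuousMap.sub_apply, ev_sum hG _ fun j _ => h1 j,
      hG.smul _ (one_mem A), hG.one]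
    simp [fun j => hG.mul _ (hc j) _ (star_mem (hc j)), fun j => hG.star _ (hc j), hf,
      ContinuousMap.sum_apply]
  have h4 : ∑ j, c j * (z * Q.e j * star z) * star (c j) ≤ (‖z‖ ^ 2 * C) • (1 : H →L[ℂ] H) := by
    rw [mul_smul]
    refine le_trans ?_ (smul_le_smul_of_nonneg_left h2 (by positivity))
    rw [smul_sum]
    refine sum_le_sum fun j _ => ?_
    exact (CStarAlgebra.star_right_conjugate_le_norm_smul (conj_nn (Q.proj j) z).isSelfAdjoint).trans
      (smul_le_smul_of_nonneg_right (conj_norm (Q.proj j) z) (mul_star_self_nonneg _))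
  rw [sq, ← CStarRing.norm_self_mul_star]
  rw [← comb_mul] at h4
  refine (CStarAlgebra.norm_le_norm_of_nonneg_of_le (mul_star_self_nonneg _) h4).trans ?_
  rw [norm_smul, Real.norm_of_nonneg (by positivity)]
  exact mul_le_of_le_one_right (by positivity) ContinuousLinearMap.norm_id_le

end

end D1

namespace D1

theorem seq_lim {ι : Type*} [Preorder ι] [IsDirectedOrder ι] [Nonempty ι] (hΩ : IsCV M A Ω)
    {y : ι → H →L[ℂ] H} (hy : ∀ P, y P ∈ M) {C : ℝ} (hC : ∀ P, ‖y P‖ ≤ C) {t : ι → ℝ} {N : ℝ}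
    (N0 : 0 ≤ N) (t0 : ∀ P, 0 ≤ t P) (h : ∀ P Q, P ≤ Q → ‖(y P - y Q) Ω‖ ^ 2 ≤ N * (t P - t Q)) :
    ∃ m ∈ M, ∀ P₀, ∃ Q : ℕ → ι, (∀ n, P₀ ≤ Q n) ∧
      ∀ ξ, Tendsto (fun n => y (Q n) ξ) atTop (nhds (m ξ)) := by
  have bd : BddBelow (Set.range t) := ⟨0, by rintro _ ⟨P, rfl⟩; exact t0 P⟩
  have h1 : ∀ n : ℕ, ∃ P, t P < (⨅ P, t P) + 1 / ((n : ℝ) + 1) := fun n =>
    exists_lt_of_ciInf_lt (lt_add_of_pos_right _ (by positivity))
  choose P hP using h1
  have h2 : ∀ n Q, P n ≤ Q → dist (y (P n) Ω) (y Q Ω) ≤ √(N * (1 / ((n : ℝ) + 1))) := fun n Q hQ => by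
    rw [dist_eq_norm, ← ContinuousLinearMap.sub_apply]
    refine Real.le_sqrt_of_sq_le ((h _ _ hQ).trans (mul_le_mul_of_nonneg_left ?_ N0))
    linarith [hP n, ciInf_le bd Q]
  have h3 : Tendsto (fun n : ℕ => √(N * (1 / ((n : ℝ) + 1)))) atTop (nhds 0) := by
    simpa using (tendsto_one_div_add_atTop_nhds_zero_nat.const_mul N).sqrt
  have h4 : CauchySeq fun n => y (P n) Ω := by
    refine Metric.cauchySeq_iff.2 fun ε hε => ?_
    obtain ⟨K, hK⟩ := eventually_atTop.1 (h3.eventually (gt_mem_nhds (half_pos hε)))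
    refine ⟨K, fun a ha b hb => ?_⟩
    obtain ⟨Q, q1, q2⟩ := exists_ge_ge (P a) (P b)
    linarith [dist_triangle_right (y (P a) Ω) (y (P b) Ω) (y Q Ω), h2 a Q q1, h2 b Q q2, hK a ha,
      hK b hb]
  obtain ⟨m, hm, h5⟩ := lim_mem hΩ (fun n => hy (P n)) (fun n => hC (P n)) h4
  refine ⟨m, hm, fun P₀ => ?_⟩
  choose Q q1 q2 using fun n => exists_ge_ge P₀ (P n)
  have h6 := (h5 Ω).congr_dist (squeeze_zero (fun _ => dist_nonneg) (fun n => h2 n _ (q2 n)) h3)
  obtain ⟨m', hm', h7⟩ := lim_mem hΩ (fun n => hy (Q n)) (fun n => hC (Q n)) h6.cauchySeq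
  have e : m' - m = 0 := hΩ.2.2 _ (sub_mem hm' hm) (sub_eq_zero.2 (tendsto_nhds_unique (h7 Ω) h6))
  exact ⟨Q, q1, sub_eq_zero.1 e ▸ h7⟩

theorem swap_prod {R α : Type*} [CommRing R] {Ψ B : α → R} (l : List α)
    (h : ∀ b ∈ l, ∀ f, f * Ψ b = 0 → f * B b = 0) (f : R) (hf : f * (l.map Ψ).prod = 0) :
    f * (l.map B).prod = 0 := by
  induction l generalizing f with
  | nil => exact hf
  | cons b l ih =>
    rw [List.map_cons, List.prod_cons] at hf ⊢
    have h1 := ih (fun c hc => h c (List.mem_cons_of_mem _ hc)) (f * Ψ b) (by rwa [mul_assoc])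
    have h2 := h b List.mem_cons_self (f * (l.map B).prod) (by rwa [mul_right_comm])
    rwa [mul_comm (B b), ← mul_assoc]

theorem finish (hA : IsMASA M A) (hΩ : IsCV M A Ω) (hE : IsE M A Ω E) {X : Type*}
    [TopologicalSpace X] [MulAction (NG M A) X] {ev : (H →L[ℂ] H) → C(X, ℂ)} (hG : IsGel M A ev)
    {y : H →L[ℂ] H} (hy : y ∈ M) (h0 : y ≠ 0) {n : ℕ} (hn : ∀ l : List (H →L[ℂ] H), l.length = n + 1 →
      (∀ b ∈ l, b ∈ A ∧ IsStarProjection b) → (l.Pairwise fun b b' => b * b' = 0) →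
      (l.map fun b => ev (E (y * b * star y))).prod = 0) :
    ∃ a ∈ A, ∃ b ∈ A, a * y * b ≠ 0 ∧ ∀ m ∈ A, star (a * y * b) * m * (a * y * b) ∈ A := by
  have hβ : ∀ b ∈ A, E (y * b * star y) ∈ A := fun b hb =>
    hE.mem _ (mul_mem (mul_mem hy (hA.1 b hb)) (star_mem hy))
  have hq : ∀ a ∈ A, ∀ b ∈ A, IsStarProjection b →
      E (a * y * b * star (a * y * b)) = a * E (y * b * star y) * star a := fun a ha b hb hp => by
    rw [mul_assoc a, nsqE hA hE (mul_mem hy (hA.1 b hb)) ha, star_mul, hp.isSelfAdjoint.star_eq,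
      ← mul_assoc (y * b), mul_assoc y b b, hp.isIdempotentElem.eq]
  induction n with
  | zero =>
    refine (h0 ?_).elim
    have h1 := hn [1] rfl (by simp [one_mem A]) (by simp)
    simp only [List.map_cons, List.map_nil, List.prod_cons, List.prod_nil, mul_one] at h1
    have h2 := hG.inj _ (hE.mem _ (mul_mem hy (star_mem hy))) h1
    simpa using kill hA hΩ hE hy (one_mem A) (by rw [h2, mul_zero])
  | succ n ih =>
    by_contra hc
    refine hc (ih fun l l1 l2 l3 => ?_)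
    by_contra h1
    obtain _ | ⟨b, l⟩ := l
    · simp at l1
    obtain ⟨a, ha, e⟩ := hG.surj (l.map fun b => ev (E (y * b * star y))).prod
    obtain ⟨hb, hp⟩ := l2 b List.mem_cons_self
    rw [List.map_cons, List.prod_cons, ← e] at h1
    rw [List.pairwise_cons] at l3
    have hw := mul_mem (mul_mem (hA.1 a ha) hy) (hA.1 b hb)
    refine hc ⟨a, ha, b, hb, fun h2 => h1 ?_, fun m hm => ?_⟩
    · have h3 := hq a ha b hb hp
      rw [h2, zero_mul, hE.self 0 (zero_mem A)] at h3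
      ext x
      have h4 := congrArg (fun w => ev w x) h3
      simp only [hG.zero, hG.mul _ (mul_mem ha (hβ b hb)) _ (star_mem ha), hG.mul _ ha _ (hβ b hb),
        hG.star a ha] at h4
      simpa [or_comm, or_left_comm, or_assoc] using h4
    refine mem_of_proj hA (mul_mem (mul_mem (star_mem hw) (hA.1 m hm)) hw) fun c hc' hp' => ?_
    have hd := sub_mem (one_mem A) hc'
    have p1 : IsStarProjection (b * c) := hp.mul hp' (hA.2.1 b hb c hc')
    have p2 : IsStarProjection (b * (1 - c)) := hp.mul hp'.one_sub (hA.2.1 b hb _ hd)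
    have o : ∀ d ∈ A, ∀ b' ∈ l, b * d * b' = 0 := fun d hd b' hb' => by
      rw [hA.2.1 b hb d hd, mul_assoc, l3.1 b' hb', mul_zero]
    have h5 := hn (b * c :: b * (1 - c) :: l) (by simpa using l1) (by
      intro w hw
      rcases List.mem_cons.1 hw with rfl | hw
      · exact ⟨mul_mem hb hc', p1⟩
      rcases List.mem_cons.1 hw with rfl | hw
      · exact ⟨mul_mem hb hd, p2⟩
      · exact l2 w (List.mem_cons_of_mem _ hw)) (by
      refine List.pairwise_cons.2 ⟨fun w hw => ?_, List.pairwise_cons.2 ⟨o _ hd, l3.2⟩⟩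
      rcases List.mem_cons.1 hw with rfl | hw
      · rw [hA.2.1 b hb _ hd, mul_assoc, ← mul_assoc c, hp'.mul_one_sub_self, zero_mul, mul_zero]
      · exact o c hc' w hw)
    simp only [List.map_cons, List.prod_cons, ← e] at h5
    have m1 := mul_mem hb hc'
    have m2 := mul_mem hb hd
    have n1 := mul_mem (mul_mem ha (hβ _ m1)) (star_mem ha)
    have n2 := mul_mem (mul_mem ha (hβ _ m2)) (star_mem ha)
    have h6 : E (a * y * (b * c) * star (a * y * (b * c))) *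
        E (a * y * (b * (1 - c)) * star (a * y * (b * (1 - c)))) = 0 := by
      rw [hq a ha _ m1 p1, hq a ha _ m2 p2]
      refine hG.inj _ (mul_mem n1 n2) ?_
      rw [hG.mul _ n1 _ n2, hG.mul _ (mul_mem ha (hβ _ m1)) _ (star_mem ha),
        hG.mul _ (mul_mem ha (hβ _ m2)) _ (star_mem ha), hG.mul _ ha _ (hβ _ m1), hG.mul _ ha _ (hβ _ m2)]
      linear_combination (ev a * ev (star a) * ev (star a)) * h5
    have y1 := mul_mem (mul_mem (hA.1 a ha) hy) (hA.1 _ m1)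
    have y2 := mul_mem (mul_mem (hA.1 a ha) hy) (hA.1 _ m2)
    have k1 := orth_of_E hA hΩ hE y1 y2 h6 m hm
    have k2 := orth_of_E hA hΩ hE y2 y1 (by
      rw [hA.2.1 _ (hE.mem _ (mul_mem y2 (star_mem y2))) _ (hE.mem _ (mul_mem y1 (star_mem y1))), h6])
      m hm
    rw [← mul_assoc (a * y), ← mul_assoc (a * y), star_mul (a * y * b)] at k1 k2
    rw [hp'.one_sub.isSelfAdjoint.star_eq] at k1
    rw [hp'.isSelfAdjoint.star_eq] at k2
    generalize a * y * b = w at k1 k2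
    have k3 : star w * m * w * c - c * (star w * m * w) =
        (1 - c) * star w * m * (w * c) - c * star w * m * (w * (1 - c)) := by noncomm_ring
    rw [← sub_eq_zero, k3, k1, k2, sub_zero]

end D1

theorem stage (hA : IsMASA M A) (hΩ : IsCV M A Ω) (hE : IsE M A Ω E) {z : H →L[ℂ] H}
    (hz : z ∈ M) (h : 0 < DD E Ω A z) : ∃ y ∈ M, y ≠ 0 ∧ (∀ a ∈ A, star y * a * y ∈ A) ∧
      ∀ T, Clo M A Ω T → z ∈ T → y ∈ T := by
  obtain ⟨X, _, _, _, _, _, _, ev, hG⟩ := exists_gel hA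
  obtain ⟨I, hI, hτ⟩ := exists_dyn hA hΩ hG
  haveI := dir hA
  obtain ⟨θ, θ0, hθ⟩ : ∃ θ : ℝ, 0 < θ ∧ 2 * θ * ‖z‖ ^ 2 < DD E Ω A z := by
    refine ⟨DD E Ω A z / (2 * ‖z‖ ^ 2 + 1), by positivity, ?_⟩
    rw [mul_div_assoc', div_mul_eq_mul_div, div_lt_iff₀ (by positivity)]
    nlinarith
  let r := Rz ev E z
  have hr := fun b (hb : b ∈ A) (hp : IsStarProjection b) x => Rz_spec hA hE hG hz hb hp x
  let φ : (H →L[ℂ] H) → C(X, ℝ) := fun b => ⟨fun x => max (r b x - θ) 0, by fun_prop⟩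
  have φe : ∀ b x, φ b x = max (r b x - θ) 0 := fun _ _ => rfl
  have φ0 : ∀ b x, 0 ≤ φ b x := fun _ _ => le_max_right _ _
  have φ1 : ∀ b ∈ A, IsStarProjection b → ∀ x, φ b x ≤ r b x := fun b hb hp x =>
    max_le (by linarith) (hr b hb hp x).2.1
  choose ψ ψA _ ψe using fun b => lift hG (φ b)
  let y : Part A → H →L[ℂ] H := fun P => ∑ m, ψ (P.e m) * z * P.e m
  have yM : ∀ P, y P ∈ M := fun P =>
    sum_mem fun m _ => mul_mem (mul_mem (hA.1 _ (ψA _)) hz) (hA.1 _ (P.mem m))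
  have rs : ∀ (P : Part A) x, ∑ m, r (P.e m) x ≤ ‖z‖ ^ 2 := fun P x => by
    rw [← Rz_sum hA hE hG hz _ P.mem, P.sum]
    exact (hr 1 (one_mem A) (IsStarProjection.one _) x).2.2
  have yn : ∀ P, ‖y P‖ ≤ √(‖z‖ ^ 2 * (‖z‖ ^ 2 * ‖z‖ ^ 2)) := fun P =>
    Real.le_sqrt_of_sq_le (normY hA hG z P (fun _ => ψA _) (fun j => ψe _) (fun x => by
      refine le_trans (sum_le_sum fun j _ => ?_) ((mul_sum _ _ _).symm.trans_le
        (mul_le_mul_of_nonneg_left (rs P x) (sq_nonneg ‖z‖)))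
      have h1 := φ1 _ (P.mem j) (P.proj j) x
      exact mul_le_mul (h1.trans (hr _ (P.mem j) (P.proj j) x).2.2) h1 (φ0 _ _) (sq_nonneg _))
      (by positivity))
  let t : Part A → ℝ := fun P => I (∑ m, φ (P.e m) * r (P.e m))
  have t0 : ∀ P, 0 ≤ t P := fun P => hI.pos _ fun x => by
    rw [ContinuousMap.sum_apply]
    exact sum_nonneg fun m _ => mul_nonneg (φ0 _ _) (hr _ (P.mem m) (P.proj m) x).2.1
  have rm : ∀ (Q : Part A) (T : Finset Q.ι) j, j ∈ T → ∀ x,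
      φ (Q.e j) x ≤ φ (∑ i ∈ T, Q.e i) x := fun Q T j hj x => by
    refine max_le_max_right _ (sub_le_sub_right ?_ _)
    rw [Rz_sum hA hE hG hz _ Q.mem]
    exact single_le_sum (f := fun i => r (Q.e i) x) (fun i _ => (hr _ (Q.mem i) (Q.proj i) x).2.1) hj
  have main : ∀ P Q : Part A, P ≤ Q → ‖(star (y P) - star (y Q)) Ω‖ ^ 2 ≤ ‖z‖ ^ 2 * (t P - t Q) := by
    rintro P Q ⟨π, hπ⟩
    have hπ' : ∀ i, P.e i = ∑ j ∈ univ.filter (fun j => π j = i), Q.e j := fun i => by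
      rw [hπ i, sum_filter]
    have e1 : y P - y Q = ∑ j, (ψ (P.e (π j)) - ψ (Q.e j)) * z * Q.e j := by
      simp only [y, sub_mul, sum_sub_distrib]
      rw [← sum_fiberwise univ π fun j => ψ (P.e (π j)) * z * Q.e j]
      refine congrArg (· - _) (sum_congr rfl fun i _ => ?_)
      rw [sum_congr rfl fun j hj => by rw [(mem_filter.1 hj).2], ← mul_sum, ← hπ']
    rw [← star_sub, e1, nsqY hA hE hG hτ hz Q (fun j => sub_mem (ψA _) (ψA _))
      (f := fun j => φ (P.e (π j)) - φ (Q.e j)) (fun j x => by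
        rw [hG.sub (ψA _) (ψA _)]; simp [ψe]), ← map_sub, ← smul_eq_mul, ← map_smul]
    refine Imono hI fun x => ?_
    have e2 : ∑ m, φ (P.e m) x * r (P.e m) x = ∑ j, φ (P.e (π j)) x * r (Q.e j) x := by
      rw [← sum_fiberwise univ π fun j => φ (P.e (π j)) x * r (Q.e j) x]
      refine sum_congr rfl fun i _ => ?_
      rw [sum_congr rfl fun j hj => by rw [(mem_filter.1 hj).2], ← mul_sum,
        ← Rz_sum hA hE hG hz _ Q.mem, ← hπ']
    simp only [ContinuousMap.sum_apply, ContinuousMap.mul_apply, ContinuousMap.sub_apply,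
      ContinuousMap.smul_apply, smul_eq_mul]
    rw [e2, ← sum_sub_distrib, mul_sum]
    refine sum_le_sum fun j _ => ?_
    have a1 : φ (Q.e j) x ≤ φ (P.e (π j)) x := by
      rw [hπ' (π j)]
      exact rm Q _ j (by simp) x
    have a2 := (φ1 _ (P.mem (π j)) (P.proj _) x).trans (hr _ (P.mem (π j)) (P.proj _) x).2.2
    have a3 : 0 ≤ r (Q.e j) x := (hr _ (Q.mem j) (Q.proj j) x).2.1
    have a4 := φ0 (Q.e j) x
    rw [← sub_mul, mul_assoc]
    exact mul_le_mul_of_nonneg_right (by linarith) (mul_nonneg (by linarith) a3)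
  have low : ∀ P, θ * (DD E Ω A z - 2 * θ * ‖z‖ ^ 2) ≤ ‖star (y P) Ω‖ ^ 2 := fun P => by
    have e1 : DQ E Ω P z = I (∑ m, r (P.e m) * r (P.e m)) := by
      rw [map_sum]
      refine sum_congr rfl fun m _ => nsq hG hτ
        (hE.mem _ (mul_mem (mul_mem hz (hA.1 _ (P.mem m))) (star_mem hz))) _ fun x => ?_
      rw [(hr _ (P.mem m) (P.proj m) x).1, Complex.norm_real, Real.norm_eq_abs, sq_abs, sq]
      rfl
    have e2 := Imono hI (f := θ • (∑ m, r (P.e m) * r (P.e m) - (2 * θ * ‖z‖ ^ 2) • 1))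
      (g := ∑ m, φ (P.e m) * φ (P.e m) * r (P.e m)) fun x => by
        simp only [ContinuousMap.sum_apply, ContinuousMap.mul_apply, ContinuousMap.sub_apply,
          ContinuousMap.smul_apply, smul_eq_mul, ContinuousMap.one_apply, mul_one]
        refine le_trans (mul_le_mul_of_nonneg_left (sub_le_sub_left
          (mul_le_mul_of_nonneg_left (rs P x) (by positivity : 0 ≤ 2 * θ)) _) θ0.le) ?_
        rw [mul_sum, ← sum_sub_distrib, mul_sum]
        refine sum_le_sum fun m _ => ?_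
        have a3 : 0 ≤ r (P.e m) x := (hr _ (P.mem m) (P.proj m) x).2.1
        rw [φe]
        generalize r (P.e m) x = s at a3
        rcases le_total (s - θ) 0 with a | a
        · rw [max_eq_right a]
          have : 0 ≤ θ * s := by positivity
          nlinarith
        · rw [max_eq_left a]
          have : 0 ≤ (s - θ) * (s - θ) * (s - θ) := by positivity
          have : 0 ≤ θ * θ * θ := by positivity
          nlinarith
    rw [map_smul, map_sub, map_smul, hI.one, ← e1, smul_eq_mul, smul_eq_mul, mul_one] at e2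
    rw [nsqY hA hE hG hτ hz P (fun j => ψA _) (fun j => ψe _)]
    exact le_trans (mul_le_mul_of_nonneg_left (sub_le_sub_right (DD_le P z) _) θ0.le) e2
  obtain ⟨m', hm', hl⟩ := seq_lim hΩ (y := fun P => star (y P)) (fun P => star_mem (yM P))
    (fun P => (norm_star _).trans_le (yn P)) (sq_nonneg _) t0 main
  obtain ⟨m, rfl⟩ : ∃ m, m' = star m := ⟨star m', (star_star _).symm⟩
  have hm : m ∈ M := by simpa using star_mem hm'
  have m0 : m ≠ 0 := by
    rintro rfl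
    obtain ⟨Q, -, hQ⟩ := hl (Part.triv A)
    have := ge_of_tendsto' ((hQ Ω).norm.pow 2) fun n => low (Q n)
    have h2 : 0 < θ * (DD E Ω A z - 2 * θ * ‖z‖ ^ 2) := mul_pos θ0 (by linarith)
    simp at this
    linarith
  have K : ∀ a ∈ A, ∀ b ∈ A, IsStarProjection b → a * ψ b = 0 → a * m * b = 0 := by
    intro a ha b hb hp hab
    obtain ⟨P₀, hP⟩ := exists_two hb hp
    obtain ⟨Q, q1, hQ⟩ := hl P₀
    have h1 : ∀ n, a * y (Q n) * b = 0 := fun n => by
      obtain ⟨T, hT⟩ := hP _ (q1 n)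
      simp only [y, mul_sum, sum_mul]
      refine sum_eq_zero fun j _ => ?_
      by_cases hj : j ∈ T
      · have h2 : a * ψ ((Q n).e j) = 0 := hG.inj _ (mul_mem ha (ψA _)) (by
          ext x
          have h3 := congrArg (fun w => ev w x) hab
          simp only [hG.mul _ ha _ (ψA _), hG.zero, ContinuousMap.mul_apply, ψe,
            ContinuousMap.zero_apply, mul_eq_zero, Complex.ofReal_eq_zero] at h3 ⊢
          refine h3.imp_right fun h4 => le_antisymm ?_ (φ0 _ _)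
          rw [← h4, hT]
          exact rm _ T j hj x)
        rw [← mul_assoc, ← mul_assoc, h2, zero_mul, zero_mul, zero_mul]
      · have h2 : (Q n).e j * b = 0 := by
          rw [hT, mul_sum]
          exact sum_eq_zero fun i hi => (Q n).orth j i fun e => hj (e ▸ hi)
        rw [mul_assoc, mul_assoc, h2, mul_zero, mul_zero]
    refine star_eq_zero.1 (ContinuousLinearMap.ext fun ξ => ?_)
    have h3 := ((star b).continuous.tendsto _).comp (hQ (star a ξ))
    have h4 : ∀ n, (star b) (star (y (Q n)) (star a ξ)) = 0 := fun n => by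
      simpa [mul_assoc] using congrArg (fun S : H →L[ℂ] H => star S ξ) (h1 n)
    have h5 := tendsto_nhds_unique h3 (tendsto_const_nhds.congr fun n => (h4 n).symm)
    simpa [mul_assoc] using h5
  obtain ⟨n, hn⟩ := exists_nat_gt (‖z‖ ^ 2 / θ)
  obtain ⟨a, ha, b, hb, h1, h2⟩ := finish hA hΩ hE hG hm m0 (n := n) fun l l1 l2 l3 => by
    rw [← one_mul (List.prod _)]
    refine swap_prod (Ψ := fun b => ev (ψ b)) l (fun b hb f hf => ?_) 1 ?_
    · obtain ⟨a, ha, rfl⟩ := hG.surj f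
      have h4 := mul_mem (mul_mem hm (hA.1 b (l2 b hb).1)) (star_mem hm)
      rw [← hG.mul _ ha _ (ψA _)] at hf
      rw [← hG.mul _ ha _ (hE.mem _ h4), ← hE.left _ ha _ h4, ← mul_assoc, ← mul_assoc,
        K a ha b (l2 b hb).1 (l2 b hb).2 (hG.inj _ (mul_mem ha (ψA _)) hf), zero_mul,
        hE.self 0 (zero_mem A), hG.zero]
    · ext x
      by_contra hc
      obtain ⟨s1, s2⟩ := list_proj l l2 l3
      have h5 := (Rz_list hA hE hG hz l (fun b hb => (l2 b hb).1) x (θ := θ) fun b hb => ?_).trans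
        (hr _ s1 s2 x).2.2
      · rw [l1, div_lt_iff₀ θ0] at *
        push_cast at h5
        nlinarith
      · by_contra h6
        refine hc ?_
        obtain ⟨w, hw⟩ := List.dvd_prod (List.mem_map_of_mem (f := fun b => ev (ψ b)) hb)
        rw [one_mul, hw, ContinuousMap.mul_apply, ψe, φe,
          max_eq_right (by linarith [not_le.1 h6])]
        simp
  refine ⟨_, mul_mem (mul_mem (hA.1 a ha) hm) (hA.1 b hb), h1, h2, fun T hT hzT => hT.mul _ ?_ a ha b hb⟩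
  obtain ⟨Q, -, hQ⟩ := hl (Part.triv A)
  refine hT.lim (fun n => y (Q n)) _ m hm (fun n => ⟨?_, yM _, yn _⟩) (hQ Ω)
  exact sum_induction _ (· ∈ T) (fun a b ha hb => hT.add a ha b hb) hT.zero
    fun j _ => hT.mul z hzT _ (ψA _) _ ((Q n).mem j)

end Vale.Agent.P078.G
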