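import Vale.Agent.P078.X.Diff1

/-!
ROUND X (non-tracial copy of the G file). CHANGES: `Zs_right`: `exists_E`, `E (g z) = 0` for all `g` (test against `A`), `tau (g z h) = tau (h* E (h g z) h)` (`IsE.conj`). `Zs_star` from `Zs_right`. `Clo.lim`: adjoints converge on `Ω`, hence strongly
(`lim_mem`/`small_of_tau`). `no_norm`: if `b (1 - u b u*) = 0` and `b ≠ u b u*` take `p = u* (u b u* - b) u`. `DD v > 0`: `DQ P v = tau (v S_P (v* v) v*) → tau (v E (v* v) v*)` (`tendsto_vec`, `ev_DQ`),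
which vanishes only if `v = 0`. Aux statements may change.

Elements orthogonal to the normalizer have no atomic part.

PLAN. `Zs` is `Clo` and closed under `star` and multiplication by `N0` (`A_le_N`, `N_mul`). If `DD z > 0`, `stage` gives `y₁`; `v = star y₁ ∈ Zs` has
`v a v* ∈ A` and `DQ P v = Σ ‖v e v* Ω‖² = Σ ‖e v* v e Ω‖² = ‖S_P (v* v) Ω‖² ≥ ‖E (v* v) Ω‖² > 0`. `stage` for `v` gives `y₂ ∈ Zs`, `y₂* A y₂ ⊆ A`;
`{y | ∀ a ∈ A, y a v* ∈ A}` is `Clo` so contains `y₂`, then `{y' | ∀ a ∈ A, y₂ a y'* ∈ A}` is `Clo`, contains `v`, so contains `y₂`.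
`no_norm`: `u = y c` with `c ∈ A`, `u* u = e` a nonzero projection (clopen set where `ev (y* y) > δ`). If `u b u* = b` for all projections `b = b e` of `A`
then `u` commutes with all projections, `u ∈ A`, `tau (u* u) = 0`. Otherwise `p = b (1 - u b u*) ≠ 0` (equal traces, faithfulness), and
`g = u p + p u* + (1 - p - u p u*)` is a self-adjoint unitary of the normalizer (`mem_norm`) with `g u p = p`, against `u p ∈ Zs`.
-/

open Finset Filter
open scoped Classical

namespace Vale.Agent.P078.G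

variable {H : Type*} [NormedAddCommGroup H] [InnerProductSpace ℂ H] [CompleteSpace H]
  {M : VonNeumannAlgebra H} {A : StarSubalgebra ℂ (H →L[ℂ] H)} {Ω : H}
  {E : (H →L[ℂ] H) → H →L[ℂ] H}

variable {z y : H →L[ℂ] H}

theorem Zs_tau (hz : z ∈ Zs M A Ω) (hy : y ∈ N0 M A) : tau Ω (y * z) = 0 := by
  induction hy using Submodule.span_induction with
  | mem _ h => obtain ⟨w, rfl⟩ := h; exact hz.2 w
  | zero => simp [tau]
  | add _ _ _ _ h1 h2 => rw [add_mul, tau_add, h1, h2, add_zero]
  | smul c _ _ h => rw [smul_mul_assoc, tau_smul, h, mul_zero]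

theorem Zs_left (hz : z ∈ Zs M A Ω) (hy : y ∈ N0 M A) : y * z ∈ Zs M A Ω :=
  ⟨mul_mem (N_mem hy) hz.1, fun g => by
    rw [← mul_assoc]
    exact Zs_tau hz (N_mul (Submodule.subset_span ⟨g, rfl⟩) hy)⟩

theorem D2.zero_of_tau (hΩ : IsCV M A Ω) (hy : y ∈ M) (h : tau Ω (star y * y) = 0) : y = 0 := by
  have h1 := re_tau (Ω := Ω) y
  rw [h, Complex.zero_re] at h1
  exact hΩ.2.2 y hy (norm_eq_zero.1 (pow_eq_zero_iff two_ne_zero |>.1 h1.symm))

theorem Zs_E (hA : IsMASA M A) (hΩ : IsCV M A Ω) (hE : IsE M A Ω E) (hz : z ∈ Zs M A Ω) :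
    E z = 0 := by
  have h := hE.mem z hz.1
  refine D2.zero_of_tau hΩ (hA.1 _ h) ?_
  rw [← hE.left _ (star_mem h) z hz.1, hE.tr _ (mul_mem (hA.1 _ (star_mem h)) hz.1)]
  exact Zs_tau hz (A_le_N hA (star_mem h))

theorem Zs_right (hΩ : IsCV M A Ω) (hz : z ∈ Zs M A Ω) (hy : y ∈ N0 M A) :
    z * y ∈ Zs M A Ω := by
  obtain ⟨E, hE⟩ := exists_E hΩ.masa hΩ
  refine ⟨mul_mem hz.1 (N_mem hy), fun g => ?_⟩
  induction hy using Submodule.span_induction with
  | mem _ h =>
    obtain ⟨w, rfl⟩ := h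
    have m := Zs_left hz (y := op (w * g)) (Submodule.subset_span ⟨_, rfl⟩)
    have c := hE.conj w⁻¹ _ m.1
    have e : op w⁻¹ * (op (w * g) * z) * star (op w⁻¹) = op g * (z * op w) := by
      rw [← mul_assoc, ← op_mul, inv_mul_cancel_left, op_inv, star_star, mul_assoc]
    rw [Zs_E hΩ.masa hΩ hE m, e] at c
    rw [← hE.tr _ (mul_mem (op_mem g) (mul_mem hz.1 (op_mem w))), c]
    simp [tau]
  | zero => simp [tau]
  | add _ _ _ _ h1 h2 => rw [mul_add, mul_add, tau_add, h1, h2, add_zero]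
  | smul c _ _ h => rw [mul_smul_comm, mul_smul_comm, tau_smul, h, mul_zero]

theorem Zs_star (hΩ : IsCV M A Ω) (hz : z ∈ Zs M A Ω) : star z ∈ Zs M A Ω :=
  ⟨star_mem hz.1, fun g => by
    have h := tau_star (Ω := Ω) (z * op g⁻¹)
    have k := (Zs_right hΩ hz (y := op g⁻¹) (Submodule.subset_span ⟨_, rfl⟩)).2 1
    rw [op_one, one_mul] at k
    rwa [k, map_zero, star_mul, op_inv, star_star] at h⟩

theorem Zs_smul (hz : z ∈ Zs M A Ω) (c : ℂ) : c • z ∈ Zs M A Ω :=
  ⟨smul_mem_M hz.1 c, fun g => by rw [mul_smul_comm, tau_smul, hz.2, mul_zero]⟩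

namespace D2

theorem swap0 {w : H →L[ℂ] H} (hA : IsMASA M A) (hΩ : IsCV M A Ω) (hw : w ∈ Zs M A Ω)
    (h1 : ∀ a ∈ A, star w * a * w ∈ A) (h2 : ∀ a ∈ A, w * a * star w ∈ A)
    (hi : w * (star w * w) = w) (hn : w * w = 0) : w = 0 := by
  have pA : star w * w ∈ A := by simpa using h1 1 (one_mem A)
  have qA : w * star w ∈ A := by simpa using h2 1 (one_mem A)
  obtain ⟨r, hr⟩ : ∃ r, r = 1 - star w * w - w * star w := ⟨_, rfl⟩
  have rA : r ∈ A := hr ▸ sub_mem (sub_mem (one_mem A) pA) qA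
  have rs : star r = r := by simp [hr]
  have waw : ∀ a ∈ A, w * a * w = 0 := fun a ha => by
    calc w * a * w = w * (star w * w) * a * w := by rw [hi]
      _ = w * (star w * w * a) * w := by simp only [mul_assoc]
      _ = w * (a * (star w * w)) * w := by rw [hA.2.1 _ pA _ ha]
      _ = w * a * star w * (w * w) := by simp only [mul_assoc]
      _ = 0 := by rw [hn, mul_zero]
  have wr : w * r = 0 := by
    rw [hr, mul_sub, mul_sub, hi, mul_one, ← mul_assoc, hn]
    simp
  have rw0 : r * w = 0 := by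
    rw [hr, sub_mul, sub_mul, mul_assoc w, hi, one_mul, mul_assoc, hn]
    simp
  have sr : star w * r = 0 := by simpa [rs] using congrArg star rw0
  have rs0 : r * star w = 0 := by simpa [rs] using congrArg star wr
  have key : ∀ a ∈ A, (w + star w + r) * a * (w + star w + r) =
      w * a * star w + star w * a * w + r * a * r := fun a ha => by
    have e1 := waw a ha
    have e2 : star w * a * star w = 0 := by
      simpa [mul_assoc] using congrArg star (waw _ (star_mem ha))
    have e3 : w * a * r = 0 := by rw [mul_assoc, hA.2.1 _ ha _ rA, ← mul_assoc, wr, zero_mul]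
    have e4 : star w * a * r = 0 := by rw [mul_assoc, hA.2.1 _ ha _ rA, ← mul_assoc, sr, zero_mul]
    have e5 : r * a * w = 0 := by rw [hA.2.1 _ rA _ ha, mul_assoc, rw0, mul_zero]
    have e6 : r * a * star w = 0 := by rw [hA.2.1 _ rA _ ha, mul_assoc, rs0, mul_zero]
    simp only [add_mul, mul_add, e1, e2, e3, e4, e5, e6]
    abel
  have gs : star (w + star w + r) = w + star w + r := by
    rw [star_add, star_add, star_star, rs, add_comm (star w)]
  have rr : r * r = r := by
    conv_lhs => rw [hr]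
    rw [← hr, hr, mul_sub, mul_sub, ← hr, mul_one, ← mul_assoc, ← mul_assoc, rs0, rw0]
    simp
  have gg : (w + star w + r) * (w + star w + r) = 1 := by
    have := key 1 (one_mem A)
    simp only [mul_one] at this
    rw [this, rr, hr]
    abel
  have gA : ∀ a ∈ A, (w + star w + r) * a * (w + star w + r) ∈ A := fun a ha => by
    rw [key a ha]
    exact add_mem (add_mem (h2 a ha) (h1 a ha)) (mul_mem (mul_mem rA ha) rA)
  have gu : w + star w + r ∈ unitary (H →L[ℂ] H) := by
    rw [Unitary.mem_iff, gs]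
    exact ⟨gg, gg⟩
  have gn : w + star w + r ∈ normalizer M A :=
    mem_norm.2 ⟨add_mem (add_mem hw.1 (star_mem hw.1)) (hA.1 r rA), gu, by rw [gs]; exact gA,
      by rw [gs]; exact gA⟩
  have h := hw.2 ⟨⟨_, gu⟩, gn⟩
  have e : op (⟨⟨_, gu⟩, gn⟩ : NG M A) * w = star w * w := by
    change (w + star w + r) * w = _
    rw [add_mul, add_mul, hn, rw0, zero_add, add_zero]
  rw [e] at h
  exact zero_of_tau hΩ hw.1 h

theorem half {u b : H →L[ℂ] H} (hA : IsMASA M A) (hΩ : IsCV M A Ω) (hu : u ∈ Zs M A Ω)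
    (h1 : ∀ a ∈ A, star u * a * u ∈ A) (h2 : ∀ a ∈ A, u * a * star u ∈ A)
    (hi : u * (star u * u) = u) (hb : b ∈ A) (hp : IsStarProjection b) :
    b * (star u * u) * (u * b * star u) = b * (star u * u) := by
  obtain ⟨e, he⟩ : ∃ e, e = star u * u := ⟨_, rfl⟩
  have eA : e ∈ A := by simpa [he] using h1 1 (one_mem A)
  have es : star e = e := by simp [he]
  have ee : e * e = e := by
    conv_lhs => rw [he]
    rw [mul_assoc, hi, he]
  rw [← he] at hi
  have bb : b * b = b := hp.isIdempotentElem.eq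
  have bs : star b = b := hp.isSelfAdjoint.star_eq
  obtain ⟨q, hq⟩ : ∃ q, q = u * b * star u := ⟨_, rfl⟩
  have qA : q ∈ A := hq ▸ h2 b hb
  have qs : star q = q := by simp [hq, bs, mul_assoc]
  have qu : q * u = u * b := by
    rw [hq, mul_assoc, ← he, mul_assoc, hA.2.1 _ hb _ eA, ← mul_assoc, hi]
  have qq : q * q = q := by
    calc q * q = q * u * b * star u := by simp only [hq, mul_assoc]
      _ = u * (b * b) * star u := by rw [qu, mul_assoc u b b]
      _ = q := by rw [bb, hq]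
  have be : b * e * (b * e) = b * e := by
    calc b * e * (b * e) = b * (e * b) * e := by simp only [mul_assoc]
      _ = b * b * (e * e) := by rw [hA.2.1 _ eA _ hb]; simp only [mul_assoc]
      _ = b * e := by rw [bb, ee]
  have beA : b * e ∈ A := mul_mem hb eA
  have bes : star (b * e) = b * e := by rw [star_mul, es, bs, hA.2.1 _ eA _ hb]
  obtain ⟨p, hp'⟩ : ∃ p, p = b * e * (1 - q) := ⟨_, rfl⟩
  have q1 : 1 - q ∈ A := sub_mem (one_mem A) qA
  have pA : p ∈ A := hp' ▸ mul_mem beA q1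
  have ps : star p = p := by
    rw [hp', star_mul, bes, star_sub, star_one, qs, hA.2.1 _ q1 _ beA]
  have pq : p * q = 0 := by
    rw [hp', mul_assoc, sub_mul, one_mul, qq, sub_self, mul_zero]
  have bp : b * p = p := by rw [hp', ← mul_assoc, ← mul_assoc, bb]
  have ep : e * p = p := by
    rw [hp', ← mul_assoc, ← mul_assoc, hA.2.1 _ eA _ hb, mul_assoc b e e, ee]
  have pp : p * p = p := by
    have a1 : p * b = p := by rw [hA.2.1 _ pA _ hb, bp]
    have a2 : p * e = p := by rw [hA.2.1 _ pA _ eA, ep]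
    calc p * p = p * (b * e * (1 - q)) := by rw [← hp']
      _ = p * b * e * (1 - q) := by simp only [mul_assoc]
      _ = p := by rw [a1, a2, mul_sub, pq, mul_one, sub_zero]
  have ww : star (u * p) * (u * p) = p := by
    calc star (u * p) * (u * p) = p * (star u * u * p) := by
          rw [star_mul, ps]; simp only [mul_assoc]
      _ = p := by rw [← he, ep, pp]
  have w0 : u * p = 0 := by
    refine swap0 hA hΩ (Zs_right hΩ hu (A_le_N hA pA)) (fun a ha => ?_) (fun a ha => ?_) ?_ ?_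
    · have := mul_mem (mul_mem pA (h1 a ha)) pA
      simpa [ps, mul_assoc] using this
    · have := h2 _ (mul_mem (mul_mem pA ha) pA)
      simpa [ps, mul_assoc] using this
    · rw [ww, mul_assoc, pp]
    · calc u * p * (u * p) = u * p * (u * b * p) := by rw [mul_assoc u b p, bp]
        _ = u * (p * q) * u * p := by rw [← qu]; simp only [mul_assoc]
        _ = 0 := by rw [pq]; simp
  have p0 : p = 0 := by rw [← ww, w0, mul_zero]
  rw [p0, mul_sub, mul_one, eq_comm, sub_eq_zero] at hp'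
  rw [← he, ← hq]
  exact hp'.symm

theorem piso {u : H →L[ℂ] H} (hA : IsMASA M A) (hΩ : IsCV M A Ω) (hu : u ∈ Zs M A Ω)
    (h1 : ∀ a ∈ A, star u * a * u ∈ A) (h2 : ∀ a ∈ A, u * a * star u ∈ A)
    (hi : u * (star u * u) = u) : u = 0 := by
  have hi' : star u * (star (star u) * star u) = star u := by
    simpa [mul_assoc] using congrArg star hi
  have H1 := fun b => half (b := b) hA hΩ hu h1 h2 hi
  have H2 := fun b => half (b := b) hA hΩ (Zs_star hΩ hu) (by simpa using h2) (by simpa using h1) hi'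
  obtain ⟨e, he⟩ : ∃ e, e = star u * u := ⟨_, rfl⟩
  have eA : e ∈ A := by simpa [he] using h1 1 (one_mem A)
  rw [← he] at hi H1
  have key : ∀ b ∈ A, IsStarProjection b → u * b * star u = b * e := fun b hb hp => by
    have bb : b * b = b := hp.isIdempotentElem.eq
    have bs : star b = b := hp.isSelfAdjoint.star_eq
    have a1 := H1 b hb hp
    obtain ⟨q, hq⟩ : ∃ q, q = u * b * star u := ⟨_, rfl⟩
    have qA : q ∈ A := hq ▸ h2 b hb
    have qs : star q = q := by simp [hq, bs, mul_assoc]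
    have qu : q * u = u * b := by
      rw [hq, mul_assoc, ← he, mul_assoc, hA.2.1 _ hb _ eA, ← mul_assoc, hi]
    have qq : q * q = q := by
      calc q * q = q * u * b * star u := by simp only [hq, mul_assoc]
        _ = u * (b * b) * star u := by rw [qu, mul_assoc u b b]
        _ = q := by rw [bb, hq]
    have a2 := H2 q qA ⟨qq, qs⟩
    rw [star_star, ← mul_assoc q u, qu, ← hq, mul_assoc (star u), qu, ← mul_assoc (star u), ← he,
      hA.2.1 _ eA _ hb, hA.2.1 _ qA _ (mul_mem hb eA)] at a2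
    rw [← hq] at a1 ⊢
    rw [← a2, a1]
  have k1 : u * star u = e := by simpa using key 1 (one_mem A) (IsStarProjection.one _)
  have uA : u ∈ A := mem_of_proj hA hu.1 fun b hb hp => by
    calc u * b = u * e * b := by rw [hi]
      _ = u * b * star u * u := by
          rw [mul_assoc, hA.2.1 _ eA _ hb, he]; simp only [mul_assoc]
      _ = b * (u * (star u * u)) := by rw [key b hb hp, ← k1]; simp only [mul_assoc]
      _ = b * u := by rw [← he, hi]
  exact zero_of_tau hΩ hu.1 (Zs_tau hu (A_le_N hA (star_mem uA)))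

theorem tend_mul (hΩ : IsCV M A Ω) {y : ℕ → H →L[ℂ] H} {m b : H →L[ℂ] H} (hy : ∀ n, y n ∈ M)
    (hm : m ∈ M) (hb : b ∈ A) (h : Tendsto (fun n => y n Ω) atTop (nhds (m Ω))) :
    Tendsto (fun n => (y n * b) Ω) atTop (nhds ((m * b) Ω)) := by
  rw [tendsto_iff_norm_sub_tendsto_zero] at h ⊢
  have h' := h.mul_const ‖b‖
  rw [zero_mul] at h'
  refine squeeze_zero (fun _ => norm_nonneg _) (fun n => ?_) h'
  have := norm_mul_A hΩ (sub_mem (hy n) hm) hb
  rw [sub_mul] at this
  exact this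

theorem limA (hA : IsMASA M A) (hΩ : IsCV M A Ω) {y : ℕ → H →L[ℂ] H} {m : H →L[ℂ] H}
    (hy : ∀ n, y n ∈ A) (hm : m ∈ M) (h : Tendsto (fun n => y n Ω) atTop (nhds (m Ω))) : m ∈ A := by
  refine comm_mem hA hm fun a ha => sub_eq_zero.1 (hΩ.2.2 _
    (sub_mem (mul_mem hm (hA.1 a ha)) (mul_mem (hA.1 a ha) hm)) ?_)
  have t1 := tend_mul hΩ (fun n => hA.1 _ (hy n)) hm ha h
  have t2 : Tendsto (fun n => (y n * a) Ω) atTop (nhds ((a * m) Ω)) := by
    have := (a.continuous.tendsto _).comp h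
    refine this.congr fun n => ?_
    rw [hA.2.1 _ (hy n) _ ha]
    rfl
  exact sub_eq_zero.2 (tendsto_nhds_unique t1 t2)

theorem clo1 (hA : IsMASA M A) (hΩ : IsCV M A Ω) {v : H →L[ℂ] H} (hv : v ∈ M) :
    Clo M A Ω {y | ∀ a ∈ A, y * a * star v ∈ A} where
  zero := fun a _ => by simp
  add := fun y hy y' hy' a ha => by
    rw [add_mul, add_mul]
    exact add_mem (hy a ha) (hy' a ha)
  mul := fun y hy a ha b hb c hc => by
    have := mul_mem ha (hy _ (mul_mem hb hc))
    simpa only [mul_assoc] using this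
  lim := fun y C m hm hy h a ha => by
    have e : ∀ x : H →L[ℂ] H, star (x * a * star v) Ω = (v * star a) (star x Ω) := fun x => by
      rw [star_mul, star_mul, star_star, ← mul_assoc]
      rfl
    have := limA hA hΩ (y := fun n => star (y n * a * star v)) (fun n => star_mem ((hy n).1 a ha))
      (star_mem (mul_mem (mul_mem hm (hA.1 a ha)) (star_mem hv))) (by
        simp only [e]
        exact ((v * star a).continuous.tendsto _).comp h)
    simpa only [star_star] using star_mem this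

theorem cloZ (hA : IsMASA M A) (hΩ : IsCV M A Ω) : Clo M A Ω (Zs M A Ω) where
  zero := ⟨zero_mem _, fun g => by simp [tau]⟩
  add := fun y hy y' hy' => ⟨add_mem hy.1 hy'.1, fun g => by
    rw [mul_add, tau_add, hy.2, hy'.2, add_zero]⟩
  mul := fun y hy a ha b hb => Zs_right hΩ (Zs_left hy (A_le_N hA ha)) (A_le_N hA hb)
  lim := fun y C m hm hy h => by
    have k : star m ∈ Zs M A Ω := ⟨star_mem hm, fun g => by
      have t := (tendsto_const_nhds (x := star (op g) Ω)).inner (𝕜 := ℂ) h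
      rw [tau_mul]
      refine tendsto_nhds_unique t (tendsto_const_nhds.congr fun n => ?_)
      rw [← tau_mul, (Zs_star hΩ (hy n).1).2]⟩
    simpa only [star_star] using Zs_star hΩ k

theorem DD_pos (hA : IsMASA M A) (hΩ : IsCV M A Ω) (hE : IsE M A Ω E) {v : H →L[ℂ] H}
    (hv : v ∈ M) (h0 : v ≠ 0) (h : ∀ a ∈ A, v * a * star v ∈ A) : 0 < DD E Ω A v := by
  have vv : star v * v ∈ M := mul_mem (star_mem hv) hv
  have := neBot hA
  have tm : ∀ x, tau (star v Ω) x = tau Ω (v * (x * star v)) := fun x => (tau_mul v (x * star v)).symm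
  have e : ∀ Q : Part A, DQ E Ω Q v = (tau (star v Ω) (Q.S (star v * v))).re := fun Q => by
    rw [DQ, Part.S, PinAux.tau_sum, Complex.re_sum]
    refine sum_congr rfl fun i _ => ?_
    rw [hE.self _ (h _ (Q.mem i)), ← re_tau, tm, star_mul, star_mul, star_star,
      (Q.proj i).isSelfAdjoint.star_eq]
    simp only [mul_assoc]
  have t : Tendsto (fun Q : Part A => (tau (star v Ω) (Q.S (star v * v))).re) atTop
      (nhds (tau (star v Ω) (E (star v * v))).re) :=
    (Complex.continuous_re.tendsto _).comp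
      ((tendsto_const_nhds (x := star v Ω)).inner (𝕜 := ℂ) (tendsto_vec hA hΩ hE vv (star v Ω)))
  have l : (tau (star v Ω) (E (star v * v))).re ≤ DD E Ω A v := le_of_forall_pos_le_add fun η hη =>
    le_of_tendsto t ((ev_DQ hA hΩ hE hv hη).mono fun Q hQ => e Q ▸ hQ)
  refine lt_of_lt_of_le ?_ l
  obtain ⟨d, hd⟩ : ∃ d, d = E (star v * v) := ⟨_, rfl⟩
  have dA : d ∈ A := hd ▸ hE.mem _ vv
  have d0 : 0 ≤ d := hd ▸ hE.pos _ vv (star_mul_self_nonneg v)
  have s1 : star (CFC.sqrt d) * CFC.sqrt d = d := by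
    rw [(CFC.sqrt_nonneg d).isSelfAdjoint.star_eq, CFC.sqrt_mul_sqrt_self d d0]
  rw [← hd, ← s1, re_tau]
  refine pow_pos (norm_pos_iff.2 fun z => h0 (zero_of_tau hΩ hv ?_)) 2
  have z1 : d * star v = 0 := hΩ.2.2 _ (mul_mem (hA.1 d dA) (star_mem hv)) (by
    rw [← s1]
    change star (CFC.sqrt d) (CFC.sqrt d (star v Ω)) = 0
    rw [z, map_zero])
  have z2 : star d * d = 0 := by
    have k := hE.left d dA _ vv
    rw [← mul_assoc, z1, zero_mul, hE.self 0 (zero_mem A), ← hd] at k
    rw [d0.isSelfAdjoint.star_eq, ← k]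
  rw [← hE.tr _ vv, ← hd, (CStarRing.star_mul_self_eq_zero_iff d).1 z2]
  simp [tau]

end D2

theorem no_norm (hA : IsMASA M A) (hΩ : IsCV M A Ω) (hy : y ∈ Zs M A Ω)
    (h1 : ∀ a ∈ A, star y * a * y ∈ A) (h2 : ∀ a ∈ A, y * a * star y ∈ A) : y = 0 := by
  obtain ⟨X, _, _, _, _, _, _, ev, hG⟩ := exists_gel hA
  have hA' : star y * y ∈ A := by simpa using h1 1 (one_mem A)
  have h0 : 0 ≤ star y * y := star_mul_self_nonneg y
  refine CStarRing.star_mul_self_eq_zero_iff y |>.1 (hG.inj _ hA' ?_)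
  ext x0
  by_contra n
  have p : 0 < (ev (star y * y) x0).re := by
    refine (ev_real hG hA' h0 x0).2.lt_of_ne fun e => n ?_
    rw [(ev_real hG hA' h0 x0).1, ← e]
    rfl
  obtain ⟨δ, hδ⟩ : ∃ δ, δ = (ev (star y * y) x0).re / 2 := ⟨_, rfl⟩
  have δ0 : 0 < δ := by rw [hδ]; positivity
  have cf : Continuous fun x => (ev (star y * y) x).re := by fun_prop
  obtain ⟨V, V1, V2, V3⟩ := compact_exists_isClopen_in_isOpen
    (isOpen_lt (continuous_const (y := δ)) cf) (x := x0) (by simp only [Set.mem_setOf_eq]; linarith)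
  have cg : Continuous fun x => (((√(max δ (ev (star y * y) x).re))⁻¹ : ℝ) : ℂ) :=
    Complex.continuous_ofReal.comp (Continuous.inv₀ (by fun_prop) fun x =>
      (Real.sqrt_pos.2 (δ0.trans_le (le_max_left _ _))).ne')
  obtain ⟨c, cA, hc⟩ := hG.surj ⟨_, V1.continuous_indicator cg⟩
  have eA : star c * (star y * y) * c ∈ A := mul_mem (mul_mem (star_mem cA) hA') cA
  have ev1 : ∀ x, ev (star c * (star y * y) * c) x = if x ∈ V then 1 else 0 := fun x => by
    rw [hG.mul _ (mul_mem (star_mem cA) hA') _ cA, hG.mul _ (star_mem cA) _ hA', hG.star _ cA, hc]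
    simp only [ContinuousMap.mul_apply, ContinuousMap.star_apply, ContinuousMap.coe_mk]
    split_ifs with hx
    · have l : δ < (ev (star y * y) x).re := V3 hx
      have l0 := δ0.trans l
      rw [Set.indicator_of_mem hx, max_eq_right l.le, (ev_real hG hA' h0 x).1, Complex.ofReal_re,
        Complex.star_def, Complex.conj_ofReal, ← Complex.ofReal_mul, ← Complex.ofReal_mul,
        Complex.ofReal_eq_one]
      have s := Real.mul_self_sqrt l0.le
      have s0 := (Real.sqrt_pos.2 l0).ne'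
      field_simp
      nlinarith
    · rw [Set.indicator_of_notMem hx, mul_zero]
  have uu : star (y * c) * (y * c) = star c * (star y * y) * c := by
    rw [star_mul]; simp only [mul_assoc]
  obtain ⟨e, he⟩ : ∃ e, e = star c * (star y * y) * c := ⟨_, rfl⟩
  rw [← he] at eA ev1 uu
  have ee : e * e = e := hG.ext (mul_mem eA eA) eA fun x => by
    rw [hG.mul _ eA _ eA, ContinuousMap.mul_apply, ev1]
    split_ifs <;> simp
  have es : star e = e := by rw [← uu]; simp [mul_assoc]
  have u0 : y * c = 0 := by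
    refine D2.piso hA hΩ (Zs_right hΩ hy (A_le_N hA cA)) (fun a ha => ?_) (fun a ha => ?_) ?_
    · have := mul_mem (mul_mem (star_mem cA) (h1 a ha)) cA
      simpa [mul_assoc] using this
    · have := h2 _ (mul_mem (mul_mem cA ha) (star_mem cA))
      simpa [mul_assoc] using this
    · rw [uu, ← sub_eq_zero, ← CStarRing.star_mul_self_eq_zero_iff]
      calc star (y * c * e - y * c) * (y * c * e - y * c)
          = (e - 1) * (star (y * c) * (y * c)) * (e - 1) := by
            rw [← mul_sub_one, star_mul (y * c), star_sub, es, star_one]; simp only [mul_assoc]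
        _ = 0 := by rw [uu, sub_mul, ee, one_mul, sub_self, zero_mul]
  have := ev1 x0
  rw [← uu, u0, mul_zero, hG.zero, if_pos V2] at this
  exact zero_ne_one this

theorem DD_zero (hA : IsMASA M A) (hΩ : IsCV M A Ω) (hE : IsE M A Ω E) (hz : z ∈ Zs M A Ω) :
    DD E Ω A z = 0 := by
  by_contra n
  obtain ⟨y₁, m1, n1, a1, c1⟩ := stage hA hΩ hE hz.1 ((DD_nonneg z).lt_of_ne' n)
  have v1 : star y₁ ∈ Zs M A Ω := Zs_star hΩ (c1 _ (D2.cloZ hA hΩ) hz)
  have v2 : ∀ a ∈ A, star y₁ * a * star (star y₁) ∈ A := by simpa using a1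
  obtain ⟨y₂, m2, n2, a2, c2⟩ := stage hA hΩ hE v1.1
    (D2.DD_pos hA hΩ hE v1.1 (by simpa using n1) v2)
  have b1 := c2 _ (D2.clo1 hA hΩ v1.1) v2
  have b2 := c2 _ (D2.clo1 hA hΩ m2) fun a ha => by
    have := star_mem (b1 _ (star_mem ha))
    simpa [mul_assoc] using this
  exact n2 (no_norm hA hΩ (c2 _ (D2.cloZ hA hΩ) v1) a2 b2)

end Vale.Agent.P078.G
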