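import Vale.Agent.P078.X.Pin

/-!
ROUND X (non-tracial copy of the G file). CHANGES: `stepb1`: `B_m = Σ_l Y_l f_m Y_l*`, `v_l = Y_l* Ω`, `‖E B_m Ω‖² ≤ ‖B_m Ω‖² ≤ Σ_l ‖e_l U' f_m v_l‖²`, the sum over `m` is `Σ_l ⟪v_l, S_Q (U'* e_l U') v_l⟫ → Σ_l ⟪v_l, β_l v_l⟫`
(`tendsto_vec`), `β_l = E (U'* e_l U') ≤ θ + b / θ`, `b = Σ β_l²`, `Σ ‖v_l‖² ≤ 1`. `sym`: `g_k` the cells of `R`, `z_l = g_k Y_l`, `v_l = z_l* Ω`,
`‖E B_m Ω‖² ≤ Σ_k ‖g_k B_m g_k Ω‖²` (`E_S`, `norm2`, `S_sq`), sum over `m` is `Σ_{l l'} ⟪v_l, S_Q (z_l* z_l') v_l'⟫ → Σ ⟪v_l, c_{l l'} v_l'⟫`, `c = E (z_l* z_l')`, and this is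
`≤ Σ_l ⟪v_l, Γ_k v_l⟫`, `Γ_k = Σ_l c_{l l}`: for `a, d ≥ 0`, `c` in `A` with `|c|² ≤ a d` pointwise (`ev_cs`), `2 re ⟪u, c w⟫ ≤ ⟪u, d u⟫ + ⟪w, a w⟫` (expand
`‖√(a+ε) w - (a+ε)^(-1/2) c* u‖²`, elements from `surj`). `Γ_k ≤ θ + b / θ`, `b = Σ Γ_k²`. `DD_star`: `sym` for the one element family `star y`, `ev_DQ`.
`stepb`: right case `stepb1` and `Mod` twice (`tau (S_P c) = tau c`, `S_P c ∈ [0,1]`); left case `stepb1` for `(star U', star U)` gives `R` with `Ph R (Y*)` small, then `sym`,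
`Σ_l Y_l b Y_l* = U S_P (U' b U'*) U*`.

Hoelder type bounds, symmetry, and the one-slot estimate.

PLAN (pointwise on the Gelfand space, `exists_gel`, `exists_dyn`, `ev_cs`, `nsq`, `tau_le`).
`hold2`: `n c l m x = √(re ev (E (Y c l e_m Y c l*)) x)` (`ev_cs` with `a = Y e_m`, `b = Y' e_m`), `N c m x = √(Σ_l n²)` for `c ∈ J`,
`N = n` otherwise; `Σ_l Π_c n ≤ Π_c N` (Cauchy-Schwarz on two members of `J`, `n ≤ N` for the others); then Cauchy-Schwarz twice for the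
positive functional `Σ_m I` (or AM-GM with scaling), `Σ_m I (N⁴) = Ph` or `DQ`. `hold1` similar without `l`.
`sym`: `B_m = Σ_l Y_l e_m Y_l*`, `‖E B Ω‖² ≤ ‖S_P B Ω‖² = Σ_k ‖f_k B f_k Ω‖²` (`E_S`, `norm2`, `S_sq`),
`‖f_k B_m f_k Ω‖² = Σ_{l l'} ‖e_m (Y_l* f_k Y_l') e_m Ω‖²` (trace), sum over `m` is `‖S_Q Z Ω‖² → ‖E Z Ω‖²` (`tendsto_S`), and
`|E (Y_l* f_k Y_l')|² ≤ E (Y_l* f_k Y_l) E (Y_l'* f_k Y_l')` pointwise.
`stepb1`: the first half of `sym` with the trivial `P`: `Ph Q Y ≤ Σ_{l l'} ‖S_Q (Y_l* Y_l') Ω‖² → Σ ‖E (U'* e_l G e_l' U') Ω‖²`,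
`G = U* U`; pointwise `≤ E (U'* e_l G e_l' G e_l U') β_l'`, `β_l = E (U'* e_l U') ≤ θ + Σ β² / θ`, and
`Σ_{l l'} E (U'* e_l G e_l' G e_l U') ≤ 1`. `stepb2`: `sym` and `stepb1` for `(star U', star U)`.
-/

open Finset Filter
open scoped Classical

namespace Vale.Agent.P078.G

variable {H : Type*} [NormedAddCommGroup H] [InnerProductSpace ℂ H] [CompleteSpace H]
  {M : VonNeumannAlgebra H} {A : StarSubalgebra ℂ (H →L[ℂ] H)} {Ω : H}
  {E : (H →L[ℂ] H) → H →L[ℂ] H}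

variable {y U U' : H →L[ℂ] H} {η θ : ℝ}

namespace HolAux

theorem blk {e : H →L[ℂ] H} (he : IsStarProjection e) (a b : H →L[ℂ] H) :
    a * e * star b = a * e * star (b * e) := by
  rw [star_mul, he.isSelfAdjoint.star_eq, ← mul_assoc, mul_assoc a e e, he.isIdempotentElem.eq]

omit [CompleteSpace H] in
theorem tau_sum {κ : Type*} (s : Finset κ) (f : κ → H →L[ℂ] H) :
    tau Ω (∑ i ∈ s, f i) = ∑ i ∈ s, tau Ω (f i) := by
  simp [tau]

theorem prod_le {κ : Type} [Fintype κ] {n : Fin 4 → κ → ℝ} {N : Fin 4 → ℝ} {J : Finset (Fin 4)}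
    (hJ : 2 ≤ J.card) (h0 : ∀ c l, 0 ≤ n c l) (h1 : ∀ c, 0 ≤ N c) (h2 : ∀ c l, n c l ^ 2 ≤ N c ^ 2)
    (h3 : ∀ c ∈ J, ∑ l, n c l ^ 2 ≤ N c ^ 2) : ∑ l, ∏ c, n c l ≤ ∏ c, N c := by
  obtain ⟨i, hi, j, hj, hij⟩ := one_lt_card.1 hJ
  have e : ∀ f : Fin 4 → ℝ, ∏ c, f c = f i * f j * ∏ c ∈ (univ.erase i).erase j, f c := fun f => by
    rw [mul_assoc, mul_prod_erase _ f (mem_erase.2 ⟨hij.symm, mem_univ j⟩),
      mul_prod_erase _ f (mem_univ i)]
  have h4 : ∑ l, n i l * n j l ≤ N i * N j := by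
    refine (abs_le_of_sq_le_sq' ?_ (mul_nonneg (h1 i) (h1 j))).2
    rw [mul_pow]
    exact (sum_mul_sq_le_sq_mul_sq _ _ _).trans
      (mul_le_mul (h3 i hi) (h3 j hj) (sum_nonneg fun l _ => sq_nonneg _) (sq_nonneg _))
  rw [e N]
  calc ∑ l, ∏ c, n c l ≤ ∑ l, n i l * n j l * ∏ c ∈ (univ.erase i).erase j, N c := by
        refine sum_le_sum fun l _ => ?_
        rw [e fun c => n c l]
        exact mul_le_mul_of_nonneg_left (Finset.prod_le_prod (fun c _ => h0 c l) fun c _ =>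
          (abs_le_of_sq_le_sq' (h2 c l) (h1 c)).2) (mul_nonneg (h0 i l) (h0 j l))
    _ ≤ _ := by
        rw [← sum_mul]
        exact mul_le_mul_of_nonneg_right h4 (prod_nonneg fun c _ => h1 c)

theorem tS (hA : IsMASA M A) (hΩ : IsCV M A Ω) (hE : IsE M A Ω E) (hy : y ∈ M) :
    Tendsto (fun Q : Part A => ‖Q.S y Ω‖ ^ 2) atTop (nhds (‖E y Ω‖ ^ 2)) := by
  have h : Tendsto (fun Q : Part A => Q.S y Ω) atTop (nhds (E y Ω)) := by
    refine Metric.tendsto_nhds.2 fun ε hε => ?_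
    filter_upwards [tendsto_S hA hΩ hE hy (half_pos hε)] with Q hQ
    rw [dist_eq_norm]
    exact lt_of_le_of_lt hQ (half_lt_self hε)
  exact h.norm.pow 2

section
variable {X : Type*} [TopologicalSpace X] [MulAction (NG M A) X] {ev : (H →L[ℂ] H) → C(X, ℂ)}
  {I : C(X, ℝ) →ₗ[ℝ] ℝ}

theorem mono (hI : IsP I) {f g : C(X, ℝ)} (h : ∀ x, f x ≤ g x) : I f ≤ I g := by
  have h1 := hI.pos (g - f) fun x => sub_nonneg.2 (h x)
  rw [map_sub] at h1
  linarith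

theorem cs (hI : IsP I) {ι : Type} [Fintype ι] (f g : ι → C(X, ℝ)) :
    (∑ m, I (f m * g m)) ^ 2 ≤ (∑ m, I (f m ^ 2)) * ∑ m, I (g m ^ 2) := by
  have h := discrim_le_zero (a := ∑ m, I (f m ^ 2)) (b := 2 * ∑ m, I (f m * g m))
    (c := ∑ m, I (g m ^ 2)) fun t => by
      rw [sum_mul, mul_sum, sum_mul, ← sum_add_distrib, ← sum_add_distrib]
      refine sum_nonneg fun m _ => ?_
      have h1 := hI.pos ((t * t) • f m ^ 2 + (2 * t) • (f m * g m) + g m ^ 2) fun x => by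
        simp only [ContinuousMap.add_apply, ContinuousMap.smul_apply, ContinuousMap.mul_apply,
          ContinuousMap.pow_apply, smul_eq_mul]
        nlinarith [sq_nonneg (t * f m x + g m x)]
      simp only [map_add, map_smul, smul_eq_mul] at h1
      linarith
  rw [discrim] at h
  linarith

theorem hol4 (hI : IsP I) {ι : Type} [Fintype ι] (N : Fin 4 → ι → C(X, ℝ)) :
    (∑ m, I (∏ c, N c m)) ^ 4 ≤ ∏ c, ∑ m, I (N c m ^ 4) := by
  have h1 := cs hI (fun m => N 0 m * N 1 m) fun m => N 2 m * N 3 m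
  have h2 := cs hI (fun m => N 0 m ^ 2) fun m => N 1 m ^ 2
  have h3 := cs hI (fun m => N 2 m ^ 2) fun m => N 3 m ^ 2
  simp only [← pow_mul, mul_pow, ← mul_assoc] at h1 h2 h3
  simp only [Fin.prod_univ_four]
  calc _ = ((∑ m, I (N 0 m * N 1 m * N 2 m * N 3 m)) ^ 2) ^ 2 := by ring
    _ ≤ _ := pow_le_pow_left₀ (sq_nonneg _) h1 2
    _ ≤ _ := by
      rw [mul_pow, mul_assoc]
      exact mul_le_mul h2 h3 (sq_nonneg _) ((sq_nonneg _).trans h2)

variable (E ev) in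
/-- The function `E (a a*)`. -/
noncomputable def qq (a : H →L[ℂ] H) : C(X, ℝ) := ⟨fun x => (ev (E (a * star a)) x).re, by fun_prop⟩

/-- Pointwise square root. -/
noncomputable def rt (f : C(X, ℝ)) : C(X, ℝ) := ⟨fun x => √(f x), by fun_prop⟩

theorem le_rt (f : C(X, ℝ)) (x : X) : f x ≤ rt f x ^ 2 := by
  change _ ≤ √_ ^ 2
  rw [Real.sq_sqrt']
  exact le_max_left _ _

/-- Pointwise squared modulus. -/
noncomputable def sqm (f : C(X, ℂ)) : C(X, ℝ) := ⟨fun x => ‖f x‖ ^ 2, by fun_prop⟩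

theorem qq_real (hE : IsE M A Ω E) (hG : IsGel M A ev) (hy : y ∈ M) (x : X) :
    ev (E (y * star y)) x = (qq E ev y x : ℂ) ∧ 0 ≤ qq E ev y x :=
  ev_real hG (hE.mem _ (mul_mem hy (star_mem hy)))
    (hE.pos _ (mul_mem hy (star_mem hy)) (mul_star_self_nonneg y)) x

theorem ev_qq (hE : IsE M A Ω E) (hG : IsGel M A ev) {κ : Type} [Fintype κ] {a : κ → H →L[ℂ] H}
    (ha : ∀ l, a l ∈ M) (x : X) :
    ev (E (∑ l, a l * star (a l))) x = ((∑ l, qq E ev (a l) x : ℝ) : ℂ) := by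
  have h : ∀ l, a l * star (a l) ∈ M := fun l => mul_mem (ha l) (star_mem (ha l))
  rw [E_sum hE _ fun l _ => h l, ev_sum hG _ fun l _ => hE.mem _ (h l), Complex.ofReal_sum]
  exact sum_congr rfl fun l _ => (qq_real hE hG (ha l) x).1

theorem nsq_sum (hE : IsE M A Ω E) (hG : IsGel M A ev)
    (hτ : ∀ a ∈ A, ∀ f : C(X, ℝ), (∀ x, f x = (ev a x).re) → I f = (tau Ω a).re)
    {κ : Type} [Fintype κ] {a : κ → H →L[ℂ] H} (ha : ∀ l, a l ∈ M) :
    ‖E (∑ l, a l * star (a l)) Ω‖ ^ 2 = I ((∑ l, qq E ev (a l)) ^ 2) := by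
  refine nsq hG hτ (hE.mem _ (sum_mem fun l _ => mul_mem (ha l) (star_mem (ha l)))) _ fun x => ?_
  rw [ev_qq hE hG ha, Complex.norm_real, Real.norm_eq_abs, sq_abs, ContinuousMap.pow_apply,
    ContinuousMap.sum_apply]

theorem Ph_eq (hA : IsMASA M A) (hE : IsE M A Ω E) (hG : IsGel M A ev)
    (hτ : ∀ a ∈ A, ∀ f : C(X, ℝ), (∀ x, f x = (ev a x).re) → I f = (tau Ω a).re) (Q : Part A)
    {κ : Type} [Fintype κ] {a : κ → H →L[ℂ] H} (ha : ∀ l, a l ∈ M) :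
    Ph E Ω Q a = ∑ m, I (rt (∑ l, qq E ev (a l * Q.e m)) ^ 4) := by
  refine sum_congr rfl fun m _ => ?_
  have h : ∀ l, a l * Q.e m ∈ M := fun l => mul_mem (ha l) (hA.1 _ (Q.mem m))
  rw [sum_congr rfl fun l _ => blk (Q.proj m) (a l) (a l), nsq_sum hE hG hτ h]
  congr 1
  ext x
  have h0 : 0 ≤ (∑ l, qq E ev (a l * Q.e m)) x := by
    rw [ContinuousMap.sum_apply]
    exact sum_nonneg fun l _ => (qq_real hE hG (h l) x).2
  change _ ^ 2 = √_ ^ 4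
  rw [show 4 = 2 * 2 from rfl, pow_mul, Real.sq_sqrt h0]

theorem pair (hE : IsE M A Ω E) (hG : IsGel M A ev) {a b : H →L[ℂ] H} (ha : a ∈ M) (hb : b ∈ M)
    (x : X) : ‖ev (E (a * star b)) x‖ ≤ √(qq E ev a x) * √(qq E ev b x) := by
  rw [← Real.sqrt_mul (qq_real hE hG ha x).2]
  exact Real.le_sqrt_of_sq_le (ev_cs hE hG ha hb x)

end

theorem gram (hA : IsMASA M A) (hΩ : IsCV M A Ω) (hE : IsE M A Ω E) {κ : Type} [Fintype κ]
    {a : κ → H →L[ℂ] H} (ha : ∀ l, a l ∈ M) :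
    ∑ l, ∑ l', ‖E (a l * star (a l')) Ω‖ ^ 2 ≤ ‖E (∑ l, a l * star (a l)) Ω‖ ^ 2 := by
  obtain ⟨X, _, _, _, _, _, _, ev, hG⟩ := exists_gel hA
  obtain ⟨I, hI, hτ⟩ := exists_dyn hA hΩ hG
  rw [nsq_sum hE hG hτ ha, sq, sum_mul_sum, map_sum]
  refine sum_le_sum fun l _ => ?_
  rw [map_sum]
  refine sum_le_sum fun l' _ => ?_
  rw [nsq hG hτ (hE.mem _ (mul_mem (ha l) (star_mem (ha l')))) (sqm _) fun _ => rfl]
  exact mono hI fun x => ev_cs hE hG (ha l) (ha l') x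

end HolAux

open HolAux

theorem hold2 (hA : IsMASA M A) (hΩ : IsCV M A Ω) (hE : IsE M A Ω E) (Q : Part A)
    {κ : Type} [Fintype κ] {Y : Fin 4 → κ → H →L[ℂ] H} (hY : ∀ c l, Y c l ∈ M) {b : Fin 4 → ℝ}
    {J : Finset (Fin 4)} (hJ : 2 ≤ J.card) (h1 : ∀ c ∈ J, Ph E Ω Q (Y c) ≤ b c)
    (h2 : ∀ c ∉ J, ∃ y ∈ M, (∀ l, Y c l = y) ∧ DQ E Ω Q y ≤ b c) :
    ‖∑ l, F4 E Ω Q fun c => Y c l‖ ^ 4 ≤ ∏ c, b c := by
  obtain ⟨X, _, _, _, _, _, _, ev, hG⟩ := exists_gel hA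
  obtain ⟨I, hI, hτ⟩ := exists_dyn hA hΩ hG
  have hM : ∀ c l m, Y c l * Q.e m ∈ M := fun c l m => mul_mem (hY c l) (hA.1 _ (Q.mem m))
  have q0 : ∀ c l m x, 0 ≤ qq E ev (Y c l * Q.e m) x := fun c l m x => (qq_real hE hG (hM c l m) x).2
  have hN : ∀ c, ∃ N : Q.ι → C(X, ℝ), (∀ m x, 0 ≤ N m x) ∧
      (∀ l m x, qq E ev (Y c l * Q.e m) x ≤ N m x ^ 2) ∧
      (c ∈ J → ∀ m x, ∑ l, qq E ev (Y c l * Q.e m) x ≤ N m x ^ 2) ∧ ∑ m, I (N m ^ 4) ≤ b c := by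
    intro c
    by_cases hc : c ∈ J
    · have e : ∀ m x, ∑ l, qq E ev (Y c l * Q.e m) x ≤ rt (∑ l, qq E ev (Y c l * Q.e m)) x ^ 2 :=
        fun m x => by
          rw [← ContinuousMap.sum_apply]
          exact le_rt _ x
      refine ⟨fun m => rt (∑ l, qq E ev (Y c l * Q.e m)), fun m x => Real.sqrt_nonneg _,
        fun l m x => le_trans ?_ (e m x), fun _ => e, ?_⟩
      · exact single_le_sum (f := fun l => qq E ev (Y c l * Q.e m) x) (fun l _ => q0 c l m x)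
          (mem_univ l)
      · rw [← Ph_eq hA hE hG hτ Q (hY c)]
        exact h1 c hc
    · obtain ⟨y, hy, e, h⟩ := h2 c hc
      refine ⟨fun m => rt (∑ _l : Unit, qq E ev (y * Q.e m)), fun m x => Real.sqrt_nonneg _,
        fun l m x => ?_, fun h => absurd h hc, ?_⟩
      · simp only [e l, Fintype.sum_unique]
        exact le_rt _ x
      · rw [← Ph_eq hA hE hG hτ Q (a := fun _ : Unit => y) fun _ => hy, ← DQ_eq]
        exact h
  choose N N0 N1 N2 N3 using hN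
  have key : ‖∑ l, F4 E Ω Q fun c => Y c l‖ ≤ ∑ m, I (∏ c, N c m) := by
    simp only [F4]
    rw [sum_comm]
    refine norm_sum_le_of_le _ fun m _ => ?_
    have hm : ∀ c c' l, E (Y c l * Q.e m * star (Y c' l)) ∈ A := fun c c' l =>
      hE.mem _ (mul_mem (hM c l m) (star_mem (hY c' l)))
    rw [← tau_sum]
    refine tau_le hG hI hτ (sum_mem fun l _ => mul_mem (hm 0 1 l) (hm 2 3 l)) _ fun x => ?_
    rw [ev_sum hG _ fun l _ => mul_mem (hm 0 1 l) (hm 2 3 l), ContinuousMap.prod_apply]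
    refine le_trans (norm_sum_le_of_le _ fun l _ => ?_)
      (prod_le (n := fun c l => √(qq E ev (Y c l * Q.e m) x)) hJ (fun c l => Real.sqrt_nonneg _)
        (fun c => N0 c m x) (fun c l => ?_) fun c hc => ?_)
    · rw [hG.mul _ (hm 0 1 l) _ (hm 2 3 l), ContinuousMap.mul_apply, norm_mul, Fin.prod_univ_four,
        mul_assoc (_ * _), blk (Q.proj m) (Y 0 l), blk (Q.proj m) (Y 2 l)]
      exact mul_le_mul (pair hE hG (hM 0 l m) (hM 1 l m) x) (pair hE hG (hM 2 l m) (hM 3 l m) x)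
        (norm_nonneg _) (by positivity)
    · rw [Real.sq_sqrt (q0 c l m x)]
      exact N1 c l m x
    · rw [sum_congr rfl fun l _ => Real.sq_sqrt (q0 c l m x)]
      exact N2 c hc m x
  refine (pow_le_pow_left₀ (norm_nonneg _) key 4).trans ((hol4 hI N).trans ?_)
  refine Finset.prod_le_prod (fun c _ => sum_nonneg fun m _ => hI.pos _ fun x => ?_) fun c _ => N3 c
  rw [ContinuousMap.pow_apply]
  positivity

theorem hold1 (hA : IsMASA M A) (hΩ : IsCV M A Ω) (hE : IsE M A Ω E) (Q : Part A)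
    {Y : Fin 4 → H →L[ℂ] H} (hY : ∀ c, Y c ∈ M) : ‖F4 E Ω Q Y‖ ^ 4 ≤ ∏ c, DQ E Ω Q (Y c) := by
  have h := hold2 hA hΩ hE Q (Y := fun c (_ : Unit) => Y c) (fun c _ => hY c)
    (b := fun c => DQ E Ω Q (Y c)) (J := univ) (by simp) (fun c _ => (DQ_eq Q (Y c)).ge)
    fun c hc => absurd (mem_univ c) hc
  rwa [Fintype.sum_unique] at h

theorem F4_self (hA : IsMASA M A) (hE : IsE M A Ω E) (Q : Part A) (hy : y ∈ M) :
    F4 E Ω Q (fun _ => y) = DQ E Ω Q y := by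
  rw [F4, DQ, Complex.ofReal_sum]
  refine sum_congr rfl fun m _ => ?_
  have h : y * Q.e m * star y ∈ M := mul_mem (mul_mem hy (hA.1 _ (Q.mem m))) (star_mem hy)
  rw [tau_mul, ← hE.star _ h, star_mul, star_mul, star_star, (Q.proj m).isSelfAdjoint.star_eq,
    ← mul_assoc, inner_self_eq_norm_sq_to_K]
  simp

namespace HolAux

open scoped InnerProductSpace
open Vale.Agent.P070h8

theorem two (hA : IsMASA M A) (hE : IsE M A Ω E) {a b : H →L[ℂ] H} (ha : a ∈ M) (hb : b ∈ M) (u w : H) :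
    2 * (⟪u, E (a * star b) w⟫_ℂ).re ≤
      (⟪u, E (b * star b) u⟫_ℂ).re + (⟪w, E (a * star a) w⟫_ℂ).re := by
  obtain ⟨X, _, _, _, _, _, _, ev, hG⟩ := exists_gel hA
  have cA := hE.mem _ (mul_mem ha (star_mem hb))
  have aA := hE.mem _ (mul_mem ha (star_mem ha))
  have bA := hE.mem _ (mul_mem hb (star_mem hb))
  refine le_of_forall_pos_le_add fun ε' hε' => ?_
  obtain ⟨ε, hε, he⟩ : ∃ ε : ℝ, 0 < ε ∧ ε * ‖w‖ ^ 2 ≤ ε' := ⟨ε' / (‖w‖ ^ 2 + 1), by positivity, by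
    rw [div_mul_eq_mul_div, div_le_iff₀ (by positivity)]
    nlinarith⟩
  have p0 : ∀ x, 0 < qq E ev a x + ε := fun x => add_pos_of_nonneg_of_pos (qq_real hE hG ha x).2 hε
  have p1 : ∀ x, ((√(qq E ev a x + ε) : ℝ) : ℂ) ≠ 0 := fun x => by
    exact_mod_cast (Real.sqrt_pos.2 (p0 x)).ne'
  obtain ⟨s, sA, hs⟩ := hG.surj ⟨fun x => (√(qq E ev a x + ε) : ℝ), by fun_prop⟩
  obtain ⟨t, tA, ht⟩ := hG.surj ⟨fun x => star (ev (E (a * star b)) x) / (√(qq E ev a x + ε) : ℝ),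
    Continuous.div (by fun_prop) (by fun_prop) p1⟩
  obtain ⟨d, dA, hd⟩ := hG.surj ⟨fun x =>
    (√(qq E ev b x - ‖ev (E (a * star b)) x‖ ^ 2 / (qq E ev a x + ε)) : ℝ),
    Complex.continuous_ofReal.comp (Continuous.sqrt (Continuous.sub (by fun_prop)
      (Continuous.div (by fun_prop) (by fun_prop) fun x => (p0 x).ne')))⟩
  have sm : ∀ y ∈ A, ∀ z ∈ A, ∀ x, ev (star y * z) x = star (ev y x) * ev z x := fun y hy z hz x => by
    rw [hG.mul _ (star_mem hy) _ hz, hG.star _ hy]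
    rfl
  have e1 : star s * s = E (a * star a) + (ε : ℂ) • 1 :=
    hG.ext (mul_mem (star_mem sA) sA) (add_mem aA (A.smul_mem (one_mem A) _)) fun x => by
      rw [sm _ sA _ sA, hG.add _ aA _ (A.smul_mem (one_mem A) _), hG.smul _ (one_mem A), hG.one, hs]
      simp only [ContinuousMap.coe_mk, Complex.star_def, Complex.conj_ofReal, ContinuousMap.add_apply,
        ContinuousMap.smul_apply, ContinuousMap.one_apply, smul_eq_mul, mul_one, (qq_real hE hG ha x).1]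
      rw [← Complex.ofReal_mul, Real.mul_self_sqrt (p0 x).le, Complex.ofReal_add]
  have e2 : star t * s = E (a * star b) := hG.ext (mul_mem (star_mem tA) sA) cA fun x => by
    rw [sm _ tA _ sA, hs, ht]
    simp only [ContinuousMap.coe_mk, Complex.star_def, map_div₀, Complex.conj_ofReal, Complex.conj_conj]
    exact div_mul_cancel₀ _ (p1 x)
  have e3 : star t * t + star d * d = E (b * star b) :=
    hG.ext (add_mem (mul_mem (star_mem tA) tA) (mul_mem (star_mem dA) dA)) bA fun x => by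
      have h1 : 0 ≤ qq E ev b x - ‖ev (E (a * star b)) x‖ ^ 2 / (qq E ev a x + ε) := by
        rw [sub_nonneg, div_le_iff₀ (p0 x)]
        have h2 : _ ≤ qq E ev a x * qq E ev b x := ev_cs hE hG ha hb x
        nlinarith [(qq_real hE hG hb x).2]
      rw [hG.add _ (mul_mem (star_mem tA) tA) _ (mul_mem (star_mem dA) dA), ContinuousMap.add_apply,
        sm _ tA _ tA, sm _ dA _ dA, ht, hd, (qq_real hE hG hb x).1]
      simp only [ContinuousMap.coe_mk, Complex.star_def, Complex.conj_mul', norm_div, Complex.norm_conj,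
        Complex.norm_real, Real.norm_eq_abs]
      rw [← Complex.ofReal_pow, ← Complex.ofReal_pow, ← Complex.ofReal_add, div_pow, sq_abs, sq_abs,
        Real.sq_sqrt (p0 x).le, Real.sq_sqrt h1, add_sub_cancel]
  have k1 := re_inner_star_mul s w
  have k2 := re_inner_star_mul t u
  have k3 := re_inner_star_mul d u
  have k4 := norm_sub_sq (𝕜 := ℂ) (t u) (s w)
  rw [e1, ContinuousLinearMap.add_apply, inner_add_right, ContinuousLinearMap.smul_apply,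
    ContinuousLinearMap.one_apply, inner_smul_right, Complex.add_re, Complex.re_ofReal_mul,
    inner_self_eq_norm_sq_to_K] at k1
  have k5 : ((‖w‖ : ℂ) ^ 2).re = ‖w‖ ^ 2 := by norm_cast
  have k6 : RCLike.re ⟪t u, s w⟫_ℂ = (⟪u, E (a * star b) w⟫_ℂ).re := by
    rw [← e2, ← inner_star_right]
    rfl
  rw [← e3, ContinuousLinearMap.add_apply, inner_add_right, Complex.add_re, k2, k3]
  change _ + ε * ((‖w‖ : ℂ) ^ 2).re = _ at k1
  rw [k5] at k1
  nlinarith [sq_nonneg ‖t u - s w‖, sq_nonneg ‖d u‖]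

theorem sqsum {ι : Type} [Fintype ι] {Γ : ι → H →L[ℂ] H} (h0 : ∀ k, Γ k ∈ A) (h1 : ∀ k, 0 ≤ Γ k)
    (h2 : ∑ k, Γ k ≤ 1) : ∃ b ∈ A, 0 ≤ b ∧ b ≤ 1 ∧ (tau Ω b).re = ∑ k, ‖Γ k Ω‖ ^ 2 ∧
      ∀ θ : ℝ, 0 < θ → ∀ k v, (⟪v, Γ k v⟫_ℂ).re ≤ θ * ‖v‖ ^ 2 + (⟪v, b v⟫_ℂ).re / θ := by
  have e : ∀ v, (⟪v, (∑ k, star (Γ k) * Γ k) v⟫_ℂ).re = ∑ k, ‖Γ k v‖ ^ 2 := fun v => by
    rw [ContinuousLinearMap.sum_apply, inner_sum, Complex.re_sum]
    exact sum_congr rfl fun k _ => re_inner_star_mul _ _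
  refine ⟨∑ k, star (Γ k) * Γ k, sum_mem fun k _ => mul_mem (star_mem (h0 k)) (h0 k),
    sum_nonneg fun k _ => star_mul_self_nonneg _, le_trans (sum_le_sum fun k _ => ?_) h2, e Ω,
    fun θ hθ k v => ?_⟩
  · have h3 : Γ k ≤ 1 := (single_le_sum (fun k _ => h1 k) (mem_univ k)).trans h2
    have h4 := Commute.mul_nonneg (h1 k) (sub_nonneg.2 h3)
      ((Commute.one_right _).sub_right (Commute.refl _))
    rw [mul_sub, mul_one, sub_nonneg] at h4
    rwa [(h1 k).isSelfAdjoint.star_eq]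
  · have h3 := (Complex.re_le_norm _).trans (norm_inner_le_norm (𝕜 := ℂ) v (Γ k v))
    have h4 := single_le_sum (f := fun k => ‖Γ k v‖ ^ 2) (fun _ _ => sq_nonneg _) (mem_univ k)
    have h5 : ‖v‖ * ‖Γ k v‖ ≤ θ * ‖v‖ ^ 2 + ‖Γ k v‖ ^ 2 / θ := by
      rw [← sub_le_iff_le_add', le_div_iff₀ hθ]
      nlinarith [sq_nonneg (θ * ‖v‖ - ‖Γ k v‖), mul_nonneg (mul_nonneg hθ.le (norm_nonneg v)) (norm_nonneg (Γ k v))]
    rw [e]
    exact h3.trans (h5.trans (add_le_add le_rfl (div_le_div_of_nonneg_right h4 hθ.le)))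

theorem E_le (hE : IsE M A Ω E) (hy : y ∈ M) (h : y ≤ 1) : E y ≤ 1 := by
  have := hE.pos _ (sub_mem (one_mem M) hy) (sub_nonneg.2 h)
  rwa [hE.sub (one_mem M) hy, hE.self _ (one_mem A), sub_nonneg] at this

theorem tauS (hA : IsMASA M A) (hE : IsE M A Ω E) (P : Part A) (hy : y ∈ M) :
    tau Ω (P.S y) = tau Ω y := by
  rw [← hE.tr _ (S_mem hA P hy), E_S hA hE P hy, hE.tr _ hy]

theorem tau_v (y c : H →L[ℂ] H) : ⟪star y Ω, c (star y Ω)⟫_ℂ = tau Ω (y * c * star y) := by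
  rw [inner_star_left]
  rfl

theorem tau_le1 (hΩ : IsCV M A Ω) (h : y ≤ 1) : (tau Ω y).re ≤ 1 := by
  have h1 := re_inner_nonneg (sub_nonneg.2 h) Ω
  have h2 := re_tau (Ω := Ω) (1 : H →L[ℂ] H)
  rw [star_one, mul_one, ContinuousLinearMap.one_apply, hΩ.1] at h2
  change 0 ≤ (tau Ω (1 - y)).re at h1
  rw [tau_sub, Complex.sub_re] at h1
  linarith

theorem sand_nonneg (P : Part A) (U : H →L[ℂ] H) (h : 0 ≤ y) : 0 ≤ U * P.S y * star U := by
  refine star_right_conjugate_nonneg (sum_nonneg fun i _ => ?_) U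
  have := star_right_conjugate_nonneg h (P.e i)
  rwa [(P.proj i).isSelfAdjoint.star_eq] at this

theorem sand_le (P : Part A) (n1 : ‖U‖ ≤ 1) (h : 0 ≤ y) (h1 : ‖y‖ ≤ 1) : U * P.S y * star U ≤ 1 :=
  (CStarAlgebra.norm_le_one_iff_of_nonneg _ (sand_nonneg P U h)).1 ((norm_mul_le _ _).trans
    (mul_le_one₀ ((norm_mul_le _ _).trans (mul_le_one₀ n1 (norm_nonneg _) ((S_norm P y).trans h1)))
      (norm_nonneg _) ((norm_star U).trans_le n1)))

theorem sumY (P : Part A) (U U' c : H →L[ℂ] H) :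
    ∑ l, U * P.e l * U' * c * star (U * P.e l * U') = U * P.S (U' * c * star U') * star U := by
  simp only [Part.S, mul_sum, sum_mul, star_mul, (P.proj _).isSelfAdjoint.star_eq, mul_assoc]

theorem cell (Q : Part A) (z z' : H →L[ℂ] H) (v v' : H) :
    ∑ m, ⟪z (Q.e m v), z' (Q.e m v')⟫_ℂ = ⟪v, Q.S (star z * z') v'⟫_ℂ := by
  rw [Part.S, ContinuousLinearMap.sum_apply, inner_sum]
  refine sum_congr rfl fun m _ => ?_
  rw [← inner_star_right, ← inner_star_right, (Q.proj m).isSelfAdjoint.star_eq]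
  rfl

theorem tv (hA : IsMASA M A) (hΩ : IsCV M A Ω) (hE : IsE M A Ω E) (hy : y ∈ M) (v v' : H) :
    Tendsto (fun Q : Part A => (⟪v, Q.S y v'⟫_ℂ).re) atTop (nhds (⟪v, E y v'⟫_ℂ).re) :=
  (Complex.continuous_re.tendsto _).comp (tendsto_const_nhds.inner (tendsto_vec hA hΩ hE hy v'))

theorem nsq1 (n1 : ‖U‖ ≤ 1) : ‖U * star U‖ ≤ 1 := by
  rw [CStarRing.norm_self_mul_star]
  exact mul_le_one₀ n1 (norm_nonneg _) n1

theorem mod2 (hA : IsMASA M A) (hE : IsE M A Ω E) {Y : Set (H →L[ℂ] H)} (hY : Mod M Ω Y) {γ : ℝ}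
    (hγ : 0 < γ) : ∃ Δ : ℝ, 0 < Δ ∧ ∀ U ∈ Y, ∀ U' ∈ Y, U' ∈ M → ‖U'‖ ≤ 1 → ∀ P : Part A, ∀ b ∈ M,
      0 ≤ b → b ≤ 1 → (tau Ω b).re ≤ Δ →
        γ / 3 + (tau Ω (U * P.S (U' * b * star U') * star U)).re / (γ / 3) + γ / 3 ≤ γ := by
  obtain ⟨δ, δ0, h1⟩ := hY (γ / 3 * (γ / 3)) (by positivity)
  obtain ⟨Δ, Δ0, h2⟩ := hY δ δ0
  refine ⟨Δ, Δ0, fun U hU U' hU' m n P b bM b0 b1 hb => ?_⟩
  have cM : U' * b * star U' ∈ M := mul_mem (mul_mem m bM) (star_mem m)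
  have c0 := star_right_conjugate_nonneg b0 U'
  have cn : ‖U' * b * star U'‖ ≤ 1 := (norm_mul_le _ _).trans (mul_le_one₀ ((norm_mul_le _ _).trans
    (mul_le_one₀ n (norm_nonneg _) ((CStarAlgebra.norm_le_one_iff_of_nonneg _ b0).2 b1)))
      (norm_nonneg _) ((norm_star U').trans_le n))
  have k0 := sand_nonneg P 1 c0
  have k1 := sand_le (U := 1) P ContinuousLinearMap.norm_id_le c0 cn
  rw [star_one, mul_one, one_mul] at k0 k1
  have k2 := h1 U hU _ (S_mem hA P cM) k0 k1 (by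
    rw [tauS hA hE P cM]
    exact h2 U' hU' b bM b0 b1 hb)
  rw [← div_le_iff₀ (by positivity)] at k2
  linarith

end HolAux

open scoped InnerProductSpace in
theorem stepb1 (hA : IsMASA M A) (hΩ : IsCV M A Ω) (hE : IsE M A Ω E) (hU : U ∈ M)
    (hU' : U' ∈ M) (n1 : ‖U‖ ≤ 1) (n2 : ‖U'‖ ≤ 1) (P : Part A) : ∃ b ∈ A, 0 ≤ b ∧ b ≤ 1 ∧
      (tau Ω b).re = DQ E Ω P (star U') ∧ ∀ θ η : ℝ, 0 < θ → 0 < η → ∀ᶠ Q : Part A in atTop,
        Ph E Ω Q (fun l => U * P.e l * U') ≤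
          θ + (tau Ω (U * P.S (U' * b * star U') * star U)).re / θ + η := by
  have he : ∀ l, P.e l ∈ M := fun l => hA.1 _ (P.mem l)
  have hz : ∀ l, star U' * P.e l * U' ∈ M := fun l => mul_mem (mul_mem (star_mem hU') (he l)) hU'
  have e0 : ∀ l, star (P.e l * U') * (P.e l * U') = star U' * P.e l * U' := fun l => by
    rw [star_mul, (P.proj l).isSelfAdjoint.star_eq, mul_assoc, ← mul_assoc (P.e l), PinAux.idem,
      mul_assoc]
  obtain ⟨b, bA, b0, b1, b2, b3⟩ := sqsum (Ω := Ω) (Γ := fun l => E (star U' * P.e l * U'))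
    (fun l => hE.mem _ (hz l)) (fun l => hE.pos _ (hz l) (e0 l ▸ star_mul_self_nonneg _)) (by
      rw [← E_sum hE _ fun l _ => hz l]
      refine E_le hE (sum_mem fun l _ => hz l) ?_
      rw [← sum_mul, ← mul_sum, P.sum, mul_one]
      refine (CStarAlgebra.norm_le_one_iff_of_nonneg _ (star_mul_self_nonneg _)).1 ?_
      simpa using nsq1 ((norm_star U').trans_le n2))
  refine ⟨b, bA, b0, b1, by rw [b2, DQ, star_star], fun θ η hθ hη => ?_⟩
  set v : P.ι → H := fun l => star (U * P.e l * U') Ω with hv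
  have h := tendsto_finsetSum univ fun l _ => tv hA hΩ hE (hz l) (v l) (v l)
  filter_upwards [h.eventually (gt_mem_nhds (lt_add_of_pos_right _ hη))] with Q hQ
  have k1 : Ph E Ω Q (fun l => U * P.e l * U') ≤
      ∑ l, (⟪v l, Q.S (star U' * P.e l * U') (v l)⟫_ℂ).re := by
    have k : ∀ l, (⟪v l, Q.S (star U' * P.e l * U') (v l)⟫_ℂ).re =
        ∑ m, ‖P.e l (U' (Q.e m (v l)))‖ ^ 2 := fun l => by
      rw [← e0, ← cell, Complex.re_sum]
      exact sum_congr rfl fun m _ => inner_self_eq_norm_sq (𝕜 := ℂ) _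
    simp only [k]
    rw [sum_comm]
    refine sum_le_sum fun m _ => ?_
    rw [← PinAux.o]
    refine pow_le_pow_left₀ (norm_nonneg _) ((hE.norm2 _ (sum_mem fun l _ => mul_mem (mul_mem
      (mul_mem (mul_mem hU (he l)) hU') (hA.1 _ (Q.mem m)))
        (star_mem (mul_mem (mul_mem hU (he l)) hU')))).trans (le_trans (le_of_eq ?_)
          ((U.le_opNorm _).trans (mul_le_of_le_one_left (norm_nonneg _) n1)))) 2
    rw [map_sum, ContinuousLinearMap.sum_apply]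
    rfl
  have k2 : ∀ c, ∑ l, (⟪v l, c (v l)⟫_ℂ).re = (tau Ω (U * P.S (U' * c * star U') * star U)).re :=
    fun c => by simp only [hv, tau_v, ← sumY, tau_sum, Complex.re_sum]
  have k3 : ∑ l, ‖v l‖ ^ 2 ≤ 1 := by
    have := k2 1
    simp only [ContinuousLinearMap.one_apply, mul_one] at this
    rw [← sum_congr rfl fun l _ => inner_self_eq_norm_sq (𝕜 := ℂ) (v l)]
    exact this.le.trans (tau_le1 hΩ (sand_le P n1 (mul_star_self_nonneg _) (nsq1 n2)))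
  have k4 := sum_le_sum fun l (_ : l ∈ univ) => b3 θ hθ l (v l)
  rw [sum_add_distrib, ← mul_sum, ← sum_div, k2] at k4
  nlinarith

open scoped InnerProductSpace in
theorem sym (hA : IsMASA M A) (hΩ : IsCV M A Ω) (hE : IsE M A Ω E) {κ : Type} [Fintype κ]
    {Y : κ → H →L[ℂ] H} (hY : ∀ l, Y l ∈ M) (h1 : ∑ l, Y l * star (Y l) ≤ 1)
    (h2 : ∑ l, star (Y l) * Y l ≤ 1) (R : Part A) : ∃ b ∈ A, 0 ≤ b ∧ b ≤ 1 ∧
      (tau Ω b).re = Ph E Ω R (fun l => star (Y l)) ∧ ∀ θ η : ℝ, 0 < θ → 0 < η →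
        ∀ᶠ Q : Part A in atTop,
          Ph E Ω Q Y ≤ θ + (tau Ω (∑ l, Y l * b * star (Y l))).re / θ + η := by
  have he : ∀ k, R.e k ∈ M := fun k => hA.1 _ (R.mem k)
  have zM : ∀ k l, R.e k * Y l ∈ M := fun k l => mul_mem (he k) (hY l)
  have hz : ∀ k l l', star (R.e k * Y l) * (R.e k * Y l') ∈ M := fun k l l' =>
    mul_mem (star_mem (zM k l)) (zM k l')
  have e0 : ∀ k l, star (R.e k * Y l) * (R.e k * Y l) = star (Y l) * R.e k * Y l := fun k l => by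
    rw [star_mul, (R.proj k).isSelfAdjoint.star_eq, mul_assoc, ← mul_assoc (R.e k), PinAux.idem,
      mul_assoc]
  have sM : ∀ k, ∑ l, star (R.e k * Y l) * (R.e k * Y l) ∈ M := fun k => sum_mem fun l _ => hz k l l
  obtain ⟨b, bA, b0, b1, b2, b3⟩ := sqsum (Ω := Ω)
    (Γ := fun k => E (∑ l, star (R.e k * Y l) * (R.e k * Y l))) (fun k => hE.mem _ (sM k))
    (fun k => hE.pos _ (sM k) (sum_nonneg fun l _ => star_mul_self_nonneg _)) (by
      rw [← E_sum hE _ fun k _ => sM k]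
      refine E_le hE (sum_mem fun k _ => sM k) ?_
      rw [sum_comm]
      simpa only [e0, ← sum_mul, ← mul_sum, R.sum, mul_one] using h2)
  refine ⟨b, bA, b0, b1, by simp only [b2, Ph, star_star, e0], fun θ η hθ hη => ?_⟩
  set v : R.ι → κ → H := fun k l => star (R.e k * Y l) Ω with hv
  have h := tendsto_finsetSum univ fun k _ => tendsto_finsetSum univ fun l _ =>
    tendsto_finsetSum univ fun l' _ => tv hA hΩ hE (hz k l l') (v k l) (v k l')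
  filter_upwards [h.eventually (gt_mem_nhds (lt_add_of_pos_right _ hη))] with Q hQ
  have k1 : Ph E Ω Q Y ≤ ∑ k, ∑ l, ∑ l',
      (⟪v k l, Q.S (star (R.e k * Y l) * (R.e k * Y l')) (v k l')⟫_ℂ).re := by
    have hB : ∀ m, ∑ l, Y l * Q.e m * star (Y l) ∈ M := fun m => sum_mem fun l _ =>
      mul_mem (mul_mem (hY l) (hA.1 _ (Q.mem m))) (star_mem (hY l))
    have k : ∀ m, ‖E (∑ l, Y l * Q.e m * star (Y l)) Ω‖ ^ 2 ≤ ∑ k, ∑ l, ∑ l',
        (⟪(R.e k * Y l) (Q.e m (v k l)), (R.e k * Y l') (Q.e m (v k l'))⟫_ℂ).re := fun m => by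
      rw [← E_S hA hE R (hB m)]
      refine (pow_le_pow_left₀ (norm_nonneg _) (hE.norm2 _ (S_mem hA R (hB m))) 2).trans ?_
      rw [S_sq hA hΩ R (hB m)]
      refine le_of_eq (sum_congr rfl fun k _ => ?_)
      have e : (R.e k * (∑ l, Y l * Q.e m * star (Y l)) * R.e k) Ω =
          ∑ l, (R.e k * Y l) (Q.e m (v k l)) := by
        rw [mul_sum, sum_mul, ContinuousLinearMap.sum_apply]
        refine sum_congr rfl fun l _ => ?_
        simp only [hv, star_mul, (R.proj k).isSelfAdjoint.star_eq]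
        rfl
      rw [e, ← inner_self_eq_norm_sq (𝕜 := ℂ), sum_inner, map_sum]
      exact sum_congr rfl fun l _ => by rw [inner_sum, map_sum]; rfl
    refine (sum_le_sum fun m _ => k m).trans (le_of_eq ?_)
    rw [sum_comm]
    refine sum_congr rfl fun k _ => ?_
    rw [sum_comm]
    refine sum_congr rfl fun l _ => ?_
    rw [sum_comm]
    exact sum_congr rfl fun l' _ => by rw [← cell, Complex.re_sum]
  have k2 : ∀ c ∈ M, ∑ k, ∑ l, (⟪v k l, c (v k l)⟫_ℂ).re =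
      (tau Ω (∑ l, Y l * c * star (Y l))).re := fun c hc => by
    rw [← tauS hA hE R (sum_mem fun l _ => mul_mem (mul_mem (hY l) hc) (star_mem (hY l)))]
    simp only [hv, tau_v]
    simp only [Part.S, mul_sum, sum_mul, tau_sum, Complex.re_sum, star_mul,
      (R.proj _).isSelfAdjoint.star_eq, mul_assoc]
  have k3 : ∑ k, ∑ l, ‖v k l‖ ^ 2 ≤ 1 := by
    have := k2 1 (one_mem M)
    simp only [ContinuousLinearMap.one_apply, mul_one] at this
    rw [← sum_congr rfl fun k _ => sum_congr rfl fun l _ => inner_self_eq_norm_sq (𝕜 := ℂ) (v k l)]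
    exact this.le.trans (tau_le1 hΩ h1)
  have k5 : ∀ k, ∑ l, ∑ l', (⟪v k l, E (star (R.e k * Y l) * (R.e k * Y l')) (v k l')⟫_ℂ).re ≤
      ∑ l, (⟪v k l, E (∑ l, star (R.e k * Y l) * (R.e k * Y l)) (v k l)⟫_ℂ).re := fun k => by
    have t := sum_le_sum fun l (_ : l ∈ univ) => sum_le_sum fun l' (_ : l' ∈ univ) =>
      two hA hE (star_mem (zM k l)) (star_mem (zM k l')) (v k l) (v k l')
    simp only [star_star, ← mul_sum, sum_add_distrib] at t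
    rw [sum_comm (f := fun l l' => (⟪v k l', E (star (R.e k * Y l) * (R.e k * Y l)) (v k l')⟫_ℂ).re)]
      at t
    rw [E_sum hE _ fun l _ => hz k l l]
    simp only [ContinuousLinearMap.sum_apply, inner_sum, Complex.re_sum]
    linarith
  have k4 := sum_le_sum fun k (_ : k ∈ univ) => (k5 k).trans
    (sum_le_sum fun l (_ : l ∈ univ) => b3 θ hθ k (v k l))
  simp only [sum_add_distrib, ← mul_sum, ← sum_div, k2 b (hA.1 b bA)] at k4
  nlinarith

theorem DD_star (hA : IsMASA M A) (hΩ : IsCV M A Ω) (hE : IsE M A Ω E) {Y : Set (H →L[ℂ] H)}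
    (hY : Mod M Ω Y) {γ : ℝ} (hγ : 0 < γ) : ∃ Δ : ℝ, 0 < Δ ∧ ∀ y ∈ M, star y ∈ Y → ‖y‖ ≤ 1 →
      DD E Ω A y ≤ Δ → DD E Ω A (star y) ≤ γ := by
  have := neBot hA
  obtain ⟨δ, δ0, h1⟩ := hY (γ / 3 * (γ / 3)) (by positivity)
  refine ⟨δ / 2, half_pos δ0, fun y hy sY hn hD => ?_⟩
  obtain ⟨R, hR⟩ := (ev_DQ hA hΩ hE hy (half_pos δ0)).exists
  have n1 : ∀ z : H →L[ℂ] H, ‖z‖ ≤ 1 → z * star z ≤ 1 := fun z hz =>
    (CStarAlgebra.norm_le_one_iff_of_nonneg _ (mul_star_self_nonneg _)).1 (nsq1 hz)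
  obtain ⟨b, bA, b0, b1, b2, b3⟩ := sym hA hΩ hE (Y := fun _ : Unit => star y) (fun _ => star_mem hy)
    (by simpa using n1 _ ((norm_star y).trans_le hn)) (by simpa using n1 _ hn) R
  obtain ⟨Q, hQ⟩ := (b3 (γ / 3) (γ / 3) (by positivity) (by positivity)).exists
  simp only [star_star, ← DQ_eq] at b2
  have k := h1 _ sY b (hA.1 b bA) b0 b1 (by linarith)
  rw [← div_le_iff₀ (by positivity)] at k
  rw [← DQ_eq, Fintype.sum_unique] at hQ
  linarith [DD_le (E := E) (Ω := Ω) Q (star y)]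

theorem stepb (hA : IsMASA M A) (hΩ : IsCV M A Ω) (hE : IsE M A Ω E) {Y : Set (H →L[ℂ] H)}
    (hY : Mod M Ω Y) {γ : ℝ} (hγ : 0 < γ) : ∃ Δ : ℝ, 0 < Δ ∧ ∀ U ∈ M, ∀ U' ∈ M, U ∈ Y → U' ∈ Y →
      star U ∈ Y → star U' ∈ Y → ‖U‖ ≤ 1 → ‖U'‖ ≤ 1 → ∀ P : Part A,
        (DQ E Ω P U ≤ Δ ∨ DQ E Ω P (star U') ≤ Δ) →
          ∀ᶠ Q : Part A in atTop, Ph E Ω Q (fun l => U * P.e l * U') ≤ γ := by
  have := neBot hA
  obtain ⟨Δ₁, p1, h1⟩ := mod2 hA hE hY hγ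
  obtain ⟨Δ₂, p2, h2⟩ := mod2 hA hE hY p1
  refine ⟨min Δ₁ Δ₂, lt_min p1 p2, fun U hU U' hU' y1 y2 y3 y4 n1 n2 P h => ?_⟩
  have s1 := (norm_star U).trans_le n1
  have s2 := (norm_star U').trans_le n2
  rcases h with h | h
  · obtain ⟨b, bA, b0, b1, b2, b3⟩ := stepb1 hA hΩ hE (star_mem hU') (star_mem hU) s2 s1 P
    obtain ⟨R, hR⟩ := (b3 (Δ₁ / 3) (Δ₁ / 3) (by positivity) (by positivity)).exists
    rw [star_star] at b2
    have k1 := hR.trans (h2 _ y4 _ y3 (star_mem hU) s1 P b (hA.1 b bA) b0 b1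
      (b2.le.trans (h.trans (min_le_right _ _))))
    have e : ∀ l, star (U * P.e l * U') = star U' * P.e l * star U := fun l => by
      rw [star_mul, star_mul, (P.proj l).isSelfAdjoint.star_eq, mul_assoc]
    obtain ⟨c, cA, c0, c1, c2, c3⟩ := sym hA hΩ hE (Y := fun l => U * P.e l * U')
      (fun l => mul_mem (mul_mem hU (hA.1 _ (P.mem l))) hU') (by
        have := sumY P U U' 1
        simp only [mul_one] at this
        rw [this]
        exact sand_le P n1 (mul_star_self_nonneg _) (nsq1 n2)) (by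
        have := sumY P (star U') (star U) 1
        simp only [mul_one, ← e] at this
        rw [← sum_congr rfl fun l _ => congrArg _ (star_star (U * P.e l * U')), this]
        exact sand_le P s2 (mul_star_self_nonneg _) (nsq1 s1)) R
    simp only [e] at c2
    filter_upwards [c3 (γ / 3) (γ / 3) (by positivity) (by positivity)] with Q hQ
    rw [sumY] at hQ
    exact hQ.trans (h1 U y1 U' y2 hU' n2 P c (hA.1 c cA) c0 c1 (c2.le.trans k1))
  · obtain ⟨b, bA, b0, b1, b2, b3⟩ := stepb1 hA hΩ hE hU hU' n1 n2 P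
    filter_upwards [b3 (γ / 3) (γ / 3) (by positivity) (by positivity)] with Q hQ
    exact hQ.trans (h1 U y1 U' y2 hU' n2 P b (hA.1 b bA) b0 b1
      (b2.le.trans (h.trans (min_le_left _ _))))

end Vale.Agent.P078.G
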