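import Vale.Agent.P078.X.Two

/-!
The normal part of a central vector state.
-/

open Finset Filter
open scoped Classical InnerProductSpace

namespace Vale.Agent.P078.G

variable {H : Type*} [NormedAddCommGroup H] [InnerProductSpace ℂ H] [CompleteSpace H]
  {K : Type*} [NormedAddCommGroup K] [InnerProductSpace ℂ K] [CompleteSpace K]
  {M : VonNeumannAlgebra H} {A : StarSubalgebra ℂ (H →L[ℂ] H)}

theorem NorA.adj {π : (H →L[ℂ] H) →⋆ₐ[ℂ] (K →L[ℂ] K)} {T : K →L[ℂ] H} (hT : T ∈ Itw M π)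
    {m : H →L[ℂ] H} (hm : m ∈ M) (η : H) :
    π m (ContinuousLinearMap.adjoint T η) = ContinuousLinearMap.adjoint T (m η) :=
  ext_inner_right ℂ fun ζ => by
    rw [← P070h8.inner_star_right, ← map_star, ContinuousLinearMap.adjoint_inner_left,
      ContinuousLinearMap.adjoint_inner_left, hT _ (star_mem hm), P070h8.inner_star_right]

theorem nor_core (hA : IsMASA M A) (π : (H →L[ℂ] H) →⋆ₐ[ℂ] (K →L[ℂ] K)) (ξ₀ : K)
    (hc : ∀ a ∈ A, ∀ m ∈ M, ⟪ξ₀, π (a * m) ξ₀⟫_ℂ = ⟪ξ₀, π (m * a) ξ₀⟫_ℂ) :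
    ∃ (Ω : K) (p : H →L[ℂ] H), p ∈ A ∧ IsStarProjection p ∧ π p Ω = Ω ∧
      (∀ a ∈ A, ∀ m ∈ M, ⟪Ω, π (a * m) Ω⟫_ℂ = ⟪Ω, π (m * a) Ω⟫_ℂ) ∧
      (∀ (ξ : H) (θ : ℝ), 0 < θ → ∃ C : ℝ, 0 ≤ C ∧
        ∀ m ∈ M, ‖m (p ξ)‖ ≤ C * ‖π m Ω‖ + θ * ‖m‖) ∧
      (∀ θ : ℝ, 0 < θ → ∃ (G : Finset H) (C : ℝ), 0 ≤ C ∧
        ∀ m ∈ M, ‖π m Ω‖ ≤ C * ∑ η ∈ G, ‖m η‖ + θ * ‖m‖) ∧
      ∀ (F : Finset H) (δ : ℝ), 0 < δ → ∃ c ∈ M, IsSelfAdjoint c ∧ ‖c‖ ≤ 1 ∧
        (∀ ξ ∈ F, ‖c ((1 - p) ξ) - (1 - p) ξ‖ < δ) ∧ ‖π (c * (1 - p)) ξ₀‖ < δ := by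
  obtain ⟨Z, hZ, hZc, hZr, hK⟩ := two M π
  have zc : ∀ m ∈ M, ∀ ζ, Z (π m ζ) = π m (Z ζ) := fun m hm ζ =>
    congrArg (fun L : K →L[ℂ] K => L ζ) (hZc m hm).eq
  have zz : ∀ ζ, Z (Z ζ) = Z ζ := fun ζ =>
    congrArg (fun L : K →L[ℂ] K => L ζ) hZ.isIdempotentElem.eq
  have pm : ∀ a b : H →L[ℂ] H, ∀ ζ, π (a * b) ζ = π a (π b ζ) := fun a b ζ => by
    rw [map_mul]; rfl
  have ph : ∀ y ∈ M, ⟪Z ξ₀, π y (Z ξ₀)⟫_ℂ = ⟪ξ₀, π y (Z ξ₀)⟫_ℂ := fun y hy => by
    rw [← P070h8.inner_star_right, hZ.isSelfAdjoint.star_eq, zc y hy, zz]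
  have cen : ∀ a ∈ A, ∀ m ∈ M, ⟪Z ξ₀, π (a * m) (Z ξ₀)⟫_ℂ = ⟪Z ξ₀, π (m * a) (Z ξ₀)⟫_ℂ := by
    intro a ha m hm
    have aM := hA.1 a ha
    rw [ph _ (mul_mem aM hm), ph _ (mul_mem hm aM), ← sub_eq_zero, ← norm_le_zero_iff]
    refine le_of_forall_pos_le_add fun ε hε => ?_
    obtain ⟨D, hD⟩ : ∃ D, D = ‖ξ₀‖ * (‖π (a * m)‖ + ‖π m‖) + 1 := ⟨_, rfl⟩
    have D0 : 0 < D := by rw [hD]; positivity
    obtain ⟨c, cM, -, -, c1, -⟩ := hK {ξ₀, π a ξ₀} ∅ (ε / D) (by positivity)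
    have e1 := c1 ξ₀ (by simp)
    have e2 := c1 (π a ξ₀) (by simp)
    have e3 := hc a ha _ (mul_mem hm cM)
    rw [← mul_assoc, pm (a * m) c, pm (m * c) a, pm m c] at e3
    have e4 : ⟪ξ₀, π (a * m) (Z ξ₀)⟫_ℂ - ⟪ξ₀, π (m * a) (Z ξ₀)⟫_ℂ =
        ⟪ξ₀, π m (π c (π a ξ₀) - Z (π a ξ₀))⟫_ℂ - ⟪ξ₀, π (a * m) (π c ξ₀ - Z ξ₀)⟫_ℂ := by
      rw [map_sub, map_sub, inner_sub_right, inner_sub_right, e3, zc a aM, pm m a]
      ring
    have b1 := (norm_inner_le_norm (𝕜 := ℂ) ξ₀ _).trans (mul_le_mul_of_nonneg_left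
      ((π m).le_opNorm_of_le e2.le) (norm_nonneg _))
    have b2 := (norm_inner_le_norm (𝕜 := ℂ) ξ₀ _).trans (mul_le_mul_of_nonneg_left
      ((π (a * m)).le_opNorm_of_le e1.le) (norm_nonneg _))
    rw [e4, zero_add]
    refine (norm_sub_le _ _).trans ((add_le_add b1 b2).trans ?_)
    have : D * (ε / D) = ε := by field_simp
    have h0 : 0 < ε / D := by positivity
    generalize ε / D = t at *
    rw [← this, hD]
    nlinarith
  let W0 : Submodule ℂ H := Submodule.span ℂ {v | ∃ T ∈ Itw M π, T (Z ξ₀) = v}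
  let W := W0.topologicalClosure
  have : CompleteSpace W := W0.isClosed_topologicalClosure.completeSpace_coe
  have gen : ∀ T ∈ Itw M π, T (Z ξ₀) ∈ W := fun T hT =>
    W0.le_topologicalClosure (Submodule.subset_span ⟨T, hT, rfl⟩)
  have inv : ∀ S ∈ M.commutant, ∀ v ∈ W, S v ∈ W := fun S hS v hv => by
    have h1 : W0 ≤ W.comap (S : H →ₗ[ℂ] H) := Submodule.span_le.2 (by
      rintro _ ⟨T, hT, rfl⟩
      exact gen (S ∘L T) fun m hm ζ => by
        rw [ContinuousLinearMap.comp_apply, ContinuousLinearMap.comp_apply, hT m hm, comm_apply hS hm])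
    exact Submodule.topologicalClosure_minimal W0 h1
      (W0.isClosed_topologicalClosure.preimage S.continuous) hv
  have hp : IsStarProjection W.starProjection := isStarProjection_starProjection
  have pM : W.starProjection ∈ M := mem_of_comm fun T hT => by
    ext x
    exact (P070h8.comm_proj W T (inv T hT) (inv _ (star_mem hT)) x).symm
  have pW : ∀ ξ, W.starProjection ξ ∈ closure (W0 : Set H) := fun ξ => W.starProjection_apply_mem ξ
  have pT : ∀ T ∈ Itw M π, W.starProjection (T (Z ξ₀)) = T (Z ξ₀) := fun T hT =>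
    Submodule.starProjection_eq_self_iff.2 (gen T hT)
  generalize W.starProjection = p at hp pM pW pT
  have fM := sub_mem (one_mem M) pM
  have ac : ∀ (ξ : H) (θ : ℝ), 0 < θ → ∃ C : ℝ, 0 ≤ C ∧
      ∀ m ∈ M, ‖m (p ξ)‖ ≤ C * ‖π m (Z ξ₀)‖ + θ * ‖m‖ := fun ξ θ hθ => by
    obtain ⟨w, hw, d⟩ := Metric.mem_closure_iff.1 (pW ξ) θ hθ
    have h1 : ∃ C : ℝ, 0 ≤ C ∧ ∀ m ∈ M, ‖m w‖ ≤ C * ‖π m (Z ξ₀)‖ := by
      clear d
      induction hw using Submodule.span_induction with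
      | mem _ h =>
        obtain ⟨T, hT, rfl⟩ := h
        exact ⟨‖T‖, norm_nonneg _, fun m hm => by rw [← hT m hm]; exact T.le_opNorm _⟩
      | zero => exact ⟨0, le_rfl, fun m _ => by simp⟩
      | add u v _ _ h1 h2 =>
        obtain ⟨C, C0, h1⟩ := h1
        obtain ⟨D, D0, h2⟩ := h2
        exact ⟨C + D, by positivity, fun m hm => by
          rw [map_add, add_mul]
          exact (norm_add_le _ _).trans (add_le_add (h1 m hm) (h2 m hm))⟩
      | smul c u _ h1 =>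
        obtain ⟨C, C0, h1⟩ := h1
        exact ⟨‖c‖ * C, by positivity, fun m hm => by
          rw [map_smul, norm_smul, mul_assoc]
          exact mul_le_mul_of_nonneg_left (h1 m hm) (norm_nonneg _)⟩
    obtain ⟨C, C0, h1⟩ := h1
    refine ⟨C, C0, fun m hm => ?_⟩
    rw [dist_eq_norm] at d
    have e : m (p ξ) = m w + m (p ξ - w) := by simp
    rw [e, mul_comm θ]
    exact (norm_add_le _ _).trans (add_le_add (h1 m hm) (m.le_opNorm_of_le d.le))
  have k1 : ∀ m ∈ M, π m (Z ξ₀) = 0 → m * p = 0 := fun m hm h => by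
    ext ξ
    rw [ContinuousLinearMap.mul_apply, ContinuousLinearMap.zero_apply, ← norm_le_zero_iff]
    refine le_of_forall_pos_le_add fun ε hε => ?_
    obtain ⟨C, -, h1⟩ := ac ξ (ε / (‖m‖ + 1)) (by positivity)
    refine (h1 m hm).trans ?_
    rw [h, norm_zero, mul_zero, zero_add, zero_add, div_mul_eq_mul_div, div_le_iff₀ (by positivity)]
    nlinarith
  have f0 : π (1 - p) (Z ξ₀) = 0 := by
    have h1 := hZr (π (1 - p) ξ₀)
    rw [zc _ fM] at h1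
    have h2 : Submodule.span ℂ {v | ∃ T ∈ Itw M π, ∃ η, ContinuousLinearMap.adjoint T η = v} ≤
        (Submodule.span ℂ {π (1 - p) (Z ξ₀)})ᗮ := Submodule.span_le.2 (by
      rintro _ ⟨T, hT, η, rfl⟩
      refine Submodule.mem_orthogonal_singleton_iff_inner_left.2 ?_
      rw [ContinuousLinearMap.adjoint_inner_left, hT _ fM, ContinuousLinearMap.sub_apply, pT T hT]
      simp)
    have h3 := closure_minimal h2 (Submodule.isClosed_orthogonal _) h1
    exact inner_self_eq_zero.1 (Submodule.mem_orthogonal_singleton_iff_inner_left.1 h3)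
  have k2 : ∀ a ∈ A, (1 - p) * a * p = 0 := fun a ha => by
    have aM := hA.1 a ha
    refine k1 _ (mul_mem fM aM) (inner_self_eq_zero (𝕜 := ℂ).1 ?_)
    have h1 := cen _ (star_mem ha) _ (mul_mem fM aM)
    rw [mul_assoc, pm (1 - p), ← P070h8.inner_star_left (π (1 - p)), ← map_star,
      hp.one_sub.isSelfAdjoint.star_eq, f0, inner_zero_left] at h1
    rw [← P070h8.inner_star_right, ← map_star, ← pm, star_mul, hp.one_sub.isSelfAdjoint.star_eq,
      mul_assoc, ← mul_assoc (1 - p), hp.one_sub.isIdempotentElem.eq, h1]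
  have pA : p ∈ A := comm_mem hA pM fun a ha => by
    have h1 := k2 a ha
    have h2 := congrArg star (k2 _ (star_mem ha))
    rw [star_mul, star_mul, star_star, hp.one_sub.isSelfAdjoint.star_eq, hp.isSelfAdjoint.star_eq,
      star_zero, mul_sub, mul_sub, mul_one, sub_eq_zero] at h2
    rw [sub_mul, sub_mul, one_mul, sub_eq_zero, mul_assoc] at h1
    rw [h2, ← h1]
  refine ⟨Z ξ₀, p, pA, hp, ?_, cen, ac, fun θ hθ => ?_, fun F δ hδ => ?_⟩
  · rw [map_sub, map_one, ContinuousLinearMap.sub_apply, sub_eq_zero] at f0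
    exact f0.symm
  · obtain ⟨w, hw, d⟩ := Metric.mem_closure_iff.1 (hZr ξ₀) θ hθ
    have h1 : ∃ (G : Finset H) (C : ℝ), 0 ≤ C ∧ ∀ m ∈ M, ‖π m w‖ ≤ C * ∑ η ∈ G, ‖m η‖ := by
      clear d
      induction hw using Submodule.span_induction with
      | mem _ h =>
        obtain ⟨T, hT, η, rfl⟩ := h
        exact ⟨{η}, ‖ContinuousLinearMap.adjoint T‖, norm_nonneg _, fun m hm => by
          rw [NorA.adj hT hm, sum_singleton]
          exact (ContinuousLinearMap.adjoint T).le_opNorm _⟩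
      | zero => exact ⟨∅, 0, le_rfl, fun m _ => by simp⟩
      | add u v _ _ h1 h2 =>
        obtain ⟨G, C, C0, h1⟩ := h1
        obtain ⟨G', D, D0, h2⟩ := h2
        refine ⟨G ∪ G', C + D, by positivity, fun m hm => ?_⟩
        rw [map_add, add_mul]
        refine (norm_add_le _ _).trans (add_le_add ((h1 m hm).trans ?_) ((h2 m hm).trans ?_))
        · exact mul_le_mul_of_nonneg_left (sum_le_sum_of_subset_of_nonneg subset_union_left
            fun _ _ _ => norm_nonneg _) C0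
        · exact mul_le_mul_of_nonneg_left (sum_le_sum_of_subset_of_nonneg subset_union_right
            fun _ _ _ => norm_nonneg _) D0
      | smul c u _ h1 =>
        obtain ⟨G, C, C0, h1⟩ := h1
        exact ⟨G, ‖c‖ * C, by positivity, fun m hm => by
          rw [map_smul, norm_smul, mul_assoc]
          exact mul_le_mul_of_nonneg_left (h1 m hm) (norm_nonneg _)⟩
    obtain ⟨G, C, C0, h1⟩ := h1
    refine ⟨G, C, C0, fun m hm => ?_⟩
    rw [dist_eq_norm] at d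
    have e : π m (Z ξ₀) = π m w + π m (Z ξ₀ - w) := by simp
    rw [e, mul_comm θ]
    exact (norm_add_le _ _).trans (add_le_add (h1 m hm) (((π m).le_opNorm_of_le d.le).trans
      (mul_le_mul_of_nonneg_right (NonUnitalStarAlgHom.norm_apply_le π m) hθ.le)))
  · obtain ⟨c, cM, cs, cn, c1, c2⟩ := hK {π (1 - p) ξ₀} (F.image (1 - p : H →L[ℂ] H)) δ hδ
    refine ⟨c, cM, cs, cn, fun ξ hξ => c2 _ (mem_image_of_mem _ hξ), ?_⟩
    have h1 := c1 _ (mem_singleton_self _)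
    rwa [zc _ fM, f0, sub_zero, ← pm] at h1

end Vale.Agent.P078.G
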