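import Vale.Agent.P078.G.Sg

/-!
Central vectors: the state of `Ω` is only `A`-central (round X; never import `G.Pin` and later `G` files together with `X` files).

PLAN. Copy the proofs of `Op.lean`, `Gel.lean`. `norm_mul_A`: `‖a‖² - a a* = d* d` with `d ∈ A` (`exists_gel`, `surj`, or `CFC.sqrt` and `comm_mem`), `tau (d* d b) = tau (d b d*) ≥ 0`.
`exists_E`: `exists_e` only moves elements of `A` through `tau`. For `conj`: `E' m = u* E (u m u*) u`; if `E m = 0` there are `y` in the convex hull of the `v m v*` with `‖y Ω‖` small,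
`E' y = E' m`, and `small_of_tau` twice (vectors `u* Ω`, then `u Ω`) gives `‖E' y Ω‖` small. `mod_one`: `small_of_tau` for `b` and the vector `y* Ω`, `‖b Ω‖² ≤ tau b`.
`mod_sg`: induction on `n` with `sg_split`/the definition of `sg`; for a contraction `c ∈ A`, `tau (c b c*) ≤ tau b` and `c b c*` is again in `[0, 1]`; finite unions and products of `Mod` sets are `Mod`.
-/

open Finset Filter Vale.Agent.P070h8 Topology
open scoped Classical InnerProductSpace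

namespace Vale.Agent.P078.G

variable {H : Type*} [NormedAddCommGroup H] [InnerProductSpace ℂ H] [CompleteSpace H]
  {M : VonNeumannAlgebra H} {A : StarSubalgebra ℂ (H →L[ℂ] H)} {Ω : H}
  {E : (H →L[ℂ] H) → H →L[ℂ] H}

/-- A cyclic and separating unit vector whose state is `A`-central. -/
def IsCV (M : VonNeumannAlgebra H) (A : StarSubalgebra ℂ (H →L[ℂ] H)) (Ω : H) : Prop :=
  ‖Ω‖ = 1 ∧ ((∀ a ∈ A, ∀ b ∈ M, tau Ω (a * b) = tau Ω (b * a)) ∧ IsMASA M A ∧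
    Dense {ξ | ∃ m ∈ M, m Ω = ξ}) ∧ ∀ a ∈ M, a Ω = 0 → a = 0

variable {a b m : H →L[ℂ] H}

theorem tau_cen (hΩ : IsCV M A Ω) (ha : a ∈ A) (hb : b ∈ M) : tau Ω (a * b) = tau Ω (b * a) :=
  hΩ.2.1.1 a ha b hb

theorem IsCV.masa (hΩ : IsCV M A Ω) : IsMASA M A := hΩ.2.1.2.1

theorem IsCV.cyc (hΩ : IsCV M A Ω) : Dense {ξ | ∃ m ∈ M, m Ω = ξ} := hΩ.2.1.2.2

theorem tau_pos (hΩ : IsCV M A Ω) (ha : a ∈ A) (a0 : 0 ≤ a) (hb : b ∈ M) (b0 : 0 ≤ b) :
    0 ≤ (tau Ω (a * b)).re := by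
  haveI := closed_A hΩ.masa
  have dA : CFC.sqrt a ∈ A := by
    rw [CFC.sqrt_eq_real_sqrt a a0]
    exact cfcₙ_mem (𝕜' := ℂ) _ ha
  rw [← CFC.sqrt_mul_sqrt_self a a0, mul_assoc, tau_cen hΩ dA (mul_mem (hΩ.masa.1 _ dA) hb)]
  exact re_inner_nonneg ((IsSelfAdjoint.of_nonneg (CFC.sqrt_nonneg a)).conjugate_nonneg b0) Ω

theorem norm_star_A (hΩ : IsCV M A Ω) (ha : a ∈ A) : ‖star a Ω‖ = ‖a Ω‖ := by
  refine (sq_eq_sq₀ (norm_nonneg _) (norm_nonneg _)).1 ?_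
  rw [← re_tau, ← re_tau, star_star, hΩ.masa.2.1 a ha _ (star_mem ha)]

theorem norm_mul_A (hΩ : IsCV M A Ω) (hb : b ∈ M) (ha : a ∈ A) : ‖(b * a) Ω‖ ≤ ‖b Ω‖ * ‖a‖ := by
  have aM := hΩ.masa.1 a ha
  have k := tau_pos hΩ (sub_mem (A.algebraMap_mem ((‖a‖ ^ 2 : ℝ) : ℂ)) (mul_mem ha (star_mem ha)))
    (sub_nonneg.2 CStarAlgebra.mul_star_le_algebraMap_norm_sq) (mul_mem (star_mem hb) hb)
    (star_mul_self_nonneg b)
  rw [sub_mul, tau_sub, Algebra.algebraMap_eq_smul_one, smul_mul_assoc, one_mul, tau_smul, Complex.sub_re,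
    Complex.re_ofReal_mul, re_tau, mul_assoc,
    tau_cen hΩ ha (mul_mem (star_mem aM) (mul_mem (star_mem hb) hb)),
    show star a * (star b * b) * a = star (b * a) * (b * a) by simp [mul_assoc], re_tau] at k
  refine le_of_pow_le_pow_left₀ two_ne_zero (by positivity) ?_
  rw [mul_pow]
  linarith

theorem dense_comm (hΩ : IsCV M A Ω) : Dense {ξ | ∃ T ∈ M.commutant, T Ω = ξ} := by
  let K0 : Submodule ℂ H := M.commutant.toStarSubalgebra.toSubalgebra.toSubmodule.map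
    (ContinuousLinearMap.apply ℂ H Ω).toLinearMap
  let K := K0.topologicalClosure
  haveI : CompleteSpace K := K0.isClosed_topologicalClosure.completeSpace_coe
  have inv : ∀ T ∈ M.commutant, ∀ x ∈ K, T x ∈ K := fun T hT x hx => by
    refine map_mem_closure T.continuous hx ?_
    rintro _ ⟨S, hS, rfl⟩
    exact ⟨T * S, (mul_mem hT (show S ∈ M.commutant from hS) : T * S ∈ M.commutant), rfl⟩
  have hP : K.starProjection ∈ M := mem_of_comm fun T hT => by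
    ext x
    exact (comm_proj K T (inv T hT) (inv _ (star_mem hT)) x).symm
  have h1 : Ω ∈ K := K0.le_topologicalClosure ⟨1, (one_mem _ : 1 ∈ M.commutant), rfl⟩
  have h2 := hΩ.2.2 _ (sub_mem (one_mem M) hP) (by
    simp [Submodule.starProjection_eq_self_iff.2 h1])
  intro x
  have h3 : x = K.starProjection x := by
    simpa [sub_eq_zero] using congrArg (fun S : H →L[ℂ] H => S x) h2
  exact h3 ▸ K.starProjection_apply_mem x

theorem lim_mem (hΩ : IsCV M A Ω) {y : ℕ → H →L[ℂ] H} (hy : ∀ n, y n ∈ M) {C : ℝ}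
    (hC : ∀ n, ‖y n‖ ≤ C) (hc : CauchySeq fun n => y n Ω) :
    ∃ m ∈ M, ∀ ξ, Filter.Tendsto (fun n => y n ξ) Filter.atTop (nhds (m ξ)) := by
  have C0 : 0 ≤ C := (norm_nonneg _).trans (hC 0)
  have h1 : ∀ ξ, CauchySeq fun n => y n ξ := fun ξ => by
    refine Metric.cauchySeq_iff'.2 fun ε hε => ?_
    obtain ⟨_, ⟨T, hT, rfl⟩, d⟩ := Metric.mem_closure_iff.1 (dense_comm hΩ ξ) (ε / (4 * (C + 1)))
      (by positivity)
    obtain ⟨N, hN⟩ := Metric.cauchySeq_iff'.1 (T.uniformContinuous.comp_cauchySeq hc) (ε / 2)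
      (by positivity)
    refine ⟨N, fun n hn => ?_⟩
    have e1 := hN n hn
    simp only [Function.comp, ← comm_apply hT (hy _)] at e1
    have e2 : ∀ k, dist (y k ξ) (y k (T Ω)) ≤ ε / 4 := fun k => by
      refine ((y k).dist_le_opNorm _ _).trans ?_
      refine (mul_le_mul ((hC k).trans (le_add_of_nonneg_right zero_le_one)) d.le dist_nonneg
        (by positivity)).trans (le_of_eq ?_)
      field_simp
    linarith [dist_triangle4 (y n ξ) (y n (T Ω)) (y N (T Ω)) (y N ξ), e2 n, e2 N,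
      dist_comm (y N (T Ω)) (y N ξ)]
  choose f hf using fun ξ => cauchySeq_tendsto_of_complete (h1 ξ)
  refine ⟨continuousLinearMapOfTendsto y (tendsto_pi_nhds.2 hf), mem_of_comm fun T hT => ?_, hf⟩
  ext ξ
  exact tendsto_nhds_unique ((T.continuous.tendsto _).comp (hf ξ))
    ((hf (T ξ)).congr fun n => comm_apply hT (hy n) ξ)

theorem small_of_tau (hΩ : IsCV M A Ω) (F : Finset H) {δ : ℝ} (hδ : 0 < δ) :
    ∃ η : ℝ, 0 < η ∧ ∀ q ∈ M, ‖q‖ ≤ 1 → ‖q Ω‖ ≤ η → ∀ ξ ∈ F, ‖q ξ‖ < δ := by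
  induction F using Finset.induction_on with
  | empty => exact ⟨1, one_pos, by simp⟩
  | insert ξ F _ ih =>
    obtain ⟨η, h0, h1⟩ := ih
    obtain ⟨_, ⟨T, hT, rfl⟩, d⟩ := Metric.mem_closure_iff.1 (dense_comm hΩ ξ) (δ / 2)
      (by positivity)
    refine ⟨min η (δ / (2 * (‖T‖ + 1))), by positivity, fun q hq q1 q2 ζ hζ => ?_⟩
    rcases Finset.mem_insert.1 hζ with rfl | hζ
    · have e1 : ‖q (ζ - T Ω)‖ < δ / 2 := by
        rw [dist_eq_norm] at d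
        exact (q.le_opNorm _).trans_lt ((mul_le_of_le_one_left (norm_nonneg _) q1).trans_lt d)
      have e2 : ‖q (T Ω)‖ ≤ δ / 2 := by
        rw [comm_apply hT hq]
        refine (T.le_opNorm _).trans ((mul_le_mul (le_add_of_nonneg_right zero_le_one)
          (q2.trans (min_le_right _ _)) (norm_nonneg _) (by positivity)).trans (le_of_eq ?_))
        field_simp
      have e3 : q ζ = q (ζ - T Ω) + q (T Ω) := by simp
      linarith [e3 ▸ norm_add_le (q (ζ - T Ω)) (q (T Ω))]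
    · exact h1 q hq q1 (q2.trans (min_le_left _ _)) ζ hζ

theorem exists_e (hA : IsMASA M A) (hΩ : IsCV M A Ω) (hm : m ∈ M) {Ω' : H}
    (hc : ∀ Θ ∈ ({Ω, Ω'} : Set H), ∀ a ∈ A, ∀ b ∈ M, tau Θ (a * b) = tau Θ (b * a)) : ∃ e ∈ A,
    (∀ a ∈ A, ∀ Θ ∈ ({Ω, Ω'} : Set H), tau Θ (a * e) = tau Θ (a * m)) ∧ ‖e‖ ≤ ‖m‖ ∧ (0 ≤ m → 0 ≤ e) := by
  let K : Set (H →L[ℂ] H) :=
    {e | e ∈ M ∧ (∀ a ∈ A, ∀ Θ ∈ ({Ω, Ω'} : Set H), tau Θ (a * e) = tau Θ (a * m)) ∧ ‖e‖ ≤ ‖m‖ ∧ (0 ≤ m → 0 ≤ e)}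
  let S : Set ℝ := (fun e : H →L[ℂ] H => ‖e Ω‖ ^ 2) '' K
  have S1 : BddBelow S := ⟨0, by rintro _ ⟨e, -, rfl⟩; positivity⟩
  have mid : ∀ e ∈ K, ∀ e' ∈ K, ‖e Ω - e' Ω‖ ^ 2 ≤ 2 * (‖e Ω‖ ^ 2 + ‖e' Ω‖ ^ 2) - 4 * sInf S := by
    intro e he e' he'
    have h1 : (1 / 2 : ℂ) • (e + e') ∈ K := by
      refine ⟨smul_mem_M (add_mem he.1 he'.1) _, fun a ha Θ hΘ => ?_, ?_, fun h => ?_⟩
      · rw [mul_smul_comm, tau_smul, mul_add, tau_add, he.2.1 a ha Θ hΘ, he'.2.1 a ha Θ hΘ]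
        ring
      · rw [norm_smul]
        have := norm_add_le e e'
        have := he.2.2.1
        have := he'.2.2.1
        norm_num
        linarith
      · rw [show (1 / 2 : ℂ) = ((1 / 2 : ℝ) : ℂ) by simp, Complex.coe_smul]
        exact smul_nonneg (by norm_num) (add_nonneg (he.2.2.2 h) (he'.2.2.2 h))
    have h2 := csInf_le S1 ⟨_, h1, rfl⟩
    simp only [ContinuousLinearMap.smul_apply, ContinuousLinearMap.add_apply, norm_smul] at h2
    have h3 := parallelogram_law_with_norm ℂ (e Ω) (e' Ω)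
    norm_num [mul_pow] at h2
    linarith
  obtain ⟨u, u1, u2, u3⟩ := exists_seq_tendsto_sInf
    (⟨_, m, ⟨hm, fun _ _ _ _ => rfl, le_rfl, id⟩, rfl⟩ : S.Nonempty) S1
  choose y y1 y2 using u3
  simp only at y2
  obtain ⟨e, e1, e2⟩ := lim_mem hΩ (fun n => (y1 n).1) (fun n => (y1 n).2.2.1) (by
    refine Metric.cauchySeq_iff'.2 fun ε hε => ?_
    obtain ⟨N, hN⟩ := (u2.eventually (gt_mem_nhds (show sInf S < sInf S + ε ^ 2 / 4 by
      linarith [pow_pos hε 2]))).exists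
    refine ⟨N, fun n hn => ?_⟩
    have := mid _ (y1 n) _ (y1 N)
    rw [y2, y2] at this
    rw [dist_eq_norm]
    exact lt_of_pow_lt_pow_left₀ 2 hε.le (by linarith [u1 hn]))
  have eK : e ∈ K := by
    refine ⟨e1, fun a ha Θ hΘ => ?_, e.opNorm_le_bound (norm_nonneg _) fun ξ => ?_, fun h => ?_⟩
    · rw [tau_mul]
      refine tendsto_nhds_unique (tendsto_const_nhds.inner (e2 Θ)) (tendsto_const_nhds.congr
        fun n => ?_)
      rw [← tau_mul, (y1 n).2.1 a ha Θ hΘ]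
    · exact le_of_tendsto' (e2 ξ).norm fun n => ((y n).le_opNorm ξ).trans
        (mul_le_mul_of_nonneg_right (y1 n).2.2.1 (norm_nonneg _))
    · refine nonneg_iff_inner.2 fun x => IsClosed.mem_of_tendsto ?_
        ((e2 x).inner tendsto_const_nhds) (.of_forall fun n =>
          nonneg_iff_inner.1 ((y1 n).2.2.2 h) x)
      exact (isClosed_eq (by fun_prop) (by fun_prop)).inter
        (isClosed_le continuous_const Complex.continuous_re)
  have eS : ‖e Ω‖ ^ 2 = sInf S :=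
    tendsto_nhds_unique ((e2 Ω).norm.pow 2) (u2.congr fun n => (y2 n).symm)
  refine ⟨e, comm_mem hA e1 fun a ha => ?_, eK.2⟩
  refine Submodule.span_induction (p := fun a _ => e * a = a * e) ?_ (by simp)
    (fun a b _ _ h1 h2 => by rw [mul_add, add_mul, h1, h2])
    (fun c a _ h => by rw [mul_smul_comm, smul_mul_assoc, h]) (span_A hA ha)
  rintro v ⟨v1, v2⟩
  have vM := hA.1 v v1
  have n1 : ‖v * e * star v‖ = ‖e‖ := by
    rw [CStarRing.norm_mul_mem_unitary _ (Unitary.star_mem v2), CStarRing.norm_mem_unitary_mul _ v2]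
  have cK : v * e * star v ∈ K := by
    refine ⟨mul_mem (mul_mem vM e1) (star_mem vM), fun a ha Θ hΘ => ?_, n1.le.trans eK.2.2.1,
      fun h => star_right_conjugate_nonneg (eK.2.2.2 h) v⟩
    rw [← mul_assoc, ← hc Θ hΘ _ (star_mem v1) _ (mul_mem (hA.1 a ha) (mul_mem vM e1)),
      ← mul_assoc a, hA.2.1 a ha v v1, ← mul_assoc, ← mul_assoc, v2.1, one_mul, eK.2.1 a ha Θ hΘ]
  have n2 : ‖(v * e * star v) Ω‖ ^ 2 = ‖e Ω‖ ^ 2 := by
    rw [← re_tau, ← re_tau, show star (v * e * star v) * (v * e * star v) =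
      v * (star e * (star v * v) * e * star v) by simp [mul_assoc], v2.1, mul_one,
      tau_cen hΩ v1 (mul_mem (mul_mem (star_mem e1) e1) (star_mem vM)), mul_assoc, v2.1, mul_one]
  have n3 := mid _ eK _ cK
  rw [n2, eS] at n3
  have n4 : e - v * e * star v = 0 := hΩ.2.2 _ (sub_mem e1 cK.1) (by
    rw [ContinuousLinearMap.sub_apply, ← norm_eq_zero]
    exact pow_eq_zero_iff (two_ne_zero) |>.1 (le_antisymm (by linarith) (sq_nonneg _)))
  rw [sub_eq_zero.1 n4, mul_assoc, v2.1, mul_one, ← sub_eq_zero.1 n4]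

theorem exists_E (hA : IsMASA M A) (hΩ : IsCV M A Ω) : ∃ E, IsE M A Ω E := by
  choose! E E1 E2' E3 E4 using fun m (hm : m ∈ M) => exists_e hA hΩ hm (Ω' := Ω) fun Θ hΘ => by
    rw [show Θ = Ω by simpa using hΘ]
    exact hΩ.2.1.1
  have E2 := fun m hm a ha => E2' m hm a ha Ω (.inl rfl)
  have uq : ∀ m ∈ M, ∀ e ∈ A, (∀ a ∈ A, tau Ω (a * e) = tau Ω (a * m)) → E m = e := by
    intro m hm e he h
    have hd := sub_mem (E1 m hm) he
    have h1 := re_tau (Ω := Ω) (E m - e)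
    rw [mul_sub, tau_sub, E2 m hm _ (star_mem hd), h _ (star_mem hd), sub_self] at h1
    exact sub_eq_zero.1 (hΩ.2.2 _ (hA.1 _ hd) (norm_eq_zero.1 (pow_eq_zero_iff two_ne_zero |>.1
      (by simpa using h1.symm))))
  have EM := fun m hm => hA.1 _ (E1 m hm)
  refine ⟨E, E1, fun m hm => by simpa using E2 m hm 1 (one_mem A), E3, fun m hm => ?_, E4,
    fun m hm m' hm' => uq _ (add_mem hm hm') _ (add_mem (E1 m hm) (E1 m' hm')) fun a ha => ?_,
    fun m hm c => uq _ (smul_mem_M hm c) _ (A.smul_mem (E1 m hm) c) fun a ha => ?_,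
    fun m hm => uq _ (star_mem hm) _ (star_mem (E1 m hm)) fun a ha => ?_,
    fun b hb m hm => uq _ (mul_mem (hA.1 b hb) hm) _ (mul_mem hb (E1 m hm)) fun a ha => ?_,
    fun b hb m hm => uq _ (mul_mem hm (hA.1 b hb)) _ (mul_mem (E1 m hm) hb) fun a ha => ?_,
    fun a ha => uq _ (hA.1 a ha) _ ha fun _ _ => rfl,
    fun w m hm => uq _ (mul_mem (mul_mem (op_mem w) hm) (star_mem (op_mem w))) _
      ((mem_norm.1 (op_norm w)).2.2.1 _ (E1 m hm)) fun a ha => ?_⟩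
  · have h1 := re_tau (Ω := Ω) (E m)
    rw [E2 m hm _ (star_mem (E1 m hm)), tau_mul, star_star] at h1
    have h2 := (Complex.re_le_norm _).trans (norm_inner_le_norm (𝕜 := ℂ) (E m Ω) (m Ω))
    rw [h1] at h2
    by_contra k
    nlinarith [norm_nonneg (m Ω), not_le.1 k]
  · rw [mul_add, mul_add, tau_add, tau_add, E2 m hm a ha, E2 m' hm' a ha]
  · rw [mul_smul_comm, mul_smul_comm, tau_smul, tau_smul, E2 m hm a ha]
  · have k : ∀ x ∈ M, tau Ω (a * star x) = starRingEnd ℂ (tau Ω (star a * x)) := fun x hx => by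
      rw [← tau_star, star_mul, star_star, tau_cen hΩ ha (star_mem hx)]
    rw [k _ (EM m hm), k _ hm, E2 m hm _ (star_mem ha)]
  · rw [← mul_assoc, ← mul_assoc, E2 m hm _ (mul_mem ha hb)]
  · have k : ∀ x ∈ M, tau Ω (a * (x * b)) = tau Ω (b * a * x) := fun x hx => by
      rw [← mul_assoc, ← tau_cen hΩ hb (mul_mem (hA.1 a ha) hx), mul_assoc]
    rw [k _ (EM m hm), k _ hm, E2 m hm _ (mul_mem hb ha)]
  · have u1 : star (op w) * op w = 1 := (op_norm w).2.1.1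
    have u2 : op w * star (op w) = 1 := (op_norm w).2.1.2
    have t : ∀ x, tau (star (op w) Ω) x = tau Ω (op w * x * star (op w)) := fun x => by
      rw [mul_assoc, tau_mul]
      rfl
    obtain ⟨e, e1, e2, -⟩ := exists_e hA hΩ hm (Ω' := star (op w) Ω) (by
      rintro Θ (rfl | rfl)
      · exact hΩ.2.1.1
      · intro a ha b hb
        have := tau_cen hΩ ((mem_norm.1 (op_norm w)).2.2.1 a ha)
          (mul_mem (mul_mem (op_mem w) hb) (star_mem (op_mem w)))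
        rw [t, t, show op w * (a * b) * star (op w) = op w * a * (star (op w) * op w) * b * star (op w) by
          rw [u1]; simp [mul_assoc], show op w * (b * a) * star (op w) =
            op w * b * (star (op w) * op w) * a * star (op w) by rw [u1]; simp [mul_assoc]]
        simpa only [mul_assoc] using this)
    have k := e2 _ ((mem_norm.1 (op_norm w)).2.2.2 a ha) _ (.inr rfl)
    rw [t, t] at k
    rw [uq m hm e e1 fun a ha => e2 a ha Ω (.inl rfl)]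
    simpa only [← mul_assoc, u2, one_mul] using k

/-- States on `C(X, ℝ)`. -/
structure IsP {X : Type*} [TopologicalSpace X] (I : C(X, ℝ) →ₗ[ℝ] ℝ) : Prop where
  pos : ∀ f : C(X, ℝ), (∀ x, 0 ≤ f x) → 0 ≤ I f
  one : I 1 = 1

theorem exists_dyn (hA : IsMASA M A) (hΩ : IsCV M A Ω) {X : Type*} [TopologicalSpace X]
    [MulAction (NG M A) X] {ev : (H →L[ℂ] H) → C(X, ℂ)} (h : IsGel M A ev) :
    ∃ I : C(X, ℝ) →ₗ[ℝ] ℝ, IsP I ∧
      ∀ a ∈ A, ∀ f : C(X, ℝ), (∀ x, f x = (ev a x).re) → I f = (tau Ω a).re := by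
  choose L L1 L2 using fun f : C(X, ℝ) => h.surj ⟨fun x => (f x : ℂ), by fun_prop⟩
  have L3 : ∀ f x, ev (L f) x = f x := fun f x => by rw [L2]; rfl
  have key : ∀ a ∈ A, ∀ f : C(X, ℝ), (∀ x, f x = (ev a x).re) → (tau Ω (L f)).re = (tau Ω a).re :=
    fun a ha f e => by
      have : L f + L f = a + star a := h.ext (add_mem (L1 f) (L1 f)) (add_mem ha (star_mem ha)) fun x => by
        rw [h.add _ (L1 f) _ (L1 f), h.add _ ha _ (star_mem ha), h.star a ha]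
        simp only [ContinuousMap.add_apply, ContinuousMap.star_apply, L3, e]
        apply Complex.ext <;> simp
      have := congrArg (fun b => (tau Ω b).re) this
      simp only [tau_add, tau_star, Complex.add_re, Complex.conj_re] at this
      linarith
  refine ⟨⟨⟨fun f => (tau Ω (L f)).re, fun f g => ?_⟩, fun c f => ?_⟩, ⟨fun f hf => ?_, ?_⟩, key⟩
  · rw [key _ (add_mem (L1 f) (L1 g)) _ fun x => by rw [h.add _ (L1 f) _ (L1 g)]; simp [L3], tau_add,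
      Complex.add_re]
  · refine (key _ (A.smul_mem (L1 f) (c : ℂ)) (c • f) fun x => by rw [h.smul _ (L1 f)]; simp [L3]).trans ?_
    rw [tau_smul]
    simp
  · let g : C(X, ℝ) := ⟨fun x => √(f x), by fun_prop⟩
    refine le_of_le_of_eq ?_ (key _ (mul_mem (star_mem (L1 g)) (L1 g)) f fun x => ?_).symm
    · rw [re_tau]; positivity
    · rw [h.mul _ (star_mem (L1 g)) _ (L1 g), h.star _ (L1 g)]
      simp [L3, g, Real.mul_self_sqrt (hf x)]
  · refine (key _ (one_mem A) 1 fun x => by simp [h.one]).trans ?_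
    have := re_tau (Ω := Ω) 1
    simpa [hΩ.1] using this

/-- Uniform absolute continuity of the functionals `tau (y · y*)`. -/
def Mod (M : VonNeumannAlgebra H) (Ω : H) (Y : Set (H →L[ℂ] H)) : Prop :=
  ∀ κ : ℝ, 0 < κ → ∃ δ : ℝ, 0 < δ ∧ ∀ y ∈ Y, ∀ b ∈ M, 0 ≤ b → b ≤ 1 → (tau Ω b).re ≤ δ →
    (tau Ω (y * b * star y)).re ≤ κ

theorem Mod.mono {Y Y' : Set (H →L[ℂ] H)} (h : Mod M Ω Y') (s : Y ⊆ Y') : Mod M Ω Y := fun κ hκ =>
  (h κ hκ).imp fun _ k => ⟨k.1, fun y hy => k.2 y (s hy)⟩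

/-- The norm form. -/
theorem Mod.norm {Y : Set (H →L[ℂ] H)} (h : Mod M Ω Y) {κ : ℝ} (hκ : 0 < κ) : ∃ δ : ℝ, 0 < δ ∧
    ∀ y ∈ Y, ∀ b ∈ M, ‖b‖ ≤ 1 → ‖b Ω‖ ≤ δ → ‖b (star y Ω)‖ ≤ κ := by
  obtain ⟨δ, δ0, k⟩ := h (κ ^ 2) (by positivity)
  refine ⟨√δ, Real.sqrt_pos.2 δ0, fun y hy b hb n l => ?_⟩
  have := k y hy _ (mul_mem (star_mem hb) hb) (star_mul_self_nonneg b)
    ((CStarAlgebra.norm_le_one_iff_of_nonneg _ (star_mul_self_nonneg b)).1 (by
      rw [CStarRing.norm_star_mul_self]; exact mul_le_one₀ n (norm_nonneg _) n))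
    (by rw [re_tau]; exact (pow_le_pow_left₀ (norm_nonneg _) l 2).trans_eq (Real.sq_sqrt δ0.le))
  rw [show y * (star b * b) * star y = star (b * star y) * (b * star y) by simp [mul_assoc], re_tau] at this
  exact le_of_pow_le_pow_left₀ two_ne_zero hκ.le this

theorem mod_one (hΩ : IsCV M A Ω) (y : H →L[ℂ] H) : Mod M Ω {y} := by
  rintro κ hκ
  obtain ⟨η, η0, k⟩ := small_of_tau hΩ {star y Ω} (δ := κ / (‖star y Ω‖ + 1)) (by positivity)
  refine ⟨η ^ 2, by positivity, ?_⟩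
  rintro y rfl b hb b0 b1 l
  have h2 := re_inner_nonneg (Commute.mul_nonneg b0 (sub_nonneg.2 b1)
    ((Commute.one_right b).sub_right (Commute.refl b))) Ω
  have h3 := re_tau (Ω := Ω) b
  rw [(IsSelfAdjoint.of_nonneg b0).star_eq] at h3
  change 0 ≤ (tau Ω _).re at h2
  rw [mul_sub, mul_one, tau_sub, Complex.sub_re] at h2
  have h4 := k b hb ((CStarAlgebra.norm_le_one_iff_of_nonneg _ b0).2 b1)
    (le_of_pow_le_pow_left₀ two_ne_zero η0.le (by linarith)) _ (mem_singleton_self _)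
  rw [mul_assoc, tau_mul]
  refine (Complex.re_le_norm _).trans ((norm_inner_le_norm (𝕜 := ℂ) _ _).trans ?_)
  rw [lt_div_iff₀ (by positivity)] at h4
  change _ * ‖b (star y Ω)‖ ≤ _
  nlinarith [norm_nonneg (b (star y Ω))]

/-- `Mod` sets of contractions. -/
def Gd (M : VonNeumannAlgebra H) (Ω : H) (Y : Set (H →L[ℂ] H)) : Prop :=
  Mod M Ω Y ∧ ∀ y ∈ Y, y ∈ M ∧ ‖y‖ ≤ 1

theorem conj_mem {y : H →L[ℂ] H} (n : ‖y‖ ≤ 1) (b0 : 0 ≤ b) (b1 : b ≤ 1) :
    0 ≤ y * b * star y ∧ y * b * star y ≤ 1 := by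
  have k := star_right_conjugate_nonneg b0 y
  refine ⟨k, (CStarAlgebra.norm_le_one_iff_of_nonneg _ k).1 ((norm_mul_le _ _).trans (mul_le_one₀
    ((norm_mul_le _ _).trans (mul_le_one₀ n (norm_nonneg _)
      ((CStarAlgebra.norm_le_one_iff_of_nonneg _ b0).2 b1))) (norm_nonneg _) (by rwa [norm_star])))⟩

theorem Gd.mul {Y Y' : Set (H →L[ℂ] H)} (h : Gd M Ω Y) (h' : Gd M Ω Y') :
    Gd M Ω (Set.image2 (· * ·) Y Y') := by
  refine ⟨fun κ hκ => ?_, ?_⟩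
  · obtain ⟨δ, δ0, k⟩ := h.1 κ hκ
    obtain ⟨δ', δ1, k'⟩ := h'.1 δ δ0
    refine ⟨δ', δ1, ?_⟩
    rintro _ ⟨y, hy, y', hy', rfl⟩ b hb b0 b1 l
    have m := h'.2 y' hy'
    have := k y hy _ (mul_mem (mul_mem m.1 hb) (star_mem m.1)) (conj_mem m.2 b0 b1).1
      (conj_mem m.2 b0 b1).2 (k' y' hy' b hb b0 b1 l)
    simpa only [star_mul, mul_assoc] using this
  · rintro _ ⟨y, hy, y', hy', rfl⟩
    exact ⟨mul_mem (h.2 y hy).1 (h'.2 y' hy').1,
      (norm_mul_le _ _).trans (mul_le_one₀ (h.2 y hy).2 (norm_nonneg _) (h'.2 y' hy').2)⟩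

theorem Gd.mono {Y Y' : Set (H →L[ℂ] H)} (h : Gd M Ω Y') (s : Y ⊆ Y') : Gd M Ω Y :=
  ⟨h.1.mono s, fun y hy => h.2 y (s hy)⟩

theorem gd_A (hΩ : IsCV M A Ω) : Gd M Ω {c | c ∈ A ∧ ‖c‖ ≤ 1} := by
  refine ⟨fun κ hκ => ⟨κ, hκ, fun c hc b hb b0 _ l => le_trans ?_ l⟩, fun c hc => ⟨hΩ.masa.1 c hc.1, hc.2⟩⟩
  have := (conj_mem (y := star c) (by rw [norm_star]; exact hc.2) zero_le_one le_rfl).2
  rw [mul_one, star_star] at this
  have k := tau_pos hΩ (sub_mem (one_mem A) (mul_mem (star_mem hc.1) hc.1)) (sub_nonneg.2 this) hb b0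
  rw [sub_mul, one_mul, tau_sub, Complex.sub_re, mul_assoc,
    tau_cen hΩ (star_mem hc.1) (mul_mem (hΩ.masa.1 c hc.1) hb)] at k
  linarith

theorem gd_one (hΩ : IsCV M A Ω) {y : H →L[ℂ] H} (h : y ∈ M) (n : ‖y‖ ≤ 1) : Gd M Ω {y} :=
  ⟨mod_one hΩ y, by rintro _ rfl; exact ⟨h, n⟩⟩

theorem mod_union {ι : Type*} (s : Finset ι) {Y : ι → Set (H →L[ℂ] H)} (h : ∀ i ∈ s, Mod M Ω (Y i)) :
    Mod M Ω (⋃ i ∈ s, Y i) := by
  induction s using Finset.induction_on with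
  | empty => exact fun κ _ => ⟨1, one_pos, by simp⟩
  | insert i s _ ih =>
    intro κ hκ
    obtain ⟨δ, δ0, k⟩ := h i (mem_insert_self _ _) κ hκ
    obtain ⟨δ', δ1, k'⟩ := ih (fun j hj => h j (mem_insert_of_mem hj)) κ hκ
    refine ⟨min δ δ', lt_min δ0 δ1, fun y hy b hb b0 b1 l => ?_⟩
    rw [Finset.set_biUnion_insert] at hy
    rcases hy with hy | hy
    exacts [k y hy b hb b0 b1 (l.trans (min_le_left _ _)), k' y hy b hb b0 b1 (l.trans (min_le_right _ _))]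

/-- Segments of a word with arbitrary slot values, and their adjoints. -/
def SG (A : StarSubalgebra ℂ (H →L[ℂ] H)) (U : ℕ → H →L[ℂ] H) (i n : ℕ) : Set (H →L[ℂ] H) :=
  {y | ∃ a : ℕ → H →L[ℂ] H, (∀ t, a t ∈ A ∧ ‖a t‖ ≤ 1) ∧ ∃ j m, i ≤ j ∧ j + m ≤ i + n ∧
    ∃ c ∈ A, ∃ c' ∈ A, ‖c‖ ≤ 1 ∧ ‖c'‖ ≤ 1 ∧
      (y = c * sg U a j m * c' ∨ y = star (c * sg U a j m * c'))}

theorem mod_sg (hΩ : IsCV M A Ω) {U : ℕ → H →L[ℂ] H} {i n : ℕ}
    (hU : ∀ t, i ≤ t → t ≤ i + n → U t ∈ M ∧ ‖U t‖ ≤ 1) : Mod M Ω (SG A U i n) := by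
  have k : ∀ j m, i ≤ j → j + m ≤ i + n →
      Gd M Ω {y | ∃ a : ℕ → H →L[ℂ] H, (∀ t, a t ∈ A ∧ ‖a t‖ ≤ 1) ∧ y = sg U a j m} ∧
      Gd M Ω {y | ∃ a : ℕ → H →L[ℂ] H, (∀ t, a t ∈ A ∧ ‖a t‖ ≤ 1) ∧ y = star (sg U a j m)} := by
    intro j m h1
    induction m with
    | zero =>
      intro h2
      have u := hU j h1 h2
      exact ⟨(gd_one hΩ u.1 u.2).mono fun y ⟨a, _, e⟩ => e,
        (gd_one hΩ (star_mem u.1) (by rw [norm_star]; exact u.2)).mono fun y ⟨a, _, e⟩ => e⟩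
    | succ m ih =>
      intro h2
      have u := hU (j + m + 1) (by omega) (by omega)
      obtain ⟨k1, k2⟩ := ih (by omega)
      refine ⟨((k1.mul (gd_A hΩ)).mul (gd_one hΩ u.1 u.2)).mono fun y ⟨a, ha, e⟩ =>
        ⟨_, ⟨_, ⟨a, ha, rfl⟩, _, ha _, rfl⟩, _, rfl, e.symm⟩,
        ((gd_one hΩ (star_mem u.1) (by rw [norm_star]; exact u.2)).mul ((gd_A hΩ).mul k2)).mono
          fun y ⟨a, ha, e⟩ => ⟨_, rfl, _, ⟨star (a (j + m)), ⟨star_mem (ha _).1, by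
            rw [norm_star]; exact (ha _).2⟩, _, ⟨a, ha, rfl⟩, rfl⟩, ?_⟩⟩
      rw [e, sg, star_mul, star_mul]
  refine (mod_union (range (i + n + 1) ×ˢ range (n + 1) ×ˢ (univ : Finset Bool))
    (Y := fun p => Set.image2 (· * ·) (Set.image2 (· * ·) {c | c ∈ A ∧ ‖c‖ ≤ 1}
      {y | (i ≤ p.1 ∧ p.1 + p.2.1 ≤ i + n) ∧ ∃ a : ℕ → H →L[ℂ] H, (∀ t, a t ∈ A ∧ ‖a t‖ ≤ 1) ∧
        y = if p.2.2 then sg U a p.1 p.2.1 else star (sg U a p.1 p.2.1)}) {c | c ∈ A ∧ ‖c‖ ≤ 1})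
    fun p _ => (((gd_A hΩ).mul ?_).mul (gd_A hΩ)).1).mono ?_
  · by_cases h : i ≤ p.1 ∧ p.1 + p.2.1 ≤ i + n
    · cases hb : p.2.2
      · exact (k _ _ h.1 h.2).2.mono fun y hy => by simpa using hy.2
      · exact (k _ _ h.1 h.2).1.mono fun y hy => by simpa using hy.2
    · exact (gd_A hΩ).mono fun y hy => absurd hy.1 h
  · rintro y ⟨a, ha, j, m, h1, h2, c, hc, c', hc', n1, n2, rfl | rfl⟩
    · exact Set.mem_biUnion (x := (j, m, true)) (by simp; omega)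
        ⟨_, ⟨c, ⟨hc, n1⟩, _, ⟨⟨h1, h2⟩, a, ha, rfl⟩, rfl⟩, c', ⟨hc', n2⟩, by simp⟩
    · exact Set.mem_biUnion (x := (j, m, false)) (by simp; omega)
        ⟨_, ⟨star c', ⟨star_mem hc', by rwa [norm_star]⟩, _, ⟨⟨h1, h2⟩, a, ha, rfl⟩, rfl⟩, star c,
          ⟨star_mem hc, by rwa [norm_star]⟩, by simp [mul_assoc]⟩

end Vale.Agent.P078.G
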