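import Vale.Agent.P078.X.Nor

/-!
The corner `p M p` as a von Neumann algebra with a central vector.

PLAN. `K'` = closure of `{π m Ω | m ∈ M, p m = m}`, `Φ m = proj ∘ π m ∘ incl`, `Φ (star m) = star (Φ m)` (adjoint of the inclusion), `Φ m * Φ m' = Φ (m p m')`, `Φ m = Φ (p m p)`, `Ω' = ‖Ω‖⁻¹ Ω`. `Φ m Ω' = 0 → π (p m) Ω = 0 → p m p = 0` (`ac`).
`iso`: `NonUnitalStarAlgHom.norm_map` on the closed non-unital star subalgebra `{m ∈ M | p m = m ∧ m p = m}` (or the `b⁺` argument). `M'` has carrier `Φ '' M`: for `T` a selfadjoint contraction of the double centralizer and `m₀`,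
`kaplansky` on `{Ω', Φ m₀ Ω'}` gives contractions `m n = p (m n) p`, Cauchy on `Ω`, so strongly Cauchy (`ac`), limit `m ∈ M` (`continuousLinearMapOfTendsto`, see `lim_mem`), `nrm` for `m n - m` and `(m n - m) m₀`; `m` does not depend on `m₀`.
MASA: `Φ m` commuting with `Φ A` gives `p m p` commuting with `A` (`comm_mem`).
-/

open Finset Filter
open scoped Classical InnerProductSpace

namespace Vale.Agent.P078.G

variable {H : Type*} [NormedAddCommGroup H] [InnerProductSpace ℂ H] [CompleteSpace H]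
  {K : Type*} [NormedAddCommGroup K] [InnerProductSpace ℂ K] [CompleteSpace K]
  {M : VonNeumannAlgebra H} {A : StarSubalgebra ℂ (H →L[ℂ] H)} {x p f q : H →L[ℂ] H}
  {π : (H →L[ℂ] H) →⋆ₐ[ℂ] (K →L[ℂ] K)} {Ω : K}

structure IsRed (M : VonNeumannAlgebra H) (A : StarSubalgebra ℂ (H →L[ℂ] H)) (p : H →L[ℂ] H)
    (M' : VonNeumannAlgebra K) (A' : StarSubalgebra ℂ (K →L[ℂ] K)) (Ω : K)
    (Φ : (H →L[ℂ] H) →ₗ[ℂ] (K →L[ℂ] K)) : Prop where
  cv : IsCV M' A' Ω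
  memM : ∀ T, T ∈ M' ↔ ∃ m ∈ M, p * m = m ∧ m * p = m ∧ Φ m = T
  memA : ∀ T, T ∈ A' ↔ ∃ a ∈ A, p * a = a ∧ Φ a = T
  one : Φ p = 1
  mul : ∀ m ∈ M, ∀ m' ∈ M, Φ (m * p * m') = Φ m * Φ m'
  star : ∀ m ∈ M, Φ (star m) = star (Φ m)
  iso : ∀ m ∈ M, p * m = m → m * p = m → ‖Φ m‖ = ‖m‖
  ac : ∀ (ξ : H) (θ : ℝ), 0 < θ → ∃ C : ℝ, 0 ≤ C ∧
    ∀ m ∈ M, p * m = m → ‖m (p ξ)‖ ≤ C * ‖Φ m Ω‖ + θ * ‖m‖

namespace Rd

open Vale.Agent.P070h8 Topology

variable (M p π Ω) in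
/-- The vectors `π m Ω` with `p m = m`. -/
def K0 : Submodule ℂ K where
  carrier := {v | ∃ m ∈ M, p * m = m ∧ π m Ω = v}
  add_mem' := by
    rintro _ _ ⟨a, a1, a2, rfl⟩ ⟨b, b1, b2, rfl⟩
    exact ⟨a + b, add_mem a1 b1, by rw [mul_add, a2, b2], by rw [map_add]; rfl⟩
  zero_mem' := ⟨0, zero_mem _, mul_zero _, by rw [map_zero]; rfl⟩
  smul_mem' := by
    rintro c _ ⟨a, a1, a2, rfl⟩
    exact ⟨c • a, smul_mem_M a1 c, by rw [mul_smul_comm, a2], by rw [map_smul]; rfl⟩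

variable (M p π Ω) in
/-- Its closure. -/
abbrev KK : Submodule ℂ K := (K0 M p π Ω).topologicalClosure

variable (M p π Ω) in
/-- Compression. -/
noncomputable def cp : (H →L[ℂ] H) →ₗ[ℂ] (KK M p π Ω →L[ℂ] KK M p π Ω) where
  toFun m := (KK M p π Ω).orthogonalProjectionOnto ∘L π (p * m) ∘L (KK M p π Ω).subtypeL
  map_add' a b := by
    ext v
    simp [mul_add]
  map_smul' c a := by
    ext v
    simp

variable {m m' : H →L[ℂ] H}

theorem ppp (h : IsSplit M A π Ω p) : p * p = p := h.proj.isIdempotentElem.eq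

theorem app (a b : H →L[ℂ] H) (v : K) : π a (π b v) = π (a * b) v := by
  rw [map_mul]; rfl

theorem inv (hA : IsMASA M A) (h : IsSplit M A π Ω p) (hm : m ∈ M) {v : K} (hv : v ∈ KK M p π Ω) :
    π (p * m) v ∈ KK M p π Ω := by
  refine map_mem_closure (π (p * m)).continuous hv ?_
  rintro _ ⟨a, a1, a2, rfl⟩
  exact ⟨p * m * a, mul_mem (mul_mem (hA.1 p h.mem) hm) a1, by rw [← mul_assoc, ← mul_assoc, ppp h],
    (app _ _ _).symm⟩

theorem fixp (v : KK M p π Ω) : π p (v : K) = v := by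
  have : closure (K0 M p π Ω : Set K) ⊆ {w | π p w = w} :=
    closure_minimal (by
      rintro _ ⟨a, -, a2, rfl⟩
      show π p (π a Ω) = π a Ω
      rw [app, a2]) (isClosed_eq (π p).continuous continuous_id)
  exact this v.2

theorem cp_coe (hA : IsMASA M A) (h : IsSplit M A π Ω p) (hm : m ∈ M) (v : KK M p π Ω) :
    (cp M p π Ω m v : K) = π (p * m) v :=
  Submodule.starProjection_eq_self_iff.2 (inv hA h hm v.2)

theorem cp_one (hA : IsMASA M A) (h : IsSplit M A π Ω p) : cp M p π Ω p = 1 := by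
  ext v
  rw [cp_coe hA h (hA.1 p h.mem), ppp h, fixp]
  rfl

theorem cp_mul (hA : IsMASA M A) (h : IsSplit M A π Ω p) (hm : m ∈ M) (hm' : m' ∈ M) :
    cp M p π Ω (m * p * m') = cp M p π Ω m * cp M p π Ω m' := by
  ext v
  rw [cp_coe hA h (mul_mem (mul_mem hm (hA.1 p h.mem)) hm'), ContinuousLinearMap.mul_apply,
    cp_coe hA h hm, cp_coe hA h hm', app]
  simp only [mul_assoc]

theorem cp_star (hA : IsMASA M A) (h : IsSplit M A π Ω p) (hm : m ∈ M) :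
    cp M p π Ω (star m) = star (cp M p π Ω m) := by
  refine (ContinuousLinearMap.eq_adjoint_iff _ _).2 fun v w => ?_
  rw [Submodule.coe_inner, Submodule.coe_inner, cp_coe hA h (star_mem hm), cp_coe hA h hm]
  have e : π (p * star m) = star (π (m * p)) := by
    rw [← map_star, star_mul, h.proj.isSelfAdjoint.star_eq]
  have e2 : π p = star (π p) := by rw [← map_star, h.proj.isSelfAdjoint.star_eq]
  rw [e, inner_star_left, ← app m p, fixp, ← app p m]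
  conv_lhs => rw [← fixp v, e2, inner_star_left]

/-- The normalized vector. -/
noncomputable def om (hA : IsMASA M A) (h : IsSplit M A π Ω p) : KK M p π Ω :=
  ((‖Ω‖⁻¹ : ℝ) : ℂ) • ⟨Ω, subset_closure ⟨p, hA.1 p h.mem, ppp h, h.fix⟩⟩

theorem cp_om (hA : IsMASA M A) (h : IsSplit M A π Ω p) (hm : m ∈ M) (h1 : p * m = m) :
    (cp M p π Ω m (om hA h) : K) = ((‖Ω‖⁻¹ : ℝ) : ℂ) • π m Ω := by
  rw [cp_coe hA h hm, h1, ← map_smul]
  rfl

theorem cp_ac (hA : IsMASA M A) (h : IsSplit M A π Ω p) (h0 : Ω ≠ 0) (ξ : H) (θ : ℝ) (hθ : 0 < θ) :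
    ∃ C : ℝ, 0 ≤ C ∧ ∀ m ∈ M, p * m = m →
      ‖m (p ξ)‖ ≤ C * ‖cp M p π Ω m (om hA h)‖ + θ * ‖m‖ := by
  obtain ⟨C, C0, hC⟩ := h.ac ξ θ hθ
  refine ⟨C * ‖Ω‖, by positivity, fun m hm h1 => (hC m hm).trans (le_of_eq ?_)⟩
  have := norm_ne_zero_iff.2 h0
  rw [Submodule.coe_norm, cp_om hA h hm h1, norm_smul, Complex.norm_real, norm_inv, norm_norm]
  field_simp

theorem sep (hA : IsMASA M A) (h : IsSplit M A π Ω p) (h0 : Ω ≠ 0) (hm : m ∈ M) (h1 : p * m = m)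
    (h2 : m * p = m) (e : cp M p π Ω m (om hA h) = 0) : m = 0 := by
  ext ξ
  rw [← h2]
  refine norm_le_zero_iff.1 (le_of_forall_pos_le_add fun ε hε => ?_)
  obtain ⟨C, -, hC⟩ := cp_ac hA h h0 ξ (ε / (‖m‖ + 1)) (by positivity)
  have k := hC m hm h1
  rw [e, norm_zero, mul_zero] at k
  refine k.trans (add_le_add le_rfl ?_)
  rw [div_mul_eq_mul_div, div_le_iff₀ (by positivity)]
  nlinarith

variable (M p) in
/-- The corner. -/
def Cn (hp : star p = p) : NonUnitalStarSubalgebra ℂ (H →L[ℂ] H) where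
  carrier := {m | m ∈ M ∧ p * m = m ∧ m * p = m}
  add_mem' := fun a b => ⟨add_mem a.1 b.1, by rw [mul_add, a.2.1, b.2.1], by rw [add_mul, a.2.2, b.2.2]⟩
  zero_mem' := ⟨zero_mem _, mul_zero _, zero_mul _⟩
  mul_mem' := fun a b => ⟨mul_mem a.1 b.1, by rw [← mul_assoc, a.2.1], by rw [mul_assoc, b.2.2]⟩
  smul_mem' := fun c _ a => ⟨smul_mem_M a.1 c, by rw [mul_smul_comm, a.2.1], by rw [smul_mul_assoc, a.2.2]⟩
  star_mem' := fun a => ⟨star_mem a.1, by simpa [hp] using congrArg star a.2.2,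
    by simpa [hp] using congrArg star a.2.1⟩

theorem iso (hA : IsMASA M A) (h : IsSplit M A π Ω p) (h0 : Ω ≠ 0) (hm : m ∈ M) (h1 : p * m = m)
    (h2 : m * p = m) : ‖cp M p π Ω m‖ = ‖m‖ := by
  have hp := h.proj.isSelfAdjoint.star_eq
  haveI : IsClosed (Cn M p hp : Set (H →L[ℂ] H)) :=
    (closed_M M).inter ((isClosed_eq (by fun_prop) continuous_id).inter
      (isClosed_eq (by fun_prop) continuous_id))
  let ψ : Cn M p hp →⋆ₙₐ[ℂ] (KK M p π Ω →L[ℂ] KK M p π Ω) :=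
    { toFun := fun a => cp M p π Ω a
      map_smul' := fun c a => map_smul (cp M p π Ω) c a.1
      map_zero' := map_zero (cp M p π Ω)
      map_add' := fun a b => map_add (cp M p π Ω) a.1 b.1
      map_mul' := fun a b => by
        rw [← cp_mul hA h a.2.1 b.2.1, a.2.2.2]
        rfl
      map_star' := fun a => cp_star hA h a.2.1 }
  exact NonUnitalStarAlgHom.norm_map ψ ((injective_iff_map_eq_zero ψ).2 fun a ha =>
    Subtype.ext (sep hA h h0 a.2.1 a.2.2.1 a.2.2.2 (by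
      rw [show cp M p π Ω a = 0 from ha]
      rfl))) ⟨m, hm, h1, h2⟩

/-- The image of the corner. -/
def NN (hA : IsMASA M A) (h : IsSplit M A π Ω p) :
    StarSubalgebra ℂ (KK M p π Ω →L[ℂ] KK M p π Ω) where
  carrier := {T | ∃ m ∈ M, p * m = m ∧ m * p = m ∧ cp M p π Ω m = T}
  add_mem' := by
    rintro _ _ ⟨a, a1, a2, a3, rfl⟩ ⟨b, b1, b2, b3, rfl⟩
    exact ⟨a + b, add_mem a1 b1, by rw [mul_add, a2, b2], by rw [add_mul, a3, b3], map_add _ _ _⟩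
  mul_mem' := by
    rintro _ _ ⟨a, a1, a2, a3, rfl⟩ ⟨b, b1, b2, b3, rfl⟩
    exact ⟨a * b, mul_mem a1 b1, by rw [← mul_assoc, a2], by rw [mul_assoc, b3],
      by rw [← cp_mul hA h a1 b1, a3]⟩
  algebraMap_mem' := fun c => ⟨c • p, smul_mem_M (hA.1 p h.mem) c, by rw [mul_smul_comm, ppp h],
    by rw [smul_mul_assoc, ppp h], by rw [map_smul, cp_one hA h, Algebra.algebraMap_eq_smul_one]⟩
  star_mem' := by
    rintro _ ⟨a, a1, a2, a3, rfl⟩
    have hp := h.proj.isSelfAdjoint.star_eq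
    exact ⟨star a, star_mem a1, by simpa [hp] using congrArg star a3,
      by simpa [hp] using congrArg star a2, cp_star hA h a1⟩

/-- The image of the abelian corner. -/
def AA (hA : IsMASA M A) (h : IsSplit M A π Ω p) :
    StarSubalgebra ℂ (KK M p π Ω →L[ℂ] KK M p π Ω) where
  carrier := {T | ∃ a ∈ A, p * a = a ∧ cp M p π Ω a = T}
  add_mem' := by
    rintro _ _ ⟨a, a1, a2, rfl⟩ ⟨b, b1, b2, rfl⟩
    exact ⟨a + b, add_mem a1 b1, by rw [mul_add, a2, b2], map_add _ _ _⟩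
  mul_mem' := by
    rintro _ _ ⟨a, a1, a2, rfl⟩ ⟨b, b1, b2, rfl⟩
    exact ⟨a * b, mul_mem a1 b1, by rw [← mul_assoc, a2],
      by rw [← cp_mul hA h (hA.1 a a1) (hA.1 b b1), mul_assoc, b2]⟩
  algebraMap_mem' := fun c => ⟨c • p, A.smul_mem h.mem c, by rw [mul_smul_comm, ppp h],
    by rw [map_smul, cp_one hA h, Algebra.algebraMap_eq_smul_one]⟩
  star_mem' := by
    rintro _ ⟨a, a1, a2, rfl⟩
    have hp := h.proj.isSelfAdjoint.star_eq
    refine ⟨star a, star_mem a1, ?_, cp_star hA h (hA.1 a a1)⟩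
    rw [hA.2.1 p h.mem _ (star_mem a1)]
    simpa [hp] using congrArg star a2

theorem nrm_lim (h : IsSplit M A π Ω p) {d : ℕ → H →L[ℂ] H} (hd : ∀ n, d n ∈ M) {B : ℝ}
    (hB : ∀ n, ‖d n‖ ≤ B) (h1 : ∀ ξ, Tendsto (fun n => d n ξ) atTop (𝓝 0)) :
    Tendsto (fun n => π (d n) Ω) atTop (𝓝 0) := by
  have B0 : 0 ≤ B := (norm_nonneg _).trans (hB 0)
  refine Metric.tendsto_nhds.2 fun ε hε => ?_
  obtain ⟨G, C, -, hC⟩ := h.nrm (ε / 2 / (B + 1)) (by positivity)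
  have t : Tendsto (fun n => C * ∑ η ∈ G, ‖d n η‖) atTop (𝓝 (C * ∑ η ∈ G, ‖(0 : H)‖)) :=
    (tendsto_finsetSum _ fun η _ => (h1 η).norm).const_mul C
  simp only [norm_zero, sum_const_zero, mul_zero] at t
  filter_upwards [t.eventually (gt_mem_nhds (half_pos hε))] with n hn
  rw [dist_zero_right]
  have k : ε / 2 / (B + 1) * ‖d n‖ ≤ ε / 2 := by
    rw [div_mul_eq_mul_div, div_le_iff₀ (by positivity)]
    have := hB n
    nlinarith
  linarith [hC _ (hd n)]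

theorem key (hA : IsMASA M A) (h : IsSplit M A π Ω p) (h0 : Ω ≠ 0)
    {T : KK M p π Ω →L[ℂ] KK M p π Ω}
    (hT : T ∈ Set.centralizer (Set.centralizer (NN hA h : Set (KK M p π Ω →L[ℂ] KK M p π Ω))))
    (hs : IsSelfAdjoint T) (hn : ‖T‖ ≤ 1) (hm' : m' ∈ M) (h' : p * m' = m') :
    ∃ m ∈ M, p * m = m ∧ m * p = m ∧ cp M p π Ω m (om hA h) = T (om hA h) ∧
      cp M p π Ω m (cp M p π Ω m' (om hA h)) = T (cp M p π Ω m' (om hA h)) := by
  have ex : ∀ n : ℕ, ∃ y ∈ M, p * y = y ∧ y * p = y ∧ ‖y‖ ≤ 1 ∧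
      ∀ v ∈ ({om hA h, cp M p π Ω m' (om hA h)} : Finset (KK M p π Ω)),
        ‖(T - cp M p π Ω y) v‖ < 1 / ((n : ℝ) + 1) := fun n => by
    obtain ⟨_, ⟨y, y1, y2, y3, rfl⟩, -, k1, k2⟩ := kaplansky hT hs hn
      {om hA h, cp M p π Ω m' (om hA h)} (Nat.one_div_pos_of_nat (n := n))
    exact ⟨y, y1, y2, y3, by rwa [iso hA h h0 y1 y2 y3] at k1, k2⟩
  choose y y1 y2 y3 y4 y5 using ex
  have t1 : ∀ v ∈ ({om hA h, cp M p π Ω m' (om hA h)} : Finset (KK M p π Ω)),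
      Tendsto (fun n => cp M p π Ω (y n) v) atTop (𝓝 (T v)) := fun v hv => by
    rw [tendsto_iff_norm_sub_tendsto_zero]
    refine squeeze_zero (fun _ => norm_nonneg _) (fun n => ?_) tendsto_one_div_add_atTop_nhds_zero_nat
    rw [norm_sub_rev]
    exact (y5 n v hv).le
  have h1 : ∀ ξ, CauchySeq fun n => y n ξ := fun ξ => by
    refine Metric.cauchySeq_iff'.2 fun ε hε => ?_
    obtain ⟨C, C0, hC⟩ := cp_ac hA h h0 ξ (ε / 4) (by positivity)
    obtain ⟨N, hN⟩ := Metric.cauchySeq_iff'.1 (t1 _ (mem_insert_self _ _)).cauchySeq (ε / 2 / (C + 1))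
      (by positivity)
    refine ⟨N, fun n hn => ?_⟩
    have e1 := hN n hn
    have e2 := hC (y n - y N) (sub_mem (y1 n) (y1 N)) (by rw [mul_sub, y2, y2])
    rw [← ContinuousLinearMap.mul_apply, sub_mul, y3, y3, map_sub, ContinuousLinearMap.sub_apply,
      ContinuousLinearMap.sub_apply] at e2
    rw [dist_eq_norm] at e1 ⊢
    rw [lt_div_iff₀ (by positivity)] at e1
    have e3 := norm_sub_le (y n) (y N)
    have e4 := norm_nonneg (cp M p π Ω (y n) (om hA h) - cp M p π Ω (y N) (om hA h))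
    nlinarith [y4 n, y4 N]
  choose f hf using fun ξ => cauchySeq_tendsto_of_complete (h1 ξ)
  obtain ⟨m, hm⟩ : ∃ m : H →L[ℂ] H, ∀ ξ, Tendsto (fun n => y n ξ) atTop (𝓝 (m ξ)) :=
    ⟨continuousLinearMapOfTendsto y (tendsto_pi_nhds.2 hf), hf⟩
  have mM : m ∈ M := mem_of_comm fun S hS => by
    ext ξ
    exact tendsto_nhds_unique ((S.continuous.tendsto _).comp (hm ξ))
      ((hm (S ξ)).congr fun n => comm_apply hS (y1 n) ξ)
  have m2 : p * m = m := by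
    ext ξ
    exact tendsto_nhds_unique ((p.continuous.tendsto _).comp (hm ξ))
      ((hm ξ).congr fun n => (congrArg (fun S : H →L[ℂ] H => S ξ) (y2 n)).symm)
  have m3 : m * p = m := by
    ext ξ
    exact tendsto_nhds_unique (hm (p ξ)) ((hm ξ).congr fun n =>
      (congrArg (fun S : H →L[ℂ] H => S ξ) (y3 n)).symm)
  have t2 : ∀ b ∈ M, p * b = b → Tendsto (fun n => cp M p π Ω (y n) (cp M p π Ω b (om hA h))) atTop
      (𝓝 (cp M p π Ω m (cp M p π Ω b (om hA h)))) := fun b hb e => by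
    have k := nrm_lim h (d := fun n => (y n - m) * b) (fun n => mul_mem (sub_mem (y1 n) mM) hb)
      (B := (1 + ‖m‖) * ‖b‖) (fun n => (norm_mul_le _ _).trans (mul_le_mul_of_nonneg_right
        ((norm_sub_le _ _).trans (add_le_add (y4 n) le_rfl)) (norm_nonneg _))) fun ξ =>
      tendsto_sub_nhds_zero_iff.2 (hm (b ξ))
    have k2 := k.const_smul ((‖Ω‖⁻¹ : ℝ) : ℂ)
    rw [smul_zero] at k2
    refine tendsto_subtype_rng.2 (tendsto_sub_nhds_zero_iff.1 (k2.congr fun n => ?_))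
    rw [cp_coe hA h (y1 n), cp_coe hA h mM, cp_om hA h hb e, y2, m2, map_smul, map_smul, app, app,
      ← smul_sub, sub_mul, map_sub]
    rfl
  refine ⟨m, mM, m2, m3, ?_, tendsto_nhds_unique (t2 m' hm' h') (t1 _ (by simp))⟩
  have := t2 p (hA.1 p h.mem) (ppp h)
  rw [cp_one hA h] at this
  exact tendsto_nhds_unique this (t1 _ (mem_insert_self _ _))

theorem dns (hA : IsMASA M A) (h : IsSplit M A π Ω p) (h0 : Ω ≠ 0) :
    Dense {ξ | ∃ T ∈ NN hA h, T (om hA h) = ξ} := fun v => by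
  refine Metric.mem_closure_iff.2 fun ε hε => ?_
  obtain ⟨_, ⟨a, a1, a2, rfl⟩, d⟩ := Metric.mem_closure_iff.1 v.2 ε hε
  have k1 : ((‖Ω‖ : ℝ) : ℂ) • (a * p) ∈ M := smul_mem_M (mul_mem a1 (hA.1 p h.mem)) _
  have k2 : p * (((‖Ω‖ : ℝ) : ℂ) • (a * p)) = ((‖Ω‖ : ℝ) : ℂ) • (a * p) := by
    rw [mul_smul_comm, ← mul_assoc, a2]
  refine ⟨_, ⟨_, ⟨_, k1, k2, by rw [smul_mul_assoc, mul_assoc, ppp h], rfl⟩, rfl⟩, ?_⟩
  have e : π (((‖Ω‖ : ℝ) : ℂ) • (a * p)) Ω = ((‖Ω‖ : ℝ) : ℂ) • π a Ω := by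
    rw [map_smul, ContinuousLinearMap.smul_apply, ← app, h.fix]
  rw [Subtype.dist_eq, cp_om hA h k1 k2, e, smul_smul, ← Complex.ofReal_mul,
    inv_mul_cancel₀ (norm_ne_zero_iff.2 h0), Complex.ofReal_one, one_smul]
  exact d

theorem bic_sa (hA : IsMASA M A) (h : IsSplit M A π Ω p) (h0 : Ω ≠ 0)
    {T : KK M p π Ω →L[ℂ] KK M p π Ω}
    (hT : T ∈ Set.centralizer (Set.centralizer (NN hA h : Set (KK M p π Ω →L[ℂ] KK M p π Ω))))
    (hs : IsSelfAdjoint T) (hn : ‖T‖ ≤ 1) : T ∈ NN hA h := by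
  obtain ⟨m, m1, m2, m3, m4, -⟩ := key hA h h0 hT hs hn (hA.1 p h.mem) (ppp h)
  refine ⟨m, m1, m2, m3, ContinuousLinearMap.ext fun v => congrFun (Continuous.ext_on (dns hA h h0)
    (cp M p π Ω m).continuous T.continuous ?_) v⟩
  rintro _ ⟨_, ⟨b, b1, b2, -, rfl⟩, rfl⟩
  obtain ⟨n, n1, n2, n3, n4, n5⟩ := key hA h h0 hT hs hn b1 b2
  have e : m - n = 0 := sep hA h h0 (sub_mem m1 n1) (by rw [mul_sub, m2, n2]) (by rw [sub_mul, m3, n3])
    (by rw [map_sub, ContinuousLinearMap.sub_apply, m4, n4, sub_self])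
  rw [sub_eq_zero.1 e]
  exact n5

theorem bic_gen (N : StarSubalgebra ℂ (K →L[ℂ] K))
    (hN : ∀ T ∈ Set.centralizer (Set.centralizer (N : Set (K →L[ℂ] K))), IsSelfAdjoint T → ‖T‖ ≤ 1 →
      T ∈ N) : Set.centralizer (Set.centralizer (N : Set (K →L[ℂ] K))) = N := by
  refine Set.Subset.antisymm (fun T hT => ?_) Set.subset_centralizer_centralizer
  have sm : ∀ (c : ℂ) S, S ∈ Set.centralizer (Set.centralizer (N : Set (K →L[ℂ] K))) →
      c • S ∈ Set.centralizer (Set.centralizer (N : Set (K →L[ℂ] K))) := fun c S hS R hR => by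
    rw [mul_smul_comm, smul_mul_assoc, hS R hR]
  have sa : ∀ S, S ∈ Set.centralizer (Set.centralizer (N : Set (K →L[ℂ] K))) → IsSelfAdjoint S →
      S ∈ N := fun S hS hs => by
    have k := hN _ (sm (((‖S‖ + 1)⁻¹ : ℝ) : ℂ) S hS) (by
      rw [IsSelfAdjoint, star_smul, hs.star_eq]; simp) (by
      rw [norm_smul, Complex.norm_real, Real.norm_of_nonneg (by positivity),
        inv_mul_le_iff₀ (by positivity)]
      linarith)
    have k2 := N.smul_mem k (((‖S‖ + 1) : ℝ) : ℂ)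
    rwa [smul_smul, ← Complex.ofReal_mul, mul_inv_cancel₀ (by positivity), Complex.ofReal_one,
      one_smul] at k2
  have st : star T ∈ Set.centralizer (Set.centralizer (N : Set (K →L[ℂ] K))) :=
    Set.star_mem_centralizer' (fun _ ha => Set.star_mem_centralizer' (fun _ hb => star_mem hb) ha) hT
  have k1 := sa _ (Set.add_mem_centralizer hT st) (by simp [IsSelfAdjoint, add_comm])
  have k2 := sa _ (Set.add_mem_centralizer (sm Complex.I _ hT) (sm (-Complex.I) _ st))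
    (by simp [IsSelfAdjoint, add_comm])
  have k3 := N.smul_mem (add_mem k1 (N.smul_mem k2 (-Complex.I))) (1 / 2 : ℂ)
  have e : (1 / 2 : ℂ) • (T + star T + -Complex.I • (Complex.I • T + -Complex.I • star T)) = T := by
    simp only [smul_add, smul_smul, neg_mul, mul_neg, Complex.I_mul_I, neg_neg]
    module
  rwa [e] at k3

end Rd

open Rd in
theorem exists_red.{v} {K : Type v} [NormedAddCommGroup K] [InnerProductSpace ℂ K] [CompleteSpace K]
    {π : (H →L[ℂ] H) →⋆ₐ[ℂ] (K →L[ℂ] K)} {Ω : K} (hA : IsMASA M A) (h : IsSplit M A π Ω p) (h0 : Ω ≠ 0) :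
    ∃ (K' : Type v) (_ : NormedAddCommGroup K') (_ : InnerProductSpace ℂ K') (_ : CompleteSpace K')
      (M' : VonNeumannAlgebra K') (A' : StarSubalgebra ℂ (K' →L[ℂ] K')) (Ω' : K')
      (Φ : (H →L[ℂ] H) →ₗ[ℂ] (K' →L[ℂ] K')), IsRed M A p M' A' Ω' Φ := by
  let M' : VonNeumannAlgebra (KK M p π Ω) := ⟨NN hA h, bic_gen _ fun _ a b c => bic_sa hA h h0 a b c⟩
  have ap : ∀ a ∈ A, p * a = a → a * p = a := fun a a1 a2 => by rw [← hA.2.1 p h.mem a a1, a2]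
  have n0 := norm_ne_zero_iff.2 h0
  refine ⟨KK M p π Ω, inferInstance, inferInstance, inferInstance, M', AA hA h, om hA h, cp M p π Ω,
    ⟨⟨?_, ⟨?_, ⟨?_, ?_, fun B B1 B2 B3 => le_antisymm (fun T hT => ?_) B3⟩, dns hA h h0⟩, ?_⟩,
    fun _ => Iff.rfl, fun _ => Iff.rfl, cp_one hA h, fun _ a _ b => cp_mul hA h a b,
    fun _ a => cp_star hA h a, fun _ a b c => iso hA h h0 a b c, cp_ac hA h h0⟩⟩
  · rw [om, norm_smul, Complex.norm_real, norm_inv, norm_norm]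
    exact inv_mul_cancel₀ n0
  · rintro _ ⟨a, a1, a2, rfl⟩ _ ⟨m, m1, m2, m3, rfl⟩
    have aM := hA.1 a a1
    have e : ((om hA h : KK M p π Ω) : K) = ((‖Ω‖⁻¹ : ℝ) : ℂ) • Ω := rfl
    rw [← cp_mul hA h aM m1, ← cp_mul hA h m1 aM, ap a a1 a2, m3, tau, tau, Submodule.coe_inner,
      Submodule.coe_inner, cp_om hA h (mul_mem aM m1) (by rw [← mul_assoc, a2]),
      cp_om hA h (mul_mem m1 aM) (by rw [← mul_assoc, m2]), e, inner_smul_left, inner_smul_left,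
      inner_smul_right, inner_smul_right, h.cen a a1 m m1]
  · rintro _ ⟨a, a1, a2, rfl⟩
    exact ⟨a, hA.1 a a1, a2, ap a a1 a2, rfl⟩
  · rintro _ ⟨a, a1, a2, rfl⟩ _ ⟨b, b1, b2, rfl⟩
    rw [← cp_mul hA h (hA.1 a a1) (hA.1 b b1), ← cp_mul hA h (hA.1 b b1) (hA.1 a a1), ap a a1 a2,
      ap b b1 b2, hA.2.1 a a1 b b1]
  · obtain ⟨m, m1, m2, m3, rfl⟩ := B1 T hT
    refine ⟨m, comm_mem hA m1 fun a a1 => ?_, m2, rfl⟩
    have aM := hA.1 a a1
    have pa := mul_mem h.mem a1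
    have k := B2 _ hT _ (B3 (⟨p * a, pa, by rw [← mul_assoc, ppp h], rfl⟩ : cp M p π Ω (p * a) ∈ AA hA h))
    have c := hA.2.1 p h.mem a a1
    have e1 : m * p * (p * a) = m * a := by rw [m3, ← mul_assoc, m3]
    have e2 : p * a * p * m = a * m := by rw [c, mul_assoc, m2, mul_assoc, m2]
    rw [← cp_mul hA h m1 (hA.1 _ pa), ← cp_mul hA h (hA.1 _ pa) m1, e1, e2] at k
    refine sub_eq_zero.1 (sep hA h h0 (sub_mem (mul_mem m1 aM) (mul_mem aM m1)) ?_ ?_ ?_)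
    · rw [mul_sub, ← mul_assoc, m2, ← mul_assoc, c, mul_assoc, m2]
    · rw [sub_mul, mul_assoc, ← c, ← mul_assoc, m3, mul_assoc, m3]
    · rw [map_sub, k, sub_self]
      rfl
  · rintro _ ⟨m, m1, m2, m3, rfl⟩ e
    rw [sep hA h h0 m1 m2 m3 e, map_zero]

end Vale.Agent.P078.G
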