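import Mathlib

/-!
Real-number lemma for `stepD`: turns a modulus `D γ` into the bound `θ + K θ * Δ + ε`.
-/

namespace Vale.Agent.P078.G

theorem sda (D : ℝ → ℝ) (hD : ∀ γ, 0 < γ → 0 < D γ) :
    ∃ K : ℝ → ℝ, (∀ θ, 0 ≤ K θ) ∧ ∀ ε Δ : ℝ, 0 < ε → 0 ≤ Δ →
      ∃ γ, 0 < γ ∧ (Δ ≤ D γ ∨ 1 ≤ γ) ∧ ∀ θ, 0 < θ → γ ≤ θ + K θ * Δ + ε := by
  refine ⟨fun θ => if 0 < θ then 1 / D θ else 0, fun θ => ?_, fun ε Δ hε hΔ => ?_⟩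
  · by_cases h : 0 < θ
    · simp only [if_pos h]
      exact (one_div_pos.2 (hD θ h)).le
    · simp only [if_neg h, le_refl]
  · have ne : ({γ : ℝ | 0 < γ ∧ (Δ ≤ D γ ∨ 1 ≤ γ)}).Nonempty := ⟨1, one_pos, .inr le_rfl⟩
    have bd : BddBelow {γ : ℝ | 0 < γ ∧ (Δ ≤ D γ ∨ 1 ≤ γ)} := ⟨0, fun γ h => h.1.le⟩
    obtain ⟨γ, ⟨g0, g1⟩, g2⟩ := Real.lt_sInf_add_pos ne hε
    refine ⟨γ, g0, g1, fun θ hθ => ?_⟩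
    simp only [if_pos hθ]
    have d0 := hD θ hθ
    by_cases h : Δ ≤ D θ
    · have k : sInf {γ : ℝ | 0 < γ ∧ (Δ ≤ D γ ∨ 1 ≤ γ)} ≤ θ := csInf_le bd ⟨hθ, .inl h⟩
      have : 0 ≤ 1 / D θ * Δ := by positivity
      linarith
    · have k : sInf {γ : ℝ | 0 < γ ∧ (Δ ≤ D γ ∨ 1 ≤ γ)} ≤ 1 := csInf_le bd ⟨one_pos, .inr le_rfl⟩
      have : 1 ≤ 1 / D θ * Δ := by
        rw [one_div_mul_eq_div, le_div_iff₀ d0]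
        linarith [not_le.1 h]
      linarith

end Vale.Agent.P078.G
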