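import Vale.Agent.P078.X.Pin
import Vale.Agent.P078.G.Sg
import Vale.Agent.P078.G.Lazy

/-!
ROUND X (non-tracial copy of the G file). CHANGES: `cell_two` exposes the left factor `L`; `‖tau (L T R)‖ ≤ ‖T* (L* Ω)‖` and `tendsto_vec` for `star Z` on the finitely many vectors `L* Ω` replace `tau_le3`.

One level of lazy seeds: the structure of one-cell sums, and the trace of a word.

PLAN. `sgL`: the multilinear map `s ↦ sg U (fun t => a t * Σ_l s t l • e_l) i n` (slots `t : Fin n` at position `i + t`; use `sg_split` for linearity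
in one slot, or induction on `n`). `cell`: for `β` with least element `t` : `sg` with slots `a * e_l` on `β` and `a` off `β`. If `β = {t}` it is
`(L a) e_l R` with `L = sg U a i t`, `R = sg U a (i+t+1) (n-t-1)`. If `t < t'` are the two least elements it is `L' e_l (S_P Z) R'` where
`Z = sg U a (i+t+1) (t'-t-1)` and `L', R'` are contractions of `M` that do not depend on `l` (`e_l Z e_l = e_l S_P Z`, `S_P` of anything commutes with `e_l`;
induction on `n`: the product from the first to the last cell is `e_l` times a product of pinchings and of the `a`).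
`stepT`: `lazy n` for `tau ∘ sgL`; `Σ_l` gives `tau (L' (S_P Z) R')`, of norm `≤ ‖S_P Z Ω‖ ≤ η` eventually (`tendsto_S`, finitely many `Z`).
-/

open Finset Filter
open scoped Classical

namespace Vale.Agent.P078.G

variable {H : Type*} [NormedAddCommGroup H] [InnerProductSpace ℂ H] [CompleteSpace H]
  {M : VonNeumannAlgebra H} {A : StarSubalgebra ℂ (H →L[ℂ] H)} {Ω : H}
  {E : (H →L[ℂ] H) → H →L[ℂ] H}

variable {U a : ℕ → H →L[ℂ] H} {i n : ℕ}

/-- Slot values: `a t` times a combination of the cells. -/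
noncomputable def sl (P : Part A) (a : ℕ → H →L[ℂ] H) (i : ℕ) {n : ℕ} (s : Fin n → P.ι → ℂ) (t : ℕ) :
    H →L[ℂ] H := if h : t - i < n then a t * ∑ l, s ⟨t - i, h⟩ l • P.e l else a t

namespace ST

omit [CompleteSpace H] in
theorem split (U S : ℕ → H →L[ℂ] H) (i : ℕ) {t n : ℕ} (ht : t < n) :
    sg U S i n = sg U S i t * S (i + t) * sg U S (i + t + 1) (n - t - 1) := by
  have := sg_split U S i t (n - t - 1)
  rwa [show t + 1 + (n - t - 1) = n by omega] at this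

theorem sl_at (P : Part A) (a : ℕ → H →L[ℂ] H) (i : ℕ) (s : Fin n → P.ι → ℂ) (t : Fin n) :
    sl P a i s (i + t) = a (i + t) * ∑ l, s t l • P.e l := by
  simp [sl]

theorem sl_congr (P : Part A) (a : ℕ → H →L[ℂ] H) (i : ℕ) {s s' : Fin n → P.ι → ℂ} {u : ℕ}
    (h : ∀ t : Fin n, (t : ℕ) = u - i → s t = s' t) : sl P a i s u = sl P a i s' u := by
  unfold sl
  split_ifs with h1
  · rw [h ⟨u - i, h1⟩ rfl]
  · rfl

theorem sl_off (P : Part A) (a : ℕ → H →L[ℂ] H) (i : ℕ) {s : Fin n → P.ι → ℂ} {u : ℕ}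
    (h : ∀ t : Fin n, (t : ℕ) = u - i → s t = 1) : sl P a i s u = a u := by
  unfold sl
  split_ifs with h1
  · rw [h ⟨u - i, h1⟩ rfl]
    simp [P.sum]
  · rfl

theorem sum_single (P : Part A) (l : P.ι) :
    ∑ l', (Pi.single l 1 : P.ι → ℂ) l' • P.e l' = P.e l := by
  rw [sum_eq_single l (fun j _ hj => by simp [hj]) (by simp)]
  simp

theorem upd [DecidableEq (Fin n)] (P : Part A) (U a : ℕ → H →L[ℂ] H) (i : ℕ) (s : Fin n → P.ι → ℂ)
    (t : Fin n) (v : P.ι → ℂ) : sg U (sl P a i (Function.update s t v)) i n =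
      sg U (sl P a i s) i t * (a (i + t) * ∑ l, v l • P.e l) *
        sg U (sl P a i s) (i + t + 1) (n - t - 1) := by
  rw [split U _ i t.2, sl_at, Function.update_self,
    sg_congr (U' := U) (s' := sl P a i s) (n := t) (fun _ _ _ => rfl) fun u h1 h2 =>
      sl_congr P a i fun t' h => Function.update_of_ne (fun e => by subst e; omega) _ _,
    sg_congr (U' := U) (s' := sl P a i s) (i := i + t + 1) (fun _ _ _ => rfl) fun u h1 h2 =>
      sl_congr P a i fun t' h => Function.update_of_ne (fun e => by subst e; omega) _ _]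

theorem tail (hA : IsMASA M A) (P : Part A) {S : P.ι → ℕ → H →L[ℂ] H} {j m : ℕ}
    (hU : ∀ t, j ≤ t → t ≤ j + m → U t ∈ M ∧ ‖U t‖ ≤ 1) (ha : ∀ t, a t ∈ A ∧ ‖a t‖ ≤ 1)
    (hS : ∀ u, (∀ l, S l u = a u) ∨ ∀ l, S l u = a u * P.e l) :
    ∃ R ∈ M, ‖R‖ ≤ 1 ∧ ∀ l, P.e l * sg U (S l) j m = P.e l * R := by
  induction m with
  | zero => exact ⟨U j, (hU j le_rfl le_rfl).1, (hU j le_rfl le_rfl).2, fun l => rfl⟩
  | succ m ih =>
    obtain ⟨R, R1, R2, R3⟩ := ih fun t h1 h2 => hU t h1 (by omega)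
    have u := hU (j + m + 1) (by omega) (by omega)
    have m1 : R * a (j + m) ∈ M := mul_mem R1 (hA.1 _ (ha _).1)
    have n1 : ‖R * a (j + m)‖ ≤ 1 :=
      (norm_mul_le _ _).trans (mul_le_one₀ R2 (norm_nonneg _) (ha _).2)
    rcases hS (j + m) with h | h
    · refine ⟨R * a (j + m) * U (j + m + 1), mul_mem m1 u.1,
        (norm_mul_le _ _).trans (mul_le_one₀ n1 (norm_nonneg _) u.2), fun l => ?_⟩
      rw [sg, h, ← mul_assoc, ← mul_assoc, R3]
      simp only [mul_assoc]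
    · refine ⟨P.S (R * a (j + m)) * U (j + m + 1), mul_mem (S_mem hA P m1) u.1,
        (norm_mul_le _ _).trans (mul_le_one₀ ((S_norm P _).trans n1) (norm_nonneg _) u.2), fun l => ?_⟩
      rw [sg, h, ← mul_assoc, ← mul_assoc, R3, ← mul_assoc (P.e l) (P.S _), PinAux.e_S]
      simp only [mul_assoc]

/-- The trace as a linear map. -/
noncomputable def tauL (Ω : H) : (H →L[ℂ] H) →ₗ[ℂ] ℂ where
  toFun := tau Ω
  map_add' := tau_add
  map_smul' := tau_smul

theorem tau_le2 (hΩ : ‖Ω‖ = 1) (L : H →L[ℂ] H) {R : H →L[ℂ] H} (h2 : ‖R‖ ≤ 1) :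
    ‖tau Ω (L * R)‖ ≤ ‖star L Ω‖ := by
  rw [tau_mul]
  refine (norm_inner_le_norm _ _).trans (mul_le_of_le_one_right (norm_nonneg _) ?_)
  exact (R.le_opNorm Ω).trans (by rw [hΩ, mul_one]; exact h2)

end ST

theorem sgL (P : Part A) (U a : ℕ → H →L[ℂ] H) (i n : ℕ) :
    ∃ F : MultilinearMap ℂ (fun _ : Fin n => P.ι → ℂ) (H →L[ℂ] H),
      ∀ s, F s = sg U (sl P a i s) i n :=
  ⟨{ toFun := fun s => sg U (sl P a i s) i n
     map_update_add' := fun s t x y => by
       simp only [ST.upd, Pi.add_apply, add_smul, sum_add_distrib, mul_add, add_mul]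
     map_update_smul' := fun s t c x => by
       simp only [ST.upd, Pi.smul_apply, smul_eq_mul, mul_smul, ← smul_sum, mul_smul_comm,
         smul_mul_assoc] }, fun _ => rfl⟩

theorem sl_one (P : Part A) (U a : ℕ → H →L[ℂ] H) (i n : ℕ) :
    sg U (sl P a i (1 : Fin n → P.ι → ℂ)) i n = sg U a i n :=
  sg_congr (fun _ _ _ => rfl) fun _ _ _ => ST.sl_off P a i fun _ _ => rfl

theorem sl_bd (hA : IsMASA M A) (P : Part A) (hU : ∀ t, i ≤ t → t ≤ i + n → U t ∈ M ∧ ‖U t‖ ≤ 1)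
    (ha : ∀ t, a t ∈ A ∧ ‖a t‖ ≤ 1) {s : Fin n → P.ι → ℂ} (hs : ∀ t l, ‖s t l‖ ≤ 1) :
    sg U (sl P a i s) i n ∈ M ∧ ‖sg U (sl P a i s) i n‖ ≤ 1 := by
  have k : ∀ t, sl P a i s t ∈ M ∧ ‖sl P a i s t‖ ≤ 1 := fun t => by
    unfold sl
    split_ifs with h
    · exact ⟨hA.1 _ (mul_mem (ha t).1 (sum_mem fun l _ => A.smul_mem (P.mem l) _)),
        (norm_mul_le _ _).trans (mul_le_one₀ (ha t).2 (norm_nonneg _) (norm_comb P (hs _)))⟩
    · exact ⟨hA.1 _ (ha t).1, (ha t).2⟩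
  exact ⟨sg_mem (fun t h1 h2 => (hU t h1 h2).1) fun t _ _ => (k t).1,
    sg_norm (fun t h1 h2 => (hU t h1 h2).2) fun t _ _ => (k t).2⟩

theorem sl_lz {r : ℕ} [NeZero r] (P : Part A) (U a : ℕ → H →L[ℂ] H) (k : ℕ → ZMod r) (i n : ℕ)
    (ω : P.ι → Option (ZMod r)) :
    sg U (sl P a i fun (t : Fin n) l => chi (k (i + t)) (ω l)) i n =
      sg U (fun t => a t * (P.lz ω).W (k t)) i n := by
  refine sg_congr (fun _ _ _ => rfl) fun t h1 h2 => ?_
  obtain ⟨u, rfl⟩ := Nat.exists_eq_add_of_le h1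
  exact ST.sl_at P a i _ ⟨u, by omega⟩

theorem cell_one (P : Part A) (U a : ℕ → H →L[ℂ] H) (i : ℕ) (t : Fin n) (l : P.ι) :
    sg U (sl P a i fun u : Fin n => if u ∈ ({t} : Finset (Fin n)) then Pi.single l 1 else 1) i n =
      sg U a i t * a (i + t) * P.e l * sg U a (i + t + 1) (n - t - 1) := by
  rw [ST.split U _ i t.2, ST.sl_at, if_pos (mem_singleton_self t), ST.sum_single,
    sg_congr (U' := U) (s' := a) (n := t) (fun _ _ _ => rfl) fun u h1 h2 =>
      ST.sl_off P a i fun t' h => if_neg fun e => by rw [mem_singleton] at e; subst e; omega,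
    sg_congr (U' := U) (s' := a) (i := i + t + 1) (fun _ _ _ => rfl) fun u h1 h2 =>
      ST.sl_off P a i fun t' h => if_neg fun e => by rw [mem_singleton] at e; subst e; omega]
  simp only [mul_assoc]

theorem cell_two (hA : IsMASA M A) (P : Part A) (hU : ∀ t, i ≤ t → t ≤ i + n → U t ∈ M ∧ ‖U t‖ ≤ 1)
    (ha : ∀ t, a t ∈ A ∧ ‖a t‖ ≤ 1) {β : Finset (Fin n)} (hβ : 2 ≤ β.card) :
    ∃ j m, i < j ∧ j + m < i + n ∧ ∃ R ∈ M, ‖R‖ ≤ 1 ∧ ∀ l,
      sg U (sl P a i fun u : Fin n => if u ∈ β then Pi.single l 1 else 1) i n =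
        sg U a i (j - i - 1) * a (j - 1) * P.e l * P.S (sg U a j m) * R := by
  have ne : β.Nonempty := card_pos.1 (by omega)
  have ne' : (β.erase (β.min' ne)).Nonempty := card_pos.1 (by
    rw [card_erase_of_mem (min'_mem β ne)]; omega)
  obtain ⟨t, ht⟩ : ∃ t, t = β.min' ne := ⟨_, rfl⟩
  rw [← ht] at ne'
  obtain ⟨t', ht'⟩ : ∃ t', t' = (β.erase t).min' ne' := ⟨_, rfl⟩
  have b1 : t ∈ β := ht ▸ min'_mem β ne
  have b2 : t' ∈ β.erase t := ht' ▸ min'_mem _ ne'
  have l1 : ∀ u ∈ β, (t : ℕ) ≤ u := fun u hu => Fin.le_def.1 (ht ▸ min'_le β u hu)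
  have l2 : ∀ u ∈ β, u ≠ t → (t' : ℕ) ≤ u := fun u hu n =>
    Fin.le_def.1 (ht' ▸ min'_le _ u (mem_erase.2 ⟨n, hu⟩))
  have lt : (t : ℕ) < t' :=
    (l1 t' (mem_erase.1 b2).2).lt_of_ne fun e => (mem_erase.1 b2).1 (Fin.ext e.symm)
  have tn := t'.2
  obtain ⟨R, R1, R2, R3⟩ := ST.tail hA P (U := U) (a := a) (j := i + t' + 1) (m := n - t' - 1)
    (S := fun l => sl P a i fun u : Fin n => if u ∈ β then Pi.single l 1 else 1)
    (fun u h1 h2 => hU u (by omega) (by omega)) ha fun u => by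
      by_cases h : ∃ v ∈ β, (v : ℕ) = u - i
      · obtain ⟨v, v1, v2⟩ := h
        refine Or.inr fun l => ?_
        have hv : u - i < n := v2 ▸ v.2
        have e : v = ⟨u - i, hv⟩ := Fin.ext v2
        simp only [sl, dif_pos hv]
        rw [← e, if_pos v1, ST.sum_single]
      · exact Or.inl fun l => ST.sl_off P a i fun v hv => if_neg fun e => h ⟨v, e, hv⟩
  refine ⟨i + t + 1, t' - t - 1, by omega, by omega, a (i + t') * R, mul_mem (hA.1 _ (ha _).1) R1,
    (norm_mul_le _ _).trans (mul_le_one₀ (ha _).2 (norm_nonneg _) R2), fun l => ?_⟩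
  rw [show i + t + 1 - i - 1 = t by omega, show i + t + 1 - 1 = i + t by omega]
  have r3 := R3 l
  rw [ST.split U _ i t.2, ST.split U _ (i + t + 1) (show t' - t - 1 < n - t - 1 by omega),
    show i + t + 1 + (t' - t - 1) = i + t' by omega,
    show n - t - 1 - (t' - t - 1) - 1 = n - t' - 1 by omega, ST.sl_at, ST.sl_at, if_pos b1,
    if_pos (mem_erase.1 b2).2, ST.sum_single,
    sg_congr (U' := U) (s' := a) (i := i) (n := t) (fun _ _ _ => rfl) fun u h1 h2 =>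
      ST.sl_off P a i fun v h => if_neg fun e => by have := l1 v e; omega,
    sg_congr (U' := U) (s' := a) (i := i + t + 1) (fun _ _ _ => rfl) fun u h1 h2 =>
      ST.sl_off P a i fun v h => if_neg fun e => by
        have := l2 v e fun e' => by subst e'; omega
        omega,
    mul_assoc _ (a (i + t') * P.e l), mul_assoc (a (i + t')), r3, ← mul_assoc (a (i + t')),
    hA.2.1 _ (ha (i + t')).1 _ (P.mem l), mul_assoc _ (P.e l) (P.S _), PinAux.e_S]
  simp only [mul_assoc]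

theorem stepT (hA : IsMASA M A) (hΩ : IsCV M A Ω) (hE : IsE M A Ω E) (n : ℕ) :
    ∃ C : ℝ, 0 ≤ C ∧ ∀ (r : ℕ) [NeZero r] (U a : ℕ → H →L[ℂ] H) (k : ℕ → ZMod r) (i : ℕ) (ε η : ℝ),
    (∀ t, i ≤ t → t ≤ i + n → U t ∈ M ∧ ‖U t‖ ≤ 1) → (∀ t, a t ∈ A ∧ ‖a t‖ ≤ 1) →
    (∀ t, i ≤ t → t < i + n → k t ≠ 0) → 0 ≤ ε → ε ≤ 1 → 0 < η →
    (∀ j m, i < j → j + m < i + n → E (sg U a j m) = 0) →
    ∀ᶠ P : Part A in atTop, ‖∑ ω : P.ι → Option (ZMod r), ((∏ l, pw r ε (ω l) : ℝ) : ℂ) *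
      tau Ω (sg U (fun t => a t * (P.lz ω).W (k t)) i n) - (1 - n * ε) * tau Ω (sg U a i n)‖ ≤
        C * (ε * η + ε ^ 2) := by
  obtain ⟨C, C0, hC⟩ := lazy n
  refine ⟨C, C0, fun r _ U a k i ε η hU ha hk ε0 ε1 η0 hz => ?_⟩
  have ev : ∀ᶠ P : Part A in atTop, ∀ p ∈ range (i + n) ×ˢ range (i + n), i < p.1 → p.1 + p.2 < i + n →
      ‖P.S (star (sg U a p.1 p.2)) (star (sg U a i (p.1 - i - 1) * a (p.1 - 1)) Ω)‖ ≤ η := by
    refine (eventually_all_finset _).2 fun p _ => ?_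
    by_cases h : i < p.1 ∧ p.1 + p.2 < i + n
    · have m : sg U a p.1 p.2 ∈ M :=
        sg_mem (fun u h1 h2 => (hU u (by omega) (by omega)).1) fun u _ _ => hA.1 _ (ha u).1
      have t := (tendsto_vec hA hΩ hE (star_mem m) (star (sg U a i (p.1 - i - 1) * a (p.1 - 1)) Ω)).norm
      rw [hE.star _ m, hz _ _ h.1 h.2, star_zero, ContinuousLinearMap.zero_apply, norm_zero] at t
      filter_upwards [t.eventually (ge_mem_nhds η0)] with P hP _ _
      exact hP
    · exact Eventually.of_forall fun P h1 h2 => absurd ⟨h1, h2⟩ h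
  filter_upwards [ev] with P hP
  obtain ⟨F, hF⟩ := sgL P U a i n
  have e : ∀ s, (ST.tauL Ω).compMultilinearMap F s = tau Ω (sg U (sl P a i s) i n) := fun s => by
    rw [← hF]; rfl
  have := hC r (Fin n) P.ι (Fintype.card_fin n) ((ST.tauL Ω).compMultilinearMap F)
    (fun t => k (i + t)) (fun t => hk _ (by omega) (by have := t.2; omega)) (fun s hs => by
      rw [e]
      have b := sl_bd hA P hU ha hs
      simpa [hΩ.1] using ST.tau_le2 hΩ.1 1 b.2) η ε η0.le ε0 ε1 fun β hβ => by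
      obtain ⟨j, m, h1, h2, R, R1, R2, h⟩ := cell_two hA P hU ha hβ
      simp only [e, h]
      rw [← PinAux.tau_sum, ← sum_mul, ← sum_mul, ← mul_sum, P.sum, mul_one]
      refine (ST.tau_le2 hΩ.1 _ R2).trans ?_
      rw [star_mul, PinAux.S_star]
      exact hP (j, m) (mem_product.2 ⟨mem_range.2 (by omega), mem_range.2 (by omega)⟩) h1 h2
  simpa only [e, sl_lz, sl_one] using this

end Vale.Agent.P078.G
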