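import Vale.Agent.P078.X.Hol
import Vale.Agent.P078.X.StepT

/-!
ROUND X (non-tracial copy of the G file). CHANGES: `stepD0`: `Δ₀` from `mod_sg` with `Mod.norm`, `DD_star`, `stepb`; `E1` is about `‖(S_P Z)* (L* Ω)‖ ≤ γ²` (`tendsto_vec`, `norm_star_A`), `PhLG` is bounded by `‖G* L* Ω‖²`; if `1 ≤ γ` all bounds are trivial.
`stepD`: choose `Δ₀ γ`, `K θ = 1 / Δ₀ θ` (0 for `θ ≤ 0`), `s = sInf {γ | 0 < γ ∧ (Δ ≤ Δ₀ γ ∨ 1 ≤ γ)}`, take `γ < s + ε` in the set, `s ≤ θ + K θ Δ` for all `θ > 0`.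

One level of lazy seeds: the atomic part of a word.

PLAN. Fix `P` so fine that `‖S_P Z Ω‖ ≤ γ²` for all inner segments `Z` (`tendsto_S`, `‖E Z Ω‖ < γ²/2`) and `DQ P L, DQ P (star R) ≤ γ⁸/9` for the small
left/right parts (`ev_DQ`, `DD_star`; for the left part use `L = sg U a i t` and put `a (i+t)` to the right of `e_l`: they commute). Then take `Q` (`neBot`, finitely many
conditions) with `DQ Q (sg U a i n) ≤ DD + η/(4n+1)` and `Ph Q (L e_l R) ≤ γ⁴` (`stepb1/2`, `θ = γ⁴/3`). Apply `lazy (4 n)` with `ι = Fin 4 × Fin n`,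
`F s = F4 Q (fun c => Y c)`, `Y c = F₀ (s (c, ·))` for `c = 0, 2` and `F₀ (star ∘ s (c, ·))` for `c = 1, 3` (`sgL`), exponents `k` for `c = 0, 2` and `-k` for
`c = 1, 3` (`chi_neg`), `F4_self`, `DD_le`. Bound 1: `hold1`, `DQ_le`. For `β`: `J` = copies met by `β`. If `2 ≤ J.card`: `hold2` with `b = γ⁴` on one copy of `J` and 1 elsewhere
(`cell_one`, `cell_two`, `Ph_le`: `Σ_l ‖L e_l T R Ω‖² ≤ ‖T Ω‖²`). If `J = {c}`: pull `Σ_l` into slot `c` of `F4`, `hold1`, `DQ (L T R) ≤ ‖T Ω‖²`.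
-/

open Finset Filter
open scoped Classical

namespace Vale.Agent.P078.G

variable {H : Type*} [NormedAddCommGroup H] [InnerProductSpace ℂ H] [CompleteSpace H]
  {M : VonNeumannAlgebra H} {A : StarSubalgebra ℂ (H →L[ℂ] H)} {Ω : H}
  {E : (H →L[ℂ] H) → H →L[ℂ] H}

namespace SD

/-- Conjugation in the odd slots. -/
noncomputable def cjs {α : Type*} [Star α] (c : Fin 4) (x : α) : α := if c = 1 ∨ c = 3 then star x else x

theorem F4_sum (hA : IsMASA M A) (hE : IsE M A Ω E) (Q : Part A) {κ : Type} [Fintype κ]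
    {Y : κ → Fin 4 → H →L[ℂ] H} {y : Fin 4 → H →L[ℂ] H} (hY : ∀ l c, Y l c ∈ M) (hy : ∀ c, y c ∈ M)
    (c0 : Fin 4) (h1 : ∀ l c, c ≠ c0 → Y l c = y c) (h2 : y c0 = ∑ l, Y l c0) :
    F4 E Ω Q y = ∑ l, F4 E Ω Q (Y l) := by
  have eM : ∀ m, Q.e m ∈ M := fun m => hA.1 _ (Q.mem m)
  have bl : ∀ m c, E ((∑ l, Y l c0) * Q.e m * star (y c)) = ∑ l, E (Y l c0 * Q.e m * star (y c)) :=
    fun m c => by
      rw [sum_mul, sum_mul, E_sum hE _ fun l _ => mul_mem (mul_mem (hY l _) (eM m)) (star_mem (hy c))]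
  have br : ∀ m c, E (y c * Q.e m * star (∑ l, Y l c0)) = ∑ l, E (y c * Q.e m * star (Y l c0)) :=
    fun m c => by
      rw [star_sum, mul_sum, E_sum hE _ fun l _ => mul_mem (mul_mem (hy c) (eM m)) (star_mem (hY l _))]
  unfold F4
  rw [sum_comm]
  refine sum_congr rfl fun m _ => ?_
  match c0 with
  | 0 =>
    rw [h2, bl]
    simp only [h1 _ 1 (by decide), h1 _ 2 (by decide), h1 _ 3 (by decide), sum_mul, HolAux.tau_sum]
  | 1 => simp only [h1 _ 0 (by decide), h1 _ 2 (by decide), h1 _ 3 (by decide), h2, br, sum_mul,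
      HolAux.tau_sum]
  | 2 => simp only [h1 _ 0 (by decide), h1 _ 1 (by decide), h1 _ 3 (by decide), h2, bl, mul_sum,
      HolAux.tau_sum]
  | 3 => simp only [h1 _ 0 (by decide), h1 _ 1 (by decide), h1 _ 2 (by decide), h2, br, mul_sum,
      HolAux.tau_sum]

theorem F4_smul (hA : IsMASA M A) (hE : IsE M A Ω E) (Q : Part A) {y y' : Fin 4 → H →L[ℂ] H}
    (hy : ∀ c, y' c ∈ M) (c0 : Fin 4) (z : ℂ) (h1 : ∀ c, c ≠ c0 → y c = y' c)
    (h2 : y c0 = cjs c0 z • y' c0) : F4 E Ω Q y = z * F4 E Ω Q y' := by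
  have eM : ∀ m, Q.e m ∈ M := fun m => hA.1 _ (Q.mem m)
  have bl : ∀ m c c', E (z • y' c * Q.e m * star (y' c')) = z • E (y' c * Q.e m * star (y' c')) :=
    fun m c c' => by
      rw [smul_mul_assoc, smul_mul_assoc, hE.smul _ (mul_mem (mul_mem (hy _) (eM m)) (star_mem (hy _)))]
  have br : ∀ m c c', E (y' c * Q.e m * star (star z • y' c')) = z • E (y' c * Q.e m * star (y' c')) :=
    fun m c c' => by
      rw [star_smul, star_star, mul_smul_comm,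
        hE.smul _ (mul_mem (mul_mem (hy _) (eM m)) (star_mem (hy _)))]
  unfold F4
  rw [mul_sum]
  refine sum_congr rfl fun m _ => ?_
  match c0 with
  | 0 =>
    rw [cjs, if_neg (by decide)] at h2
    rw [h1 1 (by decide), h1 2 (by decide), h1 3 (by decide), h2, bl, smul_mul_assoc, tau_smul]
  | 1 =>
    rw [cjs, if_pos (by decide)] at h2
    rw [h1 0 (by decide), h1 2 (by decide), h1 3 (by decide), h2, br, smul_mul_assoc, tau_smul]
  | 2 =>
    rw [cjs, if_neg (by decide)] at h2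
    rw [h1 0 (by decide), h1 1 (by decide), h1 3 (by decide), h2, bl, mul_smul_comm, tau_smul]
  | 3 =>
    rw [cjs, if_pos (by decide)] at h2
    rw [h1 0 (by decide), h1 1 (by decide), h1 2 (by decide), h2, br, mul_smul_comm, tau_smul]

theorem exF (hA : IsMASA M A) (hE : IsE M A Ω E) (Q : Part A) {n : ℕ} {Λ : Type}
    (F₀ : MultilinearMap ℂ (fun _ : Fin n => Λ → ℂ) (H →L[ℂ] H)) (h0 : ∀ s, F₀ s ∈ M) :
    ∃ F : MultilinearMap ℂ (fun _ : Fin 4 × Fin n => Λ → ℂ) ℂ,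
      ∀ s, F s = F4 E Ω Q fun c => F₀ fun t => cjs c (s (c, t)) := by
  have u1 : ∀ [DecidableEq (Fin 4 × Fin n)] (s : Fin 4 × Fin n → Λ → ℂ) c0 t0 x,
      (fun t => cjs c0 (Function.update s (c0, t0) x (c0, t))) =
        Function.update (fun t => cjs c0 (s (c0, t))) t0 (cjs c0 x) := fun s c0 t0 x => by
    funext t
    by_cases h : t = t0
    · subst h; simp
    · rw [Function.update_of_ne h, Function.update_of_ne fun e => h (congrArg Prod.snd e)]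
  have u2 : ∀ [DecidableEq (Fin 4 × Fin n)] (s : Fin 4 × Fin n → Λ → ℂ) c0 t0 x c, c ≠ c0 →
      (fun t => cjs c (Function.update s (c0, t0) x (c, t))) = fun t => cjs c (s (c, t)) :=
    fun s c0 t0 x c h => by
      funext t
      rw [Function.update_of_ne fun e => h (congrArg Prod.fst e)]
  refine ⟨⟨fun s => F4 E Ω Q fun c => F₀ fun t => cjs c (s (c, t)), ?_, ?_⟩, fun _ => rfl⟩
  · rintro _ s ⟨c0, t0⟩ x x'
    have := F4_sum hA hE Q (κ := Bool)
      (Y := fun b c => F₀ fun t => cjs c (Function.update s (c0, t0) (if b then x else x') (c, t)))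
      (y := fun c => F₀ fun t => cjs c (Function.update s (c0, t0) (x + x') (c, t)))
      (fun _ _ => h0 _) (fun _ => h0 _) c0 (fun _ c h => by rw [u2 _ _ _ _ _ h, u2 _ _ _ _ _ h]) (by
        simp only [u1, Fintype.sum_bool, if_true, Bool.false_eq_true, if_false]
        rw [← F₀.map_update_add]
        congr 2
        unfold cjs
        split_ifs <;> simp)
    simpa only [Fintype.sum_bool, if_true, Bool.false_eq_true, if_false] using this
  · rintro _ s ⟨c0, t0⟩ z x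
    refine F4_smul hA hE Q (fun _ => h0 _) c0 z (fun c h => by rw [u2 _ _ _ _ _ h, u2 _ _ _ _ _ h]) ?_
    simp only [u1]
    rw [← F₀.map_update_smul]
    congr 2
    unfold cjs
    split_ifs <;> simp

theorem om_le (hΩ : IsCV M A Ω) {y : H →L[ℂ] H} (h : ‖y‖ ≤ 1) : ‖y Ω‖ ≤ 1 :=
  (y.le_opNorm Ω).trans (by rw [hΩ.1, mul_one]; exact h)

theorem DQ_om (hA : IsMASA M A) (hΩ : IsCV M A Ω) (hE : IsE M A Ω E) (Q : Part A)
    {y : H →L[ℂ] H} (hy : y ∈ M) (h : ‖y‖ ≤ 1) : DQ E Ω Q y ≤ ‖star y Ω‖ ^ 2 :=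
  (DQ_le hA hΩ hE hy Q).trans (mul_le_of_le_one_left (sq_nonneg _) (pow_le_one₀ (norm_nonneg _) h))

theorem DQ_one (hA : IsMASA M A) (hΩ : IsCV M A Ω) (hE : IsE M A Ω E) (Q : Part A)
    {y : H →L[ℂ] H} (hy : y ∈ M) (h : ‖y‖ ≤ 1) : DQ E Ω Q y ≤ 1 :=
  (DQ_om hA hΩ hE Q hy h).trans (pow_le_one₀ (norm_nonneg _) (om_le hΩ (by rwa [norm_star])))

theorem mul1 {u v : H →L[ℂ] H} (h1 : ‖u‖ ≤ 1) (h2 : ‖v‖ ≤ 1) : ‖u * v‖ ≤ 1 :=
  (norm_mul_le _ _).trans (mul_le_one₀ h1 (norm_nonneg _) h2)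

theorem PhLG (hA : IsMASA M A) (hΩ : IsCV M A Ω) (hE : IsE M A Ω E) (P Q : Part A)
    {L G : H →L[ℂ] H} (hL : L ∈ M) (hG : G ∈ M) (n1 : ‖L‖ ≤ 1) (n2 : ‖G‖ ≤ 1) :
    Ph E Ω Q (fun l => L * P.e l * G) ≤ ‖star L Ω‖ ^ 2 := by
  refine (Ph_le hA hΩ hE (fun l => mul_mem (mul_mem hL (hA.1 _ (P.mem l))) hG) Q).trans ?_
  have e : ∑ l, L * P.e l * G * star (L * P.e l * G) = L * P.S (G * star G) * star L := by
    rw [Part.S, mul_sum, sum_mul]
    refine sum_congr rfl fun l _ => ?_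
    simp only [star_mul, (P.proj l).isSelfAdjoint.star_eq, mul_assoc]
  have a1 : ‖∑ l, L * P.e l * G * star (L * P.e l * G)‖ ≤ 1 := by
    rw [e]
    exact mul1 (mul1 n1 ((S_norm P _).trans (mul1 n2 (by rwa [norm_star])))) (by rwa [norm_star])
  have a2 : ∑ l, ‖star (L * P.e l * G) Ω‖ ^ 2 ≤ ‖star L Ω‖ ^ 2 := by
    rw [← PinAux.o1 P (star L Ω)]
    refine sum_le_sum fun l _ => pow_le_pow_left₀ (norm_nonneg _) ?_ 2
    rw [star_mul, star_mul, (P.proj l).isSelfAdjoint.star_eq]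
    exact ((star G).le_opNorm (P.e l (star L Ω))).trans
      (mul_le_of_le_one_left (norm_nonneg _) (by rwa [norm_star]))
  exact (mul_le_of_le_one_left (sum_nonneg fun _ _ => sq_nonneg _) a1).trans a2

theorem prod_one {f : Fin 4 → ℝ} {b : ℝ} (c0 : Fin 4) (h0 : ∀ c, 0 ≤ f c) (h1 : ∀ c, f c ≤ 1)
    (h2 : f c0 ≤ b) : ∏ c, f c ≤ b := by
  rw [← mul_prod_erase _ f (mem_univ c0)]
  exact (mul_le_of_le_one_right (h0 _) (prod_le_one (fun c _ => h0 c) fun c _ => h1 c)).trans h2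

end SD

open SD

theorem stepD0 (hA : IsMASA M A) (hΩ : IsCV M A Ω) (hE : IsE M A Ω E) (n : ℕ) :
    ∃ C : ℝ, 0 ≤ C ∧ ∀ (U : ℕ → H →L[ℂ] H) (i : ℕ), (∀ t, i ≤ t → t ≤ i + n → U t ∈ M ∧ ‖U t‖ ≤ 1) →
    ∀ γ : ℝ, 0 < γ → ∃ Δ₀ : ℝ, 0 < Δ₀ ∧ ∀ (r : ℕ) [NeZero r] (a : ℕ → H →L[ℂ] H) (k : ℕ → ZMod r)
    (ε η Δ : ℝ), (∀ t, a t ∈ A ∧ ‖a t‖ ≤ 1) →
    (∀ t, i ≤ t → t < i + n → k t ≠ 0) → 0 ≤ ε → ε ≤ 1 → 0 < η → (Δ ≤ Δ₀ ∨ 1 ≤ γ) →
    (∀ j m, i < j → j + m < i + n → ‖E (sg U a j m) Ω‖ ^ 4 ≤ Δ) →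
    (∀ m < n, DD E Ω A (sg U a i m) ≤ Δ ∨ DD E Ω A (sg U a (i + m + 1) (n - m - 1)) ≤ Δ) →
    ∀ᶠ P : Part A in atTop, ∑ ω : P.ι → Option (ZMod r), (∏ l, pw r ε (ω l)) *
      DD E Ω A (sg U (fun t => a t * (P.lz ω).W (k t)) i n) ≤
        (1 - 4 * n * ε) * DD E Ω A (sg U a i n) + C * (ε * γ + ε ^ 2) + η := by
  obtain ⟨C, C0, hC⟩ := lazy (4 * n)
  refine ⟨C, C0, fun U i hU γ hγ => ?_⟩
  have g2 : 0 < γ ^ 2 := by positivity
  have g4 : 0 < γ ^ 4 := by positivity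
  have hY := mod_sg hΩ hU
  obtain ⟨δ, δ0, hδ⟩ := hY.norm (half_pos g2)
  obtain ⟨Δ₁, Δ1, hΔ₁⟩ := stepb hA hΩ hE hY g4
  obtain ⟨Δ₂, Δ2, hΔ₂⟩ := DD_star hA hΩ hE hY (half_pos Δ1)
  refine ⟨min (δ ^ 4) (min (Δ₁ / 2) Δ₂), by positivity,
    fun r _ a k ε η Δ ha hk e0 e1 hη hΔ hin hout => ?_⟩
  have o1 : (1 : H →L[ℂ] H) ∈ A ∧ ‖(1 : H →L[ℂ] H)‖ ≤ 1 := ⟨one_mem A, ContinuousLinearMap.norm_id_le⟩
  have sG : ∀ j m, i ≤ j → j + m ≤ i + n → ∀ c c' : H →L[ℂ] H, c ∈ A ∧ ‖c‖ ≤ 1 → c' ∈ A ∧ ‖c'‖ ≤ 1 →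
      c * sg U a j m * c' ∈ SG A U i n ∧ star (c * sg U a j m * c') ∈ SG A U i n :=
    fun j m h1 h2 c c' k1 k2 => ⟨⟨a, ha, j, m, h1, h2, c, k1.1, c', k2.1, k1.2, k2.2, .inl rfl⟩,
      ⟨a, ha, j, m, h1, h2, c, k1.1, c', k2.1, k1.2, k2.2, .inr rfl⟩⟩
  have aM : ∀ t, a t ∈ M := fun t => hA.1 _ (ha t).1
  have sM : ∀ j m, i ≤ j → j + m ≤ i + n → sg U a j m ∈ M ∧ ‖sg U a j m‖ ≤ 1 := fun j m h1 h2 =>
    ⟨sg_mem (fun t k1 k2 => (hU t (by omega) (by omega)).1) fun t _ _ => aM t,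
      sg_norm (fun t k1 k2 => (hU t (by omega) (by omega)).2) fun t _ _ => (ha t).2⟩
  have y0 := sM i n le_rfl le_rfl
  have E1 : ∀ᶠ P : Part A in atTop, ∀ x : Fin (i + n) × Fin (i + n), i < x.1 → x.1 + x.2 < i + n →
      ‖star (sg U a i (x.1 - i - 1) * a (x.1 - 1) * P.S (sg U a x.1 x.2)) Ω‖ ≤ γ ^ 2 :=
    eventually_all.2 fun x => by
    by_cases h : i < x.1 ∧ x.1 + x.2 < i + n
    · have z := sM x.1 x.2 h.1.le h.2.le
      have l := sM i (x.1 - i - 1) le_rfl (by omega)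
      rcases hΔ with hΔ | hΔ
      · have t := (tendsto_vec hA hΩ hE (star_mem z.1)
          (star (sg U a i (x.1 - i - 1) * a (x.1 - 1)) Ω)).norm
        have m := hE.mem _ z.1
        have a1 := hδ _ (sG i (x.1 - i - 1) le_rfl (by omega) 1 _ o1 (ha (x.1 - 1))).1
          (star (E (sg U a x.1 x.2))) (star_mem (hA.1 _ m))
          (by rw [norm_star]; exact (hE.norm _ z.1).trans z.2) (by
            rw [norm_star_A hΩ m]
            exact (pow_le_pow_iff_left₀ (norm_nonneg _) δ0.le four_ne_zero).1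
              ((hin _ _ h.1 h.2).trans (hΔ.trans (min_le_left _ _))))
        rw [one_mul, ← hE.star _ z.1] at a1
        filter_upwards [t.eventually (ge_mem_nhds (a1.trans_lt (half_lt_self g2)))] with P hP _ _
        rw [star_mul, PinAux.S_star]
        exact hP
      · refine .of_forall fun P _ _ => (om_le hΩ ?_).trans (one_le_pow₀ hΔ)
        rw [norm_star]
        exact mul1 (mul1 l.2 (ha _).2) ((S_norm P _).trans z.2)
    · exact .of_forall fun _ h1 h2 => absurd ⟨h1, h2⟩ h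
  have E2 : ∀ᶠ P : Part A in atTop, ∀ t : Fin n, ∀ᶠ Q : Part A in atTop,
      Ph E Ω Q (fun l => sg U a i t * a (i + t) * P.e l * sg U a (i + t + 1) (n - t - 1)) ≤ γ ^ 4 :=
    eventually_all.2 fun t => by
    have ht := t.2
    have l1 := sM i t le_rfl (by omega)
    have l2 := sM (i + t + 1) (n - t - 1) (by omega) (by omega)
    rcases hΔ with hΔ | hΔ
    · have b1 := hΔ.trans ((min_le_right _ _).trans (min_le_left _ _))
      have b2 := hΔ.trans ((min_le_right _ _).trans (min_le_right _ _))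
      rcases hout t ht with h | h
      · have s1 := sG i t le_rfl (by omega) 1 1 o1 o1
        have s2 := sG (i + t + 1) (n - t - 1) (by omega) (by omega) _ 1 (ha (i + t)) o1
        rw [one_mul, mul_one] at s1
        rw [mul_one] at s2
        filter_upwards [ev_DQ hA hΩ hE l1.1 (half_pos Δ1)] with P hP
        filter_upwards [hΔ₁ _ l1.1 _ (mul_mem (aM (i + t)) l2.1) s1.1 s2.1 s1.2 s2.2 l1.2
          (mul1 (ha _).2 l2.2) P (.inl (by linarith))] with Q hQ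
        refine le_trans (le_of_eq ?_) hQ
        congr 1
        funext l
        rw [mul_assoc _ (a _), hA.2.1 _ (ha _).1 _ (P.mem l)]
        simp only [mul_assoc]
      · have s1 := sG i t le_rfl (by omega) 1 _ o1 (ha (i + t))
        have s2 := sG (i + t + 1) (n - t - 1) (by omega) (by omega) 1 1 o1 o1
        rw [one_mul] at s1
        rw [one_mul, mul_one] at s2
        have b3 := hΔ₂ _ l2.1 s2.2 l2.2 (h.trans b2)
        filter_upwards [ev_DQ hA hΩ hE (star_mem l2.1) (half_pos Δ1)] with P hP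
        exact hΔ₁ _ (mul_mem l1.1 (aM (i + t))) _ l2.1 s1.1 s2.1 s1.2 s2.2 (mul1 l1.2 (ha _).2) l2.2 P
          (.inr (by linarith))
    · refine .of_forall fun P => .of_forall fun Q => ((PhLG hA hΩ hE P Q (mul_mem l1.1 (aM _)) l2.1
        (mul1 l1.2 (ha _).2) l2.2).trans (pow_le_one₀ (norm_nonneg _) (om_le hΩ ?_))).trans
        (one_le_pow₀ hΔ)
      rw [norm_star]
      exact mul1 l1.2 (ha _).2
  filter_upwards [E1, E2] with P p1 p2
  have eM : ∀ l, P.e l ∈ M := fun l => hA.1 _ (P.mem l)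
  have E3 := eventually_all.2 p2
  haveI := neBot hA
  obtain ⟨Q, q1, q2⟩ := (E3.and (ev_DQ hA hΩ hE y0.1 hη)).exists
  obtain ⟨F₀, hF₀⟩ := sgL P U a i n
  have FM : ∀ s, F₀ s ∈ M := fun s => by
    rw [hF₀]
    refine sg_mem (fun t k1 k2 => (hU t k1 k2).1) fun t _ _ => ?_
    unfold sl
    split_ifs
    exacts [mul_mem (aM t) (sum_mem fun l _ => smul_mem_M (eM l) _), aM t]
  obtain ⟨F, hF⟩ := exF hA hE Q F₀ FM
  obtain ⟨W, hW⟩ : ∃ W : Finset (Fin n) → P.ι → H →L[ℂ] H, ∀ b l, W b l =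
      sg U (sl P a i fun u : Fin n => if u ∈ b then Pi.single l 1 else 1) i n := ⟨_, fun _ _ => rfl⟩
  have WM : ∀ b l, W b l ∈ M := fun b l => by rw [hW, ← hF₀]; exact FM _
  have W0 : ∀ l, W ∅ l = sg U a i n := fun l => by
    rw [hW, ← sl_one P U a i n]
    simp only [notMem_empty, if_false]
    rfl
  have W2 : ∀ b : Finset (Fin n), 2 ≤ b.card → ∃ L ∈ M, ∃ G ∈ M, ‖L‖ ≤ 1 ∧ ‖G‖ ≤ 1 ∧
      ‖star L Ω‖ ^ 2 ≤ γ ^ 4 ∧ ∀ l, W b l = L * P.e l * G := fun b hb => by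
    obtain ⟨j, m, h1, h2, R, hR, n2, e⟩ := cell_two hA P hU ha hb
    have z := sM j m h1.le h2.le
    have l := sM i (j - i - 1) le_rfl (by omega)
    refine ⟨_, mul_mem (mul_mem l.1 (aM (j - 1))) (S_mem hA P z.1), R, hR,
      mul1 (mul1 l.2 (ha _).2) ((S_norm P _).trans z.2), n2, ?_, fun l => ?_⟩
    · calc _ ≤ (γ ^ 2) ^ 2 :=
          pow_le_pow_left₀ (norm_nonneg _) (p1 (⟨j, by omega⟩, ⟨m, by omega⟩) h1 h2) 2
        _ = γ ^ 4 := by ring
    · rw [hW, e, mul_assoc _ (P.e l), PinAux.e_S, ← PinAux.S_e, ← mul_assoc]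
  have W1 : ∀ b : Finset (Fin n), b.Nonempty → Ph E Ω Q (W b) ≤ γ ^ 4 ∧ Ph E Ω Q (W b) ≤ 1 :=
    fun b hb => by
      by_cases h : 2 ≤ b.card
      · obtain ⟨L, hL, G, hG, n1, n2, n3, e⟩ := W2 b h
        rw [funext e]
        have := PhLG hA hΩ hE P Q hL hG n1 n2
        exact ⟨this.trans n3, this.trans (pow_le_one₀ (norm_nonneg _) (om_le hΩ (by rwa [norm_star])))⟩
      · obtain ⟨t, rfl⟩ := card_eq_one.1 (show b.card = 1 by have := hb.card_pos; omega)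
        have ht := t.2
        have l1 := sM i t le_rfl (by omega)
        have l2 := sM (i + t + 1) (n - t - 1) (by omega) (by omega)
        rw [funext fun l => (hW {t} l).trans (cell_one P U a i t l)]
        exact ⟨q1 t, (PhLG hA hΩ hE P Q (mul_mem l1.1 (aM _)) l2.1 (mul1 l1.2 (ha _).2) l2.2).trans
          (pow_le_one₀ (norm_nonneg _) (om_le hΩ (by rw [norm_star]; exact mul1 l1.2 (ha _).2)))⟩
  have D0 : ∀ y, 0 ≤ DQ E Ω Q y := fun y => sum_nonneg fun _ _ => sq_nonneg _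
  have key := hC r (Fin 4 × Fin n) P.ι (by simp) F
    (fun p => if p.1 = 1 ∨ p.1 = 3 then -k (i + p.2) else k (i + p.2))
    (fun p => by
      have := hk (i + p.2) (by omega) (by have := p.2.2; omega)
      split_ifs
      exacts [neg_ne_zero.2 this, this])
    (fun s hs => by
      rw [hF]
      refine (pow_le_one_iff_of_nonneg (norm_nonneg _) four_ne_zero).1
        ((hold1 hA hΩ hE Q fun c => FM _).trans (prod_le_one (fun c _ => D0 _) fun c _ => ?_))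
      refine DQ_one hA hΩ hE Q (FM _) ?_
      rw [hF₀]
      refine (sl_bd hA P hU ha fun t l => ?_).2
      unfold cjs
      split_ifs
      · simpa using hs _ l
      · exact hs _ l)
    γ ε hγ.le e0 e1 fun β hβ => by
      obtain ⟨b, hb⟩ : ∃ b : Fin 4 → Finset (Fin n), ∀ c t, t ∈ b c ↔ (c, t) ∈ β :=
        ⟨fun c => univ.filter fun t => (c, t) ∈ β, fun c t => by simp⟩
      have e : ∀ l : P.ι, F (fun p => if p ∈ β then Pi.single l 1 else 1) =
          F4 E Ω Q fun c => W (b c) l := fun l => by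
        rw [hF]
        congr 1
        funext c
        rw [hW, hF₀]
        congr 2
        funext t
        simp only [hb]
        unfold cjs
        split_ifs <;> simp [Pi.star_single]
      simp only [e]
      refine (pow_le_pow_iff_left₀ (norm_nonneg _) hγ.le four_ne_zero).1 ?_
      obtain ⟨⟨c0, t0⟩, h0⟩ : β.Nonempty := card_pos.1 (by omega)
      have n0 : (b c0).Nonempty := ⟨t0, (hb _ _).2 h0⟩
      by_cases hJ : 2 ≤ (univ.filter fun c => (b c).Nonempty).card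
      · refine (hold2 hA hΩ hE Q (Y := fun c l => W (b c) l) (fun _ _ => WM _ _)
          (b := fun c => if c = c0 then γ ^ 4 else 1) hJ (fun c hc => ?_) fun c hc => ?_).trans (by simp)
        · have := W1 _ (mem_filter.1 hc).2
          split_ifs
          exacts [this.1, this.2]
        · have h1 : b c = ∅ := by simpa using hc
          refine ⟨_, y0.1, fun l => by rw [h1, W0], ?_⟩
          rw [if_neg fun (h : c = c0) => n0.ne_empty (h ▸ h1)]
          exact DQ_one hA hΩ hE Q y0.1 y0.2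
      · have h1 : ∀ c, c ≠ c0 → b c = ∅ := fun c hc => by
          by_contra h
          exact hJ (one_lt_card.2 ⟨c, by simpa [nonempty_iff_ne_empty] using h, c0, by simpa using n0, hc⟩)
        have h2 : 2 ≤ (b c0).card := by
          refine hβ.trans (card_le_card_of_injOn Prod.snd (fun p hp => ?_) fun p hp p' hp' e => ?_)
          · have : p.1 = c0 := by_contra fun h => notMem_empty p.2 (h1 _ h ▸ (hb _ _).2 hp)
            exact (hb _ _).2 (this ▸ hp)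
          · have k1 : p.1 = c0 := by_contra fun h => notMem_empty p.2 (h1 _ h ▸ (hb _ _).2 hp)
            have k2 : p'.1 = c0 := by_contra fun h => notMem_empty p'.2 (h1 _ h ▸ (hb _ _).2 hp')
            exact Prod.ext (k1.trans k2.symm) e
        obtain ⟨L, hL, G, hG, n1, n2, n3, e'⟩ := W2 _ h2
        have yM : ∀ c, (if c = c0 then L * G else sg U a i n) ∈ M ∧
            ‖if c = c0 then L * G else sg U a i n‖ ≤ 1 := fun c => by
          split_ifs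
          exacts [⟨mul_mem hL hG, mul1 n1 n2⟩, y0]
        rw [← F4_sum hA hE Q (Y := fun l c => W (b c) l) (y := fun c => if c = c0 then L * G else sg U a i n)
          (fun _ _ => WM _ _) (fun c => (yM c).1) c0 (fun l c hc => by rw [h1 c hc, W0, if_neg hc])
          (by simp only [e', if_true]; rw [← sum_mul, ← mul_sum, P.sum, mul_one])]
        refine (hold1 hA hΩ hE Q fun c => (yM c).1).trans (prod_one c0 (fun c => D0 _)
          (fun c => DQ_one hA hΩ hE Q (yM c).1 (yM c).2) ?_)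
        rw [if_pos rfl]
        refine (DQ_om hA hΩ hE Q (mul_mem hL hG) (mul1 n1 n2)).trans (le_trans ?_ n3)
        rw [star_mul]
        exact pow_le_pow_left₀ (norm_nonneg _) (((star G).le_opNorm (star L Ω)).trans
          (mul_le_of_le_one_left (norm_nonneg _) (by rwa [norm_star]))) 2
  have f1 : F 1 = DQ E Ω Q (sg U a i n) := by
    rw [hF, ← F4_self hA hE Q y0.1]
    congr 1
    funext c
    rw [hF₀, ← sl_one P U a i n]
    congr 2
    funext t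
    unfold cjs
    split_ifs <;> simp
  have f2 : ∀ ω : P.ι → Option (ZMod r), F (fun p l =>
      chi (if p.1 = 1 ∨ p.1 = 3 then -k (i + p.2) else k (i + p.2)) (ω l)) =
        DQ E Ω Q (sg U (fun t => a t * (P.lz ω).W (k t)) i n) := fun ω => by
    rw [hF, ← sl_lz, ← hF₀, ← F4_self hA hE Q (FM _)]
    congr 1
    funext c
    congr 1
    funext t l
    unfold cjs
    split_ifs
    · rw [Pi.star_apply, chi_neg, star_star]
    · rfl
  simp only [f1, f2] at key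
  have k2 := (Complex.re_le_norm _).trans key
  simp only [Complex.sub_re, Complex.re_sum, ← Complex.ofReal_mul, Complex.ofReal_re] at k2
  have k3 : ((1 - ((4 * n : ℕ) : ℂ) * (ε : ℂ)) * (DQ E Ω Q (sg U a i n) : ℂ)).re =
      (1 - 4 * n * ε) * DQ E Ω Q (sg U a i n) := by
    rw [Complex.re_mul_ofReal]
    simp
  rw [k3] at k2
  have k4 : ∑ ω : P.ι → Option (ZMod r), (∏ l, pw r ε (ω l)) *
      DD E Ω A (sg U (fun t => a t * (P.lz ω).W (k t)) i n) ≤ ∑ ω : P.ι → Option (ZMod r),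
        (∏ l, pw r ε (ω l)) * DQ E Ω Q (sg U (fun t => a t * (P.lz ω).W (k t)) i n) :=
    sum_le_sum fun ω _ => mul_le_mul_of_nonneg_left (DD_le Q _) (prod_nonneg fun l _ => pw_nonneg e0 e1 _)
  have k5 := mul_nonneg (show 0 ≤ 4 * (n : ℝ) * ε by positivity)
    (sub_nonneg.2 (DD_le (E := E) (Ω := Ω) Q (sg U a i n)))
  nlinarith

theorem stepD (hA : IsMASA M A) (hΩ : IsCV M A Ω) (hE : IsE M A Ω E) (n : ℕ) :
    ∃ C : ℝ, 0 ≤ C ∧ ∀ (U : ℕ → H →L[ℂ] H) (i : ℕ), (∀ t, i ≤ t → t ≤ i + n → U t ∈ M ∧ ‖U t‖ ≤ 1) →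
    ∃ K : ℝ → ℝ, (∀ θ, 0 ≤ K θ) ∧ ∀ (r : ℕ) [NeZero r] (a : ℕ → H →L[ℂ] H) (k : ℕ → ZMod r)
    (ε η Δ : ℝ), (∀ t, a t ∈ A ∧ ‖a t‖ ≤ 1) →
    (∀ t, i ≤ t → t < i + n → k t ≠ 0) → 0 < ε → ε ≤ 1 → 0 < η → 0 ≤ Δ →
    (∀ j m, i < j → j + m < i + n → ‖E (sg U a j m) Ω‖ ^ 4 ≤ Δ) →
    (∀ m < n, DD E Ω A (sg U a i m) ≤ Δ ∨ DD E Ω A (sg U a (i + m + 1) (n - m - 1)) ≤ Δ) →
    ∀ᶠ P : Part A in atTop, ∀ θ, 0 < θ → ∑ ω : P.ι → Option (ZMod r), (∏ l, pw r ε (ω l)) *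
      DD E Ω A (sg U (fun t => a t * (P.lz ω).W (k t)) i n) ≤
        (1 - 4 * n * ε) * DD E Ω A (sg U a i n) + C * (ε * (θ + K θ * Δ + ε) + ε ^ 2) + η := by
  obtain ⟨C, C0, hC⟩ := stepD0 hA hΩ hE n
  refine ⟨C, C0, fun U i hU => ?_⟩
  choose! D h0 h1 using hC U i hU
  refine ⟨fun θ => |1 / D θ|, fun θ => abs_nonneg _, fun r _ a k ε η Δ ha hk e0 e1 hη hΔ hin hout => ?_⟩
  have bb : BddBelow {γ : ℝ | 0 < γ ∧ (Δ ≤ D γ ∨ 1 ≤ γ)} := ⟨0, fun γ h => h.1.le⟩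
  have m1 : (1 : ℝ) ∈ {γ : ℝ | 0 < γ ∧ (Δ ≤ D γ ∨ 1 ≤ γ)} := ⟨one_pos, .inr le_rfl⟩
  obtain ⟨γ, g1, g2⟩ := Real.lt_sInf_add_pos ⟨1, m1⟩ e0
  filter_upwards [h1 γ g1.1 r a k ε η Δ ha hk e0.le e1 hη g1.2 hin hout] with P hP θ hθ
  have p := h0 θ hθ
  have s : sInf {γ : ℝ | 0 < γ ∧ (Δ ≤ D γ ∨ 1 ≤ γ)} ≤ θ + |1 / D θ| * Δ := by
    rcases le_total Δ (D θ) with h | h
    · exact (csInf_le bb ⟨hθ, .inl h⟩).trans (le_add_of_nonneg_right (by positivity))
    · rw [abs_of_pos (one_div_pos.2 p), one_div_mul_eq_div]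
      exact (csInf_le bb m1).trans (((one_le_div p).2 h).trans (le_add_of_nonneg_left hθ.le))
  refine hP.trans ?_
  gcongr
  linarith

end Vale.Agent.P078.G
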