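import Vale.Agent.P078.X.Pin
import Vale.Agent.P078.Kapl

/-!
Ultralimits of pinchings, and the normal part of a representation.

PLAN. `exists_ult`: `Ultrafilter.of atTop` (`neBot`), bounded limits (`IsCompact.ultrafilter_le_nhds'`), the sesquilinear form gives the operator (`InnerProductSpace.toDual`, `LinearMap.mkContinuous`); `E₀ y` commutes with `M'` and
with the projections of `A` (`exists_two`, `PinAux.e_S`, `S_e`), `mem_of_comm`, `mem_of_proj`. `two`: `Z` = projection onto the closure of the span of the `T† η`. On `WithLp 2 (K × H)` let `N` be the star subalgebra of the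
`π m ⊕ m`, `m ∈ M` (see the block operators at the end of `P070h8/Hil.lean`); `Z ⊕ 1` commutes with `N'` (blocks: `S₁₁ ∈ π(M)'`, `S₂₁` and `S₁₂†` are intertwiners; `N'` is star closed), `kaplansky`; the second block gives `c* = c`, `‖c‖ ≤ 1`.
-/

open Finset Filter
open scoped Classical InnerProductSpace

namespace Vale.Agent.P078.G

variable {H : Type*} [NormedAddCommGroup H] [InnerProductSpace ℂ H] [CompleteSpace H]
  {K : Type*} [NormedAddCommGroup K] [InnerProductSpace ℂ K] [CompleteSpace K]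
  {M : VonNeumannAlgebra H} {A : StarSubalgebra ℂ (H →L[ℂ] H)} {x p f q : H →L[ℂ] H}
  {π : (H →L[ℂ] H) →⋆ₐ[ℂ] (K →L[ℂ] K)} {Ω : K}

/-- Intertwiners. -/
def Itw (M : VonNeumannAlgebra H) (π : (H →L[ℂ] H) →⋆ₐ[ℂ] (K →L[ℂ] K)) : Set (K →L[ℂ] H) :=
  {T | ∀ m ∈ M, ∀ ζ, T (π m ζ) = m (T ζ)}

/-- Diagonal block operator. -/
noncomputable def Two.bl (a : K →L[ℂ] K) (b : H →L[ℂ] H) : WithLp 2 (K × H) →L[ℂ] WithLp 2 (K × H) :=
  ((WithLp.prodContinuousLinearEquiv 2 ℂ K H).symm : K × H →L[ℂ] _) ∘L (a.prodMap b) ∘L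
    (WithLp.prodContinuousLinearEquiv 2 ℂ K H : _ →L[ℂ] K × H)

theorem Two.bl_apply (a : K →L[ℂ] K) (b : H →L[ℂ] H) (u : K) (v : H) :
    Two.bl a b (WithLp.toLp 2 (u, v)) = WithLp.toLp 2 (a u, b v) := rfl

theorem Two.bl_star (a : K →L[ℂ] K) (b : H →L[ℂ] H) : star (Two.bl a b) = Two.bl (star a) (star b) := by
  symm
  refine (ContinuousLinearMap.eq_adjoint_iff _ _).mpr fun u v => ?_
  obtain ⟨x, y⟩ := u
  obtain ⟨z, w⟩ := v
  rw [Two.bl_apply, Two.bl_apply]
  simp [P070h8.inner_star_left]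

theorem Two.bl_mul (a a' : K →L[ℂ] K) (b b' : H →L[ℂ] H) :
    Two.bl a b * Two.bl a' b' = Two.bl (a * a') (b * b') := rfl

/-- The graph of the representation. -/
noncomputable def Two.gr (M : VonNeumannAlgebra H) (π : (H →L[ℂ] H) →⋆ₐ[ℂ] (K →L[ℂ] K)) :
    StarSubalgebra ℂ (WithLp 2 (K × H) →L[ℂ] WithLp 2 (K × H)) where
  carrier := {y | ∃ m ∈ M, Two.bl (π m) m = y}
  mul_mem' := by
    rintro _ _ ⟨a, ha, rfl⟩ ⟨b, hb, rfl⟩
    exact ⟨a * b, mul_mem ha hb, by rw [Two.bl_mul, map_mul]⟩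
  add_mem' := by
    rintro _ _ ⟨a, ha, rfl⟩ ⟨b, hb, rfl⟩
    exact ⟨a + b, add_mem ha hb, by rw [map_add]; rfl⟩
  algebraMap_mem' := fun c => ⟨algebraMap ℂ _ c, M.toStarSubalgebra.algebraMap_mem c, by
    rw [AlgHomClass.commutes]; rfl⟩
  star_mem' := by
    rintro _ ⟨a, ha, rfl⟩
    exact ⟨star a, star_mem ha, by rw [Two.bl_star, map_star]⟩

theorem two (M : VonNeumannAlgebra H) (π : (H →L[ℂ] H) →⋆ₐ[ℂ] (K →L[ℂ] K)) :
    ∃ Z : K →L[ℂ] K, IsStarProjection Z ∧ (∀ m ∈ M, Commute Z (π m)) ∧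
      (∀ ζ, Z ζ ∈ closure (Submodule.span ℂ
        {v | ∃ T ∈ Itw M π, ∃ η, ContinuousLinearMap.adjoint T η = v} : Set K)) ∧
      ∀ (G : Finset K) (F : Finset H) (δ : ℝ), 0 < δ → ∃ c ∈ M, IsSelfAdjoint c ∧ ‖c‖ ≤ 1 ∧
        (∀ ζ ∈ G, ‖π c ζ - Z ζ‖ < δ) ∧ ∀ ξ ∈ F, ‖c ξ - ξ‖ < δ := by
  let V0 := Submodule.span ℂ {v | ∃ T ∈ Itw M π, ∃ η, ContinuousLinearMap.adjoint T η = v}
  let V := V0.topologicalClosure
  have : CompleteSpace V := V0.isClosed_topologicalClosure.completeSpace_coe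
  have gen : ∀ T ∈ Itw M π, ∀ η, ContinuousLinearMap.adjoint T η ∈ V := fun T hT η =>
    V0.le_topologicalClosure (Submodule.subset_span ⟨T, hT, η, rfl⟩)
  have ind : ∀ L : K →L[ℂ] K, (∀ T ∈ Itw M π, ∀ η, L (ContinuousLinearMap.adjoint T η) ∈ V) →
      ∀ v ∈ V, L v ∈ V := fun L hL v hv => by
    have h1 : V0 ≤ V.comap (L : K →ₗ[ℂ] K) := Submodule.span_le.2 (by
      rintro _ ⟨T, hT, η, rfl⟩; exact hL T hT η)
    exact Submodule.topologicalClosure_minimal V0 h1
      (V0.isClosed_topologicalClosure.preimage L.continuous) hv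
  have inv : ∀ m ∈ M, ∀ v ∈ V, π m v ∈ V := fun m hm => ind _ fun T hT η => by
    have : π m (ContinuousLinearMap.adjoint T η) = ContinuousLinearMap.adjoint T (m η) :=
      ext_inner_right ℂ fun ζ => by
        rw [← P070h8.inner_star_right, ← map_star, ContinuousLinearMap.adjoint_inner_left,
          ContinuousLinearMap.adjoint_inner_left, hT _ (star_mem hm), P070h8.inner_star_right]
    rw [this]
    exact gen T hT _
  have hZ : IsStarProjection V.starProjection := isStarProjection_starProjection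
  refine ⟨V.starProjection, hZ, fun m hm => ContinuousLinearMap.ext fun ζ => P070h8.comm_proj V _ (inv m hm)
    (by rw [← map_star]; exact inv _ (star_mem hm)) ζ, fun ζ => V.starProjection_apply_mem ζ,
    fun G F δ hδ => ?_⟩
  have hx : IsStarProjection (Two.bl V.starProjection (1 : H →L[ℂ] H)) :=
    ⟨by rw [IsIdempotentElem, Two.bl_mul, hZ.isIdempotentElem.eq, mul_one],
      by rw [IsSelfAdjoint, Two.bl_star, hZ.isSelfAdjoint.star_eq, star_one]⟩
  let e := WithLp.prodContinuousLinearEquiv 2 ℂ K H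
  have st : ∀ S ∈ Set.centralizer (Two.gr M π : Set (WithLp 2 (K × H) →L[ℂ] WithLp 2 (K × H))),
      star S ∈ Set.centralizer (Two.gr M π : Set (WithLp 2 (K × H) →L[ℂ] WithLp 2 (K × H))) :=
    fun S hS y hy => by
      have := congrArg star (hS (star y) (star_mem hy))
      rw [star_mul, star_mul, star_star] at this
      exact this.symm
  have key : ∀ S ∈ Set.centralizer (Two.gr M π : Set (WithLp 2 (K × H) →L[ℂ] WithLp 2 (K × H))),
      Two.bl V.starProjection 1 * (S * Two.bl V.starProjection 1) = S * Two.bl V.starProjection 1 := by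
    intro S hS
    have cm : ∀ m ∈ M, ∀ ζ, star S (WithLp.toLp 2 (π m ζ, 0)) =
        Two.bl (π m) m (star S (WithLp.toLp 2 (ζ, 0))) := fun m hm ζ => by
      have := congrArg (fun L => L (WithLp.toLp 2 (ζ, 0))) (st S hS _ ⟨m, hm, rfl⟩)
      simp only [ContinuousLinearMap.mul_apply, Two.bl_apply, map_zero] at this
      exact this.symm
    let B : K →L[ℂ] K × H := (e : _ →L[ℂ] K × H) ∘L star S ∘L (e.symm : K × H →L[ℂ] _) ∘L
      ContinuousLinearMap.inl ℂ K H
    have h1 : ∀ η, (S (WithLp.toLp 2 (0, η))).fst ∈ V := fun η => by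
      have : (S (WithLp.toLp 2 (0, η))).fst =
          ContinuousLinearMap.adjoint (ContinuousLinearMap.snd ℂ K H ∘L B) η := ext_inner_right ℂ fun ζ => by
        have := P070h8.inner_star_right S (WithLp.toLp 2 (0, η)) (WithLp.toLp 2 (ζ, 0))
        rw [WithLp.prod_inner_apply, WithLp.prod_inner_apply] at this
        simp only [inner_zero_left, inner_zero_right, zero_add, add_zero] at this
        rw [ContinuousLinearMap.adjoint_inner_left]
        exact this.symm
      rw [this]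
      exact gen _ (fun m hm ζ => congrArg WithLp.snd (cm m hm ζ)) _
    let C : K →L[ℂ] K := ContinuousLinearMap.fst ℂ K H ∘L (e : _ →L[ℂ] K × H) ∘L S ∘L
      (e.symm : K × H →L[ℂ] _) ∘L ContinuousLinearMap.inl ℂ K H
    have h2 : ∀ v ∈ V, C v ∈ V := ind C fun T hT η => by
      have : C (ContinuousLinearMap.adjoint T η) =
          ContinuousLinearMap.adjoint (T ∘L ContinuousLinearMap.fst ℂ K H ∘L B) η :=
        ext_inner_right ℂ fun ζ => by
          have := P070h8.inner_star_right S (WithLp.toLp 2 (ContinuousLinearMap.adjoint T η, 0))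
            (WithLp.toLp 2 (ζ, 0))
          rw [WithLp.prod_inner_apply, WithLp.prod_inner_apply] at this
          simp only [inner_zero_left, inner_zero_right, add_zero, ContinuousLinearMap.adjoint_inner_left] at this
          rw [ContinuousLinearMap.adjoint_inner_left]
          exact this.symm
      rw [this]
      refine gen _ (fun m hm ζ => ?_) _
      exact (congrArg (fun w => T (WithLp.fst w)) (cm m hm ζ)).trans (hT m hm _)
    refine ContinuousLinearMap.ext fun w => ?_
    obtain ⟨u, v⟩ := w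
    have h3 : (S (WithLp.toLp 2 (V.starProjection u, (1 : H →L[ℂ] H) v))).fst ∈ V := by
      have : (WithLp.toLp 2 (V.starProjection u, (1 : H →L[ℂ] H) v) : WithLp 2 (K × H)) =
          WithLp.toLp 2 (V.starProjection u, 0) + WithLp.toLp 2 (0, v) := by simp [← WithLp.toLp_add]
      rw [this, map_add]
      exact add_mem (h2 _ (V.starProjection_apply_mem u)) (h1 v)
    have h4 : ∀ w : WithLp 2 (K × H), w.fst ∈ V → Two.bl V.starProjection (1 : H →L[ℂ] H) w = w := by
      rintro ⟨a, b⟩ hw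
      rw [Two.bl_apply, Submodule.starProjection_eq_self_iff.2 (show a ∈ V from hw)]
      rfl
    exact h4 _ h3
  obtain ⟨_, ⟨c, hc, rfl⟩, hs, hn, hF⟩ := kaplansky (N := Two.gr M π) (x := Two.bl V.starProjection 1)
    (fun S hS => by
      have := congrArg star (key _ (st S hS))
      rw [star_mul, star_mul, star_star, hx.isSelfAdjoint.star_eq, mul_assoc, key S hS] at this
      exact this) hx.isSelfAdjoint hx.norm_le
    (G.image (fun ζ => WithLp.toLp 2 (ζ, 0)) ∪ F.image fun ξ => WithLp.toLp 2 (0, ξ)) hδ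
  refine ⟨c, hc, ContinuousLinearMap.ext fun ξ => ?_, ContinuousLinearMap.opNorm_le_bound _ zero_le_one fun ξ => ?_,
    fun ζ hζ => ?_, fun ξ hξ => ?_⟩
  · have := congrArg (fun L => WithLp.snd (L (WithLp.toLp 2 (0, ξ)))) hs.star_eq
    rw [Two.bl_star] at this
    exact this
  · have := (Two.bl (π c) c).le_of_opNorm_le hn (WithLp.toLp 2 (0, ξ))
    rwa [Two.bl_apply, map_zero, WithLp.norm_toLp_snd, WithLp.norm_toLp_snd] at this
  · have := hF _ (mem_union_left _ (mem_image_of_mem _ hζ))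
    rw [ContinuousLinearMap.sub_apply, Two.bl_apply, Two.bl_apply, ← WithLp.toLp_sub, Prod.mk_sub_mk, map_zero,
      map_zero, sub_zero, WithLp.norm_toLp_fst, norm_sub_rev] at this
    exact this
  · have := hF _ (mem_union_right _ (mem_image_of_mem _ hξ))
    rw [ContinuousLinearMap.sub_apply, Two.bl_apply, Two.bl_apply, ← WithLp.toLp_sub, Prod.mk_sub_mk, map_zero,
      map_zero, sub_zero, WithLp.norm_toLp_snd, norm_sub_rev] at this
    exact this

end Vale.Agent.P078.G
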